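import Crest.Agent.R37.RPT2

/-!
# R37/RPT3: matrix powers.  Tabulate the entries as rationals, clear denominators (`A = A' / d`, `d` the product of all denominators), iterate the
integer product `T a` times (entries of `A'^k` are bounded by `(card · max)^k`), divide by `d^T`.
-/

set_option autoImplicit false

open Matrix Finset Crest.Agent.Lib.PolyTime

noncomputable section

namespace Crest.Agent.R37

variable {α α' : Type} [Enc α] [Enc α']

variable {ι : α → Type} [∀ a, Enc (ι a)] [∀ a, Fintype (ι a)] [∀ a, DecidableEq (ι a)]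

theorem rpt3_zip {σ : Type} [Fintype σ] {l : List σ} (h : l.Nodup) (h' : ∀ i, i ∈ l) (u v : σ → ℤ) :
    (List.zipWith (fun x y => x * y) (l.map u) (l.map v)).sum = ∑ i, u i * v i := by
  rw [List.zipWith_map, List.zipWith_self, sum_eq_list h h']

theorem rpt3_bound {σ : Type} [Fintype σ] [DecidableEq σ] (Z : Matrix σ σ ℤ) {s : ℕ}
    (hc : Fintype.card σ ≤ 2 ^ s) (hZ : ∀ i j, (Z i j).natAbs ≤ 2 ^ s) (k : ℕ) (i j : σ) :
    ((Z ^ k) i j).natAbs ≤ 2 ^ (2 * s * k) := by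
  induction k generalizing j with
  | zero =>
    rw [pow_zero, Matrix.one_apply]
    split_ifs <;> simp
  | succ k ih =>
    rw [pow_succ, Matrix.mul_apply]
    refine (Int.natAbs_sum_le _ _).trans ?_
    refine (Finset.sum_le_card_nsmul _ _ (2 ^ (2 * s * k) * 2 ^ s) fun m _ => ?_).trans ?_
    · rw [Int.natAbs_mul]
      exact Nat.mul_le_mul (ih m) (hZ m j)
    · rw [Finset.card_univ, smul_eq_mul]
      calc Fintype.card σ * (2 ^ (2 * s * k) * 2 ^ s) ≤ 2 ^ s * (2 ^ (2 * s * k) * 2 ^ s) :=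
            Nat.mul_le_mul_right _ hc
        _ = 2 ^ (2 * s * (k + 1)) := by rw [← pow_add, ← pow_add]; congr 1; ring

theorem rpt3_size {σ : Type} [Fintype σ] [DecidableEq σ] (Z : Matrix σ σ ℤ) {l : List σ}
    (h : ∀ i, i ∈ l) {k T : ℕ} (hk : k ≤ T) (i : σ) :
    esize (l.map fun j => (Z ^ k) i j) ≤
      l.length * (6 * (2 * esize (l.map fun j => l.map fun m => Z m j) * T) + 7 + 6 + 1) + 1 := by
  set s := esize (l.map fun j => l.map fun m => Z m j) with hs
  have hc : Fintype.card σ ≤ 2 ^ s := by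
    have h1 : Fintype.card σ ≤ l.length := by
      rw [← Finset.card_univ]
      exact (Finset.card_le_card fun i _ => List.mem_toFinset.2 (h i)).trans
        (List.toFinset_card_le _)
    have h2 := length_lt_esize (l.map fun j => l.map fun m => Z m j)
    rw [List.length_map] at h2
    exact (h1.trans h2.le).trans Nat.lt_two_pow_self.le
  have hZ' : ∀ i j, (Z i j).natAbs ≤ 2 ^ s := fun i j => by
    have h1 : esize (Z i j) < esize (l.map fun m => Z m j) :=
      esize_lt_of_mem (List.mem_map.2 ⟨i, h i, rfl⟩)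
    have h2 : esize (l.map fun m => Z m j) < s :=
      esize_lt_of_mem (List.mem_map.2 ⟨j, h j, rfl⟩)
    exact (natAbs_lt_two_pow_esize _).le.trans (Nat.pow_le_pow_right (by omega) (by omega))
  have h1 := esize_list_le (l := l.map fun j => (Z ^ k) i j)
    (B := 6 * (2 * s * T) + 7 + 6) fun x hx => by
      obtain ⟨j, -, rfl⟩ := List.mem_map.1 hx
      have h2 := esize_nat_le_of_le_two_pow ((rpt3_bound Z hc hZ' k i j).trans
        (Nat.pow_le_pow_right (by omega) (Nat.mul_le_mul_left (2 * s) hk)))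
      rw [esize_int]; omega
  rwa [List.length_map] at h1

theorem rpt3_dot {u v : α → List ℤ} (hu : PT u) (hv : PT v) :
    PT fun a => (List.zipWith (fun x y => x * y) (u a) (v a)).sum :=
  PT.int_sum (PT.zipWith (f := fun _ x y => x * y) hu hv (by fun_prop))

theorem rpt3_iter {C : α → List (List ℤ)} (hC : PT C) {F : α → ℕ → List ℤ}
    (h0 : PT fun a => F a 0)
    (hF : ∀ a k, F a (k + 1) = (C a).map fun c => (List.zipWith (fun x y => x * y) (F a k) c).sum)
    {T : α → ℕ} (hT : UN T) {B : α → ℕ} (hB : PB B) (hsz : ∀ a k, k ≤ T a → esize (F a k) ≤ B a) :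
    PT fun a => F a (T a) := by
  have hg : PT fun p : α × ℕ × List ℤ =>
      (C p.1).map fun c => (List.zipWith (fun x y => x * y) p.2.2 c).sum :=
    PT.map (f := fun (p : α × ℕ × List ℤ) c => (List.zipWith (fun x y => x * y) p.2.2 c).sum)
      (hC.comp PT.fst') (rpt3_dot PT.fst'.snd.snd PT.snd')
  exact PT.of_nat_rec (g := fun a _ v => (C a).map
    fun c => (List.zipWith (fun x y => x * y) v c).sum) B hT.1 hT.2 h0 hg hF hB hsz

theorem rpt3_cols {l : ∀ a, List (ι a)} (hl : DPT l) {Z : ∀ a, Matrix (ι a) (ι a) ℤ}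
    (hZ : PT fun p : Σ a, ι a × ι a => Z p.1 p.2.1 p.2.2) :
    PT fun a => (l a).map fun j => (l a).map fun m => Z a m j := by
  have hφ : PT fun x : Σ p : (Σ a, ι a), ι p.1 => (⟨x.1.1, (x.2, x.1.2)⟩ : Σ a, ι a × ι a) :=
    pt_sigma_mk (β := fun a => ι a × ι a) (pt_sigma_fst.comp pt_sigma_fst)
      (dpt_sigma_snd.pair (dpt_sigma_snd.comp pt_sigma_fst))
  have h1 : PT fun x : Σ p : (Σ a, ι a), ι p.1 => Z x.1.1 x.2 x.1.2 :=
    PT.of_eq (PT.comp hZ hφ) fun _ => rfl
  have hl' : DPT fun p : Σ a, ι a => l p.1 := hl.comp pt_sigma_fst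
  have h2 : DPT (β := fun _ => List ℤ) fun p : Σ a, ι a => (l p.1).map fun m => Z p.1 m p.2 :=
    DPT.map (β := fun p : Σ a, ι a => ι p.1) (γ := fun _ => ℤ) hl'
      (f := fun (p : Σ a, ι a) m => Z p.1 m p.2) (DPT.of_pt h1)
  exact (hl.map (γ := fun _ => List ℤ) (f := fun a j => (l a).map fun m => Z a m j) h2).pt

theorem rpt3_delta {l : ∀ a, List (ι a)} (hl : DPT l) {x : ∀ a, ι a} (hx : DPT x) :
    PT fun a => (l a).map fun m => if x a = m then (1 : ℤ) else 0 := by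
  have h1 : PT fun p : Σ a, ι a => if x p.1 = p.2 then (1 : ℤ) else 0 :=
    PT.ite ((hx.comp pt_sigma_fst).eq dpt_sigma_snd) (PT.const 1) (PT.const 0)
  exact (hl.map (γ := fun _ => ℤ) (f := fun a m => if x a = m then (1 : ℤ) else 0)
    (DPT.of_pt h1)).pt

theorem rpt3_entry {l : ∀ a, List (ι a)} (hl : DPT l) (h : ∀ a, (l a).Nodup ∧ ∀ i, i ∈ l a)
    {Z : ∀ a, Matrix (ι a) (ι a) ℤ} (hC : PT fun a => (l a).map fun j => (l a).map fun m => Z a m j)
    {T : α → ℕ} (hT : UN T) {x y : ∀ a, ι a} (hx : DPT x) (hy : DPT y) :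
    PT fun a => (Z a ^ T a) (x a) (y a) := by
  have hB : PB fun a => (l a).length *
      (6 * (2 * esize ((l a).map fun j => (l a).map fun m => Z a m j) * T a) + 7 + 6 + 1) + 1 :=
    (hl.length.2.mul (((((PB.const 6).mul (((PB.const 2).mul (PB.esize hC)).mul hT.2)).add
      (PB.const 7)).add (PB.const 6)).add (PB.const 1))).add (PB.const 1)
  have h0 : PT fun a => (l a).map fun j => (Z a ^ 0) (x a) j :=
    (rpt3_delta hl hx).of_eq fun a => by simp [Matrix.one_apply]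
  have hrec : PT fun a => (l a).map fun j => (Z a ^ T a) (x a) j :=
    rpt3_iter (F := fun a k => (l a).map fun j => (Z a ^ k) (x a) j) hC h0 (fun a k => by
      rw [List.map_map]
      refine List.map_congr_left fun j _ => ?_
      rw [Function.comp_apply, rpt3_zip (h _).1 (h _).2, pow_succ, Matrix.mul_apply]) hT hB
      fun a k hk => rpt3_size (Z a) (h a).2 hk (x a)
  refine (rpt3_dot hrec (rpt3_delta hl hy)).of_eq fun a => ?_
  rw [rpt3_zip (h _).1 (h _).2]
  simp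

theorem rpt3_int (h : En ι) {Z : ∀ a, Matrix (ι a) (ι a) ℤ}
    (hZ : PT fun p : Σ a, ι a × ι a => Z p.1 p.2.1 p.2.2) {T : α → ℕ} (hT : UN T) :
    PT fun p : Σ a, ι a × ι a => (Z p.1 ^ T p.1) p.2.1 p.2.2 := by
  obtain ⟨l, hl, h⟩ := h
  exact rpt3_entry (ι := fun p : Σ a, ι a × ι a => ι p.1) (l := fun p => l p.1)
    (hl.comp pt_sigma_fst) (fun p => h p.1) (Z := fun p => Z p.1)
    ((rpt3_cols hl hZ).comp pt_sigma_fst) (hT.comp pt_sigma_fst) dpt_sigma_snd.fst dpt_sigma_snd.snd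

theorem MPT.pow (h : En ι) {A : ∀ a, Matrix (ι a) (ι a) ℝ} (hA : MPT A) {T : α → ℕ} (hT : UN T) :
    MPT fun a => A a ^ T a := by

  obtain ⟨L, hL, hL'⟩ := h.prod h
  obtain ⟨q, hq, hqA⟩ := hA
  have hd : PT fun a => ((L a).map fun x => (q ⟨a, x⟩).den).prod :=
    (hL.map (γ := fun _ => ℕ) (f := fun a x => (q ⟨a, x⟩).den) (DPT.of_pt hq.rat_den)).pt.nat_prod
  set d : α → ℕ := fun a => ((L a).map fun x => (q ⟨a, x⟩).den).prod with hdd
  have hd0 : ∀ a, d a ≠ 0 := fun a => by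
    refine List.prod_ne_zero fun h0 => ?_
    obtain ⟨x, -, hx⟩ := List.mem_map.1 h0
    exact (q ⟨a, x⟩).den_nz hx
  have hdvd : ∀ a x, (q ⟨a, x⟩).den ∣ d a := fun a x =>
    List.dvd_prod (List.mem_map.2 ⟨x, (hL' a).2 x, rfl⟩)
  let Z : ∀ a, Matrix (ι a) (ι a) ℤ := fun a i j =>
    (q ⟨a, (i, j)⟩).num * ((d a / (q ⟨a, (i, j)⟩).den : ℕ) : ℤ)
  have hZ : PT fun p : Σ a, ι a × ι a => Z p.1 p.2.1 p.2.2 :=
    hq.rat_num.int_mul ((hd.comp pt_sigma_fst).nat_div hq.rat_den).int_natCast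
  have hAZ : ∀ a, A a = (d a : ℝ)⁻¹ • (Int.castRingHom ℝ).mapMatrix (Z a) := fun a => by
    ext i j
    have h1 := hqA ⟨a, (i, j)⟩
    simp only at h1
    obtain ⟨c, hc⟩ := hdvd a (i, j)
    have h2 : ((q ⟨a, (i, j)⟩).den : ℝ) ≠ 0 := Nat.cast_ne_zero.2 (q ⟨a, (i, j)⟩).den_nz
    have h3 : (c : ℝ) ≠ 0 := by
      have := hd0 a
      rw [hc] at this
      exact Nat.cast_ne_zero.2 (right_ne_zero_of_mul this)
    simp only [Matrix.smul_apply, RingHom.mapMatrix_apply, Matrix.map_apply, smul_eq_mul, Z,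
      eq_intCast]
    rw [← h1, hc, Nat.mul_div_cancel_left _ (q ⟨a, (i, j)⟩).den_pos, Rat.cast_def]
    push_cast
    field_simp
  refine RPT.of_eq (RPT.mul (RPT.upow (RPT.inv (RPT.nat (hd.comp pt_sigma_fst)))
    (hT.comp pt_sigma_fst)) (RPT.int (rpt3_int h hZ hT))) fun p => ?_
  beta_reduce
  rw [hAZ, smul_pow, ← map_pow]
  simp

end Crest.Agent.R37
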