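import Crest.Agent.R37.CVal2
import Crest.Agent.R37.RPT3

/-!
# R37/CCand: the candidates in polynomial time (`DPT.sumCases`).
-/

set_option autoImplicit false

open Matrix Finset Crest.Agent.Lib.PolyTime

noncomputable section

namespace Crest.Agent.R37

variable {α α' : Type} [Enc α] [Enc α']

variable {n m : α → ℕ} {s t : ∀ a, Fin (m a) → Fin (n a)} {W0 M0 : ∀ a, Mat (n a)} {Ω : α → ℕ}
  {y : ∀ a, St (Fin (m a))} {rep : ∀ a, Fin (m a) → Fin (m a)}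

theorem cc_dif {i e f : ∀ a, Fin (m a)} (hi : DPT i) (he : DPT e) (hf : DPT f) :
    PT fun a => ((if i a = e a then 1 else 0) - if i a = f a then 1 else 0 : ℤ) :=
  (PT.ite (hi.eq he) (PT.const 1) (PT.const 0)).int_sub (PT.ite (hi.eq hf) (PT.const 1) (PT.const 0))

theorem dpt_mvz (hm : UN m) (hy : DPT y) (hr : DPT rep) {κ : ∀ a, Fin (m a) ⊕ Fin (m a) → ℤ}
    (hκ : PT fun p : Σ a, Fin (m a) ⊕ Fin (m a) => κ p.1 p.2) :
    DPT fun a => mvz (y a) (rep a) (κ a) := by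
  refine DPT.pair (DPT.pi hm (DPT.of_pt ?_)) (DPT.pair (DPT.pi hm (DPT.of_pt ?_)) hy.snd.snd)
  · have hφ := pt_sigma_fst.comp (pt_sigma_fst (β := fun p : Σ a, Fin (m a) => Fin (m p.1)))
    have hi := dpt_sigma_snd.comp (pt_sigma_fst (β := fun p : Σ a, Fin (m a) => Fin (m p.1)))
    have h1 := (En.fin (hm.comp pt_sigma_fst)).sumInt (f := fun (p : Σ a, Fin (m a)) e =>
      if e ∈ (y p.1).2.2.1 then κ p.1 (Sum.inl e) * ((if p.2 = e then 1 else 0) -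
        if p.2 = rep p.1 e then 1 else 0) else 0)
      (PT.ite ((hy.snd.snd.fst.comp hφ).mem dpt_sigma_snd)
        ((hκ.comp (pt_sigma_mk hφ dpt_sigma_snd.inl)).int_mul (cc_dif hi dpt_sigma_snd
          ((hr.comp hφ).apply dpt_sigma_snd))) (PT.const 0))
    refine (((hy.fst.comp pt_sigma_fst).apply dpt_sigma_snd).pt.int_add h1).of_eq fun p => ?_
    simp [Finset.sum_apply, Pi.single_apply]
  · have h1 := hκ.comp (pt_sigma_mk pt_sigma_fst (dpt_sigma_snd (β := fun a => Fin (m a))).inr)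
    have h2 := ((hy.snd.fst.comp pt_sigma_fst).apply (dpt_sigma_snd (β := fun a => Fin (m a)))).pt
    exact h2.int_add h1

theorem vpt_px (hm : UN m) {L : ∀ a, Finset (Fin (m a))} (hL : DPT L) (hr : DPT rep)
    {β : ∀ a, Fin (m a) ⊕ Fin (m a) → ℝ} (hβ : VPT β) : VPT fun a => px (L a) (rep a) (β a) := by
  have hφ := pt_sigma_fst.comp (pt_sigma_fst (β := fun p : Σ a, Fin (m a) => Fin (m p.1)))
  have hi := dpt_sigma_snd.comp (pt_sigma_fst (β := fun p : Σ a, Fin (m a) => Fin (m p.1)))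
  refine (VPT.finsetSum (hm.comp pt_sigma_fst) (hL.comp pt_sigma_fst) (v := fun (p : Σ a, Fin (m a)) e =>
    β p.1 (Sum.inl e) * (((if p.2 = e then 1 else 0) - if p.2 = rep p.1 e then 1 else 0 : ℤ) : ℝ))
    (((hβ.comp hφ).apply dpt_sigma_snd.inl).mul (RPT.int (cc_dif hi dpt_sigma_snd
      ((hr.comp hφ).apply dpt_sigma_snd))))).of_eq fun p => ?_
  simp [px, Finset.sum_apply, Pi.single_apply]

theorem cc_N (hΩ : UN Ω) : PT fun a => 2 * Ω a ^ 12 :=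
  (PT.const 2).nat_mul (hΩ.1.nat_pow (PT.const 12) (PB.const 12))

theorem cc_stx {N : α → ℕ} (hN : PT N) (hy : DPT y) : VPT fun a => stx (N a) (y a) :=
  RPT.div (VPT.ofZ hy.fst) (RPT.nat (hN.comp pt_sigma_fst))

theorem cc_sta {N : α → ℕ} (hN : PT N) (hy : DPT y) : VPT fun a => sta (N a) (y a) :=
  RPT.div (VPT.ofZ hy.snd.fst) (RPT.nat (hN.comp pt_sigma_fst))

theorem cc_stF (hG : PG n m s t) (hW : MPT W0) (hM : MPT M0) (hΩ : UN Ω) (hy : DPT y) (hr : DPT rep)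
    (h : ∀ a (β : Fin (m a) ⊕ Fin (m a) → ℝ), ‖β‖ ≤ 2 / Ω a →
      (W2 (s a) (t a) (W0 a) (sta (2 * Ω a ^ 12) (y a) + fun e => β (Sum.inr e))).PosDef ∧
      (M2 (s a) (t a) (W0 a) (M0 a) (y a).2.2.1 (y a).2.2.2
        (stx (2 * Ω a ^ 12) (y a) + px (y a).2.2.1 (rep a) β)
        (sta (2 * Ω a ^ 12) (y a) + fun e => β (Sum.inr e))).PosDef)
    {β : ∀ a, Fin (m a) ⊕ Fin (m a) → ℝ} (hβ : VPT β) (hb : ∀ a, ‖β a‖ ≤ 2 / Ω a) :
    RPT fun a => stF (s a) (t a) (W0 a) (M0 a) (2 * Ω a ^ 12) (y a) (rep a) (β a) :=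
  rpt_Phi2 hG hW hM hy.snd.snd.fst hy.snd.snd.snd
    (RPT.add (cc_stx (cc_N hΩ) hy) (vpt_px hG.hm hy.snd.snd.fst hr hβ))
    (RPT.add (cc_sta (cc_N hΩ) hy) ((hβ.comp pt_sigma_fst).apply dpt_sigma_snd.inr)) fun a => h a _ (hb a)

theorem cc_pwd {ι : α → Type} [∀ a, Enc (ι a)] [∀ a, Fintype (ι a)] [∀ a, DecidableEq (ι a)] (hE : En ι)
    (hΩ : UN Ω) {F : ∀ a, (ι a → ℝ) → ℝ} (hF : ∀ β : ∀ p : Σ a, ι a × ι a, ι p.1 → ℝ, VPT β →
      (∀ p, ‖β p‖ ≤ 2 / Ω p.1) → RPT fun p => F p.1 (β p)) {i : ∀ a, ι a} (hi : DPT i) :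
    VPT fun a => pwd (F a) (Ω a) (i a) := by
  have hc : RPT fun p : Σ a, ι a × ι a => (1 : ℝ) / Ω p.1 := RPT.one.div (RPT.nat (hΩ.1.comp pt_sigma_fst))
  have h0 : ∀ a, (0 : ℝ) ≤ 1 / Ω a := fun a => by positivity
  have h1 : ∀ a (j : ι a), ‖(Pi.single j (1 / Ω a) : _ → ℝ)‖ = 1 / Ω a := fun a j => by
    rw [Pi.norm_single, Real.norm_of_nonneg (h0 a)]
  have h2 : ∀ a, (2 : ℝ) / Ω a = 1 / Ω a + 1 / Ω a := fun a => by ring
  have v1 : VPT fun p : Σ a, ι a × ι a => (Pi.single p.2.1 (1 / Ω p.1) : ι p.1 → ℝ) :=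
    VPT.single dpt_sigma_snd.fst hc
  have v2 : VPT fun p : Σ a, ι a × ι a => (Pi.single p.2.2 (1 / Ω p.1) : ι p.1 → ℝ) :=
    VPT.single dpt_sigma_snd.snd hc
  have f1 := hF (fun p => Pi.single p.2.1 (1 / Ω p.1 : ℝ) + Pi.single p.2.2 (1 / Ω p.1 : ℝ)) (RPT.add v1 v2)
    fun p => (norm_add_le _ _).trans (by rw [h1, h1, h2])
  have f2 := hF _ v1 fun p => by rw [h1, h2]; linarith [h0 p.1]
  have f3 := hF _ v2 fun p => by rw [h1, h2]; linarith [h0 p.1]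
  have f4 := hF (fun _ => 0) RPT.zero fun p => by rw [norm_zero]; positivity
  have hH : MPT fun a => fdH (F a) (1 / Ω a) := (((f1.sub f2).sub f3).add f4).div (hc.pow 2)
  have hv : VPT fun a => pwv (F a) (Ω a) (i a) :=
    (((MPT.one.smul (RPT.nat hΩ.1)).sub hH).pow hE ⟨hΩ.1.nat_pow (PT.const 3) (PB.const 3), hΩ.2.pow 3⟩).mulVec hE
      (VPT.single hi RPT.one)
  exact ((hv.norm hE).inv.comp pt_sigma_fst).mul hv

theorem vpt_pwd (hG : PG n m s t) (hW : MPT W0) (hM : MPT M0) (hΩ : UN Ω) (hy : DPT y) (hr : DPT rep)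
    (h : ∀ a (β : Fin (m a) ⊕ Fin (m a) → ℝ), ‖β‖ ≤ 2 / Ω a →
      (W2 (s a) (t a) (W0 a) (sta (2 * Ω a ^ 12) (y a) + fun e => β (Sum.inr e))).PosDef ∧
      (M2 (s a) (t a) (W0 a) (M0 a) (y a).2.2.1 (y a).2.2.2
        (stx (2 * Ω a ^ 12) (y a) + px (y a).2.2.1 (rep a) β)
        (sta (2 * Ω a ^ 12) (y a) + fun e => β (Sum.inr e))).PosDef)
    {i : ∀ a, Fin (m a) ⊕ Fin (m a)} (hi : DPT i) :
    VPT fun a => pwd (stF (s a) (t a) (W0 a) (M0 a) (2 * Ω a ^ 12) (y a) (rep a)) (Ω a) (i a) := by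
  have hφ := pt_sigma_fst (β := fun a => (Fin (m a) ⊕ Fin (m a)) × (Fin (m a) ⊕ Fin (m a)))
  exact cc_pwd ((En.fin hG.hm).sum (En.fin hG.hm)) hΩ (fun β hβ hb => cc_stF (hG.comp hφ) (hW.comp hφ) (hM.comp hφ)
    (hΩ.comp hφ) (hy.comp hφ) (hr.comp hφ) (fun p => h p.1) hβ hb) hi

theorem cc_erase (hm : UN m) {S : ∀ a, Finset (Fin (m a))} (hS : DPT S) {e : ∀ a, Fin (m a)} (he : DPT e) :
    DPT fun a => (S a).erase (e a) :=
  DPT.finset hm (((dpt_sigma_snd.eq (he.comp pt_sigma_fst)).not.and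
    ((hS.comp pt_sigma_fst).mem dpt_sigma_snd)).of_iff fun _ => mem_erase.symm)

theorem cc_insert (hm : UN m) {S : ∀ a, Finset (Fin (m a))} (hS : DPT S) {e : ∀ a, Fin (m a)} (he : DPT e) :
    DPT fun a => insert (e a) (S a) :=
  DPT.finset hm (((dpt_sigma_snd.eq (he.comp pt_sigma_fst)).or
    ((hS.comp pt_sigma_fst).mem dpt_sigma_snd)).of_iff fun _ => mem_insert.symm)

theorem cc_sw (hG : PG n m s t) (hW : MPT W0) {N : α → ℕ} (hN : PT N) (hy : DPT y)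
    (hp : ∀ a, (stW (s a) (t a) (W0 a) (N a) (y a)).PosDef) {e : ∀ a, Fin (m a)} (he : DPT e) :
    DPT fun a => sw (s a) (t a) (W0 a) (N a) (y a) (e a) := by
  classical
  have h1 := (hy.fst.apply he).pt
  have h2 : RPT fun a => res (stW (s a) (t a) (W0 a) (N a) (y a)) (s a (e a)) (t a (e a)) :=
    rpt_res hG.hn (hW.add (mpt_LE hG (cc_sta hN hy))) hp (hG.hs.apply he) (hG.ht.apply he)
  have h3 := cc_erase hG.hm hy.snd.snd.fst he
  refine (DPT.ite (h1.eq (PT.const 0)) (hy.fst.pair (hy.snd.fst.pair (h3.pair (cc_erase hG.hm hy.snd.snd.snd he))))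
    (DPT.ite ((hy.snd.snd.fst.mem he).and ((h1.eq hN.int_natCast).or
      ((RPT.const (3 / 10) (c := 3 / 10) (by norm_num)).le ((RPT.ofNat 64).mul h2))))
      (hy.fst.pair (hy.snd.fst.pair (h3.pair (cc_insert hG.hm hy.snd.snd.snd he)))) hy)).of_eq fun a => ?_
  unfold sw
  congr

theorem cc_pp (hm : UN m) (hy : DPT y) {e f : ∀ a, Fin (m a)} (he : DPT e) (hf : DPT f) {j : α → ℕ} (hj : PT j) :
    DPT fun a => pp (y a) (e a) (f a) (j a) := by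
  refine DPT.ite ((hy.snd.snd.snd.mem he).and (hy.snd.snd.snd.mem hf))
    (DPT.pair (DPT.pi hm (DPT.of_pt ?_)) hy.snd) hy
  refine (((hy.fst.comp pt_sigma_fst).apply dpt_sigma_snd).pt.int_add ((hj.comp pt_sigma_fst).int_natCast.int_mul
    (cc_dif dpt_sigma_snd (hf.comp pt_sigma_fst) (he.comp pt_sigma_fst)))).of_eq fun p => ?_
  simp [Pi.single_apply]

theorem cc_kap (hm : UN m) {β : ∀ a, Fin (m a) ⊕ Fin (m a) → ℝ} (hβ : VPT β) {j : α → ℕ} (hj : PT j) :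
    PT fun p : Σ a, Fin (m a) ⊕ Fin (m a) => kap (β p.1) (j p.1) p.2 := by
  have hφ := pt_sigma_fst (β := fun a => Fin (m a))
  have h1 := (hj.comp hφ).nat_div (hm.1.comp hφ)
  have h2 : PT fun p : Σ a, Fin (m a) => p.2.val := (dpt_sigma_snd (β := fun a => Fin (m a))).finVal
  exact DPT.pt (DPT.sumCases (DPT.of_pt ((RPT.nat (h1.nat_add (PT.ite (h2.nat_lt
    ((hj.comp hφ).nat_mod (hm.1.comp hφ))) (PT.const 1) (PT.const 0)))).mul
      ((hβ.comp hφ).apply dpt_sigma_snd.inl)).floor)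
    (DPT.of_pt ((RPT.nat h1).mul ((hβ.comp hφ).apply dpt_sigma_snd.inr)).floor))

theorem cc_mvk (hm : UN m) (hy : DPT y) (hr : DPT rep) {β : ∀ a, Fin (m a) ⊕ Fin (m a) → ℝ} (hβ : VPT β)
    {j : α → ℕ} (hj : PT j) : DPT fun a => mvz (y a) (rep a) (kap (β a) (j a)) :=
  dpt_mvz hm hy hr (cc_kap hm hβ hj)

theorem cc_smul {ι : α → Type} [∀ a, Enc (ι a)] {c : α → ℝ} (hc : RPT c) {v : ∀ a, ι a → ℝ} (hv : VPT v) :
    VPT fun a => c a • v a := (hc.comp pt_sigma_fst).mul hv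

theorem dpt_cand (hG : PG n m s t) (hW : MPT W0) (hM : MPT M0) (hΩ : UN Ω) (hy : DPT y) (hr : DPT rep)
    (h : ∀ a (β : Fin (m a) ⊕ Fin (m a) → ℝ), ‖β‖ ≤ 2 / Ω a →
      (W2 (s a) (t a) (W0 a) (sta (2 * Ω a ^ 12) (y a) + fun e => β (Sum.inr e))).PosDef ∧
      (M2 (s a) (t a) (W0 a) (M0 a) (y a).2.2.1 (y a).2.2.2
        (stx (2 * Ω a ^ 12) (y a) + px (y a).2.2.1 (rep a) β)
        (sta (2 * Ω a ^ 12) (y a) + fun e => β (Sum.inr e))).PosDef)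
    {c : ∀ a, C2 (m a) (Ω a)} (hc : DPT c) :
    DPT fun a => cand (s a) (t a) (W0 a) (M0 a) (Ω a) (y a) (rep a) (c a) := by
  suffices H : DPT fun p : Σ a, C2 (m a) (Ω a) =>
      cand (s p.1) (t p.1) (W0 p.1) (M0 p.1) (Ω p.1) (y p.1) (rep p.1) p.2 from H.comp (pt_sigma_mk PT.id' hc)
  have c1 : DPT fun p : Σ a, Fin (m a) => sw (s p.1) (t p.1) (W0 p.1) (2 * Ω p.1 ^ 12) (y p.1) p.2 := by
    refine cc_sw (hG.comp pt_sigma_fst) (hW.comp pt_sigma_fst) ((cc_N hΩ).comp pt_sigma_fst) (hy.comp pt_sigma_fst)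
      (fun p => ?_) dpt_sigma_snd
    have h1 := (h p.1 0 (by rw [norm_zero]; positivity)).1
    rwa [show (fun e => (0 : Fin (m p.1) ⊕ Fin (m p.1) → ℝ) (Sum.inr e)) = 0 from rfl, add_zero] at h1
  have c2 : DPT fun p : Σ a, Fin (m a) => mvz (y p.1) (rep p.1) (Pi.single (Sum.inr p.2) (2 * Ω p.1 ^ 9)) := by
    have hφ := pt_sigma_fst (β := fun p : Σ a, Fin (m a) => Fin (m p.1) ⊕ Fin (m p.1))
    refine dpt_mvz (hG.hm.comp pt_sigma_fst) (hy.comp pt_sigma_fst) (hr.comp pt_sigma_fst)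
      ((PT.ite (dpt_sigma_snd.eq (dpt_sigma_snd.comp hφ).inr) ((PT.const (2 : ℤ)).int_mul
        ((hΩ.1.comp (pt_sigma_fst.comp hφ)).int_natCast.int_pow (PT.const 9) (PB.const 9)))
        (PT.const 0)).of_eq fun q => ?_)
    rw [Pi.single_apply]
  have c3 : DPT fun p : Σ a, Fin (m a) × Fin (m a) × Fin (2 * Ω a ^ 12 + 1) =>
      pp (y p.1) p.2.1 p.2.2.1 p.2.2.2.val :=
    cc_pp (hG.hm.comp pt_sigma_fst) (hy.comp pt_sigma_fst) dpt_sigma_snd.fst dpt_sigma_snd.snd.fst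
      dpt_sigma_snd.snd.snd.finVal
  have hs := dpt_sigma_snd (β := fun a => (Fin (m a) ⊕ Fin (m a)) × Bool × Fin (2 * Ω a ^ 9 * m a + 1))
  have hv := vpt_pwd (hG.comp pt_sigma_fst) (hW.comp pt_sigma_fst) (hM.comp pt_sigma_fst) (hΩ.comp pt_sigma_fst)
    (hy.comp pt_sigma_fst) (hr.comp pt_sigma_fst) (fun p => h p.1) hs.fst
  have c4 := cc_mvk (hG.hm.comp pt_sigma_fst) (hy.comp pt_sigma_fst) (hr.comp pt_sigma_fst)
    (cc_smul (RPT.ite hs.snd.fst.pt.eq_true RPT.one RPT.one.neg) hv) hs.snd.snd.finVal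
  refine DPT.sumCases c1 ?_
  refine DPT.sumCases c2 ?_
  exact DPT.sumCases c3 c4

end Crest.Agent.R37
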