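import Crest.Agent.R37.Mat2

/-!
# R37/Mat3: links, the slack sum, greedy.
`exists_links`: for `K ≥ 1` a dense set is connected by its `F'`-edges (else split it in two and count), so
`Sp F'` is generated by `Sp F` and the `F'`-edges `e` with `Sp F' (s e) (t e)`; add such edges one at a time,
keeping only those that merge two classes (each lowers `ncl` by one).
`slack_sum`: at least `(K+Δ)(p-1) - K(p-1)` crossing edges are not cheap (`cross_sp_le`), and
`∑_{j : 2^j ≤ Λ c e} 2^j ≤ 2 Λ c e`.
Greedy: `GInv P J` is kept when the cheapest unprocessed edge is scanned.  In `ginv_step`, when `e` is added: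
if `Sp (cheap c (c e)) (s e) (t e)` then (`cheap c (c e) ⊆ P`, `sp_mono`, `sp_iff_tight`) `e` lies in a `J`-tight
set (`s e ≠ t e`), so `insert e J` is dependent.
-/

set_option autoImplicit false

open Matrix Finset

noncomputable section

namespace Crest.Agent.R37

variable {n : ℕ} {E : Type} [Fintype E] [DecidableEq E]

variable {s t : E → Fin n} {K : ℤ}

theorem m3l_ncl_lt {r r' : Fin n → Fin n → Prop} (hr : Equivalence r) (hr' : Equivalence r')
    (hle : ∀ a b, r a b → r' a b) {a b : Fin n} (h1 : r' a b) (h2 : ¬ r a b) : ncl r' < ncl r := by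
  classical
  unfold ncl
  set φ : Finset (Fin n) → Finset (Fin n) := fun C => univ.filter fun y => ∃ x ∈ C, r' x y with hφ
  have key : ∀ x, φ (univ.filter fun y => r x y) = univ.filter fun y => r' x y := by
    intro x
    ext y
    simp only [hφ, mem_filter, mem_univ, true_and]
    constructor
    · rintro ⟨z, hz, hzy⟩
      exact hr'.trans (hle _ _ hz) hzy
    · intro hxy
      exact ⟨x, hr.refl x, hxy⟩
  have himg : (univ.image fun x => univ.filter fun y => r' x y) =
      (univ.image fun x => univ.filter fun y => r x y).image φ := by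
    rw [image_image]
    refine image_congr ?_
    intro x _
    exact (key x).symm
  have hlt : ((univ.image fun x => univ.filter fun y => r x y).image φ).card <
      (univ.image fun x : Fin n => univ.filter fun y => r x y).card := by
    refine lt_of_le_of_ne card_image_le ?_
    intro hc
    have hinj := card_image_iff.1 hc
    have hab : (univ.filter fun y => r a y) = univ.filter fun y => r b y := by
      refine hinj (mem_coe.2 (mem_image_of_mem _ (mem_univ a)))
        (mem_coe.2 (mem_image_of_mem _ (mem_univ b))) ?_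
      rw [key, key]
      ext y
      simp only [mem_filter, mem_univ, true_and]
      exact ⟨fun h => hr'.trans (hr'.symm h1) h, fun h => hr'.trans h1 h⟩
    have hb : b ∈ univ.filter fun y => r b y := mem_filter.2 ⟨mem_univ _, hr.refl b⟩
    rw [← hab] at hb
    exact h2 (mem_filter.1 hb).2
  convert hlt using 2

theorem m3l_links (s t : E → Fin n) {r : Fin n → Fin n → Prop} (hr : Equivalence r) (G : Finset E) :
    ∃ Lk : Finset E, Lk ⊆ G ∧
      Lk.card + ncl (Relation.EqvGen fun a b => r a b ∨ ∃ e ∈ Lk, s e = a ∧ t e = b) ≤ ncl r ∧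
      ∀ e ∈ G, Relation.EqvGen (fun a b => r a b ∨ ∃ e ∈ Lk, s e = a ∧ t e = b) (s e) (t e) := by
  induction G using Finset.induction_on with
  | empty =>
    refine ⟨∅, Subset.rfl, ?_, by simp⟩
    have : (Relation.EqvGen fun a b => r a b ∨ ∃ e ∈ (∅ : Finset E), s e = a ∧ t e = b) = r := by
      have h1 : (fun a b => r a b ∨ ∃ e ∈ (∅ : Finset E), s e = a ∧ t e = b) = r := by
        funext a b
        simp
      rw [h1]
      funext a b
      exact propext hr.eqvGen_iff
    rw [this]
    simp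
  | insert e G he ih =>
    obtain ⟨Lk, hsub, hcard, hall⟩ := ih
    by_cases hc : Relation.EqvGen (fun a b => r a b ∨ ∃ e ∈ Lk, s e = a ∧ t e = b) (s e) (t e)
    · refine ⟨Lk, hsub.trans (subset_insert _ _), hcard, ?_⟩
      intro f hf
      rcases mem_insert.1 hf with rfl | hf
      · exact hc
      · exact hall f hf
    · have hmono : ∀ a b, Relation.EqvGen (fun a b => r a b ∨ ∃ e ∈ Lk, s e = a ∧ t e = b) a b →
          Relation.EqvGen (fun a b => r a b ∨ ∃ f ∈ insert e Lk, s f = a ∧ t f = b) a b := by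
        intro a b hab
        refine Relation.EqvGen.mono ?_ a b hab
        rintro x y (hxy | ⟨f, hf, hf2⟩)
        · exact Or.inl hxy
        · exact Or.inr ⟨f, mem_insert_of_mem hf, hf2⟩
      have hnew : Relation.EqvGen (fun a b => r a b ∨ ∃ f ∈ insert e Lk, s f = a ∧ t f = b)
          (s e) (t e) :=
        Relation.EqvGen.rel _ _ (Or.inr ⟨e, mem_insert_self _ _, rfl, rfl⟩)
      refine ⟨insert e Lk, insert_subset_insert _ hsub, ?_, ?_⟩
      · have h1 := m3l_ncl_lt (Relation.EqvGen.is_equivalence _) (Relation.EqvGen.is_equivalence _)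
          hmono hnew hc
        have h2 := card_insert_le e Lk
        omega
      · intro f hf
        rcases mem_insert.1 hf with rfl | hf
        · exact hnew
        · exact hmono _ _ (hall f hf)

theorem m3l_card_le {J : Finset E} (hI : Ind s t K (ind J)) {U : Finset (Fin n)} (hU : U.Nonempty) :
    ((J ∩ ins s t U).card : ℤ) ≤ K * ((U.card : ℤ) - 1) := by
  have h := hI U hU
  have h2 : ∑ e ∈ ins s t U, ind J e = ((J ∩ ins s t U).card : ℤ) := by
    simp only [ind]
    rw [Finset.sum_ite_mem, inter_comm]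
    simp
  rw [← h2]
  exact h

theorem m3l_conn (hK : 1 ≤ K) {J : Finset E} {U : Finset (Fin n)} (hJU : J ⊆ ins s t U)
    (hI : Ind s t K (ind J)) (hc : (J.card : ℤ) = K * ((U.card : ℤ) - 1))
    {r : Fin n → Fin n → Prop} (hr : Equivalence r) (hJ : ∀ e ∈ J, r (s e) (t e))
    {a b : Fin n} (ha : a ∈ U) (hb : b ∈ U) : r a b := by
  classical
  by_contra hab
  have h1 := m3l_card_le hI (U := U.filter fun x => r a x) ⟨a, mem_filter.2 ⟨ha, hr.refl a⟩⟩
  have h2 := m3l_card_le hI (U := U.filter fun x => ¬ r a x) ⟨b, mem_filter.2 ⟨hb, hab⟩⟩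
  have h3 := Finset.card_filter_add_card_filter_not (s := U) (fun x => r a x)
  have h4 : J ⊆ (J ∩ ins s t (U.filter fun x => r a x)) ∪
      (J ∩ ins s t (U.filter fun x => ¬ r a x)) := by
    intro e he
    have hu := hJU he
    simp only [ins, mem_filter, mem_univ, true_and] at hu
    simp only [ins, mem_union, mem_inter, mem_filter, mem_univ, true_and]
    by_cases hs : r a (s e)
    · exact Or.inl ⟨he, ⟨hu.1, hs⟩, hu.2, hr.trans hs (hJ e he)⟩
    · exact Or.inr ⟨he, ⟨hu.1, hs⟩, hu.2, fun h => hs (hr.trans h (hr.symm (hJ e he)))⟩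
  have h5 := (card_le_card h4).trans (card_union_le _ _)
  have h6 : (J.card : ℤ) ≤ ((J ∩ ins s t (U.filter fun x => r a x)).card : ℤ) +
      ((J ∩ ins s t (U.filter fun x => ¬ r a x)).card : ℤ) := by exact_mod_cast h5
  have h7 : (U.card : ℤ) = ((U.filter fun x => r a x).card : ℤ) +
      ((U.filter fun x => ¬ r a x).card : ℤ) := by exact_mod_cast h3.symm
  rw [h7] at hc
  nlinarith

theorem exists_links (hn : 1 ≤ n) (hK : 1 ≤ K) {F F' : Finset E} (h : F ⊆ F') :
    ∃ Lk : Finset E, Lk ⊆ F' ∧ Lk.card + 1 ≤ ncl (Sp s t K F) ∧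
      ∀ a b, Sp s t K F' a b ↔
        Relation.EqvGen (fun a b => Sp s t K F a b ∨ ∃ e ∈ Lk, s e = a ∧ t e = b) a b := by
  classical
  have hK0 : (0 : ℤ) ≤ K := by omega
  obtain ⟨Lk, hsub, hcard, hall⟩ := m3l_links s t (sp_equiv s t hK0 F)
    (F'.filter fun e => Sp s t K F' (s e) (t e))
  refine ⟨Lk, hsub.trans (filter_subset _ _), ?_, ?_⟩
  · have := one_le_ncl hn
      (Relation.EqvGen fun a b => Sp s t K F a b ∨ ∃ e ∈ Lk, s e = a ∧ t e = b)
    omega
  · intro a b
    constructor
    · rintro (rfl | ⟨U, ⟨J, hJF, hJU, hI, hc⟩, ha, hb⟩)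
      · exact Relation.EqvGen.refl _
      · refine m3l_conn hK hJU hI hc (Relation.EqvGen.is_equivalence _) ?_ ha hb
        intro e he
        refine hall e (mem_filter.2 ⟨hJF he, Or.inr ⟨U, ⟨J, hJF, hJU, hI, hc⟩, ?_⟩⟩)
        have hu := hJU he
        simpa only [ins, mem_filter, mem_univ, true_and] using hu
    · intro hab
      have hE := sp_equiv s t hK0 F'
      refine hE.eqvGen_iff.1 (Relation.EqvGen.mono ?_ a b hab)
      rintro x y (hxy | ⟨e, he, rfl, rfl⟩)
      · exact sp_mono h hxy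
      · exact (mem_filter.1 (hsub he)).2

theorem mat3_pow_sum {x : ℝ} (hx : 0 ≤ x) (J : ℕ) :
    ∑ j ∈ range J, (if (2 : ℝ) ^ j ≤ x then (2 : ℝ) ^ j else 0) ≤ 2 * x ∧
      ∑ j ∈ range J, (if (2 : ℝ) ^ j ≤ x then (2 : ℝ) ^ j else 0) ≤ 2 ^ J := by
  induction J with
  | zero => simp [hx]
  | succ J ih =>
    have : (0 : ℝ) < 2 ^ J := by positivity
    rw [sum_range_succ, pow_succ]
    split_ifs with h <;> constructor <;> linarith [ih.1, ih.2]

theorem slack_sum (hn : 1 ≤ n) (hK : 0 ≤ K) {Δ : ℤ} (hΔ : 0 ≤ Δ) (hPC : PC s t (K + Δ)) {c : E → ℝ}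
    (hc : ∀ e, 0 ≤ c e) {Λ : ℝ} (hΛ : 0 < Λ) (J : ℕ) :
    ∑ j ∈ range J, (2 : ℝ) ^ j * ((ncl (Sp s t K (cheap c (2 ^ j / Λ))) : ℝ) - 1) * Δ ≤
      2 * Λ * ∑ e, c e := by
  classical
  have key : ∀ j : ℕ, ((ncl (Sp s t K (cheap c (2 ^ j / Λ))) : ℝ) - 1) * Δ ≤
      ∑ e, if (2 : ℝ) ^ j ≤ Λ * c e then 1 else 0 := fun j => by
    set F := cheap c (2 ^ j / Λ)
    have h1 := hPC _ (sp_equiv s t hK F)
    have h2 := cross_sp_le (s := s) (t := t) hn hK F
    have h3 : (cross s t (Sp s t K F)).card ≤ (F ∩ cross s t (Sp s t K F)).card +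
        (univ.filter fun e => (2 : ℝ) ^ j ≤ Λ * c e).card := by
      refine (card_le_card fun e he => ?_).trans (card_union_le _ _)
      by_cases h : e ∈ F
      · exact mem_union_left _ (mem_inter.2 ⟨h, he⟩)
      · refine mem_union_right _ (mem_filter.2 ⟨mem_univ _, ?_⟩)
        simp only [F, cheap, mem_filter, mem_univ, true_and, not_lt] at h
        rwa [div_le_iff₀' hΛ] at h
    have h4 : ((ncl (Sp s t K F) : ℤ) - 1) * Δ ≤ (univ.filter fun e => (2 : ℝ) ^ j ≤ Λ * c e).card := by
      have h3' : ((cross s t (Sp s t K F)).card : ℤ) ≤ (F ∩ cross s t (Sp s t K F)).card +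
        (univ.filter fun e => (2 : ℝ) ^ j ≤ Λ * c e).card := by exact_mod_cast h3
      nlinarith
    rw [sum_boole]
    exact_mod_cast h4
  calc _ ≤ ∑ j ∈ range J, ∑ e, if (2 : ℝ) ^ j ≤ Λ * c e then (2 : ℝ) ^ j else 0 := by
        refine sum_le_sum fun j _ => ?_
        rw [mul_assoc]
        refine (mul_le_mul_of_nonneg_left (key j) (by positivity)).trans_eq ?_
        simp only [mul_sum, mul_ite, mul_one, mul_zero]
    _ ≤ ∑ e, 2 * (Λ * c e) := by
        rw [sum_comm]
        exact sum_le_sum fun e _ => (mat3_pow_sum (mul_nonneg hΛ.le (hc e)) J).1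
    _ = _ := by simp only [mul_sum, mul_assoc]

/-- greedy invariant: `P` processed, `J` chosen -/
def GInv (s t : E → Fin n) (K : ℤ) (c : E → ℝ) (P J : Finset E) : Prop :=
  MaxInd s t K P J ∧ (∀ e ∈ P, ∀ f, f ∉ P → c e ≤ c f) ∧
    ∀ e ∈ J, ¬ Sp s t K (cheap c (c e)) (s e) (t e)

theorem ginv_init (hK : 0 ≤ K) (c : E → ℝ) : GInv s t K c ∅ ∅ := by
  refine ⟨⟨Subset.rfl, fun U hU => ?_, by simp⟩, by simp, by simp⟩
  have : (1 : ℤ) ≤ U.card := by exact_mod_cast hU.card_pos
  simp only [ind, notMem_empty, if_false, sum_const_zero]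
  exact mul_nonneg hK (by linarith)

theorem ginv_step (hK : 0 ≤ K) (hl : ∀ e, s e ≠ t e) {c : E → ℝ} {P J : Finset E}
    (h : GInv s t K c P J) {e : E} (he : e ∉ P) (hmin : ∀ f, f ∉ P → c e ≤ c f) :
    (Ind s t K (ind (insert e J)) → GInv s t K c (insert e P) (insert e J)) ∧
      (¬ Ind s t K (ind (insert e J)) → GInv s t K c (insert e P) J) := by
  obtain ⟨⟨h1, h2, h3⟩, h4, h5⟩ := h
  have heJ : e ∉ J := fun h => he (h1 h)
  have ord : ∀ e' ∈ insert e P, ∀ f, f ∉ insert e P → c e' ≤ c f := fun e' he' f hf => by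
    have hf' : f ∉ P := fun h => hf (mem_insert_of_mem h)
    rcases mem_insert.1 he' with rfl | h
    · exact hmin f hf'
    · exact h4 _ h f hf'
  refine ⟨fun hI => ⟨⟨insert_subset_insert _ h1, hI, fun f hf hf' hI' => ?_⟩, ord, fun e' he' => ?_⟩,
    fun hI => ⟨⟨h1.trans (subset_insert _ _), h2, fun f hf hf' => ?_⟩, ord, h5⟩⟩
  · rw [mem_insert, not_or] at hf'
    refine h3 f ((mem_insert.1 hf).resolve_left hf'.1) hf'.2 (hI'.mono fun g => ?_)
    simp only [ind, mem_insert]
    split_ifs <;> first | rfl | tauto | norm_num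
  · rcases mem_insert.1 he' with rfl | h
    · intro hs
      obtain ⟨U, hU, ha, hb⟩ := (sp_iff_tight hK ⟨h1, h2, h3⟩ _ _).1 (sp_mono (F' := P) (fun f hf => by
        by_contra hfP
        exact absurd (mem_filter.1 hf).2 (not_lt.2 (hmin f hfP))) hs)
      refine (ind_add_iff h2 e').2 ⟨U, hU, by simp [ins, ha, hb]⟩ ?_
      convert hI using 1
      funext g
      by_cases hg : g = e'
      · subst hg; simp [ind, heJ]
      · simp [ind, hg]
    · exact h5 _ h
  · rcases mem_insert.1 hf with rfl | h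
    · exact hI
    · exact h3 f h hf'

end Crest.Agent.R37
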