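import Crest.Agent.R37.Dep3

/-!
# R37/RPT1: exactly computable real functions.
-/

set_option autoImplicit false

open Matrix Finset Crest.Agent.Lib.PolyTime

noncomputable section

namespace Crest.Agent.R37

variable {α α' : Type} [Enc α] [Enc α']

variable {ι : α → Type} [∀ a, Enc (ι a)] {f g : α → ℝ}

theorem RPT.of_eq (h : RPT f) (e : ∀ a, f a = g a) : RPT g := by
  exact funext e ▸ h

theorem RPT.comp (h : RPT f) {φ : α' → α} (hφ : PT φ) : RPT fun a' => f (φ a') := by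
  obtain ⟨q, hq, h⟩ := h
  exact ⟨_, hq.comp hφ, fun a => h _⟩

@[fun_prop] theorem RPT.rat {q : α → ℚ} (h : PT q) : RPT fun a => (q a : ℝ) := by
  exact ⟨q, h, fun _ => rfl⟩

@[fun_prop] theorem RPT.int {z : α → ℤ} (h : PT z) : RPT fun a => (z a : ℝ) := by
  exact ⟨_, h.rat_intCast, fun _ => by simp⟩

@[fun_prop] theorem RPT.nat {z : α → ℕ} (h : PT z) : RPT fun a => (z a : ℝ) := by
  exact ⟨_, h.rat_natCast, fun _ => by simp⟩

theorem RPT.const (q : ℚ) {c : ℝ} (h : (q : ℝ) = c) : RPT fun _ : α => c := by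
  exact ⟨_, PT.const q, fun _ => h⟩

@[fun_prop] theorem RPT.add (hf : RPT f) (hg : RPT g) : RPT fun a => f a + g a := by
  obtain ⟨p, hp, h⟩ := hf
  obtain ⟨q, hq, h'⟩ := hg
  exact ⟨_, hp.rat_add hq, fun a => by simp [h, h']⟩

@[fun_prop] theorem RPT.sub (hf : RPT f) (hg : RPT g) : RPT fun a => f a - g a := by
  obtain ⟨p, hp, h⟩ := hf
  obtain ⟨q, hq, h'⟩ := hg
  exact ⟨_, hp.rat_sub hq, fun a => by simp [h, h']⟩

@[fun_prop] theorem RPT.mul (hf : RPT f) (hg : RPT g) : RPT fun a => f a * g a := by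
  obtain ⟨p, hp, h⟩ := hf
  obtain ⟨q, hq, h'⟩ := hg
  exact ⟨_, hp.rat_mul hq, fun a => by simp [h, h']⟩

@[fun_prop] theorem RPT.neg (hf : RPT f) : RPT fun a => -f a := by
  obtain ⟨p, hp, h⟩ := hf
  exact ⟨_, hp.rat_neg, fun a => by simp [h]⟩

@[fun_prop] theorem RPT.inv (hf : RPT f) : RPT fun a => (f a)⁻¹ := by
  obtain ⟨p, hp, h⟩ := hf
  exact ⟨_, hp.rat_inv, fun a => by simp [h]⟩

@[fun_prop] theorem RPT.div (hf : RPT f) (hg : RPT g) : RPT fun a => f a / g a := by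
  obtain ⟨p, hp, h⟩ := hf
  obtain ⟨q, hq, h'⟩ := hg
  exact ⟨_, hp.rat_div hq, fun a => by simp [h, h']⟩

@[fun_prop] theorem RPT.pow (hf : RPT f) (k : ℕ) : RPT fun a => f a ^ k := by
  obtain ⟨p, hp, h⟩ := hf
  exact ⟨_, hp.rat_pow (PT.const k) (PB.const k), fun a => by simp [h]⟩

@[fun_prop] theorem RPT.abs (hf : RPT f) : RPT fun a => |f a| := by
  obtain ⟨p, hp, h⟩ := hf
  exact ⟨_, hp.rat_abs, fun a => by simp [h]⟩

theorem RPT.solv : RPT f ↔ Solv fun a (q : ℚ) => (q : ℝ) = f a :=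
  ⟨fun ⟨q, hq, h⟩ => ⟨q, DPT.of_pt hq, h⟩, fun ⟨q, hq, h⟩ => ⟨q, hq.pt, h⟩⟩

theorem RPT.upow (hf : RPT f) {k : α → ℕ} (hk : UN k) : RPT fun a => f a ^ k a := by
  obtain ⟨p, hp, h⟩ := hf
  exact ⟨_, hp.rat_pow hk.1 hk.2, fun a => by simp [h]⟩

theorem RPT.max (hf : RPT f) (hg : RPT g) : RPT fun a => max (f a) (g a) := by
  obtain ⟨p, hp, h⟩ := hf
  obtain ⟨q, hq, h'⟩ := hg
  exact ⟨_, hp.rat_max hq, fun a => by simp [h, h']⟩

theorem RPT.min (hf : RPT f) (hg : RPT g) : RPT fun a => min (f a) (g a) := by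
  obtain ⟨p, hp, h⟩ := hf
  obtain ⟨q, hq, h'⟩ := hg
  exact ⟨_, hp.rat_min hq, fun a => by simp [h, h']⟩

theorem RPT.zero : RPT fun _ : α => (0 : ℝ) := RPT.const 0 (by simp)

theorem RPT.one : RPT fun _ : α => (1 : ℝ) := RPT.const 1 (by simp)

theorem RPT.ofNat (k : ℕ) [k.AtLeastTwo] : RPT fun _ : α => (OfNat.ofNat k : ℝ) :=
  RPT.const (OfNat.ofNat k) (by simp)

theorem RPT.cases {c : α → Prop} (hc : PT c) (h1 : RPT fun a : {a // c a} => f a.1)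
    (h2 : RPT fun a : {a // ¬ c a} => f a.1) : RPT f := by
  exact RPT.solv.2 (Solv.cases hc (RPT.solv.1 h1) (RPT.solv.1 h2))

theorem RPT.ite {c : α → Prop} [∀ a, Decidable (c a)] (hc : PT c) (hf : RPT f) (hg : RPT g) :
    RPT fun a => if c a then f a else g a := by
  obtain ⟨p, hp, h⟩ := hf
  obtain ⟨q, hq, h'⟩ := hg
  exact ⟨_, PT.ite hc hp hq, fun a => by beta_reduce; split_ifs <;> simp [h, h']⟩

theorem RPT.sumCases {β γ : α → Type} [∀ a, Enc (β a)] [∀ a, Enc (γ a)] {F : (Σ a, β a ⊕ γ a) → ℝ}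
    (h1 : RPT fun p : Σ a, β a => F ⟨p.1, Sum.inl p.2⟩)
    (h2 : RPT fun p : Σ a, γ a => F ⟨p.1, Sum.inr p.2⟩) : RPT F := by
  obtain ⟨p, hp, h⟩ := h1
  obtain ⟨q, hq, h'⟩ := h2
  refine ⟨fun x => x.2.elim (fun b => p ⟨x.1, b⟩) (fun c => q ⟨x.1, c⟩),
    DPT.pt (DPT.sumCases (DPT.of_pt hp) (DPT.of_pt hq)), ?_⟩
  rintro ⟨a, b | c⟩
  · exact h ⟨a, b⟩
  · exact h' ⟨a, c⟩

theorem RPT.le (hf : RPT f) (hg : RPT g) : PT fun a => f a ≤ g a := by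
  obtain ⟨p, hp, h⟩ := hf
  obtain ⟨q, hq, h'⟩ := hg
  exact (hp.rat_le hq).of_iff fun a => by rw [← h, ← h', Rat.cast_le]

theorem RPT.lt (hf : RPT f) (hg : RPT g) : PT fun a => f a < g a := by
  obtain ⟨p, hp, h⟩ := hf
  obtain ⟨q, hq, h'⟩ := hg
  exact (hp.rat_lt hq).of_iff fun a => by rw [← h, ← h', Rat.cast_lt]

theorem RPT.floor (hf : RPT f) : PT fun a => ⌊f a⌋ := by
  obtain ⟨p, hp, h⟩ := hf
  exact hp.rat_floor.of_eq fun a => by rw [← h, Rat.floor_cast]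

theorem RPT.ceil (hf : RPT f) : PT fun a => ⌈f a⌉ := by
  obtain ⟨p, hp, h⟩ := hf
  exact hp.rat_ceil.of_eq fun a => by rw [← h, Rat.ceil_cast]

theorem RPT.natCeil (hf : RPT f) : PT fun a => ⌈f a⌉₊ := by
  exact hf.ceil.int_toNat.of_eq fun a => Int.ceil_toNat _

theorem VPT.apply {v : ∀ a, ι a → ℝ} (hv : VPT v) {i : ∀ a, ι a} (hi : DPT i) :
    RPT fun a => v a (i a) := by
  exact RPT.comp hv (pt_sigma_mk PT.id' hi)

theorem VPT.comp {v : ∀ a, ι a → ℝ} (hv : VPT v) {φ : α' → α} (hφ : PT φ) :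
    VPT fun a' => v (φ a') := by
  exact RPT.comp hv (pt_sigma_mk (hφ.comp pt_sigma_fst) dpt_sigma_snd)

theorem VPT.sum [∀ a, Fintype (ι a)] (h : En ι) {v : ∀ a, ι a → ℝ} (hv : VPT v) :
    RPT fun a => ∑ i, v a i := by
  obtain ⟨l, hl, h⟩ := h
  obtain ⟨q, hq, h'⟩ := hv
  refine ⟨_, (hl.map (γ := fun _ => ℚ) (f := fun a i => q ⟨a, i⟩) (DPT.of_pt hq)).pt.rat_sum,
    fun a => ?_⟩
  rw [sum_eq_list (h a).1 (h a).2]
  push_cast
  exact Finset.sum_congr rfl fun i _ => h' ⟨a, i⟩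

theorem VPT.finsetSum {n : α → ℕ} (hn : UN n) {S : ∀ a, Finset (Fin (n a))} (hS : DPT S)
    {v : ∀ a, Fin (n a) → ℝ} (hv : VPT v) : RPT fun a => ∑ i ∈ S a, v a i := by
  refine (VPT.sum (En.fin hn) (v := fun a i => if i ∈ S a then v a i else 0)
    (RPT.ite ((hS.comp pt_sigma_fst).mem dpt_sigma_snd) hv RPT.zero)).of_eq fun a => ?_
  rw [Finset.sum_ite_mem, Finset.univ_inter]

theorem VPT.norm [∀ a, Fintype (ι a)] (h : En ι) {v : ∀ a, ι a → ℝ} (hv : VPT v) :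
    RPT fun a => ‖v a‖ := by
  classical
  have hle : PT fun p : Σ a, ι a => ∀ j, |v p.1 j| ≤ |v p.1 p.2| :=
    (h.comp pt_sigma_fst).forall ((VPT.apply (hv.comp (pt_sigma_fst.comp pt_sigma_fst))
      dpt_sigma_snd).abs.le (RPT.comp hv pt_sigma_fst).abs)
  refine RPT.cases (c := fun a => ∃ i : ι a, ∀ j, |v a j| ≤ |v a i|) (h.exists hle) ?_ ?_
  · obtain ⟨i, hi, h'⟩ := Solv.choose (ι := fun a : {a // ∃ i : ι a, ∀ j, |v a j| ≤ |v a i|} => ι a.1)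
      (p := fun a i => ∀ j, |v a.1 j| ≤ |v a.1 i|) (h.comp pt_val)
      (hle.comp (pt_sigma_mk (pt_val.comp pt_sigma_fst) dpt_sigma_snd)) fun a => a.2
    refine (VPT.apply (hv.comp pt_val) hi).abs.of_eq fun a => le_antisymm (norm_le_pi_norm (v a.1) (i a)) ?_
    exact (pi_norm_le_iff_of_nonneg (abs_nonneg _)).2 (h' a)
  · refine RPT.zero.of_eq fun a => ?_
    cases isEmpty_or_nonempty (ι a.1) with
    | inl h => exact (Subsingleton.elim (v a.1) 0 ▸ norm_zero).symm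
    | inr h =>
      obtain ⟨i, -, hi⟩ := Finset.exists_max_image univ (fun j => |v a.1 j|) univ_nonempty
      exact absurd ⟨i, fun j => hi j (mem_univ _)⟩ a.2

theorem VPT.toQ {n : α → ℕ} (hn : UN n) {v : ∀ a, Fin (n a) → ℝ} (hv : VPT v) :
    Solv fun a (x : Fin (n a) → ℚ) => ∀ i, (x i : ℝ) = v a i := by
  exact Solv.pi (β := fun _ => ℚ) (R := fun a i q => (q : ℝ) = v a i) hn (RPT.solv.1 hv)

theorem VPT.ofQ {n : α → ℕ} {x : ∀ a, Fin (n a) → ℚ} (hx : DPT x) : VPT fun a i => (x a i : ℝ) := by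
  exact RPT.rat ((hx.comp pt_sigma_fst).apply dpt_sigma_snd).pt

theorem VPT.ofZ {n : α → ℕ} {x : ∀ a, Fin (n a) → ℤ} (hx : DPT x) : VPT fun a i => (x a i : ℝ) := by
  exact RPT.int ((hx.comp pt_sigma_fst).apply dpt_sigma_snd).pt

end Crest.Agent.R37
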