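import Crest.Agent.R37.CFeas
import Crest.Agent.R37.RPT1
import Crest.Agent.R37.Mat3

/-!
# R37/CGreedy: the greedy base.  `Solv.loop` on `{(P, J) | GInv}` with measure `m - |P|`; `ginv_step`, `maxInd_base`.
-/

set_option autoImplicit false

open Matrix Finset Crest.Agent.Lib.PolyTime

noncomputable section

namespace Crest.Agent.R37

variable {α α' : Type} [Enc α] [Enc α']

variable {n m : α → ℕ} {s t : ∀ a, Fin (m a) → Fin (n a)}

theorem cg_insert (hm : UN m) {S : ∀ a, Finset (Fin (m a))} (hS : DPT S) {e : ∀ a, Fin (m a)} (he : DPT e) :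
    DPT fun a => insert (e a) (S a) :=
  DPT.finset hm (((dpt_sigma_snd.eq (he.comp pt_sigma_fst)).or
    ((hS.comp pt_sigma_fst).mem dpt_sigma_snd)).of_iff fun _ => mem_insert.symm)

theorem cg_ind (hm : UN m) {S : ∀ a, Finset (Fin (m a))} (hS : DPT S) : DPT fun a => ind (S a) :=
  DPT.pi hm (DPT.of_pt ((PT.ite ((hS.comp pt_sigma_fst).mem dpt_sigma_snd) (PT.const (1 : ℤ))
    (PT.const 0)).of_eq fun _ => rfl))

theorem solv_greedy (hG : PG n m s t) {K : α → ℕ} (hK : UN K) {c : ∀ a, Fin (m a) → ℝ} (hc : VPT c)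
    (hn : ∀ a, 1 ≤ n a) (hl : ∀ a e, s a e ≠ t a e) (hPC : ∀ a, PC (s a) (t a) (K a)) :
    Solv fun a (H : Finset (Fin (m a))) => Base (s a) (t a) (K a) (ind H) ∧
      ∀ e ∈ H, ¬ Sp (s a) (t a) (K a) (cheap (c a) (c a e)) (s a e) (t a e) := by
  classical
  let I : ∀ a, Finset (Fin (m a)) × Finset (Fin (m a)) → Prop :=
    fun a x => GInv (s a) (t a) (K a) (c a) x.1 x.2
  have hφ := pt_sigma_fst (β := fun a => {x // I a x} × Fin (m a))
  have hx := dpt_sigma_snd (β := fun a => {x // I a x} × Fin (m a))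
  have hP : DPT fun p : Σ a, {x // I a x} × Fin (m a) => p.2.1.1.1 := hx.fst.val.fst
  have hJ : DPT fun p : Σ a, {x // I a x} × Fin (m a) => p.2.1.1.2 := hx.fst.val.snd
  have he : DPT fun p : Σ a, {x // I a x} × Fin (m a) => p.2.2 := hx.snd
  have hm := hG.hm.comp hφ
  have hJe := cg_insert hm hJ he
  have hInd : PT fun p : Σ a, {x // I a x} × Fin (m a) =>
      Ind (s p.1) (t p.1) (K p.1) (ind (insert p.2.2 p.2.1.1.2)) :=
    pt_ind (hG.comp hφ) (hK.1.comp hφ).int_natCast (cg_ind hm hJe) (g := fun p => K p.1 + 1)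
      ((hK.2.comp hφ).add (PB.const 1)) (fun p => ⟨by positivity, by push_cast; omega⟩) fun p e => by
        unfold ind
        push_cast
        split_ifs <;> omega
  obtain ⟨f, hf, h⟩ := Solv.localSearch I (fun a x => m a - x.1.card) (g := fun a => 8 * m a + 3)
    (((PB.const 8).mul hG.hm.2).add (PB.const 3)) (x0 := fun _ => (∅, ∅))
    (DPT.pair (DPT.finset hG.hm ((PT.const False).of_iff fun _ => by simp))
      (DPT.finset hG.hm ((PT.const False).of_iff fun _ => by simp)))
    (fun a => ⟨ginv_init (by positivity) _, by omega⟩)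
    (fun a x _ => by
      have h1 := esize_finset_le x.1
      have h2 := esize_finset_le x.2
      rw [esize_prod]
      omega) (En.fin hG.hm)
    (fun a x e => (insert e x.1, if Ind (s a) (t a) (K a) (ind (insert e x.2)) then insert e x.2 else x.2))
    (fun a x e => e ∉ x.1 ∧ ∀ f, f ∉ x.1 → c a e ≤ c a f)
    ((cg_insert hm hP he).pair (DPT.ite hInd hJe hJ))
    ((hP.mem he).not.and ((En.fin hm).forall
      ((((hP.comp pt_sigma_fst).mem dpt_sigma_snd).or
        ((((hc.comp hφ).apply he).comp pt_sigma_fst).le (hc.comp hφ))).of_iff fun q => by tauto)))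
    (fun a x e hI hok => by
      have h1 := ginv_step (by positivity) (hl a) hI hok.1 hok.2
      refine ⟨?_, ?_⟩
      · by_cases h2 : Ind (s a) (t a) (K a) (ind (insert e x.2))
        · simpa only [I, if_pos h2] using h1.1 h2
        · simpa only [I, if_neg h2] using h1.2 h2
      · have h3 := card_le_univ (insert e x.1)
        rw [Fintype.card_fin] at h3
        rw [card_insert_of_notMem hok.1] at h3 ⊢
        omega)
  refine ⟨fun a => (f a).2, hf.snd, fun a => ⟨?_, (h a).1.2.2⟩⟩
  have hu : (f a).1 = univ := by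
    by_contra hne
    obtain ⟨e, he, hmin⟩ := exists_min_image ((f a).1ᶜ) (c a) (by
      rw [nonempty_iff_ne_empty, Ne, compl_eq_empty_iff]; exact hne)
    exact (h a).2 e ⟨mem_compl.1 he, fun g hg => hmin g (mem_compl.2 hg)⟩
  exact maxInd_base (hn a) (by positivity) (hPC a) (hu ▸ (h a).1.1)

end Crest.Agent.R37
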