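import Crest.Agent.R37.KL

/-!
# R37/FTL: follow the leader.
`finv_step`: `Z' = Z̄ + Z`, `a' e = a e + [e ∈ H] qf Z e`; for `e ∈ H` take `γ = c e` (`a e ≤ c e`, `qf Z e ≤ 3/2` by `trace_mul_Gam`); `cheap c' γ ⊆ cheap c γ`.
`finv_bound`: for `j ≥ 1` apply `kl` to `D a b = if a = b then 0 else qf Z̄ a b + jκ`.  For `e` outside the set `U` of `kl`: `a e = 0` or `γ < c e/Λ`
(`sp_mono`), so `a e ρ_e ≤ c e/Λ + 3`.  Hence `j cap/2 ≤ (1/(16q²) + 1/(16q²)) 2j + 3m`.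
-/

set_option autoImplicit false

open Matrix Finset

noncomputable section

namespace Crest.Agent.R37

variable {n : ℕ} {E : Type} [Fintype E] [DecidableEq E]

def FInv (s t : E → Fin n) (K : ℤ) (cap κ B : ℝ) (c : E → ℝ) (j : ℕ) : Prop :=
  ∃ (Z : Mat n) (a : E → ℝ), Z.PosSemidef ∧ (∀ e, 0 ≤ a e ∧ a e ≤ qf Z (s e) (t e)) ∧
    (∀ e, qf Z (s e) (t e) + j * κ ≤ c e) ∧ ∑ e, c e ≤ 2 * j ∧
    (∀ x y z, qf Z x z ≤ qf Z x y + qf Z y z + j * κ) ∧
    (∀ w : Fin n → Fin n → ℝ, (∀ x y, 0 ≤ w x y) → ∑ x, ∑ y, w x y ≤ B ^ 2 →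
      j * cap / 2 ≤ ∑ x, ∑ y, w x y * qf Z x y + ∑ e, a e * res (Gam s t + Lw w) (s e) (t e)) ∧
    ∀ e, a e = 0 ∨ ∃ γ, a e ≤ γ + 3 ∧ ¬ Sp s t K (cheap c γ) (s e) (t e)

theorem finv_zero (s t : E → Fin n) (K : ℤ) (cap κ B : ℝ) : FInv s t K cap κ B (fun _ => 0) 0 := by
  have h : ∀ a b : Fin n, qf 0 a b = 0 := fun a b => by simp [qf]
  refine ⟨0, fun _ => 0, PosSemidef.zero, ?_⟩
  simp [h]

theorem finv_step {s t : E → Fin n} {K : ℤ} {cap κ B : ℝ} {c c' : E → ℝ} {j : ℕ}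
    (h : FInv s t K cap κ B c j) (hκ : 0 ≤ κ) (hκm : 4 * κ * Fintype.card E ≤ 1) {H : Finset E}
    (hH : ∀ e ∈ H, ¬ Sp s t K (cheap c (c e)) (s e) (t e)) {Z : Mat n} (hZ : Dual s t H Z cap κ B)
    (hc : ∀ e, c e + qf Z (s e) (t e) + κ ≤ c' e ∧ c' e ≤ c e + qf Z (s e) (t e) + 2 * κ) :
    FInv s t K cap κ B c' (j + 1) := by
  classical
  obtain ⟨Y, a, h1, h2, h3, h4, h5, h6, h7⟩ := h
  obtain ⟨z1, z2, z3, z4⟩ := hZ
  have hq := fun e => qf_nonneg z1 (s e) (t e)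
  have hs : ∑ e, qf Z (s e) (t e) ≤ 3 / 2 := by
    rw [trace_mul_Gam] at z2
    linarith [div_nonneg z1.trace_nonneg (Nat.cast_nonneg (α := ℝ) n)]
  have hsub : ∀ γ, cheap c' γ ⊆ cheap c γ := fun γ e he => by
    simp only [cheap, mem_filter, mem_univ, true_and] at he ⊢
    linarith [(hc e).1, hq e]
  refine ⟨Y + Z, fun e => a e + if e ∈ H then qf Z (s e) (t e) else 0, h1.add z1, fun e => ?_, fun e => ?_, ?_,
    fun x y z => ?_, fun w hw hB => ?_, fun e => ?_⟩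
  · simp only [qf_add]
    split_ifs <;> constructor <;> linarith [h2 e, hq e]
  · rw [qf_add]; push_cast; linarith [h3 e, hc e]
  · have := sum_le_sum fun e (_ : e ∈ univ) => (hc e).2
    rw [sum_add_distrib, sum_add_distrib, sum_const, card_univ, nsmul_eq_mul] at this
    push_cast; linarith
  · simp only [qf_add]; push_cast; linarith [h5 x y z, z3 x y z]
  · have a1 := h6 w hw hB
    have a2 := z4 w hw hB
    simp only [qf_add, mul_add, add_mul, sum_add_distrib, ite_mul, zero_mul, sum_ite_mem, univ_inter]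
    push_cast; linarith
  · by_cases he : e ∈ H
    · refine Or.inr ⟨c e, ?_, fun h => hH e he (sp_mono (hsub _) h)⟩
      have := single_le_sum (f := fun e => qf Z (s e) (t e)) (fun e _ => hq e) (mem_univ e)
      simp only [if_pos he]
      linarith [h2 e, h3 e, mul_nonneg (Nat.cast_nonneg (α := ℝ) j) hκ]
    · simp only [if_neg he, add_zero]
      exact (h7 e).imp id fun ⟨γ, g1, g2⟩ => ⟨γ, g1, fun h => g2 (sp_mono (hsub _) h)⟩

theorem finv_bound : ∃ q0 : ℕ, ∀ (n : ℕ) (E : Type) [Fintype E] [DecidableEq E] (s t : E → Fin n)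
    (K Δ q : ℕ), 2 ≤ n → (∀ e, s e ≠ t e) → q0 ≤ q → 1 ≤ K → K ≤ q * Δ → q ^ 12 ≤ Δ → PC s t (K + Δ) →
    ∀ (κ B : ℝ) (c : E → ℝ) (j : ℕ), 0 < κ → (Fintype.card E : ℝ) ≤ B →
      FInv s t K (1 / q ^ 2) κ B c j → j ≤ 12 * Fintype.card E * q ^ 2 := by
  classical
  obtain ⟨q0, hkl⟩ := kl
  refine ⟨q0 + 1, fun n E _ _ s t K Δ q hn hl hq hK hKq hΔ hPC κ B c j hκ hB h => ?_⟩
  obtain ⟨Z, a, h1, h2, h3, h4, h5, h6, h7⟩ := h
  rcases Nat.eq_zero_or_pos j with rfl | hj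
  · exact Nat.zero_le _
  have hjκ : 0 < j * κ := mul_pos (Nat.cast_pos.2 hj) hκ
  have hq0 : (0 : ℝ) < q := Nat.cast_pos.2 (by omega)
  have hz := qf_nonneg h1
  set D : Fin n → Fin n → ℝ := fun x y => if x = y then 0 else qf Z x y + j * κ with hD
  have d0 : ∀ x y, qf Z x y ≤ D x y := fun x y => by
    simp only [hD]
    split_ifs with h
    · rw [h, qf_self]
    · linarith
  have de : ∀ e, D (s e) (t e) = qf Z (s e) (t e) + j * κ := fun e => if_neg (hl e)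
  obtain ⟨w, w1, w2, w3⟩ := hkl n E s t K Δ q hn (by omega) hK hKq hΔ hPC D c
    ⟨fun x => if_pos rfl, fun x y => (hz x y).trans (d0 x y), fun x y => by simp only [hD, qf_symm Z x y, eq_comm],
      fun x y z => by
        by_cases e1 : x = y
        · subst e1; simp [hD]
        by_cases e2 : y = z
        · subst e2; simp [hD]
        simp only [hD, if_neg e1, if_neg e2]
        split_ifs <;> linarith [h5 x y z, hz x y, hz y z]⟩
    (fun e => by rw [de]; linarith [hz (s e) (t e)]) fun e => (de e).trans_le (h3 e)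
  have b1 := h6 w w1 (w2.trans (pow_le_pow_left₀ (Nat.cast_nonneg _) hB 2))
  have b2 : ∑ x, ∑ y, w x y * qf Z x y ≤ ∑ x, ∑ y, w x y * D x y :=
    sum_le_sum fun x _ => sum_le_sum fun y _ => mul_le_mul_of_nonneg_left (d0 x y) (w1 x y)
  have b3 : ∀ e, a e * res (Gam s t + Lw w) (s e) (t e) ≤
      (if ¬ Sp s t K (cheap c (c e / (16 * q ^ 2))) (s e) (t e) then
        D (s e) (t e) * res (Gam s t + Lw w) (s e) (t e) else 0) + (c e / (16 * q ^ 2) + 3) := fun e => by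
    have r0 := res_nonneg (GamLw_posDef s t w1) (s e) (t e)
    have c0 : 0 ≤ c e / (16 * q ^ 2) := div_nonneg (by linarith [h3 e, hz (s e) (t e)]) (by positivity)
    split_ifs with hsp
    · rcases h7 e with h | ⟨γ, g1, g2⟩
      · rw [h]; linarith
      · have : γ < c e / (16 * q ^ 2) := lt_of_not_ge fun hle => g2 (sp_mono (fun f hf => by
          simp only [cheap, mem_filter, mem_univ, true_and] at hf ⊢
          linarith) hsp)
        linarith [mul_le_of_le_one_right (h2 e).1 (res_GamLw_le_one s t w1 e)]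
    · linarith [mul_le_mul_of_nonneg_right ((h2 e).2.trans (d0 _ _)) r0]
  have b4 := sum_le_sum fun e (_ : e ∈ univ) => b3 e
  rw [sum_add_distrib, sum_add_distrib, ← sum_filter, ← sum_div, sum_const, card_univ, nsmul_eq_mul] at b4
  have b5 : (∑ e, c e) / (16 * q ^ 2) ≤ 2 * j / (16 * q ^ 2) := by gcongr
  have b6 : (j : ℝ) / (4 * q ^ 2) ≤ 3 * Fintype.card E := by
    have e1 : (j : ℝ) / (4 * q ^ 2) = j * (1 / q ^ 2) / 2 - 2 * (2 * j / (16 * q ^ 2)) := by field_simp; ring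
    linarith
  rw [div_le_iff₀ (by positivity)] at b6
  have : (j : ℝ) ≤ 12 * Fintype.card E * q ^ 2 := by linarith
  exact_mod_cast this

end Crest.Agent.R37
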