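import Crest.Agent.R37.CS1
import Crest.Agent.R37.CGreedy
import Crest.Agent.R37.FTL

/-!
# R37/CFTL: follow the leader in polynomial time.
`B = n + m + 100`, `κ = 2/B⁴`, `c = cz κ`.  `Solv.loop` on states `(cz, j, res)` with `res : Option (H, w)`-like data (e.g. a flag), invariant
`FInv .. c j ∧ 0 ≤ cz`, (`cz e ≤ j B⁴` from `∑ c ≤ 2j`), measure `12 m q² + 1 - j` (`finv_bound`).  Step: `solv_greedy` (`PC.mono`), `solv_s1`; on a dual answer
`cz' e = cz e + ⌈d e / κ⌉ + 1` (`finv_step`).  The answer `(H, w)` need not be stored: run the loop until `solv_greedy`+`solv_s1` (fixed functions of `cz`) answer `true`, then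
apply them once more.  `q² ≤ Δ ≤ m` by `PC.le_card`.
-/

set_option autoImplicit false

open Matrix Finset Crest.Agent.Lib.PolyTime

noncomputable section

namespace Crest.Agent.R37

variable {α α' : Type} [Enc α] [Enc α']

theorem cftl_le {n : ℕ} {E : Type} [Fintype E] [DecidableEq E] {s t : E → Fin n} {K : ℤ} {cap κ B : ℝ}
    {c : E → ℝ} {j : ℕ} (h : FInv s t K cap κ B c j) (hκ : 0 ≤ κ) (e : E) : 0 ≤ c e ∧ c e ≤ 2 * j := by
  obtain ⟨Z, a, hZ, -, h1, h2, -⟩ := h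
  have h0 : ∀ e, 0 ≤ c e := fun e =>
    le_trans (add_nonneg (qf_nonneg hZ _ _) (mul_nonneg (Nat.cast_nonneg _) hκ)) (h1 e)
  exact ⟨h0 e, (single_le_sum (fun e _ => h0 e) (mem_univ e)).trans h2⟩

theorem cftl_ceil {κ : ℝ} (hκ : 0 < κ) (z : ℤ) (d : ℝ) :
    z * κ + d + κ ≤ ((z + ⌈d / κ⌉ + 1 : ℤ) : ℝ) * κ ∧ ((z + ⌈d / κ⌉ + 1 : ℤ) : ℝ) * κ ≤ z * κ + d + 2 * κ := by
  have h1 := mul_le_mul_of_nonneg_right (Int.le_ceil (d / κ)) hκ.le
  have h2 := mul_le_mul_of_nonneg_right (Int.ceil_lt_add_one (d / κ)).le hκ.le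
  rw [add_mul, one_mul] at h2
  rw [div_mul_cancel₀ _ hκ.ne'] at h1 h2
  push_cast
  constructor <;> linarith

theorem solv_cert : ∃ q0 : ℕ, ∀ (α : Type) [Enc α] (n m : α → ℕ) (s t : ∀ a, Fin (m a) → Fin (n a))
    (K Δ q : α → ℕ), PG n m s t → PT K → PT q →
    (∀ a, 2 ≤ n a ∧ (∀ e, s a e ≠ t a e) ∧ q0 ≤ q a ∧ 1 ≤ K a ∧ K a ≤ q a * Δ a ∧ q a ^ 12 ≤ Δ a ∧
      PC (s a) (t a) (K a + Δ a)) →
    Solv fun a (o : Finset (Fin (m a)) × (Fin (n a) → Fin (n a) → ℚ)) =>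
      Base (s a) (t a) (K a) (ind o.1) ∧ (∀ x y, 0 ≤ o.2 x y) ∧
        Cert (s a) (t a) o.1 (fun x y => o.2 x y) (1 / q a ^ 2) := by
  obtain ⟨q0, hq0⟩ := finv_bound
  refine ⟨q0 + 1, fun α _ n m s t K Δ q hG hK hq hp => ?_⟩
  let B : α → ℕ := fun a => n a + m a + 100
  let κ : α → ℝ := fun a => 2 / (B a : ℝ) ^ 4
  have hBpos : ∀ a, (0 : ℝ) < B a := fun a => by simp only [B]; positivity
  have hκ : ∀ a, 0 < κ a := fun a => div_pos two_pos (pow_pos (hBpos a) _)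
  have hn1 := hG.hn.1
  have hn2 := hG.hn.2
  have hm1 := hG.hm.1
  have hm2 := hG.hm.2
  have hB : UN B := ⟨by simp only [B]; fun_prop, by simp only [B]; fun_prop⟩
  have hκR : RPT κ := (RPT.ofNat 2).div ((RPT.nat hB.1).pow 4)
  have hle : ∀ a, K a + Δ a ≤ m a := fun a => by
    have := (hp a).2.2.2.2.2.2.le_card (hp a).1
    rw [Fintype.card_fin] at this
    exact_mod_cast this
  have hq1 : ∀ a, 1 ≤ q a := fun a => by have := (hp a).2.2.1; omega
  have hq2 : ∀ a, q a ^ 2 ≤ m a := fun a => by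
    have h1 : q a ^ 2 ≤ q a ^ 12 := Nat.pow_le_pow_right (hq1 a) (by omega)
    have := (hp a).2.2.2.2.2.1
    have := hle a
    omega
  have hKU : UN K := ⟨hK, hm2.mono fun a => by have := hle a; omega⟩
  let Inv : ∀ a, (Fin (m a) → ℤ) × ℕ → Prop := fun a x =>
    FInv (s a) (t a) (K a) (1 / (q a : ℝ) ^ 2) (κ a) (B a) (fun e => x.1 e * κ a) x.2
  have hmB : ∀ a, (Fintype.card (Fin (m a)) : ℝ) ≤ B a := fun a => by
    rw [Fintype.card_fin]
    exact_mod_cast (by simp only [B]; omega : m a ≤ B a)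
  have hj : ∀ a x, Inv a x → x.2 ≤ 12 * m a * m a := fun a x hx => by
    obtain ⟨h1, h2, h3, h4, h5, h6, h7⟩ := hp a
    have := hq0 (n a) (Fin (m a)) (s a) (t a) (K a) (Δ a) (q a) h1 h2 (by omega) h4 h5 h6 h7 _ _ _ _ (hκ a)
      (hmB a) hx
    rw [Fintype.card_fin] at this
    exact this.trans (Nat.mul_le_mul_left _ (hq2 a))
  have hcz : DPT fun p : Σ a, {x // Inv a x} => p.2.1.1 := dpt_sigma_snd.val.fst
  obtain ⟨H, hH, hHs⟩ := solv_greedy (hG.comp (pt_sigma_fst (β := fun a => {x // Inv a x})))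
    (hKU.comp pt_sigma_fst) (c := fun p e => p.2.1.1 e * κ p.1)
    ((VPT.ofZ hcz).mul (hκR.comp (pt_sigma_fst.comp pt_sigma_fst))) (fun p => by have := (hp p.1).1; omega)
    (fun p => (hp p.1).2.1) fun p => (hp p.1).2.2.2.2.2.2.mono (by have := (hp p.1).1; omega) (by omega)
  obtain ⟨o, ho, hos⟩ := solv_s1 (hG.comp (pt_sigma_fst (β := fun a => {x // Inv a x}))) hH
    (hB.comp pt_sigma_fst) (cap := fun p => 1 / (q p.1 : ℝ) ^ 2)
    (RPT.one.div ((RPT.nat (hq.comp pt_sigma_fst)).pow 2)) fun p => by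
      have h1 := (hp p.1).1
      have h2 : (1 : ℝ) ≤ (q p.1 : ℝ) ^ 2 := one_le_pow₀ (by exact_mod_cast hq1 p.1)
      refine ⟨by omega, by simp only [B]; omega, by simp only [B]; omega, by simp only [B]; omega,
        div_le_one_of_le₀ h2 (by positivity), ?_⟩
      rw [one_div_mul_eq_div, le_div_iff₀ (by positivity), one_mul]
      exact_mod_cast (hq2 p.1).trans (by simp only [B]; omega)
  have hstep : ∀ p : Σ a, {x // Inv a x}, ¬ (o p).1 = true →
      Inv p.1 (fun e => p.2.1.1 e + ⌈((o p).2.2 e : ℝ) / κ p.1⌉ + 1, p.2.1.2 + 1) := fun p h => by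
    obtain ⟨Z, hZ, hd⟩ := (hos p).2 (by simpa using h)
    refine finv_step p.2.2 (hκ _).le ?_ (hHs p).2 hZ fun e => ?_
    · have h1 := hmB p.1
      have h2 : (100 : ℝ) ≤ B p.1 := by exact_mod_cast (by simp only [B]; omega : 100 ≤ B p.1)
      simp only [κ]
      generalize (B p.1 : ℝ) = b at h1 h2
      rw [mul_div_assoc', div_mul_eq_mul_div, div_le_one (by positivity)]
      have h3 : 100 ^ 3 ≤ b ^ 3 := pow_le_pow_left₀ (by norm_num) h2 3
      nlinarith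
    · rw [← hd]
      exact cftl_ceil (hκ _) _ _
  have hI0 : ∀ a, Inv a (fun _ => 0, 0) := fun a => by simpa [Inv] using finv_zero (s a) (t a) _ _ _ _
  obtain ⟨f, hf, h⟩ := Solv.loop (β := fun a => {x // Inv a x}) (fun a x => (o ⟨a, x⟩).1 = true)
    (fun a x => 12 * m a * m a - x.1.2)
    (g := fun a => m a * (6 * (12 * m a * m a * B a ^ 4) + 7 + 1) + 1 + (6 * (12 * m a * m a) + 1) + 1)
    (by have := hB.2; fun_prop)
    (x0 := fun a => ⟨(fun _ => 0, 0), hI0 a⟩)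
    (DPT.mk ((DPT.pi hG.hm (DPT.of_pt (PT.const 0))).pair (DPT.of_pt (PT.const 0))) hI0)
    (fun a => by omega) (fun a x => by
      have h1 := hj a x.1 x.2
      have h2 : esize x.1.1 ≤ m a * (6 * (12 * m a * m a * B a ^ 4) + 7 + 1) + 1 := by
        refine esize_pi_le fun e => esize_int_le ?_
        obtain ⟨h3, h4⟩ := cftl_le x.2 (hκ a).le e
        have h5 : (0 : ℝ) ≤ x.1.1 e := nonneg_of_mul_nonneg_left h3 (hκ a)
        have h6 : (x.1.2 : ℝ) ≤ 12 * m a * m a := by exact_mod_cast h1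
        have h7 : (x.1.1 e : ℝ) ≤ 12 * m a * m a * B a ^ 4 := by
          have h8 := pow_pos (hBpos a) 4
          simp only [κ] at h4
          rw [mul_div_assoc', div_le_iff₀ h8] at h4
          nlinarith
        rw [abs_of_nonneg (by exact_mod_cast h5)]
        exact_mod_cast h7
      have h3 := esize_nat_le_self x.1.2
      rw [esize_subtype, esize_prod]
      omega) (by
      refine Solv.cases (c := fun p => (o p).1 = true) ho.fst.pt.eq_true
        ⟨fun _ => none, DPT.none, fun p => ⟨fun _ => p.2, by simp⟩⟩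
        ⟨fun p => some ⟨_, hstep p.1 p.2⟩, DPT.some (DPT.mk (DPT.comp (φ := Subtype.val)
          (f := fun p : Σ a, {x // Inv a x} =>
            ((fun e => p.2.1.1 e + ⌈((o p).2.2 e : ℝ) / κ p.1⌉ + 1 : Fin (m p.1) → ℤ), p.2.1.2 + 1))
          (DPT.pair (DPT.pi (hG.hm.comp pt_sigma_fst) (DPT.of_pt ?_)) (DPT.of_pt ?_)) pt_val)
            fun p => hstep p.1 p.2),
          fun p => ⟨by simp, ?_⟩⟩
      · exact ((((hcz.comp pt_sigma_fst).apply dpt_sigma_snd).pt.int_add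
          ((VPT.ofQ ho.snd.snd).div (hκR.comp (pt_sigma_fst.comp pt_sigma_fst))).ceil).int_add (PT.const 1))
      · exact (dpt_sigma_snd (β := fun a => {x // Inv a x})).val.snd.pt.nat_add (PT.const 1)
      · rintro y ⟨rfl⟩
        have := hj _ _ (hstep p.1 p.2)
        simp only at this ⊢
        omega)
  have hφ : PT fun a => (⟨a, f a⟩ : Σ a, {x // Inv a x}) := pt_sigma_mk PT.id' hf
  exact ⟨fun a => (H ⟨a, f a⟩, (o ⟨a, f a⟩).2.1), (hH.comp hφ).pair (ho.snd.fst.comp hφ),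
    fun a => ⟨(hHs ⟨a, f a⟩).1, (hos ⟨a, f a⟩).1 (h a)⟩⟩

end Crest.Agent.R37
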