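import Crest.Agent.R37.Defs

/-!
# R37/Mat1: tight sets, exchange, classes.
`u(E[U∩V]) + u(E[U∪V]) = u(E[U]) + u(E[V]) + u(edges inside U∪V, inside neither)`, so for `u ≥ 0`
independent, two intersecting tight sets have tight union and intersection, and the extra edges have
`u = 0`.  `class_sum`: let `U*` be the smallest tight set containing `e` (`univ` is tight); the maximal
tight subsets of `U*` not containing `e` are pairwise disjoint (as `u e > 0`), and the class of `e` is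
`ins U*` minus the edges inside them; each `u(ins U)` is a multiple of `K`.
-/

set_option autoImplicit false

open Matrix Finset

noncomputable section

namespace Crest.Agent.R37

variable {n : ℕ} {E : Type} [Fintype E] [DecidableEq E]

variable {s t : E → Fin n} {K : ℤ} {u : E → ℤ}

lemma mat1_mem {U : Finset (Fin n)} {e : E} : e ∈ ins s t U ↔ s e ∈ U ∧ t e ∈ U := by simp [ins]

lemma mat1_single (U : Finset (Fin n)) (f : E) :
    ∑ e ∈ ins s t U, (Pi.single f 1 : E → ℤ) e = if f ∈ ins s t U then 1 else 0 := by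
  simp only [Pi.single_apply, Finset.sum_ite_eq']

theorem tight_union_inter (h0 : ∀ e, 0 ≤ u e) (hI : Ind s t K u) {U V : Finset (Fin n)}
    (hU : Tight s t K u U) (hV : Tight s t K u V) (hUV : (U ∩ V).Nonempty) :
    Tight s t K u (U ∪ V) ∧ Tight s t K u (U ∩ V) ∧
      ∀ e ∈ ins s t (U ∪ V), e ∉ ins s t U → e ∉ ins s t V → u e = 0 := by
  have h1 := hI (U ∪ V) (hU.1.mono subset_union_left)
  have h2 := hI (U ∩ V) hUV
  have h3 := hU.2
  have h4 := hV.2
  have hc : ((U ∪ V).card : ℤ) + (U ∩ V).card = U.card + V.card := by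
    exact_mod_cast card_union_add_card_inter U V
  have key : ∀ W : Finset (Fin n), ∑ e ∈ ins s t W, u e = ∑ e, if e ∈ ins s t W then u e else 0 := fun W => by
    rw [← Finset.sum_filter]; congr 1; ext e; simp
  let g : E → ℤ := fun e => (if e ∈ ins s t (U ∪ V) then u e else 0) + (if e ∈ ins s t (U ∩ V) then u e else 0) -
    (if e ∈ ins s t U then u e else 0) - (if e ∈ ins s t V then u e else 0)
  have g0 : ∀ e ∈ (univ : Finset E), 0 ≤ g e := fun e _ => by
    have := h0 e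
    simp only [g, mat1_mem, mem_union, mem_inter]
    by_cases a : s e ∈ U <;> by_cases b : s e ∈ V <;> by_cases c : t e ∈ U <;> by_cases d : t e ∈ V <;>
      simp [a, b, c, d, this]
  have g1 : ∑ e, g e = ∑ e ∈ ins s t (U ∪ V), u e + ∑ e ∈ ins s t (U ∩ V), u e - ∑ e ∈ ins s t U, u e -
      ∑ e ∈ ins s t V, u e := by
    simp only [g, key, Finset.sum_sub_distrib, Finset.sum_add_distrib]
  have g2 := Finset.sum_nonneg g0
  have e1 : K * (((U ∪ V).card : ℤ) - 1) + K * (((U ∩ V).card : ℤ) - 1) =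
      K * ((U.card : ℤ) - 1) + K * ((V.card : ℤ) - 1) := by linear_combination K * hc
  refine ⟨⟨hU.1.mono subset_union_left, by linarith⟩, ⟨hUV, by linarith⟩, fun e he a b => ?_⟩
  have g3 := (Finset.sum_eq_zero_iff_of_nonneg g0).1 (by linarith) e (mem_univ e)
  have c : e ∉ ins s t (U ∩ V) := fun h => a (by
    simp only [mat1_mem, mem_inter] at h ⊢; exact ⟨h.1.1, h.2.1⟩)
  simpa only [g, if_pos he, if_neg a, if_neg b, if_neg c, add_zero, sub_zero] using g3

theorem Ind.mono {v : E → ℤ} (hI : Ind s t K u) (h : ∀ e, v e ≤ u e) : Ind s t K v :=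
  fun U hU => (Finset.sum_le_sum fun e _ => h e).trans (hI U hU)

theorem sep_iff (hI : Ind s t K u) (e f : E) :
    Sep s t K u e f ↔ ¬ Ind s t K (u - Pi.single e 1 + Pi.single f 1) := by
  simp only [Ind, Sep, Tight, not_forall, not_le, Pi.add_apply, Pi.sub_apply, Finset.sum_add_distrib,
    Finset.sum_sub_distrib, mat1_single]
  constructor
  · rintro ⟨U, ⟨h1, h2⟩, h3, h4⟩
    exact ⟨U, h1, by rw [if_pos h3, if_neg h4]; omega⟩
  · rintro ⟨U, h1, h2⟩
    have := hI U h1
    refine ⟨U, ?_⟩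
    split_ifs at h2 with a b b
    · omega
    · omega
    · exact ⟨⟨h1, by omega⟩, b, a⟩
    · omega

theorem ind_add_iff (hI : Ind s t K u) (f : E) :
    ¬ Ind s t K (u + Pi.single f 1) ↔ ∃ U, Tight s t K u U ∧ f ∈ ins s t U := by
  simp only [Ind, Tight, not_forall, not_le, Pi.add_apply, Finset.sum_add_distrib, mat1_single]
  constructor
  · rintro ⟨U, h1, h2⟩
    have := hI U h1
    refine ⟨U, ?_⟩
    split_ifs at h2 with a
    · exact ⟨⟨h1, by omega⟩, a⟩
    · omega
  · rintro ⟨U, ⟨h1, h2⟩, h3⟩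
    exact ⟨U, h1, by rw [if_pos h3]; omega⟩

theorem cl_equiv (s t : E → Fin n) (K : ℤ) (u : E → ℤ) : Equivalence (Cl s t K u) := by
  refine ⟨fun e => ⟨?_, ?_⟩, fun h => h.symm, fun {e f g} h1 h2 => ⟨?_, ?_⟩⟩
  · rintro ⟨U, -, a, b⟩; exact b a
  · rintro ⟨U, -, a, b⟩; exact b a
  · rintro ⟨U, hU, a, b⟩
    by_cases c : f ∈ ins s t U
    · exact h1.1 ⟨U, hU, c, b⟩
    · exact h2.1 ⟨U, hU, a, c⟩
  · rintro ⟨U, hU, a, b⟩
    by_cases c : f ∈ ins s t U
    · exact h2.2 ⟨U, hU, c, b⟩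
    · exact h1.2 ⟨U, hU, a, c⟩

open Classical in
theorem class_sum (hB : Base s t K u) {e : E} (he : 0 < u e) :
    K ∣ ∑ f ∈ univ.filter (fun f => Cl s t K u e f), u f := by
  obtain ⟨h0, hI, hT⟩ := hB
  have hm : ∀ f U, f ∈ ins s t U ↔ s f ∈ U ∧ t f ∈ U := by simp [ins]
  obtain ⟨U, -, hU⟩ := Finite.exists_le_minimal (p := fun U => Tight s t K u U ∧ e ∈ ins s t U) (a := univ)
    ⟨⟨⟨s e, mem_univ _⟩, by simpa [ins] using hT⟩, by simp [ins]⟩
  obtain ⟨⟨hU1, hU2⟩, hU3⟩ := hU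
  have key : ∀ f V, f ∈ ins s t U → Tight s t K u V → f ∈ ins s t V →
      Tight s t K u (U ∩ V) ∧ f ∈ ins s t (U ∩ V) := fun f V h1 h2 h3 => by
    rw [hm] at h1 h3
    exact ⟨(tight_union_inter h0 hI hU1 h2 ⟨s f, mem_inter.2 ⟨h1.1, h3.1⟩⟩).2.1,
      (hm _ _).2 ⟨mem_inter.2 ⟨h1.1, h3.1⟩, mem_inter.2 ⟨h1.2, h3.2⟩⟩⟩
  have hmono : ∀ {V V' : Finset (Fin n)}, V ⊆ V' → ins s t V ⊆ ins s t V' := fun h f hf =>
    (hm _ _).2 ⟨h ((hm _ _).1 hf).1, h ((hm _ _).1 hf).2⟩
  let P : Finset (Fin n) → Prop := fun V => Tight s t K u V ∧ V ⊆ U ∧ e ∉ ins s t V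
  have hd : ((univ.filter (Maximal P) : Finset _) : Set (Finset (Fin n))).PairwiseDisjoint (ins s t) := by
    intro V hV V' hV' hne
    have hV : Maximal P V := by simpa using hV
    have hV' : Maximal P V' := by simpa using hV'
    refine disjoint_left.2 fun f h1 h2 => hne ?_
    obtain ⟨a1, -, a3⟩ := tight_union_inter h0 hI hV.1.1 hV'.1.1
      ⟨s f, mem_inter.2 ⟨((hm _ _).1 h1).1, ((hm _ _).1 h2).1⟩⟩
    have a4 : P (V ∪ V') := ⟨a1, union_subset hV.1.2.1 hV'.1.2.1, fun h => he.ne' (a3 e h hV.1.2.2 hV'.1.2.2)⟩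
    exact Subset.antisymm (subset_union_left.trans (hV'.2 a4 subset_union_right))
      (subset_union_right.trans (hV.2 a4 subset_union_left))
  have hcl : univ.filter (fun f => Cl s t K u e f) =
      ins s t U \ (univ.filter (Maximal P)).biUnion (ins s t) := by
    ext f
    simp only [mem_filter, mem_univ, true_and, mem_sdiff, mem_biUnion, Cl, Sep, not_exists, not_and, not_not]
    refine ⟨fun h => ⟨h.2 U hU1 hU2, fun V hV hf => hV.1.2.2 (h.1 V hV.1.1 hf)⟩, fun h => ⟨fun V hV hf => ?_,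
      fun V hV heV => hmono ((hU3 (key e V hU2 hV heV) inter_subset_left).trans inter_subset_right) h.1⟩⟩
    by_contra heV
    obtain ⟨a1, a2⟩ := key f V h.1 hV hf
    obtain ⟨V', b1, b2⟩ := Finite.exists_le_maximal (p := P) (a := U ∩ V)
      ⟨a1, inter_subset_left, fun h1 => heV (hmono inter_subset_right h1)⟩
    exact h.2 V' b2 (hmono b1 a2)
  rw [hcl, sum_sdiff_eq_sub (biUnion_subset.2 fun V hV => hmono (mem_filter.1 hV).2.1.2.1), sum_biUnion hd, hU1.2]
  exact dvd_sub (dvd_mul_right _ _) (dvd_sum fun V hV => (mem_filter.1 hV).2.1.1.2 ▸ dvd_mul_right _ _)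

/-- a fractional edge has a fractional partner in its class -/
theorem exists_partner {N k : ℤ} (hN : 0 < N) (hB : Base s t (k * N) u) (hle : ∀ e, u e ≤ N) {e : E}
    (h0 : 0 < u e) (h1 : u e < N) : ∃ f, f ≠ e ∧ Cl s t (k * N) u e f ∧ 0 < u f ∧ u f < N := by
  classical
  by_contra h
  have h2 := (dvd_mul_left N k).trans (class_sum hB h0)
  rw [← add_sum_erase _ _ (mem_filter.2 ⟨mem_univ e, (cl_equiv s t _ u).refl e⟩)] at h2
  refine absurd (Int.le_of_dvd h0 ((dvd_add_left (dvd_sum fun f hf => ?_)).1 h2)) h1.not_ge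
  rcases (hB.1 f).eq_or_lt with h3 | h3
  · exact h3 ▸ dvd_zero _
  rcases (hle f).eq_or_lt with h4 | h4
  · exact h4 ▸ dvd_rfl
  exact absurd ⟨f, (mem_erase.1 hf).1, (mem_filter.1 (mem_erase.1 hf).2).2, h3, h4⟩ h

/-- moves along pairs of one class keep every tight set -/
theorem tight_move {ι : Type} (I : Finset ι) (p q : ι → E) (κ : ι → ℤ)
    (h : ∀ i ∈ I, Cl s t K u (p i) (q i)) {U : Finset (Fin n)} (hU : Tight s t K u U) :
    Tight s t K (u + ∑ i ∈ I, κ i • (Pi.single (p i) 1 - Pi.single (q i) 1)) U := by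
  refine ⟨hU.1, ?_⟩
  simp only [Pi.add_apply, Finset.sum_add_distrib, Finset.sum_apply, Pi.smul_apply, Pi.sub_apply, smul_eq_mul]
  rw [hU.2, Finset.sum_comm, add_eq_left]
  refine Finset.sum_eq_zero fun i hi => ?_
  rw [← Finset.mul_sum, Finset.sum_sub_distrib, mat1_single, mat1_single]
  by_cases a : p i ∈ ins s t U <;> by_cases b : q i ∈ ins s t U
  · simp [a, b]
  · exact absurd ⟨U, hU, a, b⟩ (h i hi).2
  · exact absurd ⟨U, hU, b, a⟩ (h i hi).1
  · simp [a, b]

theorem base_scale {k : ℤ} {H : Finset E} (hB : Base s t (2 * k) (ind H)) {M : ℤ} (hM : 0 ≤ M) :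
    Base s t (k * (2 * M)) (fun e => M * ind H e) := by
  refine ⟨fun e => mul_nonneg hM (hB.1 e), fun U hU => ?_, ?_⟩
  · rw [← Finset.mul_sum]
    have := mul_le_mul_of_nonneg_left (hB.2.1 U hU) hM
    linarith
  · rw [← Finset.mul_sum, hB.2.2]; ring

theorem base_unscale {k N : ℤ} (hN : 0 < N) (hB : Base s t (k * N) u) (h : ∀ e, u e = 0 ∨ u e = N) :
    Base s t k (ind (univ.filter fun e => u e = N)) := by
  have e1 : ∀ e, u e = N * ind (univ.filter fun e => u e = N) e := fun e => by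
    rcases h e with a | a
    · simp [ind, a, hN.ne]
    · simp [ind, a]
  refine ⟨fun e => ?_, fun U hU => ?_, ?_⟩
  · unfold ind; split_ifs <;> simp
  · have := hB.2.1 U hU
    rw [Finset.sum_congr rfl fun e _ => e1 e, ← Finset.mul_sum] at this
    exact le_of_mul_le_mul_left (by linarith) hN
  · have := hB.2.2
    rw [Finset.sum_congr rfl fun e _ => e1 e, ← Finset.mul_sum] at this
    exact mul_left_cancel₀ hN.ne' (by linarith)

end Crest.Agent.R37
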