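import Crest.Agent.R37.CFeasM
import Crest.Agent.R37.Dep3
import Crest.Agent.R37.Mat1

/-!
# R37/CFeas: the independence test.  `Solv.pi` over the root, `Solv.localSearch` with `shf`, `shOk`; then compare the loads.
-/

set_option autoImplicit false

open Matrix Finset Crest.Agent.Lib.PolyTime

noncomputable section

namespace Crest.Agent.R37

variable {α α' : Type} [Enc α] [Enc α']

variable {n m : α → ℕ} {s t : ∀ a, Fin (m a) → Fin (n a)} {K : α → ℤ} {u : ∀ a, Fin (m a) → ℤ}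
  {g : α → ℕ}

theorem cf_Q (hn : UN n) {x : α → ℤ} (hx : PT x) : PT fun a => ((n a : ℤ) ^ 2 + 1) * x a :=
  ((hn.1.int_natCast.int_pow (PT.const 2) (PB.const 2)).int_add (PT.const 1)).int_mul hx

theorem cf_load (hG : PG n m s t) (hK : PT K) (hu : DPT u) {r v : ∀ a, Fin (n a)}
    {y : ∀ a, Fin (m a) → ℤ} (hr : DPT r) (hy : DPT y) (hv : DPT v) :
    PT fun a => load (s a) (t a) (K a) (u a) (r a) (y a) (v a) := by
  have hφ := pt_sigma_fst (β := fun a => Fin (m a))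
  have h1 := ((hy.comp hφ).apply dpt_sigma_snd).pt
  have h2 := PT.ite (((hG.hs.comp hφ).apply dpt_sigma_snd).eq (hv.comp hφ)) h1 (PT.const 0)
  have h3 := PT.ite (((hG.ht.comp hφ).apply dpt_sigma_snd).eq (hv.comp hφ))
    ((cf_Q (hG.hn.comp hφ) ((hu.comp hφ).apply dpt_sigma_snd).pt).int_sub h1) (PT.const 0)
  have h4 := (En.fin hG.hm).sumInt (f := fun a e => (if s a e = v a then y a e else 0) +
    if t a e = v a then ((n a : ℤ) ^ 2 + 1) * u a e - y a e else 0) (h2.int_add h3)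
  exact h4.int_add (PT.ite (hv.eq hr) (cf_Q hG.hn hK) (PT.const 0))

theorem cf_single {e : ∀ a, Fin (m a)} (he : DPT e) {c : α → ℤ} (hc : PT c) :
    PT fun p : Σ a, Fin (m a) => (Pi.single (e p.1) (c p.1) : Fin (m p.1) → ℤ) p.2 :=
  (PT.ite (dpt_sigma_snd.eq (he.comp pt_sigma_fst)) (hc.comp pt_sigma_fst) (PT.const 0)).of_eq
    fun p => by simp [Pi.single_apply]

theorem cf_solv (hG : PG n m s t) (hK : PT K) (hu : DPT u) (hg : PB g)
    (hKb : ∀ a, 0 ≤ K a ∧ K a ≤ g a) (hub : ∀ a e, 0 ≤ u a e ∧ u a e ≤ g a) {r : ∀ a, Fin (n a)}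
    (hr : DPT r) : Solv fun a (y : Fin (m a) → ℤ) =>
      Shr (n a) (u a) y ∧ ∀ i, ¬ shOk (s a) (t a) (K a) (u a) (r a) y i := by
  have h1 := hG.hn.2
  have h2 := hG.hm.2
  have hφ := pt_sigma_fst (β := fun a => {x // Shr (n a) (u a) x} × (Fin (m a) × Bool))
  have hd := dpt_sigma_snd (β := fun a => {x // Shr (n a) (u a) x} × (Fin (m a) × Bool))
  refine Solv.localSearch (fun a y => Shr (n a) (u a) y)
    (fun a y => (∑ v, load (s a) (t a) (K a) (u a) (r a) y v ^ 2).toNat)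
    (g := fun a => ((n a ^ 2 + 1) * (m a * g a + g a)) ^ 2 +
      (m a * (6 * ((n a ^ 2 + 1) * g a) + 7 + 1) + 1)) (by fun_prop) (x0 := fun _ _ => 0)
    (DPT.pi hG.hm (DPT.of_pt (PT.const 0))) (fun a => ?_) (fun a x hx => ?_)
    ((En.fin hG.hm).prod En.bool) (fun _ => shf) (fun a => shOk (s a) (t a) (K a) (u a) (r a)) ?_ ?_
    fun a x i h hi => shf_spec h hi
  · have h0 : Shr (n a) (u a) fun _ => 0 := fun e =>
      ⟨le_rfl, mul_nonneg (by positivity) (hub a e).1⟩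
    refine ⟨h0, le_add_right (Int.toNat_le.2 ((load_sq_le (hKb a).1 h0).trans ?_))⟩
    have h3 : ∑ e, u a e ≤ m a * g a := by simpa using sum_le_card_nsmul univ _ _ fun e _ => (hub a e).2
    have h4 : 0 ≤ ∑ e, u a e := sum_nonneg fun e _ => (hub a e).1
    have h5 := hKb a
    push_cast
    gcongr
    exacts [mul_nonneg (by positivity) (by linarith), h5.2]
  · refine le_add_left (esize_pi_le fun e => esize_int_le ?_)
    rw [abs_of_nonneg (hx e).1]
    push_cast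
    exact (hx e).2.trans (mul_le_mul_of_nonneg_left (hub a e).2 (by positivity))
  · have l1 := ((hd.fst.val.comp (pt_sigma_fst (β := fun p => Fin (m p.1)))).apply dpt_sigma_snd).pt
    have l2 := cf_single hd.snd.fst (PT.ite hd.snd.snd.pt.eq_true (PT.const (-1)) (PT.const 1))
    exact DPT.pi (β := fun _ => ℤ) (hG.hm.comp hφ) (DPT.of_pt (l1.int_add l2))
  · have l1 := cf_load (hG.comp hφ) (hK.comp hφ) (hu.comp hφ) (hr.comp hφ) hd.fst.val
      ((hG.hs.comp hφ).apply hd.snd.fst)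
    have l2 := cf_load (hG.comp hφ) (hK.comp hφ) (hu.comp hφ) (hr.comp hφ) hd.fst.val
      ((hG.ht.comp hφ).apply hd.snd.fst)
    have l3 := (hd.fst.val.apply hd.snd.fst).pt
    exact PT.ite hd.snd.snd.pt.eq_true
      (((PT.const 0).int_lt l3).and ((l2.int_add (PT.const 2)).int_le l1))
      ((l3.int_lt (cf_Q (hG.hn.comp hφ) ((hu.comp hφ).apply hd.snd.fst).pt)).and
        ((l1.int_add (PT.const 2)).int_le l2))

theorem pt_ind (hG : PG n m s t) (hK : PT K) (hu : DPT u) (hg : PB g)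
    (hKb : ∀ a, 0 ≤ K a ∧ K a ≤ g a) (hub : ∀ a e, 0 ≤ u a e ∧ u a e ≤ g a) :
    PT fun a => Ind (s a) (t a) (K a) (u a) := by
  have hφ := pt_sigma_fst (β := fun a => Fin (n a))
  obtain ⟨Y, hY, h⟩ := Solv.pi (β := fun a => Fin (m a) → ℤ) hG.hn
    (R := fun a r y => Shr (n a) (u a) y ∧ ∀ i, ¬ shOk (s a) (t a) (K a) (u a) r y i)
    (cf_solv (hG.comp hφ) (hK.comp hφ) (hu.comp hφ) (hg.comp hφ) (fun p => hKb p.1) (fun p => hub p.1)
      dpt_sigma_snd)
  have hψ := pt_sigma_fst (β := fun a => Fin (n a) × Fin (n a))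
  have hd := dpt_sigma_snd (β := fun a => Fin (n a) × Fin (n a))
  refine (((En.fin hG.hn).prod (En.fin hG.hn)).forall
    (p := fun a q => load (s a) (t a) (K a) (u a) q.1 (Y a q.1) q.2 ≤ ((n a : ℤ) ^ 2 + 1) * K a + n a)
    ((cf_load (hG.comp hψ) (hK.comp hψ) (hu.comp hψ) hd.fst ((hY.comp hψ).apply hd.fst) hd.snd).int_le
      (((cf_Q hG.hn hK).int_add hG.hn.1.int_natCast).comp hψ))).of_iff fun a => ?_
  exact ⟨fun hl => ind_of_load_le (Y a) (fun r => (h a r).1) fun r v => hl (r, v),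
    fun hI q => load_le_of_ind (hKb a).1 (h a q.1).1 (h a q.1).2 hI q.2⟩

theorem pt_base (hG : PG n m s t) (hK : PT K) (hu : DPT u) (hg : PB g)
    (hKb : ∀ a, 0 ≤ K a ∧ K a ≤ g a) :
    PT fun a => Base (s a) (t a) (K a) (u a) ∧ ∀ e, u a e ≤ g a := by
  have hφ := pt_sigma_fst (β := fun a => Fin (m a))
  have h1 := ((hu.comp hφ).apply dpt_sigma_snd).pt
  have h2 := (En.fin hG.hm).forall (p := fun a e => 0 ≤ u a e ∧ u a e ≤ K a)
    (((PT.const 0).int_le h1).and (h1.int_le (hK.comp hφ)))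
  have h3 := ((En.fin hG.hm).sumInt (f := u) h1).eq (hK.int_mul (hG.hn.1.int_natCast.int_sub (PT.const 1)))
  have hψ := pt_val (p := fun a => ∀ e, 0 ≤ u a e ∧ u a e ≤ K a)
  have h4 := pt_ind (hG.comp hψ) (hK.comp hψ) (hu.comp hψ) (hg.comp hψ) (fun a => hKb a.1)
    fun a e => ⟨(a.2 e).1, (a.2 e).2.trans (hKb a.1).2⟩
  refine PT.cases_sub h2 ((h4.and (h3.comp hψ)).of_iff fun a => ⟨fun h =>
    ⟨⟨fun e => (a.2 e).1, h⟩, fun e => (a.2 e).2.trans (hKb a.1).2⟩, fun h => h.1.2⟩)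
    ((PT.const False).of_iff fun a => ⟨False.elim, fun h => a.2 fun e => ⟨h.1.1 e, ?_⟩⟩)
  have h5 := h.1.2.1 {s a.1 e, t a.1 e} (insert_nonempty _ _)
  have h6 := single_le_sum (f := u a.1) (fun i _ => h.1.1 i)
    (show e ∈ ins (s a.1) (t a.1) {s a.1 e, t a.1 e} by simp [ins])
  have h7 : (({s a.1 e, t a.1 e} : Finset _).card : ℤ) ≤ 2 := by exact_mod_cast card_le_two
  nlinarith [(hKb a.1).1]

theorem pt_sep (hG : PG n m s t) (hK : PT K) (hu : DPT u) (hg : PB g)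
    (hKb : ∀ a, 0 ≤ K a ∧ K a ≤ g a) (hub : ∀ a e, 0 ≤ u a e ∧ u a e ≤ g a)
    (hI : ∀ a, Ind (s a) (t a) (K a) (u a)) {e f : ∀ a, Fin (m a)} (he : DPT e) (hf : DPT f) :
    PT fun a => u a (e a) = 0 ∨ Sep (s a) (t a) (K a) (u a) (e a) (f a) := by
  have hφ := pt_val (p := fun a => ¬ u a (e a) = 0)
  have l1 := ((hu.comp (pt_sigma_fst (β := fun a => Fin (m a)))).apply dpt_sigma_snd).pt
  have l0 := (l1.int_sub (cf_single he (PT.const 1))).int_add (cf_single hf (PT.const 1))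
  have l2 := DPT.pi (β := fun _ => ℤ) hG.hm
    (F := fun a => u a - Pi.single (e a) 1 + Pi.single (f a) 1) (DPT.of_pt (l0.of_eq fun _ => rfl))
  have l3 : ∀ (a : {a // ¬ u a (e a) = 0}) i,
      0 ≤ (u a.1 - Pi.single (e a.1) 1 + Pi.single (f a.1) 1 : Fin (m a.1) → ℤ) i ∧
      (u a.1 - Pi.single (e a.1) 1 + Pi.single (f a.1) 1 : Fin (m a.1) → ℤ) i ≤ (g a.1 + 1 : ℕ) := by
    intro a i
    have h1 := hub a.1 i
    have h2 := a.2
    simp only [Pi.add_apply, Pi.sub_apply, Pi.single_apply]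
    push_cast
    split_ifs with h3 h4 h4
    all_goals first | (subst h3; omega) | omega
  have l4 := pt_ind (hG.comp hφ) (hK.comp hφ) (l2.comp hφ) ((hg.comp hφ).add (PB.const 1))
    (fun a => ⟨(hKb a.1).1, by push_cast; linarith [(hKb a.1).2]⟩) l3
  have l5 := (hu.apply he).pt.eq (PT.const 0)
  exact PT.cases_sub l5 ((PT.const True).of_iff fun a => by simp [a.2])
    (l4.not.of_iff fun a => by simp [a.2, sep_iff (hI a.1)])

end Crest.Agent.R37
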