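import Crest.Agent.R37.Defs

/-!
# R37/CFeasM: independence through loads (mathematics).
Edge `e` has weight `Q u_e` (`Q = n² + 1`), of which `y e` sits on `s e` and the rest on `t e`; the root `r` carries `Q K` more.  A shift moves one unit from an end with load
`≥ 2 +` load of the other end; it lowers `∑ load²`.  At a stable point let `U_i = {v : load v ≥ max - i}`; some `i < n` has `U_i = U_{i+1}`, then all weight on `U_i` comes from
edges inside `U_i`, so `Ind` gives `(max - n)|U| ≤ QK|U|`.  Conversely for `r ∈ U`: `Q u(E[U]) + QK ≤ ∑_U load ≤ |U| (QK + n)`.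
-/

set_option autoImplicit false

open Matrix Finset

noncomputable section

namespace Crest.Agent.R37

variable {n : ℕ} {E : Type} [Fintype E] [DecidableEq E]

def load (s t : E → Fin n) (K : ℤ) (u : E → ℤ) (r : Fin n) (y : E → ℤ) (v : Fin n) : ℤ :=
  ∑ e, ((if s e = v then y e else 0) + if t e = v then ((n : ℤ) ^ 2 + 1) * u e - y e else 0) +
    if v = r then ((n : ℤ) ^ 2 + 1) * K else 0

def Shr (n : ℕ) (u y : E → ℤ) : Prop := ∀ e, 0 ≤ y e ∧ y e ≤ ((n : ℤ) ^ 2 + 1) * u e

/-- `b = true`: one unit from `s e` to `t e`; `b = false`: the other way -/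
def shf (y : E → ℤ) (i : E × Bool) : E → ℤ := y + Pi.single i.1 (if i.2 then -1 else 1)

def shOk (s t : E → Fin n) (K : ℤ) (u : E → ℤ) (r : Fin n) (y : E → ℤ) (i : E × Bool) : Prop :=
  if i.2 then 0 < y i.1 ∧ load s t K u r y (t i.1) + 2 ≤ load s t K u r y (s i.1)
  else y i.1 < ((n : ℤ) ^ 2 + 1) * u i.1 ∧ load s t K u r y (s i.1) + 2 ≤ load s t K u r y (t i.1)

variable {s t : E → Fin n} {K : ℤ} {u y : E → ℤ} {r : Fin n}

theorem cfm_sum (U : Finset (Fin n)) : ∑ v ∈ U, load s t K u r y v =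
    ∑ e, ((if s e ∈ U then y e else 0) + if t e ∈ U then ((n : ℤ) ^ 2 + 1) * u e - y e else 0) +
      if r ∈ U then ((n : ℤ) ^ 2 + 1) * K else 0 := by
  simp only [load, sum_add_distrib]
  rw [sum_comm, sum_comm (s := U)]
  simp only [sum_ite_eq, sum_ite_eq']

theorem cfm_shift (e : E) (σ : ℤ) (v : Fin n) : load s t K u r (y + Pi.single e σ) v =
    load s t K u r y v + ((if s e = v then σ else 0) - if t e = v then σ else 0) := by
  have : ∀ f, ((if s f = v then (y + Pi.single e σ : E → ℤ) f else 0) +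
      if t f = v then ((n : ℤ) ^ 2 + 1) * u f - (y + Pi.single e σ : E → ℤ) f else 0) =
      ((if s f = v then y f else 0) + if t f = v then ((n : ℤ) ^ 2 + 1) * u f - y f else 0) +
        if f = e then (if s e = v then σ else 0) - if t e = v then σ else 0 else 0 := fun f => by
    by_cases h : f = e
    · subst h
      simp only [Pi.add_apply, Pi.single_eq_same, if_true]
      split_ifs <;> ring
    · simp [h]
  simp only [load, this]
  rw [sum_add_distrib, sum_ite_eq' univ e, if_pos (mem_univ _)]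
  ring

theorem cfm_sq (l : Fin n → ℤ) {a b : Fin n} (h : a ≠ b) (σ : ℤ) :
    ∑ v, (l v + ((if a = v then σ else 0) - if b = v then σ else 0)) ^ 2 =
      ∑ v, l v ^ 2 + 2 * σ * (l a - l b) + 2 * σ ^ 2 := by
  have : ∀ v, (l v + ((if a = v then σ else 0) - if b = v then σ else 0)) ^ 2 =
      l v ^ 2 + ((if a = v then 2 * σ * l v + σ ^ 2 else 0) + if b = v then -(2 * σ * l v) + σ ^ 2 else 0) := fun v => by
    split_ifs with h1 h2
    · exact absurd (h1.trans h2.symm) h
    all_goals ring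
  simp only [this, sum_add_distrib, sum_ite_eq, mem_univ, if_true]
  ring

theorem shf_spec (h : Shr n u y) {i : E × Bool} (hi : shOk s t K u r y i) :
    Shr n u (shf y i) ∧ (∑ v, load s t K u r (shf y i) v ^ 2).toNat < (∑ v, load s t K u r y v ^ 2).toNat := by
  obtain ⟨e, b⟩ := i
  have hne : s e ≠ t e := fun h' => by
    cases b <;> simp [shOk, h'] at hi
  have h0 : 0 ≤ ∑ v, load s t K u r (shf y (e, b)) v ^ 2 := sum_nonneg fun _ _ => sq_nonneg _
  refine ⟨fun f => ?_, ?_⟩
  · have := h f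
    by_cases hf : f = e
    · subst hf
      cases b <;> simp only [shOk, shf, Pi.add_apply, Pi.single_eq_same, if_true, Bool.false_eq_true, if_false] at hi ⊢ <;>
        omega
    · simpa [shf, hf] using this
  · simp only [shf, cfm_shift, cfm_sq _ hne] at h0 ⊢
    cases b <;> simp only [shOk, if_true, Bool.false_eq_true, if_false] at hi h0 ⊢ <;> omega

theorem load_sq_le (hK : 0 ≤ K) (h : Shr n u y) :
    ∑ v, load s t K u r y v ^ 2 ≤ (((n : ℤ) ^ 2 + 1) * (∑ e, u e + K)) ^ 2 := by
  have h1 : ∑ v, load s t K u r y v = ((n : ℤ) ^ 2 + 1) * (∑ e, u e + K) := by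
    simp [cfm_sum, mul_add, mul_sum]
  rw [← h1]
  refine sum_sq_le_sq_sum_of_nonneg fun v _ => add_nonneg (sum_nonneg fun e _ => add_nonneg ?_ ?_) ?_
  · split_ifs
    exacts [(h e).1, le_rfl]
  · split_ifs
    exacts [sub_nonneg.2 (h e).2, le_rfl]
  · positivity

theorem load_le_of_ind (hK : 0 ≤ K) (h : Shr n u y) (hs : ∀ i, ¬ shOk s t K u r y i)
    (hI : Ind s t K u) (v : Fin n) : load s t K u r y v ≤ ((n : ℤ) ^ 2 + 1) * K + n := by
  obtain ⟨v0, -, hv0⟩ := exists_max_image univ (load s t K u r y) ⟨v, mem_univ _⟩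
  set U : ℕ → Finset (Fin n) := fun i => univ.filter fun w => load s t K u r y v0 - i ≤ load s t K u r y w with hU
  have hm : ∀ i w, w ∈ U i ↔ load s t K u r y v0 - i ≤ load s t K u r y w := fun i w => by simp [hU]
  obtain ⟨i, hi, hUi⟩ : ∃ i < n, U (i + 1) ⊆ U i := by
    by_contra hc
    push Not at hc
    have : ∀ i ≤ n, i + 1 ≤ (U i).card := fun i => by
      induction i with
      | zero => exact fun _ => card_pos.2 ⟨v0, by simp [hm]⟩
      | succ i ih =>
        refine fun hi => (ih (by omega)).trans_lt (card_lt_card ⟨fun w hw => ?_, hc i (by omega)⟩)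
        rw [hm] at hw ⊢
        push_cast
        omega
    have h1 := this n le_rfl
    have h2 := card_le_univ (U n)
    rw [Fintype.card_fin] at h2
    omega
  have hne : (U i).Nonempty := ⟨v0, by simp [hm]⟩
  have h1 : ∀ e, ((if s e ∈ U i then y e else 0) + if t e ∈ U i then ((n : ℤ) ^ 2 + 1) * u e - y e else 0) ≤
      if s e ∈ U i ∧ t e ∈ U i then ((n : ℤ) ^ 2 + 1) * u e else 0 := fun e => by
    have h2 := hs (e, true)
    have h3 := hs (e, false)
    have h4 := mt (@hUi (s e))
    have h5 := mt (@hUi (t e))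
    simp only [shOk, if_true, Bool.false_eq_true, if_false] at h2 h3
    simp only [hm] at h4 h5 ⊢
    push_cast at h4 h5
    split_ifs <;> omega
  have h2 := (cfm_sum (s := s) (t := t) (K := K) (u := u) (r := r) (y := y) (U i)).trans_le
    (add_le_add (sum_le_sum fun e _ => h1 e) (show _ ≤ ((n : ℤ) ^ 2 + 1) * K by split_ifs; exacts [le_rfl, by positivity]))
  rw [← sum_filter, ← mul_sum] at h2
  have h3 := mul_le_mul_of_nonneg_left (hI _ hne) (show (0 : ℤ) ≤ (n : ℤ) ^ 2 + 1 by positivity)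
  have h4 := card_nsmul_le_sum (U i) _ _ fun w hw => (hm i w).1 hw
  rw [nsmul_eq_mul] at h4
  have h5 : (0 : ℤ) < (U i).card := by exact_mod_cast card_pos.2 hne
  have h6 : load s t K u r y v0 - i ≤ ((n : ℤ) ^ 2 + 1) * K :=
    le_of_mul_le_mul_left (by unfold ins at h3; nlinarith) h5
  have := hv0 v (mem_univ _)
  omega

theorem ind_of_load_le (Y : Fin n → E → ℤ) (h : ∀ r, Shr n u (Y r))
    (hl : ∀ r v, load s t K u r (Y r) v ≤ ((n : ℤ) ^ 2 + 1) * K + n) : Ind s t K u := by
  rintro U ⟨r, hr⟩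
  have h1 : ∀ e, (if s e ∈ U ∧ t e ∈ U then ((n : ℤ) ^ 2 + 1) * u e else 0) ≤
      (if s e ∈ U then Y r e else 0) + if t e ∈ U then ((n : ℤ) ^ 2 + 1) * u e - Y r e else 0 := fun e => by
    have := h r e
    by_cases h1 : s e ∈ U <;> by_cases h2 : t e ∈ U <;> simp [h1, h2] <;> omega
  have h2 := sum_le_sum fun e (_ : e ∈ univ) => h1 e
  rw [← sum_filter, ← mul_sum] at h2
  have h3 := sum_le_card_nsmul U _ _ fun v _ => hl r v
  rw [cfm_sum, if_pos hr, nsmul_eq_mul] at h3
  have h4 : (U.card : ℤ) ≤ n := by exact_mod_cast (card_le_univ U).trans_eq (Fintype.card_fin n)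
  have h5 : (U.card : ℤ) * n ≤ n * n := mul_le_mul_of_nonneg_right h4 (by positivity)
  refine Int.lt_add_one_iff.1 (lt_of_mul_lt_mul_left (a := (n : ℤ) ^ 2 + 1) ?_ (by positivity))
  unfold ins
  nlinarith

end Crest.Agent.R37
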