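import Mathlib

/-!
# R37/Jet: second-order jets at `0` with explicit polynomial bounds (`r = Ω^{-j}`, `K = Ω^j`).
`inv`: `G = (F 0)⁻¹`, `Δ = F v - F 0`, `‖Δ‖ ≤ 3K‖v‖ ≤ 1/(2K)`; `(F v)⁻¹ = G - GΔG + GΔGΔG - GΔGΔGΔ (F v)⁻¹`, `‖(F v)⁻¹‖ ≤ 2K`.
-/

set_option autoImplicit false

open Finset

noncomputable section

namespace Crest.Agent.R37

variable {V R : Type} [NormedAddCommGroup V] [NormedSpace ℝ V] [NormedRing R] [NormedAlgebra ℝ R]

structure Jet (F F1 : V → R) (F2 : V → V → R) (Ω : ℝ) (j : ℕ) : Prop where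
  lin1 : IsLinearMap ℝ F1
  lin2 : ∀ v, IsLinearMap ℝ (F2 v)
  symm : ∀ v w, F2 v w = F2 w v
  b0 : ‖F 0‖ ≤ Ω ^ j
  b1 : ∀ v, ‖F1 v‖ ≤ Ω ^ j * ‖v‖
  b2 : ∀ v w, ‖F2 v w‖ ≤ Ω ^ j * ‖v‖ * ‖w‖
  rem : ∀ v, ‖v‖ ≤ 1 / Ω ^ j → ‖F v - F 0 - F1 v - (1 / 2 : ℝ) • F2 v v‖ ≤ Ω ^ j * ‖v‖ ^ 3

variable {F F1 G G1 : V → R} {F2 G2 : V → V → R} {Ω : ℝ} {i j : ℕ}

theorem jet_one_le (hΩ : 10 ≤ Ω) (i : ℕ) : 1 ≤ Ω ^ i := one_le_pow₀ (by linarith)

theorem jet_pow_le (hΩ : 10 ≤ Ω) (hij : i ≤ j) : Ω ^ i ≤ Ω ^ j := pow_le_pow_right₀ (by linarith) hij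

theorem jet_rad (hΩ : 10 ≤ Ω) (hij : i ≤ j) {x : ℝ} (hx : x ≤ 1 / Ω ^ j) : x ≤ 1 / Ω ^ i :=
  hx.trans (one_div_le_one_div_of_le (by have := jet_one_le hΩ i; linarith) (jet_pow_le hΩ hij))

theorem jet_rad1 (hΩ : 10 ≤ Ω) {x : ℝ} (hx : x ≤ 1 / Ω ^ j) : x ≤ 1 := by
  simpa using jet_rad hΩ (Nat.zero_le j) hx

theorem jet_ten (hΩ : 10 ≤ Ω) (i : ℕ) : 10 * Ω ^ i ≤ Ω ^ (i + 1) := by
  have := jet_one_le hΩ i
  rw [pow_succ]; nlinarith

theorem Jet.mono (h : Jet F F1 F2 Ω i) (hΩ : 10 ≤ Ω) (hij : i ≤ j) : Jet F F1 F2 Ω j := by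
  have hp := jet_pow_le hΩ hij
  refine ⟨h.lin1, h.lin2, h.symm, h.b0.trans hp, fun v => (h.b1 v).trans (by gcongr),
    fun v w => (h.b2 v w).trans (by gcongr), fun v hv => (h.rem v (jet_rad hΩ hij hv)).trans (by gcongr)⟩

theorem Jet.congr (h : Jet F F1 F2 Ω i) (h0 : ∀ v, G v = F v) (h1 : ∀ v, G1 v = F1 v)
    (h2 : ∀ v w, G2 v w = F2 v w) : Jet G G1 G2 Ω i := by
  rw [funext h0, funext h1, funext₂ h2]; exact h

theorem Jet.sub_le (h : Jet F F1 F2 Ω i) (hΩ : 10 ≤ Ω) {v : V} (hv : ‖v‖ ≤ 1 / Ω ^ i) :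
    ‖F v - F 0‖ ≤ 3 * Ω ^ i * ‖v‖ ∧ ‖F v - F 0 - F1 v‖ ≤ 2 * Ω ^ i * ‖v‖ ^ 2 := by
  have h1 := jet_rad1 hΩ hv
  have h0 := norm_nonneg v
  have hK := jet_one_le hΩ i
  have h2 : ‖F v - F 0 - F1 v‖ ≤ 2 * Ω ^ i * ‖v‖ ^ 2 := by
    have e : F v - F 0 - F1 v = (F v - F 0 - F1 v - (1 / 2 : ℝ) • F2 v v) + (1 / 2 : ℝ) • F2 v v := by
      abel
    rw [e]
    refine (norm_add_le _ _).trans ?_
    have a := h.rem v hv
    have b := h.b2 v v
    rw [norm_smul, Real.norm_of_nonneg (by norm_num)]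
    have : Ω ^ i * ‖v‖ ^ 3 ≤ Ω ^ i * ‖v‖ ^ 2 := by
      gcongr ?_ * ?_; exact pow_le_pow_of_le_one h0 h1 (by norm_num)
    have : 0 ≤ Ω ^ i * ‖v‖ ^ 2 := by positivity
    nlinarith
  refine ⟨?_, h2⟩
  have e : F v - F 0 = (F v - F 0 - F1 v) + F1 v := by abel
  rw [e]
  refine (norm_add_le _ _).trans ?_
  have b := h.b1 v
  have : Ω ^ i * ‖v‖ ^ 2 ≤ Ω ^ i * ‖v‖ := by
    gcongr ?_ * ?_; nlinarith
  linarith

theorem Jet.affine (hΩ : 10 ≤ Ω) (c : R) (hc : ‖c‖ ≤ Ω ^ i) (hl : IsLinearMap ℝ F1)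
    (hb : ∀ v, ‖F1 v‖ ≤ Ω ^ i * ‖v‖) : Jet (fun v => c + F1 v) F1 (fun _ _ => 0) Ω i := by
  have hK := jet_one_le hΩ i
  refine ⟨hl, fun _ => ⟨by simp, by simp⟩, fun _ _ => rfl, by simpa [hl.map_zero] using hc, hb,
    fun v w => by simp; positivity, fun v _ => by simp [hl.map_zero]; positivity⟩

theorem Jet.add (hΩ : 10 ≤ Ω) (hF : Jet F F1 F2 Ω i) (hG : Jet G G1 G2 Ω i) :
    Jet (fun v => F v + G v) (fun v => F1 v + G1 v) (fun v w => F2 v w + G2 v w) Ω (i + 1) := by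
  have ht := jet_ten hΩ i
  have hK := jet_one_le hΩ i
  refine ⟨⟨fun v w => by rw [hF.lin1.1, hG.lin1.1]; abel, fun c v => by
      rw [hF.lin1.2, hG.lin1.2, smul_add]⟩,
    fun u => ⟨fun v w => by rw [(hF.lin2 u).1, (hG.lin2 u).1]; abel, fun c v => by
      rw [(hF.lin2 u).2, (hG.lin2 u).2, smul_add]⟩, fun v w => by rw [hF.symm, hG.symm],
    (norm_add_le _ _).trans (by have := hF.b0; have := hG.b0; linarith),
    fun v => (norm_add_le _ _).trans ?_, fun v w => (norm_add_le _ _).trans ?_, fun v hv => ?_⟩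
  · have := hF.b1 v; have := hG.b1 v; have := norm_nonneg v; nlinarith
  · have := hF.b2 v w; have := hG.b2 v w
    have := mul_nonneg (norm_nonneg v) (norm_nonneg w); nlinarith
  · have a := hF.rem v (jet_rad hΩ (by omega) hv)
    have b := hG.rem v (jet_rad hΩ (by omega) hv)
    have e : F v + G v - (F 0 + G 0) - (F1 v + G1 v) - (1 / 2 : ℝ) • (F2 v v + G2 v v) =
        (F v - F 0 - F1 v - (1 / 2 : ℝ) • F2 v v) + (G v - G 0 - G1 v - (1 / 2 : ℝ) • G2 v v) := by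
      rw [smul_add]; abel
    rw [e]
    have := pow_nonneg (norm_nonneg v) 3
    exact (norm_add_le _ _).trans (by nlinarith)

theorem Jet.neg (hF : Jet F F1 F2 Ω i) :
    Jet (fun v => -F v) (fun v => -F1 v) (fun v w => -F2 v w) Ω i := by
  refine ⟨⟨fun v w => by rw [hF.lin1.1]; abel, fun c v => by rw [hF.lin1.2, smul_neg]⟩,
    fun u => ⟨fun v w => by rw [(hF.lin2 u).1]; abel, fun c v => by rw [(hF.lin2 u).2, smul_neg]⟩,
    fun v w => by rw [hF.symm], by simpa using hF.b0, fun v => by simpa using hF.b1 v,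
    fun v w => by simpa using hF.b2 v w, fun v hv => ?_⟩
  have e : -F v - -F 0 - -F1 v - (1 / 2 : ℝ) • -F2 v v =
      -(F v - F 0 - F1 v - (1 / 2 : ℝ) • F2 v v) := by rw [smul_neg]; abel
  rw [e, norm_neg]; exact hF.rem v hv

theorem Jet.sub (hΩ : 10 ≤ Ω) (hF : Jet F F1 F2 Ω i) (hG : Jet G G1 G2 Ω i) :
    Jet (fun v => F v - G v) (fun v => F1 v - G1 v) (fun v w => F2 v w - G2 v w) Ω (i + 1) := by
  exact (Jet.add hΩ hF hG.neg).congr (fun _ => sub_eq_add_neg _ _) (fun _ => sub_eq_add_neg _ _)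
    fun _ _ => sub_eq_add_neg _ _

theorem jet_mul_le {a b : R} {x y : ℝ} (ha : ‖a‖ ≤ x) (hb : ‖b‖ ≤ y) : ‖a * b‖ ≤ x * y :=
  (norm_mul_le _ _).trans (mul_le_mul ha hb (norm_nonneg _) ((norm_nonneg _).trans ha))

theorem Jet.mul (hΩ : 10 ≤ Ω) (hF : Jet F F1 F2 Ω i) (hG : Jet G G1 G2 Ω j) :
    Jet (fun v => F v * G v) (fun v => F1 v * G 0 + F 0 * G1 v)
      (fun v w => F2 v w * G 0 + F1 v * G1 w + F1 w * G1 v + F 0 * G2 v w) Ω (i + j + 1) := by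
  have ht := jet_ten hΩ (i + j)
  have hK := jet_one_le hΩ (i + j)
  rw [pow_add] at ht hK
  refine ⟨⟨fun v w => by rw [hF.lin1.1, hG.lin1.1]; noncomm_ring, fun c v => by
      rw [hF.lin1.2, hG.lin1.2, smul_add, smul_mul_assoc, mul_smul_comm]⟩,
    fun u => ⟨fun v w => by
      rw [(hF.lin2 u).1, (hG.lin2 u).1, hF.lin1.1, hG.lin1.1]; noncomm_ring, fun c v => by
      rw [(hF.lin2 u).2, (hG.lin2 u).2, hF.lin1.2, hG.lin1.2]
      simp only [smul_add, smul_mul_assoc, mul_smul_comm]⟩,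
    fun v w => by rw [hF.symm v w, hG.symm v w]; abel,
    (jet_mul_le hF.b0 hG.b0).trans (by linarith), fun v => (norm_add_le _ _).trans ?_,
    fun v w => ?_, fun v hv => ?_⟩
  · have := jet_mul_le (hF.b1 v) hG.b0; have := jet_mul_le hF.b0 (hG.b1 v)
    have := norm_nonneg v; nlinarith
  · have := jet_mul_le (hF.b2 v w) hG.b0; have := jet_mul_le (hF.b1 v) (hG.b1 w)
    have := jet_mul_le (hF.b1 w) (hG.b1 v); have := jet_mul_le hF.b0 (hG.b2 v w)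
    have := mul_nonneg (norm_nonneg v) (norm_nonneg w)
    refine ((norm_add_le _ _).trans (add_le_add_left norm_add₃_le _)).trans ?_
    nlinarith
  · have hi : ‖v‖ ≤ 1 / Ω ^ i := jet_rad hΩ (by omega) hv
    have hj : ‖v‖ ≤ 1 / Ω ^ j := jet_rad hΩ (by omega) hv
    have a := hF.rem v hi
    have b := hG.rem v hj
    have c := (hF.sub_le hΩ hi).2
    have d := hG.sub_le hΩ hj
    have e : F v * G v - F 0 * G 0 - (F1 v * G 0 + F 0 * G1 v) - (1 / 2 : ℝ) •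
        (F2 v v * G 0 + F1 v * G1 v + F1 v * G1 v + F 0 * G2 v v) =
        (F v - F 0 - F1 v - (1 / 2 : ℝ) • F2 v v) * G 0 +
          F 0 * (G v - G 0 - G1 v - (1 / 2 : ℝ) • G2 v v) + F1 v * (G v - G 0 - G1 v) +
          (F v - F 0 - F1 v) * (G v - G 0) := by
      have : (1 / 2 : ℝ) • (F2 v v * G 0 + F1 v * G1 v + F1 v * G1 v + F 0 * G2 v v) =
          ((1 / 2 : ℝ) • F2 v v) * G 0 + F1 v * G1 v + F 0 * ((1 / 2 : ℝ) • G2 v v) := by
        rw [smul_mul_assoc, mul_smul_comm]; module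
      rw [this]; noncomm_ring
    rw [e]
    have := jet_mul_le a hG.b0; have := jet_mul_le hF.b0 b
    have := jet_mul_le (hF.b1 v) d.2; have := jet_mul_le c d.1
    have := pow_nonneg (norm_nonneg v) 3
    refine ((norm_add_le _ _).trans (add_le_add_left norm_add₃_le _)).trans ?_
    nlinarith

theorem Jet.sum {ι : Type} (I : Finset ι) {A A1 : ι → V → R} {A2 : ι → V → V → R} (hΩ : 10 ≤ Ω)
    (hI : (I.card : ℝ) ≤ Ω ^ j) (h : ∀ k ∈ I, Jet (A k) (A1 k) (A2 k) Ω i) :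
    Jet (fun v => ∑ k ∈ I, A k v) (fun v => ∑ k ∈ I, A1 k v) (fun v w => ∑ k ∈ I, A2 k v w) Ω
      (i + j) := by
  have hK := jet_one_le hΩ i
  have key : ∀ (B : ι → R) (x : ℝ), 0 ≤ x → (∀ k ∈ I, ‖B k‖ ≤ Ω ^ i * x) →
      ‖∑ k ∈ I, B k‖ ≤ Ω ^ (i + j) * x := fun B x hx hB => by
    refine (norm_sum_le_of_le _ hB).trans ?_
    rw [Finset.sum_const, nsmul_eq_mul, pow_add]
    have : 0 ≤ Ω ^ i * x := by positivity
    nlinarith
  refine ⟨⟨fun v w => ?_, fun c v => ?_⟩, fun u => ⟨fun v w => ?_, fun c v => ?_⟩,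
    fun v w => Finset.sum_congr rfl fun k hk => (h k hk).symm v w, ?_,
    fun v => key _ _ (norm_nonneg _) fun k hk => (h k hk).b1 v, fun v w => ?_, fun v hv => ?_⟩
  · rw [← Finset.sum_add_distrib]; exact Finset.sum_congr rfl fun k hk => (h k hk).lin1.1 v w
  · rw [Finset.smul_sum]; exact Finset.sum_congr rfl fun k hk => (h k hk).lin1.2 c v
  · rw [← Finset.sum_add_distrib]; exact Finset.sum_congr rfl fun k hk => ((h k hk).lin2 u).1 v w
  · rw [Finset.smul_sum]; exact Finset.sum_congr rfl fun k hk => ((h k hk).lin2 u).2 c v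
  · simpa using key (fun k => A k 0) 1 zero_le_one fun k hk => by simpa using (h k hk).b0
  · rw [mul_assoc]
    exact key _ _ (by positivity) fun k hk => by rw [← mul_assoc]; exact (h k hk).b2 v w
  · rw [Finset.smul_sum, ← Finset.sum_sub_distrib, ← Finset.sum_sub_distrib, ← Finset.sum_sub_distrib]
    exact key _ _ (by positivity) fun k hk => (h k hk).rem v (jet_rad hΩ (by omega) hv)

/-- post-composition with a bounded linear map (trace, `qf`, `· • L`, ...) -/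
theorem Jet.map {R' : Type} [NormedRing R'] [NormedAlgebra ℝ R'] (hΩ : 10 ≤ Ω) (h : Jet F F1 F2 Ω i)
    {φ : R → R'} (hφ : IsLinearMap ℝ φ) (hb : ∀ x, ‖φ x‖ ≤ Ω ^ j * ‖x‖) :
    Jet (fun v => φ (F v)) (fun v => φ (F1 v)) (fun v w => φ (F2 v w)) Ω (i + j) := by
  have hK := jet_one_le hΩ j
  have key : ∀ (B : R) (x : ℝ), ‖B‖ ≤ Ω ^ i * x → ‖φ B‖ ≤ Ω ^ (i + j) * x := fun B x hB =>
    (hb B).trans ((mul_le_mul_of_nonneg_left hB (by linarith)).trans (le_of_eq (by ring)))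
  refine ⟨⟨fun v w => by rw [h.lin1.1, hφ.1], fun c v => by rw [h.lin1.2, hφ.2]⟩,
    fun u => ⟨fun v w => by rw [(h.lin2 u).1, hφ.1], fun c v => by rw [(h.lin2 u).2, hφ.2]⟩,
    fun v w => by rw [h.symm], by simpa using key (F 0) 1 (by simpa using h.b0),
    fun v => key _ _ (h.b1 v), fun v w => ?_, fun v hv => ?_⟩
  · rw [mul_assoc]; exact key _ _ (by rw [← mul_assoc]; exact h.b2 v w)
  · rw [← hφ.2, ← hφ.map_sub, ← hφ.map_sub, ← hφ.map_sub]
    exact key _ _ (h.rem v (jet_rad hΩ (by omega) hv))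

/-- pre-composition with a bounded linear map -/
theorem Jet.comp {V' : Type} [NormedAddCommGroup V'] [NormedSpace ℝ V'] (hΩ : 10 ≤ Ω)
    (h : Jet F F1 F2 Ω i) {ψ : V' → V} (hψ : IsLinearMap ℝ ψ) (hb : ∀ x, ‖ψ x‖ ≤ Ω ^ j * ‖x‖) :
    Jet (fun v => F (ψ v)) (fun v => F1 (ψ v)) (fun v w => F2 (ψ v) (ψ w)) Ω (i + 3 * j) := by
  have hK := jet_one_le hΩ j
  have hI := jet_one_le hΩ i
  have p1 := jet_pow_le hΩ (by omega : i + j ≤ i + 3 * j)
  have p2 := jet_pow_le hΩ (by omega : i + 2 * j ≤ i + 3 * j)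
  refine ⟨⟨fun v w => by rw [hψ.1, h.lin1.1], fun c v => by rw [hψ.2, h.lin1.2]⟩,
    fun u => ⟨fun v w => by rw [hψ.1, (h.lin2 _).1], fun c v => by rw [hψ.2, (h.lin2 _).2]⟩,
    fun v w => h.symm _ _, by rw [hψ.map_zero]; exact h.b0.trans (jet_pow_le hΩ (by omega)),
    fun v => (h.b1 _).trans ?_, fun v w => (h.b2 _ _).trans ?_, fun v hv => ?_⟩
  · calc _ ≤ Ω ^ i * (Ω ^ j * ‖v‖) := by gcongr; exact hb v
      _ = Ω ^ (i + j) * ‖v‖ := by ring
      _ ≤ _ := by gcongr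
  · calc _ ≤ Ω ^ i * (Ω ^ j * ‖v‖) * (Ω ^ j * ‖w‖) := by gcongr <;> exact hb _
      _ = Ω ^ (i + 2 * j) * ‖v‖ * ‖w‖ := by ring
      _ ≤ _ := by gcongr
  · have h1 : ‖ψ v‖ ≤ 1 / Ω ^ i := by
      have := jet_rad hΩ (by omega : i + j ≤ i + 3 * j) hv
      calc _ ≤ Ω ^ j * (1 / Ω ^ (i + j)) := (hb v).trans (by gcongr)
        _ = _ := by rw [pow_add]; field_simp
    rw [hψ.map_zero]
    calc _ ≤ Ω ^ i * (Ω ^ j * ‖v‖) ^ 3 := (h.rem _ h1).trans (by gcongr; exact hb v)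
      _ = _ := by ring

theorem Jet.inv [CompleteSpace R] (hΩ : 10 ≤ Ω) (h : Jet F F1 F2 Ω i) (hu : IsUnit (F 0))
    (hb : ‖Ring.inverse (F 0)‖ ≤ Ω ^ i) :
    Jet (fun v => Ring.inverse (F v))
      (fun v => -(Ring.inverse (F 0) * F1 v * Ring.inverse (F 0)))
      (fun v w => Ring.inverse (F 0) * F1 v * Ring.inverse (F 0) * F1 w * Ring.inverse (F 0) +
        Ring.inverse (F 0) * F1 w * Ring.inverse (F 0) * F1 v * Ring.inverse (F 0) -
        Ring.inverse (F 0) * F2 v w * Ring.inverse (F 0)) Ω (7 * i + 3) := by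
  have hK := jet_one_le hΩ i
  set G0 := Ring.inverse (F 0) with hG0
  set K := Ω ^ i with hKd
  have hp : 1000 * K ^ 7 ≤ Ω ^ (7 * i + 3) := by
    rw [pow_add, hKd, ← pow_mul, mul_comm i 7, mul_comm]
    have : (1000 : ℝ) ≤ Ω ^ 3 := by
      calc (1000 : ℝ) = 10 ^ 3 := by norm_num
        _ ≤ _ := by gcongr
    gcongr
  have k7 : ∀ k ≤ 7, K ^ k ≤ K ^ 7 := fun k hk => pow_le_pow_right₀ hK hk
  have k1 := k7 1 (by norm_num); have k2 := k7 2 (by norm_num); have k3 := k7 3 (by norm_num)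
  have k5 := k7 5 (by norm_num)
  rw [pow_one] at k1
  refine ⟨⟨fun v w => by rw [h.lin1.1]; noncomm_ring, fun c v => by
      rw [h.lin1.2]; simp only [smul_neg, smul_mul_assoc, mul_smul_comm]⟩,
    fun u => ⟨fun v w => by rw [(h.lin2 u).1, h.lin1.1]; noncomm_ring, fun c v => by
      rw [(h.lin2 u).2, h.lin1.2]; simp only [smul_add, smul_sub, smul_mul_assoc, mul_smul_comm]⟩,
    fun v w => by rw [h.symm v w]; abel, by linarith, fun v => ?_, fun v w => ?_, fun v hv => ?_⟩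
  · rw [norm_neg]
    have := jet_mul_le (jet_mul_le hb (h.b1 v)) hb
    have := mul_le_mul_of_nonneg_right k3 (norm_nonneg v)
    have := norm_nonneg v
    nlinarith
  · have := jet_mul_le (jet_mul_le (jet_mul_le (jet_mul_le hb (h.b1 v)) hb) (h.b1 w)) hb
    have := jet_mul_le (jet_mul_le (jet_mul_le (jet_mul_le hb (h.b1 w)) hb) (h.b1 v)) hb
    have := jet_mul_le (jet_mul_le hb (h.b2 v w)) hb
    have h0 := mul_nonneg (norm_nonneg v) (norm_nonneg w)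
    have := mul_le_mul_of_nonneg_right k3 h0
    have := mul_le_mul_of_nonneg_right k5 h0
    have := mul_le_mul_of_nonneg_right hp h0
    have := mul_nonneg (pow_nonneg (by linarith : 0 ≤ K) 7) h0
    refine ((norm_sub_le _ _).trans (add_le_add_left (norm_add_le _ _) _)).trans ?_
    nlinarith
  · have hi : ‖v‖ ≤ 1 / Ω ^ i := jet_rad hΩ (by omega) hv
    have a := h.rem v hi
    obtain ⟨d1, d2⟩ := h.sub_le hΩ hi
    have h0 := norm_nonneg v
    set D := F v - F 0 with hD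
    have hs : ‖G0 * D‖ ≤ 1 / 2 := by
      have h1 := jet_mul_le hb d1
      have h2 : Ω ^ (7 * i + 3) * ‖v‖ ≤ 1 := by
        rwa [le_div_iff₀ (by linarith [pow_pos (by linarith : 0 < K) 7]), mul_comm] at hv
      have := mul_le_mul_of_nonneg_right hp h0
      have := mul_le_mul_of_nonneg_right k2 h0
      nlinarith
    have e0 : G0 * F 0 = 1 := Ring.inverse_mul_cancel _ hu
    have hU : IsUnit (F v) := by
      have h1 : IsUnit (1 - -(G0 * D)) :=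
        isUnit_one_sub_of_norm_lt_one (by rw [norm_neg]; linarith)
      have : F v = F 0 * (1 - -(G0 * D)) := by
        rw [sub_neg_eq_add, mul_add, ← mul_assoc, Ring.mul_inverse_cancel _ hu, hD]; noncomm_ring
      rw [this]; exact hu.mul h1
    set U := Ring.inverse (F v)
    have e1 : U = G0 - G0 * D * U := by
      have : F v * U = 1 := Ring.mul_inverse_cancel _ hU
      rw [hD, mul_sub, sub_mul, mul_assoc, this, e0]; noncomm_ring
    have hUn : ‖U‖ ≤ 2 * K := by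
      have h1 := norm_sub_le G0 (G0 * D * U)
      rw [← e1] at h1
      have := jet_mul_le hs (le_refl ‖U‖)
      linarith
    have e2 : U = G0 - G0 * D * G0 + G0 * D * G0 * D * G0 - G0 * D * G0 * D * G0 * D * U := by
      conv_lhs => rw [e1, e1, e1]
      noncomm_ring
    have e : U - G0 - -(G0 * F1 v * G0) - (1 / 2 : ℝ) •
        (G0 * F1 v * G0 * F1 v * G0 + G0 * F1 v * G0 * F1 v * G0 - G0 * F2 v v * G0) =
        -(G0 * (D - F1 v - (1 / 2 : ℝ) • F2 v v) * G0) + G0 * (D - F1 v) * G0 * D * G0 +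
          G0 * F1 v * G0 * (D - F1 v) * G0 + -(G0 * D * G0 * D * G0 * D * U) := by
      have : (1 / 2 : ℝ) • (G0 * F1 v * G0 * F1 v * G0 + G0 * F1 v * G0 * F1 v * G0 -
          G0 * F2 v v * G0) = G0 * F1 v * G0 * F1 v * G0 - G0 * ((1 / 2 : ℝ) • F2 v v) * G0 := by
        rw [mul_smul_comm, smul_mul_assoc]; module
      rw [this]
      conv_lhs => rw [e2]
      noncomm_ring
    rw [e]
    have := jet_mul_le (jet_mul_le hb a) hb
    have := jet_mul_le (jet_mul_le (jet_mul_le (jet_mul_le hb d2) hb) d1) hb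
    have := jet_mul_le (jet_mul_le (jet_mul_le (jet_mul_le hb (h.b1 v)) hb) d2) hb
    have := jet_mul_le (jet_mul_le (jet_mul_le (jet_mul_le (jet_mul_le (jet_mul_le hb d1) hb) d1) hb)
      d1) hUn
    have h3 := pow_nonneg h0 3
    have := mul_le_mul_of_nonneg_right k3 h3
    have := mul_le_mul_of_nonneg_right k5 h3
    have := mul_le_mul_of_nonneg_right hp h3
    have := mul_nonneg (pow_nonneg (by linarith : 0 ≤ K) 7) h3
    refine ((norm_add_le _ _).trans (add_le_add_left norm_add₃_le _)).trans ?_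
    rw [norm_neg, norm_neg]
    nlinarith

end Crest.Agent.R37
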