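import Crest.Agent.R37.S2Defs
import Crest.Agent.R37.Jet

/-!
# R37/Pow: power iteration, finite differences, steps.
`pow_lemma`: moments `m_k = e_iᵀ P^k e_i` satisfy `m_{k+1}² ≤ m_k m_{k+2}` (Cauchy-Schwarz for the psd forms of `I` and `P`); if `m_{2T+1} < (1-δ)λ m_{2T}` then
all earlier ratios are smaller and `m_{2T} ≤ ((1-δ)λ)^{2T}`; but `∑_i m_{2T} = tr P^{2T} ≥ λ^{2T}` (or diagonalise and argue with weights).
`neg_curv`: `|fdH - F2(e_i,e_j)| ≤ 10 A/Ω`; `P = Ω I - fdH` is psd with Rayleigh quotient `≥ Ω + 1/(2A²)` at `β0`; `δ = 1/Ω²`, `T = Ω³`.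
-/

set_option autoImplicit false

open Matrix Finset

noncomputable section

namespace Crest.Agent.R37

variable {n : ℕ} {E : Type} [Fintype E] [DecidableEq E]

theorem pow_diag {ι : Type} [Fintype ι] [DecidableEq ι] {G : Matrix ι ι ℝ} (hG : G.PosSemidef) :
    ∃ (U : Matrix ι ι ℝ) (g : ι → ℝ), Uᵀ * U = 1 ∧ U * Uᵀ = 1 ∧ (∀ a, 0 ≤ g a) ∧
      ∀ p : ℕ, G ^ p = U * diagonal (fun a => g a ^ p) * Uᵀ := by
  have h1 := hG.1.spectral_theorem
  set U : Matrix ι ι ℝ := (hG.1.eigenvectorUnitary : Matrix ι ι ℝ) with hU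
  have h2 : Uᵀ * U = 1 := by
    have := hG.1.eigenvectorUnitary.2.1
    rwa [star_eq_conjTranspose, conjTranspose_eq_transpose_of_trivial] at this
  have h3 : U * Uᵀ = 1 := by
    have := hG.1.eigenvectorUnitary.2.2
    rwa [star_eq_conjTranspose, conjTranspose_eq_transpose_of_trivial] at this
  have h4 : G = U * diagonal hG.1.eigenvalues * Uᵀ := by
    conv_lhs => rw [h1]
    simp [Unitary.conjStarAlgAut_apply, star_eq_conjTranspose, hU]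
  refine ⟨U, hG.1.eigenvalues, h2, h3, hG.eigenvalues_nonneg, fun p => ?_⟩
  induction p with
  | zero => simp [h3]
  | succ p ih =>
    rw [pow_succ, ih]
    conv_lhs => rw [show U * diagonal (fun a => hG.1.eigenvalues a ^ p) * Uᵀ * G =
      U * diagonal (fun a => hG.1.eigenvalues a ^ p) * Uᵀ * (U * diagonal hG.1.eigenvalues * Uᵀ) by
        rw [← h4]]
    calc _ = U * (diagonal (fun a => hG.1.eigenvalues a ^ p) * (Uᵀ * U) *
          diagonal hG.1.eigenvalues) * Uᵀ := by simp only [Matrix.mul_assoc]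
      _ = _ := by simp [h2, diagonal_mul_diagonal, pow_succ]

theorem pow_elem {x a : ℝ} (hx : 0 ≤ x) (ha : 0 ≤ a) (k : ℕ) :
    a * x ^ k - a ^ (k + 1) ≤ k * (x ^ (k + 1) - a * x ^ k) := by
  induction k with
  | zero => simp
  | succ k ih =>
    have h1 := mul_le_mul_of_nonneg_left ih ha
    have h2 : 0 ≤ (k + 1 : ℝ) * (x ^ k * (x - a) ^ 2) := by positivity
    push_cast
    simp only [pow_succ] at *
    nlinarith

theorem pow_quad {ι : Type} [Fintype ι] [DecidableEq ι] (U : Matrix ι ι ℝ) (d v : ι → ℝ) :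
    v ⬝ᵥ (U * diagonal d * Uᵀ) *ᵥ v = ∑ j, d j * (Uᵀ *ᵥ v) j ^ 2 := by
  rw [← mulVec_mulVec, ← mulVec_mulVec, dotProduct_mulVec, ← mulVec_transpose, dotProduct]
  exact Finset.sum_congr rfl fun j _ => by rw [mulVec_diagonal]; ring

theorem pow_lemma {ι : Type} [Fintype ι] [DecidableEq ι] {P : Matrix ι ι ℝ} (hP : P.PosSemidef)
    {lam δ : ℝ} (hl : 0 < lam) (hδ : 0 ≤ δ) (hδ1 : δ < 1) {v : ι → ℝ} (hv : v ≠ 0)
    (hR : lam * (v ⬝ᵥ v) ≤ v ⬝ᵥ P *ᵥ v) {T : ℕ} (hT : Fintype.card ι * (1 - δ) ^ (2 * T) < 1) :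
    ∃ i, (P ^ T) *ᵥ Pi.single i 1 ≠ 0 ∧
      (1 - δ) * lam * (((P ^ T) *ᵥ Pi.single i 1) ⬝ᵥ ((P ^ T) *ᵥ Pi.single i 1)) ≤
        ((P ^ T) *ᵥ Pi.single i 1) ⬝ᵥ P *ᵥ ((P ^ T) *ᵥ Pi.single i 1) := by
  obtain ⟨U, g, h2, h3, hg, hp⟩ := pow_diag hP
  have q : ∀ (k : ℕ) (w : ι → ℝ), w ⬝ᵥ (P ^ k) *ᵥ w = ∑ j, g j ^ k * (Uᵀ *ᵥ w) j ^ 2 := fun k w => by
    rw [hp, pow_quad]
  have q0 : ∀ w : ι → ℝ, w ⬝ᵥ w = ∑ j, (Uᵀ *ᵥ w) j ^ 2 := fun w => by simpa using q 0 w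
  have sym : (P ^ T)ᵀ = P ^ T := by
    have := (hP.pow T).1.eq
    rwa [conjTranspose_eq_transpose_of_trivial] at this
  have m : ∀ (k : ℕ) (w : ι → ℝ), ((P ^ T) *ᵥ w) ⬝ᵥ (P ^ k) *ᵥ ((P ^ T) *ᵥ w) = w ⬝ᵥ (P ^ (2 * T + k)) *ᵥ w := by
    intro k w
    conv_lhs => rw [← sym, mulVec_transpose, ← dotProduct_mulVec, ← mulVec_transpose, sym, mulVec_mulVec,
      mulVec_mulVec, ← pow_add, ← pow_add]
    congr 3; ring
  have ha : 0 < (1 - δ) * lam := mul_pos (by linarith) hl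
  set a := (1 - δ) * lam with had
  obtain ⟨j, hj⟩ : ∃ j, lam ≤ g j := by
    by_contra hc
    push Not at hc
    have e1 := q 1 v
    rw [pow_one] at e1
    rw [e1, q0, Finset.mul_sum] at hR
    obtain ⟨j, hj⟩ : ∃ j, (Uᵀ *ᵥ v) j ≠ 0 := by
      by_contra h0
      push Not at h0
      exact hv (dotProduct_self_eq_zero.1 (by rw [q0]; simp [h0]))
    refine absurd hR (not_le.2 (Finset.sum_lt_sum (fun i _ => ?_) ⟨j, Finset.mem_univ _, ?_⟩))
    · rw [pow_one]; exact mul_le_mul_of_nonneg_right (hc i).le (sq_nonneg _)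
    · rw [pow_one]; exact mul_lt_mul_of_pos_right (hc j) (by positivity)
  by_contra hc
  push Not at hc
  have b : ∀ i, ∑ j, g j ^ (2 * T) * U i j ^ 2 ≤ a ^ (2 * T) := by
    intro i
    have u : ∀ j, (Uᵀ *ᵥ Pi.single i 1) j = U i j := fun j => by simp
    have e0 := q0 (Pi.single i 1)
    have e1 := (m 0 (Pi.single i 1)).trans (q _ _)
    have e2 := (m 1 (Pi.single i 1)).trans (q _ _)
    simp only [u, pow_zero, one_mulVec, add_zero, pow_one] at e0 e1 e2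
    by_cases h0 : (P ^ T) *ᵥ Pi.single i 1 = 0
    · rw [← e1, h0]; simp only [dotProduct_zero]; positivity
    · have c1 := hc i h0
      rw [e1, e2] at c1
      have c2 := Finset.sum_le_sum fun j (_ : j ∈ Finset.univ) =>
        mul_le_mul_of_nonneg_right (pow_elem (hg j) ha.le (2 * T)) (sq_nonneg (U i j))
      simp only [sub_mul, mul_assoc, Finset.sum_sub_distrib, ← Finset.mul_sum] at c2
      rw [← e0] at c2
      simp only [dotProduct_single, Pi.single_eq_same, mul_one] at c2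
      have c3 : ((2 * T : ℕ) : ℝ) * (∑ j, g j ^ (2 * T + 1) * U i j ^ 2 - a * ∑ j, g j ^ (2 * T) * U i j ^ 2) ≤ 0 :=
        mul_nonpos_of_nonneg_of_nonpos (Nat.cast_nonneg _) (by linarith)
      refine le_of_mul_le_mul_left ?_ ha
      rw [← pow_succ']
      linarith
  have c1 : ∀ j, ∑ i, U i j ^ 2 = 1 := fun j => by
    have := congrFun (congrFun h2 j) j
    simpa [mul_apply, sq] using this
  have c2 := Finset.sum_le_sum fun i (_ : i ∈ Finset.univ) => b i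
  rw [Finset.sum_comm, Finset.sum_const, Finset.card_univ, nsmul_eq_mul] at c2
  simp only [← Finset.mul_sum, c1, mul_one] at c2
  have c3 : g j ^ (2 * T) ≤ ∑ j, g j ^ (2 * T) :=
    Finset.single_le_sum (f := fun j => g j ^ (2 * T)) (fun j _ => pow_nonneg (hg j) _) (Finset.mem_univ j)
  have c4 : lam ^ (2 * T) ≤ g j ^ (2 * T) := pow_le_pow_left₀ hl.le hj _
  have c5 := mul_lt_mul_of_pos_right hT (pow_pos hl (2 * T))
  rw [had, mul_pow] at c2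
  linarith

theorem Jet.pow1 {V R : Type} [NormedAddCommGroup V] [NormedSpace ℝ V] [NormedRing R]
    [NormedAlgebra ℝ R] {F F1 : V → R} {F2 : V → V → R} {Ω : ℝ} {j : ℕ} (h : Jet F F1 F2 Ω j) :
    Jet F F1 F2 (Ω ^ j) 1 := by
  refine ⟨h.lin1, h.lin2, h.symm, ?_, ?_, ?_, ?_⟩ <;> simp only [pow_one]
  exacts [h.b0, h.b1, h.b2, h.rem]

theorem norm_pwd_le {ι : Type} [Fintype ι] [DecidableEq ι] (F : (ι → ℝ) → ℝ) (Ω : ℕ) (i : ι) :
    ‖pwd F Ω i‖ ≤ 1 := by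
  rw [pwd, norm_smul, norm_inv, norm_norm]
  exact inv_mul_le_one

theorem pow_u {A Ω : ℝ} (hA : 10 ≤ A) (hΩ : A ^ 7 ≤ Ω) :
    0 < Ω ∧ 1000 * A ^ 4 ≤ Ω ∧ 100 * A ≤ Ω := by
  have h3 : 1000 ≤ A ^ 3 := by nlinarith [mul_le_mul hA hA (by norm_num) (by linarith)]
  have h4 : 0 < A ^ 4 := by positivity
  have h5 : 1000 * A ^ 4 ≤ Ω := by nlinarith
  have h6 : A ≤ A ^ 4 := by nlinarith
  exact ⟨by linarith, h5, by linarith⟩

theorem pow_quadB {ι : Type} [Fintype ι] [DecidableEq ι] {F2 : (ι → ℝ) → (ι → ℝ) → ℝ}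
    (hl : ∀ v, IsLinearMap ℝ (F2 v)) (hs : ∀ v w, F2 v w = F2 w v) (v : ι → ℝ) :
    F2 v v = ∑ i, ∑ j, v i * v j * F2 (Pi.single i 1) (Pi.single j 1) := by
  have key : ∀ u w : ι → ℝ, F2 u w = ∑ j, w j * F2 u (Pi.single j 1) := by
    intro u w
    have e : w = ∑ j, w j • (Pi.single j 1 : ι → ℝ) := by
      ext k
      simp [Finset.sum_apply, Pi.single_apply]
    have := map_sum ((hl u).mk' _) (fun j => w j • (Pi.single j 1 : ι → ℝ)) univ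
    rw [← e] at this
    simpa [(hl u).map_smul] using this
  rw [key v v]
  refine Finset.sum_congr rfl fun i _ => ?_
  rw [hs, key _ v, Finset.mul_sum]
  exact Finset.sum_congr rfl fun j _ => by ring

theorem pow_fd {ι : Type} [Fintype ι] [DecidableEq ι] {F F1 : (ι → ℝ) → ℝ}
    {F2 : (ι → ℝ) → (ι → ℝ) → ℝ} {A : ℝ} (hA : 10 ≤ A) (h : Jet F F1 F2 A 1) {u : ℝ} (hu : 0 < u)
    (huA : 2 * u ≤ 1 / A) (i j : ι) :
    |fdH F u i j - F2 (Pi.single i 1) (Pi.single j 1)| ≤ 10 * A * u := by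
  have hn : ∀ i : ι, ‖(Pi.single i u : ι → ℝ)‖ = u := fun i => by
    rw [Pi.norm_single, Real.norm_of_nonneg hu.le]
  have hs : ∀ i : ι, (Pi.single i u : ι → ℝ) = u • (Pi.single i 1 : ι → ℝ) := fun i => by
    rw [← Pi.single_smul, smul_eq_mul, mul_one]
  have hab : ‖(Pi.single i u + Pi.single j u : ι → ℝ)‖ ≤ 2 * u :=
    (norm_add_le _ _).trans (by rw [hn, hn]; linarith)
  have r1 := h.rem _ (hab.trans (by rwa [pow_one]))
  have r2 := h.rem (Pi.single i u) (by rw [hn, pow_one]; linarith)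
  have r3 := h.rem (Pi.single j u) (by rw [hn, pow_one]; linarith)
  rw [hn] at r2 r3
  have r1' : A * ‖(Pi.single i u + Pi.single j u : ι → ℝ)‖ ^ 3 ≤ A * (2 * u) ^ 3 := by gcongr
  have e1 := h.lin1.map_add (Pi.single i u) (Pi.single j u)
  have e2 : F2 (Pi.single i u + Pi.single j u) (Pi.single i u + Pi.single j u) =
      F2 (Pi.single i u) (Pi.single i u) + F2 (Pi.single j u) (Pi.single j u) +
        2 * (u ^ 2 * F2 (Pi.single i 1) (Pi.single j 1)) := by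
    have e3 : F2 (Pi.single i u) (Pi.single j u) = u ^ 2 * F2 (Pi.single i 1) (Pi.single j 1) := by
      rw [hs j, (h.lin2 _).map_smul, h.symm, hs i, (h.lin2 _).map_smul, h.symm]
      simp only [smul_eq_mul]
      ring
    rw [(h.lin2 _).map_add, h.symm _ (Pi.single i u), h.symm _ (Pi.single j u), (h.lin2 _).map_add,
      (h.lin2 _).map_add, h.symm (Pi.single j u) (Pi.single i u), e3]
    ring
  rw [e1, e2] at r1
  simp only [pow_one, Real.norm_eq_abs, smul_eq_mul, abs_le] at r1 r2 r3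
  have hu2 : 0 < u ^ 2 := by positivity
  simp only [fdH, of_apply]
  rw [abs_le, div_sub' hu2.ne', le_div_iff₀ hu2, div_le_iff₀ hu2]
  constructor <;> nlinarith [r1.1, r1.2, r2.1, r2.2, r3.1, r3.2]

theorem pow_form {ι : Type} [Fintype ι] [DecidableEq ι] {F F1 : (ι → ℝ) → ℝ}
    {F2 : (ι → ℝ) → (ι → ℝ) → ℝ} {A : ℝ} (hA : 10 ≤ A) (hι : (Fintype.card ι : ℝ) ≤ A)
    (h : Jet F F1 F2 A 1) {u : ℝ} (hu : 0 < u) (huA : 2 * u ≤ 1 / A) (v : ι → ℝ) :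
    |v ⬝ᵥ fdH F u *ᵥ v - F2 v v| ≤ 10 * A ^ 2 * u * (v ⬝ᵥ v) := by
  have e : v ⬝ᵥ fdH F u *ᵥ v - F2 v v =
      ∑ i, ∑ j, v i * v j * (fdH F u i j - F2 (Pi.single i 1) (Pi.single j 1)) := by
    rw [pow_quadB h.lin2 h.symm v]
    simp only [dotProduct, mulVec, Finset.mul_sum, ← Finset.sum_sub_distrib]
    exact Finset.sum_congr rfl fun i _ => Finset.sum_congr rfl fun j _ => by ring
  have h1 : (∑ i, |v i|) ^ 2 ≤ A * (v ⬝ᵥ v) := by
    refine (sq_sum_le_card_mul_sum_sq (s := univ) (f := fun i => |v i|)).trans ?_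
    simp only [sq_abs, Finset.card_univ]
    have : ∑ i, v i ^ 2 = v ⬝ᵥ v := Finset.sum_congr rfl fun i _ => sq _
    rw [this]
    exact mul_le_mul_of_nonneg_right hι (this ▸ Finset.sum_nonneg fun i _ => sq_nonneg _)
  rw [e]
  calc _ ≤ ∑ i, ∑ j, |v i| * |v j| * (10 * A * u) := by
        refine (Finset.abs_sum_le_sum_abs _ _).trans (Finset.sum_le_sum fun i _ =>
          (Finset.abs_sum_le_sum_abs _ _).trans (Finset.sum_le_sum fun j _ => ?_))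
        rw [abs_mul, abs_mul]
        exact mul_le_mul_of_nonneg_left (pow_fd hA h hu huA i j) (by positivity)
    _ = (∑ i, |v i|) ^ 2 * (10 * A * u) := by
        rw [sq, Finset.sum_mul_sum, Finset.sum_mul]
        exact Finset.sum_congr rfl fun i _ => (Finset.sum_mul _ _ _).symm
    _ ≤ A * (v ⬝ᵥ v) * (10 * A * u) := mul_le_mul_of_nonneg_right h1 (by positivity)
    _ = _ := by ring

theorem pow_sq_le {ι : Type} [Fintype ι] (v : ι → ℝ) : ‖v‖ ^ 2 ≤ v ⬝ᵥ v := by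
  have h0 : 0 ≤ v ⬝ᵥ v := Finset.sum_nonneg fun i _ => mul_self_nonneg _
  rw [← Real.le_sqrt (norm_nonneg _) h0, pi_norm_le_iff_of_nonneg (Real.sqrt_nonneg _)]
  intro i
  rw [Real.norm_eq_abs]
  refine Real.abs_le_sqrt ?_
  rw [sq]
  exact Finset.single_le_sum (f := fun i => v i * v i) (fun i _ => mul_self_nonneg _) (mem_univ i)

theorem pow_le_sq {ι : Type} [Fintype ι] (v : ι → ℝ) : v ⬝ᵥ v ≤ Fintype.card ι * ‖v‖ ^ 2 := by
  have := Finset.sum_le_card_nsmul univ (fun i => v i * v i) (‖v‖ ^ 2) fun i _ => by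
    rw [← sq, ← sq_abs]
    exact pow_le_pow_left₀ (abs_nonneg _) (norm_le_pi_norm v i) 2
  simpa [dotProduct] using this

theorem neg_curv {ι : Type} [Fintype ι] [DecidableEq ι] {F F1 : (ι → ℝ) → ℝ}
    {F2 : (ι → ℝ) → (ι → ℝ) → ℝ} {A : ℝ} (hA : 10 ≤ A) (hι : (Fintype.card ι : ℝ) ≤ A)
    (h : Jet F F1 F2 A 1) {β : ι → ℝ} (hβ : 0 < ‖β‖) (hneg : F2 β β ≤ -(‖β‖ ^ 2 / A)) {Ω : ℕ}
    (hΩ : A ^ 7 ≤ Ω) : ∃ i, F2 (pwd F Ω i) (pwd F Ω i) ≤ -(1 / Ω) := by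
  obtain ⟨h0, h4, h1⟩ := pow_u hA hΩ
  have hA0 : 0 < A := by linarith
  have hu : (0 : ℝ) < 1 / Ω := by positivity
  have huA : 2 * (1 / Ω : ℝ) ≤ 1 / A := by
    rw [mul_one_div, div_le_div_iff₀ h0 hA0]
    linarith
  have hf := pow_form hA hι h hu huA
  have hPv : ∀ v : ι → ℝ, v ⬝ᵥ ((Ω : ℝ) • (1 : Matrix ι ι ℝ) - fdH F (1 / Ω)) *ᵥ v =
      Ω * (v ⬝ᵥ v) - v ⬝ᵥ fdH F (1 / Ω) *ᵥ v := fun v => by
    rw [sub_mulVec, dotProduct_sub, smul_mulVec, one_mulVec, dotProduct_smul, smul_eq_mul]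
  have hA2 : A ^ 2 ≤ A ^ 4 := pow_le_pow_right₀ (by linarith) (by norm_num)
  have hA2' : 0 < A ^ 2 := by positivity
  have hc1 : 10 * A ^ 2 * (1 / Ω : ℝ) ≤ 1 := by
    rw [mul_one_div, div_le_one h0]
    linarith
  have hP : ((Ω : ℝ) • (1 : Matrix ι ι ℝ) - fdH F (1 / Ω)).PosSemidef := by
    refine PosSemidef.of_dotProduct_mulVec_nonneg ?_ fun v => ?_
    · ext i j
      simp only [conjTranspose_apply, star_trivial, Matrix.sub_apply, Matrix.smul_apply, one_apply, fdH,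
        of_apply, eq_comm (a := j)]
      rw [add_comm (Pi.single j _ : ι → ℝ)]
      ring
    · rw [star_trivial, hPv]
      have a1 := (abs_le.1 (hf v)).2
      have a2 := (abs_le.1 (h.b2 v v)).2
      have a3 := pow_sq_le v
      have a4 : 0 ≤ v ⬝ᵥ v := (sq_nonneg _).trans a3
      rw [pow_one, mul_assoc, ← sq] at a2
      nlinarith [mul_le_mul_of_nonneg_right hc1 a4, mul_le_mul_of_nonneg_left a3 hA0.le]
  have hδ : (0 : ℝ) < 1 / Ω ^ 2 := by positivity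
  have hΩ1 : (1 : ℝ) < Ω := by linarith
  have hδ1 : (1 : ℝ) / Ω ^ 2 < 1 := by
    rw [div_lt_one (by positivity)]
    nlinarith
  obtain ⟨i, hi0, hi⟩ := pow_lemma hP (lam := Ω + 1 / (2 * A ^ 2)) (by positivity) hδ.le hδ1
    (v := β) (norm_pos_iff.1 hβ) (by
      rw [hPv]
      have a1 := (abs_le.1 (hf β)).2
      have a3 := (pow_le_sq β).trans (mul_le_mul_of_nonneg_right hι (sq_nonneg _))
      have a4 : 0 ≤ β ⬝ᵥ β := (sq_nonneg _).trans (pow_sq_le β)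
      have a5 : 1 / A ^ 2 * (β ⬝ᵥ β) ≤ ‖β‖ ^ 2 / A := by
        rw [one_div_mul_eq_div, div_le_div_iff₀ hA2' hA0]
        nlinarith
      have a6 : 10 * A ^ 2 * (1 / Ω : ℝ) ≤ 1 / (2 * A ^ 2) := by
        rw [mul_one_div, div_le_div_iff₀ h0 (by positivity)]
        nlinarith
      have a7 : 1 / A ^ 2 = 1 / (2 * A ^ 2) + 1 / (2 * A ^ 2) := by field_simp; norm_num
      rw [a7] at a5
      nlinarith [mul_le_mul_of_nonneg_right a6 a4])
    (T := Ω ^ 3) (by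
      have b1 := one_add_mul_le_pow (a := 1 / (Ω : ℝ) ^ 2) (by linarith) (2 * Ω ^ 3)
      have b2 : (1 - 1 / (Ω : ℝ) ^ 2) ^ (2 * Ω ^ 3) * (1 + 1 / (Ω : ℝ) ^ 2) ^ (2 * Ω ^ 3) ≤ 1 := by
        rw [← mul_pow]
        exact pow_le_one₀ (mul_nonneg (by linarith) (by linarith)) (by nlinarith)
      have b3 : ((2 * Ω ^ 3 : ℕ) : ℝ) * (1 / (Ω : ℝ) ^ 2) = 2 * Ω := by
        push_cast
        field_simp
      rw [b3] at b1
      have b4 : 0 < (1 - 1 / (Ω : ℝ) ^ 2) ^ (2 * Ω ^ 3) := pow_pos (by linarith) _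
      nlinarith [mul_le_mul_of_nonneg_left b1 b4.le, mul_le_mul_of_nonneg_right hι b4.le])
  refine ⟨i, ?_⟩
  rw [hPv] at hi
  change pwv F Ω i ≠ 0 at hi0
  change _ * (pwv F Ω i ⬝ᵥ pwv F Ω i) ≤
    Ω * (pwv F Ω i ⬝ᵥ pwv F Ω i) - pwv F Ω i ⬝ᵥ fdH F (1 / Ω) *ᵥ pwv F Ω i at hi
  rw [pwd]
  generalize pwv F Ω i = w at hi hi0
  have hw : 0 < ‖w‖ := norm_pos_iff.2 hi0
  have a1 := (abs_le.1 (hf w)).1
  have a3 := pow_sq_le w
  have a4 : 0 ≤ w ⬝ᵥ w := (sq_nonneg _).trans a3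
  have c1 : (3 + 10 * A ^ 2) * (1 / Ω : ℝ) ≤ 1 / (2 * A ^ 2) := by
    rw [mul_one_div, div_le_div_iff₀ h0 (by positivity)]
    nlinarith
  have c2 : 1 / (Ω : ℝ) ^ 2 * (Ω + 1 / (2 * A ^ 2)) ≤ 2 * (1 / Ω) := by
    have : 1 / (2 * A ^ 2) ≤ (Ω : ℝ) := by
      rw [div_le_iff₀ (by positivity)]
      nlinarith
    calc _ ≤ 1 / (Ω : ℝ) ^ 2 * (Ω + Ω) := by gcongr
      _ = _ := by field_simp; norm_num
  have c3 : F2 w w ≤ -(1 / Ω) * ‖w‖ ^ 2 := by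
    nlinarith [mul_le_mul_of_nonneg_right c1 a4, mul_le_mul_of_nonneg_right c2 a4,
      mul_le_mul_of_nonneg_left a3 hu.le]
  rw [(h.lin2 _).map_smul, h.symm, (h.lin2 _).map_smul, smul_eq_mul, smul_eq_mul, ← mul_assoc,
    ← mul_inv, ← sq, inv_mul_le_iff₀ (by positivity), mul_comm]
  exact c3

theorem jet_step {V : Type} [NormedAddCommGroup V] [NormedSpace ℝ V] {F F1 : V → ℝ}
    {F2 : V → V → ℝ} {A Ω : ℝ} (hA : 10 ≤ A) (h : Jet F F1 F2 A 1) (hΩ : A ^ 7 ≤ Ω) {β v : V}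
    (hβ : ‖β‖ ≤ 1) (h1 : F1 β ≤ 0) (h2 : F2 β β ≤ -(1 / Ω)) {σ : ℝ} (hσ : 0 ≤ σ)
    (hσ' : σ ≤ 1 / Ω ^ 3) (hv : ‖v - σ • β‖ ≤ 1 / Ω ^ 12) :
    F v ≤ F 0 + 1 / Ω ^ 8 ∧ (σ = 1 / Ω ^ 3 → F v ≤ F 0 - 1 / Ω ^ 8) := by
  obtain ⟨h0, -, h100⟩ := pow_u hA hΩ
  have hA0 : 0 < A := by linarith
  obtain ⟨u, hu⟩ : ∃ u, u = 1 / Ω := ⟨_, rfl⟩
  have hu0 : 0 < u := by rw [hu]; positivity
  have hAu : A * u ≤ 1 / 100 := by
    rw [hu, mul_one_div, div_le_div_iff₀ h0 (by norm_num)]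
    linarith
  have hu1 : u ≤ 1 / 1000 := by nlinarith
  have hp : ∀ k : ℕ, 1 / Ω ^ k = u ^ k := fun k => by rw [hu, _root_.one_div_pow]
  rw [hp] at hσ' hv
  rw [hp, hp]
  rw [← hu] at h2
  obtain ⟨e, rfl⟩ : ∃ e, v = σ • β + e := ⟨v - σ • β, by abel⟩
  rw [add_sub_cancel_left] at hv
  have hle : ∀ {k l : ℕ}, k ≤ l → u ^ l ≤ u ^ k := fun h =>
    pow_le_pow_of_le_one hu0.le (by linarith) h
  have hn : ‖σ • β + e‖ ≤ 2 * u ^ 3 := by
    refine (norm_add_le _ _).trans ?_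
    rw [norm_smul, Real.norm_of_nonneg hσ]
    nlinarith [hle (show 3 ≤ 12 by norm_num), norm_nonneg β]
  have r := h.rem _ (hn.trans (by
    rw [pow_one, le_div_iff₀ hA0]
    have := hle (show 1 ≤ 3 by norm_num)
    rw [pow_one] at this
    nlinarith))
  have r' : A * ‖σ • β + e‖ ^ 3 ≤ A * (2 * u ^ 3) ^ 3 := by gcongr
  have e2 : F2 (σ • β + e) (σ • β + e) = σ ^ 2 * F2 β β + 2 * σ * F2 β e + F2 e e := by
    rw [(h.lin2 _).map_add, (h.lin2 _).map_smul, h.symm _ β, h.symm _ e, (h.lin2 _).map_add,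
      (h.lin2 _).map_add, (h.lin2 _).map_smul, (h.lin2 _).map_smul, h.symm e β]
    simp only [smul_eq_mul]
    ring
  rw [h.lin1.map_add, h.lin1.map_smul, e2] at r
  simp only [pow_one, Real.norm_eq_abs, smul_eq_mul, abs_le] at r
  have hu12 : u ^ 12 ≤ u ^ 9 := hle (by norm_num)
  have hu9 : 0 < u ^ 9 := by positivity
  have he : ‖e‖ ≤ u ^ 9 := hv.trans hu12
  have he1 : ‖e‖ ≤ 1 := he.trans (by simpa using hle (Nat.zero_le 9))
  have hσ1 : σ ≤ 1 := hσ'.trans (by simpa using hle (Nat.zero_le 3))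
  have b1 : F1 e ≤ A * u ^ 9 := by
    have := (abs_le.1 (h.b1 e)).2
    rw [pow_one] at this
    exact this.trans (by gcongr)
  have b2 : σ * F2 β e ≤ A * u ^ 9 := by
    have h3 := h.b2 β e
    rw [pow_one, Real.norm_eq_abs] at h3
    calc _ ≤ σ * |F2 β e| := mul_le_mul_of_nonneg_left (le_abs_self _) hσ
      _ ≤ 1 * (A * 1 * u ^ 9) := by
        refine mul_le_mul hσ1 (h3.trans (by gcongr)) (abs_nonneg _) zero_le_one
      _ = _ := by ring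
  have b3 : F2 e e ≤ A * u ^ 9 := by
    have := (abs_le.1 (h.b2 e e)).2
    rw [pow_one] at this
    calc _ ≤ A * 1 * u ^ 9 := this.trans (by gcongr)
      _ = _ := by ring
  have b4 : σ * F1 β ≤ 0 := mul_nonpos_of_nonneg_of_nonpos hσ h1
  have b5 : σ ^ 2 * F2 β β ≤ σ ^ 2 * -u := mul_le_mul_of_nonneg_left h2 (sq_nonneg _)
  have b6 : A * u ^ 9 ≤ 1 / 100 * u ^ 8 := by
    have : 0 < u ^ 8 := by positivity
    nlinarith
  have hu8 : 0 < u ^ 8 := by positivity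
  have key : F (σ • β + e) ≤ F 0 - σ ^ 2 * u / 2 + u ^ 8 := by nlinarith [r.2]
  refine ⟨by nlinarith [mul_nonneg (sq_nonneg σ) hu0.le], fun hs => ?_⟩
  have b7 : σ ^ 2 * u = u ^ 7 := by rw [hs]; ring
  have b8 : u ^ 8 ≤ u ^ 7 / 1000 := by
    have : 0 < u ^ 7 := by positivity
    nlinarith
  nlinarith

theorem jet_step1 {V : Type} [NormedAddCommGroup V] [NormedSpace ℝ V] {F F1 : V → ℝ}
    {F2 : V → V → ℝ} {A Ω : ℝ} (hA : 10 ≤ A) (h : Jet F F1 F2 A 1) (hΩ : A ^ 7 ≤ Ω) {β : V}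
    (hβ : ‖β‖ ≤ 1) (h1 : F1 β ≤ -(1 / A)) : F ((1 / Ω ^ 3) • β) ≤ F 0 - 1 / Ω ^ 8 := by
  obtain ⟨h0, -, h100⟩ := pow_u hA hΩ
  have hA0 : 0 < A := by linarith
  obtain ⟨u, hu⟩ : ∃ u, u = 1 / Ω := ⟨_, rfl⟩
  have hu0 : 0 < u := by rw [hu]; positivity
  have hAu : A * u ≤ 1 / 100 := by
    rw [hu, mul_one_div, div_le_div_iff₀ h0 (by norm_num)]
    linarith
  have hu1 : u ≤ 1 / 1000 := by nlinarith
  have hp : ∀ k : ℕ, 1 / Ω ^ k = u ^ k := fun k => by rw [hu, _root_.one_div_pow]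
  rw [hp, hp]
  have hu3 : 0 < u ^ 3 := by positivity
  have hle : ∀ {k l : ℕ}, k ≤ l → u ^ l ≤ u ^ k := fun h =>
    pow_le_pow_of_le_one hu0.le (by linarith) h
  have hn : ‖u ^ 3 • β‖ ≤ u ^ 3 := by
    rw [norm_smul, Real.norm_of_nonneg hu3.le]
    nlinarith
  have r := (h.sub_le hA (hn.trans (by
    rw [pow_one, le_div_iff₀ hA0]
    have := hle (show 1 ≤ 3 by norm_num)
    rw [pow_one] at this
    nlinarith))).2
  have r' : 2 * A * ‖u ^ 3 • β‖ ^ 2 ≤ 2 * A * (u ^ 3) ^ 2 := by gcongr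
  rw [h.lin1.map_smul] at r
  simp only [pow_one, Real.norm_eq_abs, smul_eq_mul, abs_le] at r
  have b1 : u ^ 3 * F1 β ≤ u ^ 3 * -(1 / A) := mul_le_mul_of_nonneg_left h1 hu3.le
  have b2 : 2 * A * u ^ 3 + u ^ 5 ≤ 1 / A := by
    rw [le_div_iff₀ hA0]
    have c1 : (A * u) ^ 2 ≤ (1 / 100) ^ 2 := by gcongr
    have c2 : u ^ 4 ≤ 1 := by simpa using hle (Nat.zero_le 4)
    have c3 : 0 < A * u := by positivity
    nlinarith [mul_le_mul_of_nonneg_right c1 hu0.le, mul_le_mul_of_nonneg_left c2 c3.le]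
  nlinarith [mul_le_mul_of_nonneg_left b2 hu3.le, r.2]

end Crest.Agent.R37
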