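import Crest.Agent.R37.Lin2

/-!
# R37/Lin3: traces of inverses, lower bounds.
Diagonalise (`Matrix.IsHermitian.spectral_theorem`) or use Cauchy-Schwarz.
-/

set_option autoImplicit false

open Matrix Finset

noncomputable section

namespace Crest.Agent.R37

variable {n : ℕ} {E : Type} [Fintype E] [DecidableEq E]

theorem trace_eq_sum_form (A : Mat n) :
    A.trace = ∑ i, (Pi.single i 1 : Fin n → ℝ) ⬝ᵥ A *ᵥ Pi.single i 1 := by
  simp [Matrix.trace]

theorem lin3_form_le {A : Mat n} (hA : A.PosSemidef) (x : Fin n → ℝ) :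
    x ⬝ᵥ A *ᵥ x ≤ A.trace * (x ⬝ᵥ x) := by
  obtain ⟨C, hC⟩ : ∃ C : Mat n, A = Cᵀ * C := by
    open scoped MatrixOrder in
    obtain ⟨C, hC⟩ := CStarAlgebra.nonneg_iff_eq_star_mul_self.1 hA.nonneg
    exact ⟨C, by simpa [star_eq_conjTranspose] using hC⟩
  have h3 : A.trace = ∑ i, ∑ j, C i j ^ 2 := by
    rw [hC, Matrix.trace_mul_comm]
    simp [Matrix.trace, Matrix.mul_apply, sq]
  rw [h3, hC, ← Matrix.mulVec_mulVec, Matrix.dotProduct_mulVec, Matrix.vecMul_transpose,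
    Finset.sum_mul]
  refine Finset.sum_le_sum fun i _ => ?_
  have := Finset.sum_mul_sq_le_sq_mul_sq univ (C i) x
  simpa [Matrix.mulVec, dotProduct, sq] using this

theorem lin3_bv_sq_le (a b : Fin n) : bv a b ⬝ᵥ bv a b ≤ 2 := by
  rw [bv_dot]
  simp only [bv, Pi.sub_apply, Pi.single_apply]
  split_ifs <;> norm_num

theorem lin3_bv_sq {a b : Fin n} (h : a ≠ b) : bv a b ⬝ᵥ bv a b = 2 := by
  rw [bv_dot]
  simp [bv, h, h.symm]; norm_num

theorem trace_inv_nonneg {M : Mat n} (hM : M.PosDef) : 0 ≤ M⁻¹.trace := by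
  exact hM.inv.posSemidef.trace_nonneg

theorem trace_inv_anti {M M' : Mat n} (hM : M.PosDef) (h : (M' - M).PosSemidef) :
    M'.PosDef ∧ M'⁻¹.trace ≤ M⁻¹.trace := by
  refine ⟨by simpa using hM.add_posSemidef h, ?_⟩
  rw [trace_eq_sum_form, trace_eq_sum_form]
  exact Finset.sum_le_sum fun i _ => form_anti hM h _

theorem trace_inv_le {M : Mat n} {ε : ℝ} (hε : 0 < ε) (h : (M - ε • (1 : Mat n)).PosSemidef) :
    M.PosDef ∧ M⁻¹.trace ≤ n / ε := by
  obtain ⟨h1, h2⟩ := trace_inv_anti (Matrix.PosDef.one.smul hε) h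
  refine ⟨h1, h2.trans (le_of_eq ?_)⟩
  have : (ε • (1 : Mat n))⁻¹ = ε⁻¹ • 1 := by
    refine Matrix.inv_eq_right_inv ?_
    rw [smul_mul_smul_comm, mul_inv_cancel₀ hε.ne', one_mul, one_smul]
  rw [this]; simp [div_eq_inv_mul]

theorem trace_inv_sq_le {M : Mat n} (hM : M.PosDef) :
    M⁻¹.trace ^ 2 ≤ n * (M⁻¹ * M⁻¹).trace := by
  have hs : ∀ i j, M⁻¹ j i = M⁻¹ i j := fun i j => by simpa using hM.inv.1.apply i j
  have h1 := sq_sum_le_card_mul_sum_sq (s := univ) (f := fun i => M⁻¹ i i)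
  simp only [Finset.card_univ, Fintype.card_fin] at h1
  refine h1.trans (mul_le_mul_of_nonneg_left (Finset.sum_le_sum fun i _ => ?_) (Nat.cast_nonneg _))
  rw [Matrix.diag_apply, Matrix.mul_apply, sq]
  exact Finset.single_le_sum (f := fun j => M⁻¹ i j * M⁻¹ j i)
    (fun j _ => by rw [hs i j]; exact mul_self_nonneg _) (mem_univ i)

theorem inv_sq_psd {M : Mat n} (hM : M.PosDef) : (M⁻¹ * M⁻¹).PosSemidef := by
  have := Matrix.posSemidef_conjTranspose_mul_self M⁻¹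
  rwa [hM.inv.1.eq] at this

/-- entries of a psd matrix are bounded by the trace -/
theorem abs_entry_le_trace {A : Mat n} (hA : A.PosSemidef) (i j : Fin n) : |A i j| ≤ A.trace := by
  have h := form_cs hA (Pi.single i 1) (Pi.single j 1)
  have hi := lin3_form_le hA (Pi.single i 1)
  have hj := lin3_form_le hA (Pi.single j 1)
  simp only [Matrix.mulVec_single_one, single_one_dotProduct, Matrix.col_apply, Pi.single_eq_same,
    mul_one] at h hi hj
  have h0 := hA.trace_nonneg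
  refine abs_le_of_sq_le_sq' (h.trans ?_) h0 |> abs_le.2
  rw [sq]
  exact mul_le_mul hi hj hA.diag_nonneg h0

theorem res_le_trace {W : Mat n} (hW : W.PosDef) (a b : Fin n) : res W a b ≤ 2 * W⁻¹.trace := by
  have := lin3_form_le hW.inv.posSemidef (bv a b)
  have h2 := mul_le_mul_of_nonneg_left (lin3_bv_sq_le a b) (trace_inv_nonneg hW)
  change res W a b ≤ _ at this
  linarith

/-- `res_var` at `x = b / T` and `bᵀ W b ≤ 2 tr W` -/
theorem res_ge {W : Mat n} (hW : W.PosDef) {T : ℝ} (hT : W.trace ≤ T) {a b : Fin n} (hab : a ≠ b) :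
    2 / T ≤ res W a b := by
  have h1 := lin3_form_le hW.posSemidef (bv a b)
  have h0 : 0 < bv a b ⬝ᵥ W *ᵥ bv a b := by
    refine hW.dotProduct_mulVec_pos (x := bv a b) fun e => ?_
    have := lin3_bv_sq hab
    rw [e] at this; simp at this
  rw [lin3_bv_sq hab] at h1
  have hT0 : 0 < T := by linarith
  refine le_trans ?_ (res_var hW a b (T⁻¹ • bv a b))
  simp only [Matrix.mulVec_smul, dotProduct_smul, smul_dotProduct, smul_eq_mul, lin3_bv_sq hab]
  have : T⁻¹ * (T⁻¹ * (bv a b ⬝ᵥ W *ᵥ bv a b)) ≤ T⁻¹ * (T⁻¹ * (T * 2)) := by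
    gcongr; linarith
  rw [inv_mul_cancel_left₀ hT0.ne'] at this
  rw [div_eq_mul_inv]; linarith

/-- `‖b‖² = 2 ≤ ‖M‖² ‖M⁻¹ b‖²` -/
theorem qf_inv_sq_ge {M : Mat n} (hM : M.PosDef) {T : ℝ} (hT : M.trace ≤ T) {a b : Fin n}
    (hab : a ≠ b) : 2 / T ^ 2 ≤ qf (M⁻¹ * M⁻¹) a b := by
  set y := M⁻¹ *ᵥ bv a b
  have e1 : M *ᵥ y = bv a b := mulVec_inv hM _
  have e2 : qf (M⁻¹ * M⁻¹) a b = y ⬝ᵥ y := by
    rw [qf, ← Matrix.mulVec_mulVec, form_symm hM.inv.1]
  have h1 := form_cs hM.posSemidef (bv a b) y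
  rw [e1, lin3_bv_sq hab] at h1
  have h2 := lin3_form_le hM.posSemidef (bv a b)
  have h3 := lin3_form_le hM.posSemidef y
  rw [lin3_bv_sq hab] at h2
  rw [e1] at h3
  have h0 := hM.posSemidef.trace_nonneg
  have hy : 0 ≤ y ⬝ᵥ y := by simpa using form_nonneg Matrix.PosSemidef.one y
  have h4 : 0 ≤ y ⬝ᵥ bv a b := by rw [← e1]; exact form_nonneg hM.posSemidef y
  have h5 : (2 : ℝ) ^ 2 ≤ (T * 2) * (T * (y ⬝ᵥ y)) :=
    h1.trans (mul_le_mul (h2.trans (by gcongr)) (h3.trans (by gcongr)) h4 (by linarith))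
  have hT0 : 0 < T := by
    rcases (h0.trans hT).eq_or_lt with h | h
    · rw [← h] at h5; norm_num at h5
    · exact h
  rw [e2, div_le_iff₀ (by positivity)]
  nlinarith

/-- Gram matrices of a psd form on edge vectors, and their Schur products, are psd -/
theorem gram_hadamard_psd {ι : Type} [Fintype ι] {Z Z' : Mat n} (hZ : Z.PosSemidef)
    (hZ' : Z'.PosSemidef) (a b : ι → Fin n) (g : ι → ℝ) :
    0 ≤ ∑ i, ∑ j, g i * g j * (bf Z (a i) (b i) (a j) (b j) * bf Z' (a i) (b i) (a j) (b j)) := by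
  obtain ⟨C, hC⟩ : ∃ C : Mat n, Z' = Cᵀ * C := by
    open scoped MatrixOrder in
    obtain ⟨C, hC⟩ := CStarAlgebra.nonneg_iff_eq_star_mul_self.1 hZ'.nonneg
    exact ⟨C, by simpa [star_eq_conjTranspose] using hC⟩
  have e1 : ∀ i j, bf Z' (a i) (b i) (a j) (b j) =
      ∑ k, (C *ᵥ bv (a i) (b i)) k * (C *ᵥ bv (a j) (b j)) k := fun i j => by
    rw [bf, hC, ← Matrix.mulVec_mulVec, Matrix.dotProduct_mulVec, Matrix.vecMul_transpose]; rfl
  have h := Finset.sum_nonneg fun k (_ : k ∈ univ) =>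
    form_nonneg hZ (∑ i, (g i * (C *ᵥ bv (a i) (b i)) k) • bv (a i) (b i))
  refine h.trans (le_of_eq ?_)
  simp only [e1, Matrix.mulVec_sum, Matrix.mulVec_smul, sum_dotProduct, dotProduct_sum,
    smul_dotProduct, dotProduct_smul, smul_eq_mul, Finset.mul_sum]
  rw [Finset.sum_comm]
  refine Finset.sum_congr rfl fun i _ => ?_
  rw [Finset.sum_comm]
  refine Finset.sum_congr rfl fun j _ => Finset.sum_congr rfl fun k _ => ?_
  rw [bf, form_symm hZ.1]; ring

end Crest.Agent.R37
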