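import Crest.Agent.R37.Defs

/-!
# R37/S2Defs: the Stage-2 potential, states and moves.
-/

set_option autoImplicit false

open Matrix Finset

noncomputable section

namespace Crest.Agent.R37

variable {n : ℕ} {E : Type} [Fintype E] [DecidableEq E]

def W2 (s t : E → Fin n) (W0 : Mat n) (α : E → ℝ) : Mat n := W0 + LE s t α

/-- light edges pay `x + 64 (5 - x²) ρ`, paid edges pay `1` -/
def coef (s t : E → Fin n) (L P : Finset E) (W : Mat n) (x : E → ℝ) (e : E) : ℝ :=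
  if e ∈ L then x e + 64 * (5 - x e ^ 2) * res W (s e) (t e) else if e ∈ P then 1 else 0

def M2 (s t : E → Fin n) (W0 M0 : Mat n) (L P : Finset E) (x α : E → ℝ) : Mat n :=
  M0 - W2 s t W0 α - LE s t (coef s t L P (W2 s t W0 α) x)

def Phi2 (s t : E → Fin n) (W0 M0 : Mat n) (L P : Finset E) (x α : E → ℝ) : ℝ :=
  (M2 s t W0 M0 L P x α)⁻¹.trace + (W2 s t W0 α)⁻¹.trace

/-- `z_e = ‖M⁻¹ b_e‖²` -/
def zz (s t : E → Fin n) (M : Mat n) (e : E) : ℝ := qf (M⁻¹ * M⁻¹) (s e) (t e)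

/-- `B_{ef} = b_eᵀ W⁻¹ b_f` -/
def BB (s t : E → Fin n) (W : Mat n) (e f : E) : ℝ := bf W⁻¹ (s e) (t e) (s f) (t f)

/-- the psd matrix whose Gram matrix is `Ξ'` -/
def XiM (s t : E → Fin n) (L : Finset E) (W M : Mat n) (x : E → ℝ) : Mat n :=
  W⁻¹ * LE s t (fun e => if e ∈ L then 64 * (5 - x e ^ 2) * zz s t M e else 0) * W⁻¹ + W⁻¹ * W⁻¹

/-- half the second derivative in a direction `(h, -g)` that does not move `M` to first order -/
def q2 (s t : E → Fin n) (L : Finset E) (W M : Mat n) (x h g : E → ℝ) : ℝ :=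
  ∑ e, ∑ f, g e * g f * (BB s t W e f * bf (XiM s t L W M x) (s e) (t e) (s f) (t f)) -
    64 * ∑ e ∈ L, res W (s e) (t e) * zz s t M e * h e ^ 2 -
    128 * ∑ e ∈ L, x e * h e * (∑ f, BB s t W e f ^ 2 * g f) * zz s t M e

/-- `x`-part of a perturbation: light edges move against their representatives -/
def px (L : Finset E) (rep : E → E) (β : E ⊕ E → ℝ) : E → ℝ :=
  ∑ e ∈ L, β (Sum.inl e) • (Pi.single e 1 - Pi.single (rep e) 1)

/-- states: `u`, `a` (grid `1/N`), light edges, paid edges -/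
abbrev St (E : Type) : Type := (E → ℤ) × (E → ℤ) × Finset E × Finset E

def stx (N : ℕ) (y : St E) : E → ℝ := fun e => y.1 e / N
def sta (N : ℕ) (y : St E) : E → ℝ := fun e => y.2.1 e / N

def stW (s t : E → Fin n) (W0 : Mat n) (N : ℕ) (y : St E) : Mat n := W2 s t W0 (sta N y)
def stM (s t : E → Fin n) (W0 M0 : Mat n) (N : ℕ) (y : St E) : Mat n :=
  M2 s t W0 M0 y.2.2.1 y.2.2.2 (stx N y) (sta N y)
def stPhi (s t : E → Fin n) (W0 M0 : Mat n) (N : ℕ) (y : St E) : ℝ :=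
  Phi2 s t W0 M0 y.2.2.1 y.2.2.2 (stx N y) (sta N y)

/-- the potential along perturbations `β` -/
def stF (s t : E → Fin n) (W0 M0 : Mat n) (N : ℕ) (y : St E) (rep : E → E) (β : E ⊕ E → ℝ) : ℝ :=
  Phi2 s t W0 M0 y.2.2.1 y.2.2.2 (stx N y + px y.2.2.1 rep β) (sta N y + fun e => β (Sum.inr e))

/-- combinatorial feasibility -/
def Feas (s t : E → Fin n) (k N : ℕ) (y : St E) : Prop :=
  Base s t (k * N) y.1 ∧ (∀ e, y.1 e ≤ N) ∧ Disjoint y.2.2.1 y.2.2.2 ∧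
    ∀ e, e ∉ y.2.2.1 → e ∉ y.2.2.2 → y.1 e = 0

/-- normal form: no switch applies -/
def Nrm (s t : E → Fin n) (W0 : Mat n) (N : ℕ) (y : St E) : Prop :=
  (∀ e ∈ y.2.2.1, 0 < y.1 e ∧ y.1 e < N ∧ 64 * res (stW s t W0 N y) (s e) (t e) < 3 / 10) ∧
    ∀ e ∈ y.2.2.2, 0 < y.1 e

open Classical in
/-- number of events so far -/
def evn (s t : E → Fin n) (k N : ℕ) (u : E → ℤ) : ℕ :=
  (univ.filter fun p : E × E => u p.1 = 0 ∨ Sep s t (k * N) u p.1 p.2).card +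
    (univ.filter fun e => u e = 0 ∨ u e = N).card

/-- the measure that decreases -/
def msr (s t : E → Fin n) (W0 M0 : Mat n) (k N : ℕ) (η : ℝ) (y : St E) : ℕ :=
  ⌈stPhi s t W0 M0 N y / η⌉₊ + 2 * (Fintype.card E ^ 2 + Fintype.card E - evn s t k N y.1) +
    2 * y.2.2.1.card + y.2.2.2.card

/-- representatives of the classes of the light edges -/
def IsRep (s t : E → Fin n) (k N : ℕ) (y : St E) (rep : E → E) : Prop :=
  ∀ e ∈ y.2.2.1, (rep e ∈ y.2.2.1 ∨ (rep e ∈ y.2.2.2 ∧ y.1 (rep e) < N)) ∧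
    Cl s t (k * N) y.1 e (rep e) ∧ (∀ f ∈ y.2.2.1, Cl s t (k * N) y.1 e f → rep f = rep e) ∧
    ∀ f ∈ y.2.2.2, y.1 f < N → Cl s t (k * N) y.1 e f → rep e ∈ y.2.2.2

open Classical in
/-- switch the status of `e` -/
def sw (s t : E → Fin n) (W0 : Mat n) (N : ℕ) (y : St E) (e : E) : St E :=
  if y.1 e = 0 then (y.1, y.2.1, y.2.2.1.erase e, y.2.2.2.erase e)
  else if e ∈ y.2.2.1 ∧ (y.1 e = N ∨ 3 / 10 ≤ 64 * res (stW s t W0 N y) (s e) (t e)) then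
    (y.1, y.2.1, y.2.2.1.erase e, insert e y.2.2.2)
  else y

/-- exchange between two paid edges -/
def pp (y : St E) (e f : E) (j : ℕ) : St E :=
  if e ∈ y.2.2.2 ∧ f ∈ y.2.2.2 then (y.1 + (j : ℤ) • (Pi.single f 1 - Pi.single e 1), y.2) else y

/-- integer move -/
def mvz (y : St E) (rep : E → E) (κ : E ⊕ E → ℤ) : St E :=
  (y.1 + ∑ e ∈ y.2.2.1, κ (Sum.inl e) • (Pi.single e 1 - Pi.single (rep e) 1),
    y.2.1 + (fun e => κ (Sum.inr e)), y.2.2)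

/-- the `t`-th lattice point along `β`: one `inl` coordinate moves at a time -/
def kap {m : ℕ} (β : Fin m ⊕ Fin m → ℝ) (t : ℕ) : Fin m ⊕ Fin m → ℤ
  | Sum.inl e => ⌊((t / m + if e.val < t % m then 1 else 0 : ℕ) : ℝ) * β (Sum.inl e)⌋
  | Sum.inr e => ⌊((t / m : ℕ) : ℝ) * β (Sum.inr e)⌋

/-- finite-difference Hessian -/
def fdH {ι : Type} [DecidableEq ι] (F : (ι → ℝ) → ℝ) (h : ℝ) : Matrix ι ι ℝ :=
  Matrix.of fun i j =>
    (F (Pi.single i h + Pi.single j h) - F (Pi.single i h) - F (Pi.single j h) + F 0) / h ^ 2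

/-- power iterate -/
def pwv {ι : Type} [Fintype ι] [DecidableEq ι] (F : (ι → ℝ) → ℝ) (Ω : ℕ) (i : ι) : ι → ℝ :=
  (((Ω : ℝ) • (1 : Matrix ι ι ℝ) - fdH F (1 / Ω)) ^ (Ω ^ 3)) *ᵥ Pi.single i 1

/-- normalised power iterate (sup norm) -/
def pwd {ι : Type} [Fintype ι] [DecidableEq ι] (F : (ι → ℝ) → ℝ) (Ω : ℕ) (i : ι) : ι → ℝ :=
  ‖pwv F Ω i‖⁻¹ • pwv F Ω i

/-- candidate moves -/
abbrev C2 (m Ω : ℕ) : Type :=
  Fin m ⊕ Fin m ⊕ (Fin m × Fin m × Fin (2 * Ω ^ 12 + 1)) ⊕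
    ((Fin m ⊕ Fin m) × Bool × Fin (2 * Ω ^ 9 * m + 1))

def cand {m : ℕ} (s t : Fin m → Fin n) (W0 M0 : Mat n) (Ω : ℕ) (y : St (Fin m)) (rep : Fin m → Fin m) :
    C2 m Ω → St (Fin m)
  | Sum.inl e => sw s t W0 (2 * Ω ^ 12) y e
  | Sum.inr (Sum.inl f) => mvz y rep (Pi.single (Sum.inr f) (2 * Ω ^ 9))
  | Sum.inr (Sum.inr (Sum.inl (e, f, j))) => pp y e f j.val
  | Sum.inr (Sum.inr (Sum.inr (i, σ, j))) =>
      mvz y rep (kap ((if σ then 1 else -1 : ℝ) • pwd (stF s t W0 M0 (2 * Ω ^ 12) y rep) Ω i) j.val)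

/-- initial data from a certificate -/
def W00 (s t : E → Fin n) (w : Fin n → Fin n → ℝ) (q : ℕ) : Mat n := (1 / q : ℝ) • (Gam s t + Lw w)

def M00 (s t : E → Fin n) (H : Finset E) (w : Fin n → Fin n → ℝ) (q : ℕ) : Mat n :=
  W00 s t w q + LE s t (coef s t H ∅ (W00 s t w q) (fun _ => 1 / 2)) + (1 / (n : ℝ)) • (1 : Mat n)

def st0 (H : Finset E) (Ω : ℕ) : St E := (fun e => (Ω : ℤ) ^ 12 * ind H e, fun _ => 0, H, ∅)

end Crest.Agent.R37
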