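import Crest.Agent.R37.S2Core
import Crest.Agent.R37.S2Defs
import Crest.Agent.R37.Lin3

/-!
# R37/S2Dir: a direction of negative curvature.
`dir_core` on `ι = L` with `K = B²` (`bf_sq_le`), `N = B ∘ Ξ'` (`gram_hadamard_psd`), `S = {h : ∀ r ∈ L, ∑_{rep e = r} h e = 0}` (at most `|L|/2` nontrivial
equations); extend by zero.  `ρ ≥ 2/Ω` (`res_ge`), `z ≥ 2/Ω²` (`qf_inv_sq_ge`), `‖h‖ ≤ 2.5 (1 + m) ‖g‖`.
-/

set_option autoImplicit false

open Matrix Finset

noncomputable section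

namespace Crest.Agent.R37

variable {n : ℕ} {E : Type} [Fintype E] [DecidableEq E]

theorem s2dir_sum (L : Finset E) (φ : E → ℝ) (h : ∀ e, e ∉ L → φ e = 0) :
    ∑ e, φ e = ∑ e : L, φ e := by
  rw [Finset.sum_coe_sort L φ]
  exact (Finset.sum_subset (subset_univ L) fun e _ he => h e he).symm

theorem s2dir_sub (L : Finset E) {rep : E → E}
    (hrep : ∀ e ∈ L, rep e ∈ L → ∃ f ∈ L, f ≠ e ∧ rep f = rep e) :
    ∃ S : Submodule ℝ (L → ℝ), Fintype.card L ≤ 2 * Module.finrank ℝ S ∧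
      ∀ h ∈ S, ∀ r ∈ L, ∑ e : L, (if rep e = r then h e else 0) = 0 := by
  obtain ⟨R, hR⟩ : ∃ R : Finset E, R = (L.filter fun e => rep e ∈ L).image rep := ⟨_, rfl⟩
  have h1 : 2 * R.card ≤ L.card := by
    refine le_trans ?_ (card_filter_le L fun e => rep e ∈ L)
    rw [hR]
    refine Finset.mul_card_image_le_card _ 2 fun r hr => ?_
    obtain ⟨e, he, rfl⟩ := mem_image.1 hr
    obtain ⟨he1, he2⟩ := mem_filter.1 he
    obtain ⟨f, hf, hfe, hr⟩ := hrep e he1 he2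
    refine Finset.one_lt_card.2 ⟨f, ?_, e, ?_, hfe⟩
    · exact mem_filter.2 ⟨mem_filter.2 ⟨hf, hr ▸ he2⟩, hr⟩
    · exact mem_filter.2 ⟨he, rfl⟩
  let Φ : (L → ℝ) →ₗ[ℝ] (R → ℝ) :=
    { toFun := fun h r => ∑ e : L, (if rep e = r then h e else 0)
      map_add' := fun h h' => by
        ext r
        simp only [Pi.add_apply, ← Finset.sum_add_distrib]
        exact Finset.sum_congr rfl fun e _ => by split_ifs <;> simp
      map_smul' := fun c h => by
        ext r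
        simp only [Pi.smul_apply, smul_eq_mul, RingHom.id_apply, Finset.mul_sum]
        exact Finset.sum_congr rfl fun e _ => by split_ifs <;> simp }
  refine ⟨LinearMap.ker Φ, ?_, fun h hh r hr => ?_⟩
  · have h2 := LinearMap.finrank_range_add_finrank_ker Φ
    have h3 := Submodule.finrank_le (LinearMap.range Φ)
    rw [Module.finrank_fintype_fun_eq_card] at h2 h3
    rw [Fintype.card_coe] at h2 h3 ⊢
    omega
  · by_cases h4 : r ∈ R
    · exact congrFun (LinearMap.mem_ker.1 hh) ⟨r, h4⟩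
    · refine Finset.sum_eq_zero fun e _ => if_neg fun h5 => h4 ?_
      rw [hR]
      exact mem_image.2 ⟨e, mem_filter.2 ⟨e.2, h5 ▸ hr⟩, h5⟩

theorem s2dir_qf {s t : E → Fin n} {W : Mat n} (hW : W.PosDef) (c : E → ℝ) (f : E) :
    qf (W⁻¹ * LE s t c * W⁻¹) (s f) (t f) = ∑ e, c e * BB s t W e f ^ 2 := by
  rw [qf, ← mulVec_mulVec, ← mulVec_mulVec, form_symm hW.inv.isHermitian, dotProduct_comm, LE,
    Matrix.sum_mulVec, dotProduct_sum]
  refine Finset.sum_congr rfl fun e _ => ?_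
  rw [smul_mulVec, dotProduct_smul, form_Lp, smul_eq_mul, sq]
  rfl

theorem s2dir_h {ρ x g h k m r : ℝ} (hρ : 0 < ρ) (hρ' : 64 * ρ ≤ 3 / 10) (hx : 0 ≤ x) (hx' : x ≤ 1)
    (he : (1 - 128 * x * ρ) * h = g - 64 * (5 - x ^ 2) * k) (hg : |g| ≤ r) (hk : 320 * |k| ≤ m * r) :
    |h| ≤ 5 / 2 * ((1 + m) * r) := by
  have h1 : 2 / 5 ≤ 1 - 128 * x * ρ := by nlinarith
  have h2 : (1 - 128 * x * ρ) * |h| ≤ |g| + 64 * (5 - x ^ 2) * |k| := by
    have h3 : 0 ≤ 64 * (5 - x ^ 2) := by nlinarith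
    calc (1 - 128 * x * ρ) * |h| = |g - 64 * (5 - x ^ 2) * k| := by
          rw [← he, abs_mul, abs_of_nonneg (by linarith : 0 ≤ 1 - 128 * x * ρ)]
      _ ≤ |g| + |64 * (5 - x ^ 2) * k| := abs_sub _ _
      _ = _ := by rw [abs_mul, abs_of_nonneg h3]
  nlinarith [abs_nonneg h, abs_nonneg k, mul_nonneg (sq_nonneg x) (abs_nonneg k)]

theorem s2_dir {s t : E → Fin n} (hl : ∀ e, s e ≠ t e) {W M : Mat n} {L : Finset E} {x : E → ℝ}
    {Ω : ℝ} (hΩ : 10 ≤ Ω) (hm : (Fintype.card E : ℝ) ≤ Ω) (hW : W.PosDef) (hM : M.PosDef)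
    (hWt : W.trace ≤ Ω) (hMt : M.trace ≤ Ω) (hL : L.Nonempty)
    (hx : ∀ e ∈ L, 0 ≤ x e ∧ x e ≤ 1 ∧ 64 * res W (s e) (t e) ≤ 3 / 10)
    (hXi : ∀ f ∈ L, qf (XiM s t L W M x) (s f) (t f) ≤ 2 * zz s t M f) {rep : E → E}
    (hrep : ∀ e ∈ L, rep e ∈ L → ∃ f ∈ L, f ≠ e ∧ rep f = rep e) :
    ∃ (β : E ⊕ E → ℝ) (g : E → ℝ), 0 < ‖β‖ ∧ (∀ e, β (Sum.inr e) = -g e) ∧ (∀ e, e ∉ L → g e = 0) ∧
      (∀ e ∈ L, (1 - 128 * x e * res W (s e) (t e)) * px L rep β e =
        g e - 64 * (5 - x e ^ 2) * ∑ f, BB s t W e f ^ 2 * g f) ∧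
      q2 s t L W M x (px L rep β) g ≤ -(‖β‖ ^ 2 / Ω ^ 7) := by
  have hΩ0 : 0 < Ω := by linarith
  have hρ : ∀ e, 2 / Ω ≤ res W (s e) (t e) := fun e => res_ge hW hWt (hl e)
  have hz : ∀ e, 2 / Ω ^ 2 ≤ zz s t M e := fun e => qf_inv_sq_ge hM hMt (hl e)
  have hρ0 : ∀ e, 0 < res W (s e) (t e) := fun e => lt_of_lt_of_le (by positivity) (hρ e)
  have hz0 : ∀ e, 0 < zz s t M e := fun e => lt_of_lt_of_le (by positivity) (hz e)
  have hWi : W⁻¹.PosSemidef := hW.inv.posSemidef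
  have hXp : (XiM s t L W M x).PosSemidef := by
    refine PosSemidef.add ?_ (inv_sq_psd hW)
    have h1 := (LE_psd s t (x := fun e => if e ∈ L then 64 * (5 - x e ^ 2) * zz s t M e else 0)
      fun e => by
        split_ifs with he
        · obtain ⟨h1, h2, -⟩ := hx e he
          exact mul_nonneg (by nlinarith) (hz0 e).le
        · exact le_rfl).conjTranspose_mul_mul_same W⁻¹
    rwa [hWi.isHermitian.eq] at h1
  have hK : ∀ e f, BB s t W e f ^ 2 ≤ res W (s e) (t e) * res W (s f) (t f) := fun e f =>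
    bf_sq_le hWi _ _ _ _
  obtain ⟨S, hS, hS'⟩ := s2dir_sub L hrep
  have : Nonempty L := hL.to_subtype
  obtain ⟨g, h, hg, hh, he, hq⟩ := dir_core (ι := L) (fun e => res W (s e) (t e))
    (fun e => zz s t M e) (fun e => x e) (fun e f => BB s t W e f ^ 2)
    (fun e f => BB s t W e f * bf (XiM s t L W M x) (s e) (t e) (s f) (t f))
    (fun e => ⟨hρ0 e, (hx e e.2).2.2⟩) (fun e => hz0 e) (fun e => ⟨(hx e e.2).1, (hx e e.2).2.1⟩)
    (fun e f => ⟨sq_nonneg _, hK e f⟩)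
    (fun e f => by
      unfold BB bf
      rw [form_symm hWi.isHermitian, form_symm hXp.isHermitian])
    (fun g => gram_hadamard_psd hWi hXp (fun e : L => s e) (fun e : L => t e) g)
    (fun e => by
      have := mul_le_mul_of_nonneg_left (hXi e e.2) (hρ0 e).le
      calc _ = res W (s e) (t e) * qf (XiM s t L W M x) (s e) (t e) := rfl
        _ ≤ _ := by linarith)
    (fun f => by
      have h1 := hXi f f.2
      rw [XiM, qf_add, s2dir_qf hW, s2dir_sum L _ fun e he => by rw [if_neg he, zero_mul]] at h1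
      simp only [Finset.coe_mem, if_true] at h1
      linarith [qf_nonneg (inv_sq_psd hW) (s f) (t f)]) S hS
  obtain ⟨G, hG, hG0⟩ : ∃ G : E → ℝ, (∀ e : L, G e = g e) ∧ ∀ e, e ∉ L → G e = 0 :=
    ⟨fun e => if he : e ∈ L then g ⟨e, he⟩ else 0, fun e => dif_pos e.2, fun e he => dif_neg he⟩
  obtain ⟨H, hH, hH0⟩ : ∃ H : E → ℝ, (∀ e : L, H e = h e) ∧ ∀ e, e ∉ L → H e = 0 :=
    ⟨fun e => if he : e ∈ L then h ⟨e, he⟩ else 0, fun e => dif_pos e.2, fun e he => dif_neg he⟩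
  have hpx : ∀ e : L, px L rep (Sum.elim H fun e => -G e) e = h e := fun e => by
    have h1 := hS' h hh e e.2
    rw [px, Finset.sum_apply, ← Finset.sum_coe_sort L]
    simp only [Sum.elim_inl, hH, Pi.smul_apply, Pi.sub_apply, smul_eq_mul, mul_sub,
      Finset.sum_sub_distrib, Pi.single_apply, mul_ite, mul_one, mul_zero]
    simp only [@eq_comm _ (e : E), h1, sub_zero, Subtype.coe_inj, Finset.sum_ite_eq',
      Finset.mem_univ, if_true]
  have hsum : ∀ e, ∑ f, BB s t W e f ^ 2 * G f = ∑ f : L, BB s t W e f ^ 2 * g f := fun e => by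
    rw [s2dir_sum L _ fun f hf => by rw [hG0 f hf, mul_zero]]
    simp only [hG]
  obtain ⟨T, hT⟩ : ∃ T : ℝ, T = ∑ e, g e ^ 2 := ⟨_, rfl⟩
  have hT0 : 0 ≤ T := by rw [hT]; positivity
  have hgT : ∀ e, |g e| ≤ √T := fun e => by
    refine Real.abs_le_sqrt ?_
    rw [hT]
    exact Finset.single_le_sum (f := fun e => g e ^ 2) (fun _ _ => sq_nonneg _) (mem_univ e)
  have hs0 := Real.sqrt_nonneg T
  have hhT : ∀ e, |h e| ≤ 3 * Ω * √T := fun e => by
    refine (s2dir_h (m := Ω) (hρ0 e) (hx e e.2).2.2 (hx e e.2).1 (hx e e.2).2.1 (he e) (hgT e)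
      ?_).trans (by nlinarith)
    have h1 : ∀ f : L, 320 * |BB s t W e f ^ 2 * g f| ≤ √T := fun f => by
      rw [abs_mul, abs_of_nonneg (sq_nonneg _)]
      have h2 : 320 * BB s t W e f ^ 2 ≤ 1 := by
        nlinarith [hK e f, (hx e e.2).2.2, (hx f f.2).2.2, hρ0 e, hρ0 f]
      nlinarith [hgT f, abs_nonneg (g f), sq_nonneg (BB s t W e f)]
    calc 320 * |∑ f : L, BB s t W e f ^ 2 * g f| ≤ 320 * ∑ f : L, |BB s t W e f ^ 2 * g f| :=
          mul_le_mul_of_nonneg_left (Finset.abs_sum_le_sum_abs _ _) (by norm_num)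
      _ ≤ ∑ _f : L, √T := by rw [Finset.mul_sum]; exact Finset.sum_le_sum fun f _ => h1 f
      _ ≤ Ω * √T := by
        rw [Finset.sum_const, nsmul_eq_mul, card_univ]
        refine mul_le_mul_of_nonneg_right (le_trans ?_ hm) hs0
        exact_mod_cast Fintype.card_subtype_le _
  have hβ : ‖(Sum.elim H fun e => -G e : E ⊕ E → ℝ)‖ ≤ 3 * Ω * √T := by
    refine (pi_norm_le_iff_of_nonneg (by positivity)).2 fun i => ?_
    rcases i with e | e <;> by_cases he : e ∈ L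
    · rw [Sum.elim_inl, hH ⟨e, he⟩]; exact hhT _
    · rw [Sum.elim_inl, hH0 e he, norm_zero]; positivity
    · rw [Sum.elim_inr, norm_neg, hG ⟨e, he⟩]
      exact (hgT _).trans (by nlinarith)
    · rw [Sum.elim_inr, hG0 e he, neg_zero, norm_zero]; positivity
  refine ⟨Sum.elim H fun e => -G e, G, norm_pos_iff.2 fun h0 => hg (funext fun e => ?_),
    fun _ => rfl, hG0, fun e he' => ?_, ?_⟩
  · have h1 := congrFun h0 (Sum.inr e)
    rw [Sum.elim_inr, hG] at h1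
    exact neg_eq_zero.1 h1
  · rw [hpx ⟨e, he'⟩, hsum, hG ⟨e, he'⟩]
    exact he ⟨e, he'⟩
  · have e1 : ∑ e, ∑ f, G e * G f * (BB s t W e f * bf (XiM s t L W M x) (s e) (t e) (s f) (t f)) =
        ∑ e : L, ∑ f : L, g e * g f *
          (BB s t W e f * bf (XiM s t L W M x) (s e) (t e) (s f) (t f)) := by
      rw [s2dir_sum L _ fun e he => Finset.sum_eq_zero fun f _ => by
        rw [hG0 e he, zero_mul, zero_mul]]
      refine Finset.sum_congr rfl fun e _ => ?_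
      rw [s2dir_sum L _ fun f hf => by rw [hG0 f hf, mul_zero, zero_mul]]
      simp only [hG]
    rw [q2, e1, ← Finset.sum_coe_sort L, ← Finset.sum_coe_sort L]
    simp only [hpx, hsum]
    refine hq.trans ?_
    have h1 : 4 / Ω ^ 3 * T ≤ ∑ e : L, res W (s e) (t e) * zz s t M e * g e ^ 2 := by
      rw [hT, Finset.mul_sum]
      refine Finset.sum_le_sum fun e _ => mul_le_mul_of_nonneg_right ?_ (sq_nonneg _)
      calc 4 / Ω ^ 3 = 2 / Ω * (2 / Ω ^ 2) := by field_simp; norm_num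
        _ ≤ _ := mul_le_mul (hρ e) (hz e) (by positivity) (hρ0 e).le
    have h2 : ‖(Sum.elim H fun e => -G e : E ⊕ E → ℝ)‖ ^ 2 ≤ 9 * Ω ^ 2 * T := by
      refine (pow_le_pow_left₀ (norm_nonneg _) hβ 2).trans_eq ?_
      rw [mul_pow, mul_pow, Real.sq_sqrt hT0]; norm_num
    have h3 : 9 * Ω ^ 2 * T / Ω ^ 7 ≤ 4 * (4 / Ω ^ 3 * T) := by
      rw [div_le_iff₀ (by positivity)]
      have h4 : 4 * (4 / Ω ^ 3 * T) * Ω ^ 7 = 16 * Ω ^ 2 * Ω ^ 2 * T := by field_simp; ring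
      rw [h4]
      refine mul_le_mul_of_nonneg_right (mul_le_mul_of_nonneg_right ?_ (by positivity)) hT0
      nlinarith
    have h5 := div_le_div_of_nonneg_right h2 (by positivity : 0 ≤ Ω ^ 7)
    linarith

end Crest.Agent.R37
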