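import Crest.Agent.R37.S2Defs
import Crest.Agent.R37.Mat1

/-!
# R37/S2MovAuxK: the lattice path `kap` and the first blocked unit exchange.
-/

set_option autoImplicit false

open Matrix Finset

noncomputable section

namespace Crest.Agent.R37

variable {n : ℕ} {E : Type} [Fintype E] [DecidableEq E]

variable {s t : E → Fin n} {W0 M0 : Mat n} {k N : ℕ}

lemma mvk_abs {ι : Type} [Fintype ι] {β : ι → ℝ} (hβ : ‖β‖ ≤ 1) (i : ι) : |β i| ≤ 1 :=
  (norm_le_pi_norm β i).trans hβ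

theorem mvk_approx {m : ℕ} {β : Fin m ⊕ Fin m → ℝ} (hβ : ‖β‖ ≤ 1) (j : ℕ) (i : Fin m ⊕ Fin m) :
    |(kap β j i : ℝ) - ((j / m : ℕ) : ℝ) * β i| ≤ 2 := by
  have hb := abs_le.1 (mvk_abs hβ i)
  rcases i with e | e
  · simp only [kap]
    have h1 := Int.floor_le (((j / m + if e.val < j % m then 1 else 0 : ℕ) : ℝ) * β (Sum.inl e))
    have h2 := Int.lt_floor_add_one
      (((j / m + if e.val < j % m then 1 else 0 : ℕ) : ℝ) * β (Sum.inl e))
    generalize ⌊((j / m + if e.val < j % m then 1 else 0 : ℕ) : ℝ) * β (Sum.inl e)⌋ = z at h1 h2 ⊢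
    rw [abs_le]
    split_ifs at h1 h2 <;> rw [Nat.cast_add] at h1 h2 <;> constructor <;>
      simp only [Nat.cast_one, Nat.cast_zero] at h1 h2 <;> nlinarith
  · simp only [kap]
    have h1 := Int.floor_le (((j / m : ℕ) : ℝ) * β (Sum.inr e))
    have h2 := Int.lt_floor_add_one (((j / m : ℕ) : ℝ) * β (Sum.inr e))
    rw [abs_le]
    constructor <;> linarith

lemma mvk_cnt {m : ℕ} (j : ℕ) (e : Fin m) :
    ((j + 1) / m + if e.val < (j + 1) % m then 1 else 0) =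
      (j / m + if e.val < j % m then 1 else 0) + if e.val = j % m then 1 else 0 := by
  have hm : 0 < m := e.pos
  have h1 := Nat.mod_lt j hm
  have h2 := Nat.mod_add_div j m
  have he := e.isLt
  by_cases h : j % m + 1 < m
  · obtain ⟨a, b⟩ := (Nat.div_mod_unique (a := j + 1) (d := j / m) (c := j % m + 1) hm).2
      ⟨by omega, h⟩
    rw [a, b]
    split_ifs <;> omega
  · obtain ⟨a, b⟩ := (Nat.div_mod_unique (a := j + 1) (d := j / m + 1) (c := 0) hm).2
      ⟨by rw [Nat.mul_add]; omega, hm⟩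
    rw [a, b]
    split_ifs <;> omega

lemma mvk_floor (c : ℕ) {b : ℝ} (hb : |b| ≤ 1) :
    ∃ d : ℤ, (d = 0 ∨ d = 1 ∨ d = -1) ∧ ⌊((c + 1 : ℕ) : ℝ) * b⌋ = ⌊(c : ℝ) * b⌋ + d := by
  have hb := abs_le.1 hb
  have h1 : ⌊((c + 1 : ℕ) : ℝ) * b⌋ ≤ ⌊(c : ℝ) * b + 1⌋ :=
    Int.floor_le_floor (by push_cast; linarith)
  have h2 : ⌊(c : ℝ) * b - 1⌋ ≤ ⌊((c + 1 : ℕ) : ℝ) * b⌋ :=
    Int.floor_le_floor (by push_cast; linarith)
  rw [Int.floor_add_one] at h1
  rw [Int.floor_sub_one] at h2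
  exact ⟨⌊((c + 1 : ℕ) : ℝ) * b⌋ - ⌊(c : ℝ) * b⌋, by omega, by ring⟩

/-- consecutive lattice points differ by at most one unit exchange -/
lemma mvk_step {m : ℕ} (y : St (Fin m)) (rep : Fin m → Fin m) {β : Fin m ⊕ Fin m → ℝ}
    (hβ : ‖β‖ ≤ 1) (j : ℕ) :
    (mvz y rep (kap β (j + 1))).1 = (mvz y rep (kap β j)).1 ∨ ∃ e ∈ y.2.2.1,
      (mvz y rep (kap β (j + 1))).1 =
        (mvz y rep (kap β j)).1 - Pi.single (rep e) 1 + Pi.single e 1 ∨
      (mvz y rep (kap β (j + 1))).1 =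
        (mvz y rep (kap β j)).1 - Pi.single e 1 + Pi.single (rep e) 1 := by
  rcases Nat.eq_zero_or_pos m with rfl | hm
  · exact Or.inl (funext fun e => e.elim0)
  set e₀ : Fin m := ⟨j % m, Nat.mod_lt j hm⟩ with he₀
  obtain ⟨d, hd, hd'⟩ := mvk_floor (j / m + if e₀.val < j % m then 1 else 0)
    (mvk_abs hβ (Sum.inl e₀))
  have hk : ∀ e, kap β (j + 1) (Sum.inl e) = kap β j (Sum.inl e) + if e = e₀ then d else 0 := by
    intro e
    simp only [kap]
    rw [mvk_cnt]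
    by_cases h : e = e₀
    · subst h
      rw [if_pos rfl, if_pos rfl, hd']
    · rw [if_neg h, if_neg (fun h' => h (Fin.ext h')), add_zero, add_zero]
  have key : (mvz y rep (kap β (j + 1))).1 = (mvz y rep (kap β j)).1 +
      if e₀ ∈ y.2.2.1 then d • (Pi.single e₀ 1 - Pi.single (rep e₀) 1 : Fin m → ℤ) else 0 := by
    simp only [mvz, hk, add_smul, Finset.sum_add_distrib, ite_smul, zero_smul,
      Finset.sum_ite_eq', add_assoc]
  by_cases h : e₀ ∈ y.2.2.1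
  · rw [if_pos h] at key
    rcases hd with rfl | rfl | rfl
    · exact Or.inl (by rw [key, zero_smul, add_zero])
    · exact Or.inr ⟨e₀, h, Or.inl (by rw [key, one_smul]; abel)⟩
    · exact Or.inr ⟨e₀, h, Or.inr (by rw [key, neg_one_smul]; abel)⟩
  · exact Or.inl (by rw [key, if_neg h, add_zero])

/-- an unblocked unit exchange stays feasible -/
lemma mvk_feas {y y' : St E} (hF : Feas s t k N y) {p q : E} (hp : p ∈ y.2.2.1 ∨ p ∈ y.2.2.2)
    (hq : q ∈ y.2.2.1 ∨ q ∈ y.2.2.2) (h1 : y'.1 = y.1 - Pi.single p 1 + Pi.single q 1)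
    (h2 : y'.2.2 = y.2.2) (hp0 : y.1 p ≠ 0) (hqN : y.1 q ≠ N)
    (hS : ¬ Sep s t (k * N) y.1 p q) : Feas s t k N y' := by
  obtain ⟨⟨h0, hI, hT⟩, hN, hD, hZ⟩ := hF
  have hv : ∀ g, y'.1 g = y.1 g - (if g = p then 1 else 0) + if g = q then 1 else 0 := fun g => by
    rw [h1]; simp [Pi.single_apply]
  refine ⟨⟨fun g => ?_, ?_, ?_⟩, fun g => ?_, by rw [h2]; exact hD, fun g a b => ?_⟩
  · have := h0 g
    rw [hv]
    split_ifs with a b b
    · omega
    · subst a; omega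
    · omega
    · omega
  · rw [h1]
    exact not_not.1 fun h => hS ((sep_iff hI p q).2 h)
  · rw [h1, ← hT]
    simp [Finset.sum_add_distrib, Finset.sum_sub_distrib]
  · have := hN g
    rw [hv]
    split_ifs with a b b
    · omega
    · omega
    · subst b; omega
    · omega
  · rw [h2] at a b
    rw [hv, hZ g a b, if_neg (by rintro rfl; tauto), if_neg (by rintro rfl; tauto)]
    simp

open Classical in
lemma mvk_evn {u u' : E → ℤ} (h0 : ∀ g, u g = 0 → u' g = 0) (hN : ∀ g, u g = N → u' g = N)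
    (hT : ∀ U, Tight s t (k * N) u U → Tight s t (k * N) u' U) :
    evn s t k N u ≤ evn s t k N u' ∧ ∀ p q, (0 < u p ∧ u p < N) → (0 < u q ∧ u q < N) →
      ¬ Sep s t (k * N) u p q → (u' p = 0 ∨ u' q = N ∨ Sep s t (k * N) u' p q) →
      evn s t k N u < evn s t k N u' := by
  have s1 : (univ.filter fun p : E × E => u p.1 = 0 ∨ Sep s t (k * N) u p.1 p.2) ⊆
      univ.filter fun p : E × E => u' p.1 = 0 ∨ Sep s t (k * N) u' p.1 p.2 := fun p hp => by
    simp only [mem_filter, mem_univ, true_and] at hp ⊢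
    exact hp.imp (h0 _) fun ⟨U, a, b⟩ => ⟨U, hT U a, b⟩
  have s2 : (univ.filter fun e => u e = 0 ∨ u e = N) ⊆
      univ.filter fun e => u' e = 0 ∨ u' e = N := fun p hp => by
    simp only [mem_filter, mem_univ, true_and] at hp ⊢
    exact hp.imp (h0 _) (hN _)
  refine ⟨Nat.add_le_add (card_le_card s1) (card_le_card s2), fun p q hp hq hS h => ?_⟩
  rcases h with h | h | h
  · refine Nat.add_lt_add_of_le_of_lt (card_le_card s1)
      (card_lt_card ((ssubset_iff_of_subset s2).2 ⟨p, ?_, ?_⟩))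
    · simp [h]
    · simp only [mem_filter, mem_univ, true_and]; omega
  · refine Nat.add_lt_add_of_le_of_lt (card_le_card s1)
      (card_lt_card ((ssubset_iff_of_subset s2).2 ⟨q, ?_, ?_⟩))
    · simp [h]
    · simp only [mem_filter, mem_univ, true_and]; omega
  · refine Nat.add_lt_add_of_lt_of_le
      (card_lt_card ((ssubset_iff_of_subset s1).2 ⟨(p, q), ?_, ?_⟩)) (card_le_card s2)
    · simp only [mem_filter, mem_univ, true_and]; exact Or.inr h
    · simp only [mem_filter, mem_univ, true_and, not_or]; exact ⟨by omega, hS⟩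

lemma mvk_frac {y : St E} {rep : E → E} (hN : Nrm s t W0 N y) (hr : IsRep s t k N y rep) {e : E}
    (he : e ∈ y.2.2.1) : (0 < y.1 e ∧ y.1 e < N) ∧ (0 < y.1 (rep e) ∧ y.1 (rep e) < N) := by
  refine ⟨⟨(hN.1 e he).1, (hN.1 e he).2.1⟩, ?_⟩
  rcases (hr e he).1 with h | h
  · exact ⟨(hN.1 _ h).1, (hN.1 _ h).2.1⟩
  · exact ⟨hN.2 _ h.1, h.2⟩

lemma mvk_mvz {y : St E} {rep : E → E} (hN : Nrm s t W0 N y) (hr : IsRep s t k N y rep)
    (κ : E ⊕ E → ℤ) : evn s t k N y.1 ≤ evn s t k N (mvz y rep κ).1 ∧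
      ∀ p q, (0 < y.1 p ∧ y.1 p < N) → (0 < y.1 q ∧ y.1 q < N) → ¬ Sep s t (k * N) y.1 p q →
      ((mvz y rep κ).1 p = 0 ∨ (mvz y rep κ).1 q = N ∨ Sep s t (k * N) (mvz y rep κ).1 p q) →
      evn s t k N y.1 < evn s t k N (mvz y rep κ).1 := by
  have hfix : ∀ g, (y.1 g = 0 ∨ y.1 g = N) → (mvz y rep κ).1 g = y.1 g := fun g hg => by
    simp only [mvz, Pi.add_apply, Finset.sum_apply, add_eq_left]
    refine Finset.sum_eq_zero fun e he => ?_
    obtain ⟨a, b⟩ := mvk_frac hN hr he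
    have h1 : g ≠ e := by rintro rfl; omega
    have h2 : g ≠ rep e := by rintro rfl; omega
    simp [h1, h2]
  refine mvk_evn (fun g hg => by rw [hfix g (Or.inl hg), hg])
    (fun g hg => by rw [hfix g (Or.inr hg), hg]) fun U hU => ?_
  exact tight_move y.2.2.1 (fun e => e) rep (fun e => κ (Sum.inl e)) (fun e he => (hr e he).2.1) hU

theorem mvk_first_block {m : ℕ} {s t : Fin m → Fin n} {y : St (Fin m)} {rep : Fin m → Fin m}
    (hF : Feas s t k N y) (hN : Nrm s t W0 N y) (hr : IsRep s t k N y rep)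
    {β : Fin m ⊕ Fin m → ℝ} (hβ : ‖β‖ ≤ 1) (T : ℕ) :
    ∃ j ≤ T, Feas s t k N (mvz y rep (kap β j)) ∧
      evn s t k N y.1 ≤ evn s t k N (mvz y rep (kap β j)).1 ∧
      (j = T ∨ evn s t k N y.1 < evn s t k N (mvz y rep (kap β j)).1) := by
  have hcong : ∀ y₁ y₂ : St (Fin m), y₂.1 = y₁.1 → y₂.2.2 = y₁.2.2 → Feas s t k N y₁ →
      Feas s t k N y₂ := fun y₁ y₂ a b h => by
    unfold Feas at h ⊢
    rwa [a, b]
  induction T with
  | zero =>
    refine ⟨0, le_rfl, hcong y _ ?_ rfl hF, (mvk_mvz hN hr _).1, Or.inl rfl⟩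
    simp [mvz, kap]
  | succ T ih =>
    obtain ⟨j, hj, h1, h2, h3 | h3⟩ := ih
    swap
    · exact ⟨j, by omega, h1, h2, Or.inr h3⟩
    subst h3
    by_cases hn : Feas s t k N (mvz y rep (kap β (j + 1)))
    · exact ⟨j + 1, le_rfl, hn, (mvk_mvz hN hr _).1, Or.inl rfl⟩
    refine ⟨j, by omega, h1, h2, Or.inr ?_⟩
    rcases mvk_step y rep hβ j with h | ⟨e, he, h⟩
    · exact absurd (hcong _ _ h rfl h1) hn
    obtain ⟨a, b⟩ := mvk_frac hN hr he
    have hre : rep e ∈ y.2.2.1 ∨ rep e ∈ y.2.2.2 := (hr e he).1.imp id And.left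
    rcases h with h | h
    · refine (mvk_mvz hN hr _).2 (rep e) e b a (hr e he).2.1.2 ?_
      by_contra hc
      simp only [not_or] at hc
      exact hn (mvk_feas h1 hre (Or.inl he) h rfl hc.1 hc.2.1 hc.2.2)
    · refine (mvk_mvz hN hr _).2 e (rep e) a b (hr e he).2.1.1 ?_
      by_contra hc
      simp only [not_or] at hc
      exact hn (mvk_feas h1 (Or.inl he) hre h rfl hc.1 hc.2.1 hc.2.2)

end Crest.Agent.R37
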