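import Crest.Agent.R37.S2Defs
import Crest.Agent.R37.Mat1
import Crest.Agent.R37.S2MovAuxK

/-!
# R37/S2Mov: combinatorics of the moves.
Moves between fractional edges of one class keep all tight sets (`tight_move`) and do not touch edges with `u ∈ {0, N}`, so `evn` cannot drop.
`first_block`: consecutive `kap β j`, `kap β (j+1)` differ on the `inl` side in at most one coordinate, by at most `1`; take the last `j ≤ T` before the first
infeasible point; the failing unit exchange `p → q` (`{p,q} = {e, rep e}`, `p ≠ q`) means `u' p = 0`, or `u' q = N`, or `Sep u' p q` (`sep_iff`): a new event.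
-/

set_option autoImplicit false

open Matrix Finset

noncomputable section

namespace Crest.Agent.R37

variable {n : ℕ} {E : Type} [Fintype E] [DecidableEq E]

variable {s t : E → Fin n} {W0 M0 : Mat n} {k N : ℕ}

theorem evn_le (s t : E → Fin n) (k N : ℕ) (u : E → ℤ) :
    evn s t k N u ≤ Fintype.card E ^ 2 + Fintype.card E := by
  classical
  exact add_le_add ((card_le_univ _).trans_eq (by rw [Fintype.card_prod, sq])) (card_le_univ _)

theorem stF_mvz (hN : 0 < N) (y : St E) (rep : E → E) (κ : E ⊕ E → ℤ) :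
    stx N (mvz y rep κ) = stx N y + px y.2.2.1 rep (fun i => κ i / N) ∧
      sta N (mvz y rep κ) = sta N y + (fun e => (κ (Sum.inr e) : ℝ) / N) ∧
      stPhi s t W0 M0 N (mvz y rep κ) = stF s t W0 M0 N y rep (fun i => κ i / N) := by
  have h1 : stx N (mvz y rep κ) = stx N y + px y.2.2.1 rep (fun i => κ i / N) := by
    ext e
    simp only [stx, mvz, px, Pi.add_apply, Finset.sum_apply, Pi.smul_apply, Pi.sub_apply, Pi.single_apply, smul_eq_mul]
    push_cast
    rw [add_div, sum_div]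
    exact congrArg _ (sum_congr rfl fun f _ => by ring)
  have h2 : sta N (mvz y rep κ) = sta N y + (fun e => (κ (Sum.inr e) : ℝ) / N) := by
    ext e
    simp [sta, mvz, add_div]
  exact ⟨h1, h2, by rw [stPhi, h1, h2]; rfl⟩

theorem px_linear (L : Finset E) (rep : E → E) :
    IsLinearMap ℝ (px L rep) ∧ ∀ β, ‖px L rep β‖ ≤ (Fintype.card E + 1) * ‖β‖ := by
  refine ⟨⟨fun β β' => by simp only [px, Pi.add_apply, add_smul, sum_add_distrib],
    fun c β => by simp only [px, Pi.smul_apply, smul_eq_mul, mul_smul, smul_sum]⟩, fun β => ?_⟩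
  refine (norm_sum_le _ _).trans ((sum_le_card_nsmul _ _ ‖β‖ fun e _ => ?_).trans ?_)
  · rw [norm_smul]
    refine (mul_le_of_le_one_right (norm_nonneg _) ((pi_norm_le_iff_of_nonneg zero_le_one).2 fun f => ?_)).trans
      (norm_le_pi_norm β _)
    simp only [Pi.sub_apply, Pi.single_apply]
    split_ifs <;> simp
  · rw [nsmul_eq_mul]
    exact mul_le_mul_of_nonneg_right (by exact_mod_cast (card_le_univ L).trans (Nat.le_succ _)) (norm_nonneg _)

theorem kap_approx {m : ℕ} {β : Fin m ⊕ Fin m → ℝ} (hβ : ‖β‖ ≤ 1) (j : ℕ) (i : Fin m ⊕ Fin m) :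
    |(kap β j i : ℝ) - ((j / m : ℕ) : ℝ) * β i| ≤ 2 :=
  mvk_approx hβ j i

theorem first_block {m : ℕ} {s t : Fin m → Fin n} {y : St (Fin m)} {rep : Fin m → Fin m}
    (hF : Feas s t k N y) (hN : Nrm s t W0 N y) (hr : IsRep s t k N y rep)
    {β : Fin m ⊕ Fin m → ℝ} (hβ : ‖β‖ ≤ 1) (T : ℕ) :
    ∃ j ≤ T, Feas s t k N (mvz y rep (kap β j)) ∧
      evn s t k N y.1 ≤ evn s t k N (mvz y rep (kap β j)).1 ∧
      (j = T ∨ evn s t k N y.1 < evn s t k N (mvz y rep (kap β j)).1) :=
  mvk_first_block hF hN hr hβ T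

theorem pp_block {y : St E} (hF : Feas s t k N y) {e f : E} (hef : e ≠ f) (he : e ∈ y.2.2.2)
    (hf : f ∈ y.2.2.2) (he' : 0 < y.1 e ∧ y.1 e < N) (hf' : 0 < y.1 f ∧ y.1 f < N)
    (hc : Cl s t (k * N) y.1 e f) :
    ∃ j ≤ N, Feas s t k N (pp y e f j) ∧ evn s t k N y.1 < evn s t k N (pp y e f j).1 := by
  classical
  have hp : ∀ j, pp y e f j = (y.1 + (j : ℤ) • (Pi.single f 1 - Pi.single e 1), y.2) := fun j => if_pos ⟨he, hf⟩
  have h0 : Feas s t k N (pp y e f 0) := by simpa [hp] using hF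
  have h1 := Nat.findGreatest_spec (P := fun j => Feas s t k N (pp y e f j)) (Nat.zero_le N) h0
  have h2 := Nat.findGreatest_le (P := fun j => Feas s t k N (pp y e f j)) N
  have h3 := fun j => Nat.findGreatest_is_greatest (P := fun j => Feas s t k N (pp y e f j)) (n := N) (k := j)
  generalize Nat.findGreatest (fun j => Feas s t k N (pp y e f j)) N = j at h1 h2 h3
  refine ⟨j, h2, h1, ?_⟩
  have h4 := h1.1.1 e
  simp only [hp] at h1 h3 h4 ⊢
  have h5 : j < N := by
    simp [hef] at h4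
    omega
  have h6 := h3 (j + 1) (Nat.lt_succ_self j) h5
  rw [show y.1 + ((j + 1 : ℕ) : ℤ) • (Pi.single f 1 - Pi.single e 1) =
    y.1 + (j : ℤ) • (Pi.single f 1 - Pi.single e 1) - Pi.single e 1 + Pi.single f 1 by push_cast; module] at h6
  have h7 : ∀ g, y.1 g = 0 ∨ y.1 g = N → (y.1 + (j : ℤ) • (Pi.single f 1 - Pi.single e 1) : E → ℤ) g = y.1 g := fun g hg => by
    have : g ≠ e := by rintro rfl; omega
    have : g ≠ f := by rintro rfl; omega
    simp [*]
  have h8 : ∀ U, Tight s t (k * N) y.1 U → Tight s t (k * N) (y.1 + (j : ℤ) • (Pi.single f 1 - Pi.single e 1)) U :=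
    fun U hU => by simpa using tight_move {()} (fun _ => f) (fun _ => e) (fun _ => j) (fun _ _ => hc.symm) hU
  generalize y.1 + (j : ℤ) • (Pi.single f 1 - Pi.single e 1) = u at *
  have s1 : (univ.filter fun p : E × E => y.1 p.1 = 0 ∨ Sep s t (k * N) y.1 p.1 p.2) ⊆
      univ.filter fun p : E × E => u p.1 = 0 ∨ Sep s t (k * N) u p.1 p.2 := monotone_filter_right _ fun p _ hp =>
    hp.imp (fun h => (h7 _ (.inl h)).trans h) fun ⟨U, hU, h⟩ => ⟨U, h8 U hU, h⟩
  have s2 : (univ.filter fun g => y.1 g = 0 ∨ y.1 g = N) ⊆ univ.filter fun g => u g = 0 ∨ u g = N :=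
    monotone_filter_right _ fun g _ hg => by rwa [h7 g hg]
  have s3 : ∀ g, 0 < y.1 g ∧ y.1 g < N → u g = 0 ∨ u g = N → evn s t k N y.1 < evn s t k N u := fun g hg h =>
    add_lt_add_of_le_of_lt (card_le_card s1) (card_lt_card ((ssubset_iff_of_subset s2).2
      ⟨g, by simpa using h, by simp; omega⟩))
  by_cases h9 : Sep s t (k * N) u e f
  · exact add_lt_add_of_lt_of_le (card_lt_card ((ssubset_iff_of_subset s1).2
      ⟨(e, f), by simp [h9], by simp [hc.1, he'.1.ne']⟩)) (card_le_card s2)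
  by_contra h10
  have h11 : u e ≠ 0 := fun h => h10 (s3 e he' (.inl h))
  have h12 : u f ≠ N := fun h => h10 (s3 f hf' (.inr h))
  refine h6 ⟨⟨fun g => ?_, not_not.1 ((sep_iff h1.1.2.1 e f).not.1 h9), ?_⟩, fun g => ?_, h1.2.2.1, fun g hg hg' => ?_⟩
  · have : 0 ≤ u g := h1.1.1 g
    simp only [Pi.add_apply, Pi.sub_apply, Pi.single_apply]
    split_ifs <;> grind
  · simpa [sum_add_distrib] using h1.1.2.2
  · have : u g ≤ N := h1.2.1 g
    simp only [Pi.add_apply, Pi.sub_apply, Pi.single_apply]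
    split_ifs <;> grind
  · have : g ≠ e := by rintro rfl; exact hg' he
    have : g ≠ f := by rintro rfl; exact hg' hf
    simpa [*] using h1.2.2.2 g hg hg'

theorem pp_same {y : St E} (hF : Feas s t k N y) (e f : E) (j : ℕ) :
    stW s t W0 N (pp y e f j) = stW s t W0 N y ∧ stM s t W0 M0 N (pp y e f j) = stM s t W0 M0 N y ∧
      (pp y e f j).2 = y.2 := by
  unfold pp
  split_ifs with h
  · refine ⟨rfl, congrArg (fun c => M0 - stW s t W0 N y - LE s t c) (funext fun g => if_ctx_congr Iff.rfl (fun hg => ?_) fun _ => rfl), rfl⟩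
    have : g ≠ e := by rintro rfl; exact disjoint_left.1 hF.2.2.1 hg h.1
    have : g ≠ f := by rintro rfl; exact disjoint_left.1 hF.2.2.1 hg h.2
    simp [stx, *]
    exact .inl rfl
  · exact ⟨rfl, rfl, rfl⟩

theorem rep_partner {y : St E} {rep : E → E} (hN0 : 0 < N) (hF : Feas s t k N y) (hN : Nrm s t W0 N y)
    (hr : IsRep s t k N y rep) : ∀ e ∈ y.2.2.1, rep e ∈ y.2.2.1 → ∃ f ∈ y.2.2.1, f ≠ e ∧ rep f = rep e := by
  intro e he h
  obtain ⟨f, h1, h2, h3, h4⟩ := exists_partner (by exact_mod_cast hN0) hF.1 hF.2.1 (hN.1 e he).1 (hN.1 e he).2.1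
  by_cases hf : f ∈ y.2.2.1
  · exact ⟨f, hf, h1, (hr e he).2.2.1 f hf h2⟩
  · exact absurd ((hr e he).2.2.2 f (by_contra fun hf' => h3.ne' (hF.2.2.2 f hf hf')) h4 h2) (disjoint_left.1 hF.2.2.1 h)

end Crest.Agent.R37
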