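import Crest.Agent.R37.S2Defs
import Crest.Agent.R37.Mat1
import Crest.Agent.R37.Lin3

/-!
# R37/S2Sw: switches, first and last state.
A switch lowers one coefficient (`x + 64(5-x²)ρ ≥ 1` when `x = 1` or `64ρ ≥ 3/10`), so `M` grows (`trace_inv_anti`).
-/

set_option autoImplicit false

open Matrix Finset

noncomputable section

namespace Crest.Agent.R37

variable {n : ℕ} {E : Type} [Fintype E] [DecidableEq E]

variable {s t : E → Fin n} {W0 M0 : Mat n} {k N : ℕ}

theorem s2sw_LE_sub (x x' : E → ℝ) : LE s t x - LE s t x' = LE s t fun e => x e - x' e := by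
  simp [LE, sub_smul, Finset.sum_sub_distrib]

theorem s2sw_x (hN : 0 < N) {y : St E} (hF : Feas s t k N y) (e : E) : 0 ≤ stx N y e ∧ stx N y e ≤ 1 := by
  have h0 : (0 : ℝ) < N := by exact_mod_cast hN
  refine ⟨div_nonneg (by exact_mod_cast hF.1.1 e) h0.le, (div_le_one h0).2 ?_⟩
  exact_mod_cast hF.2.1 e

theorem s2sw_coef (hN : 0 < N) {y : St E} (hF : Feas s t k N y) {W : Mat n} (hW : W.PosDef) (e : E) :
    0 ≤ coef s t y.2.2.1 y.2.2.2 W (stx N y) e ∧
      (e ∈ y.2.2.1 ∧ (y.1 e = N ∨ 3 / 10 ≤ 64 * res W (s e) (t e)) ∨ y.1 e = N →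
        1 ≤ coef s t y.2.2.1 y.2.2.2 W (stx N y) e) := by
  obtain ⟨x0, x1⟩ := s2sw_x hN hF e
  have r0 := res_nonneg hW (s e) (t e)
  have x2 : stx N y e ^ 2 ≤ 1 := pow_le_one₀ x0 x1
  have r1 := mul_le_mul_of_nonneg_right x2 r0
  have e1 : y.1 e = N → stx N y e = 1 := fun h => by
    rw [stx, h]
    exact div_self (by exact_mod_cast hN.ne')
  unfold coef
  split_ifs with h1 h2
  · refine ⟨by nlinarith, fun h => ?_⟩
    rcases h with ⟨-, h | h⟩ | h
    · nlinarith [e1 h]
    · nlinarith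
    · nlinarith [e1 h]
  · exact ⟨zero_le_one, fun _ => le_rfl⟩
  · refine ⟨le_rfl, fun h => ?_⟩
    rcases h with h | h
    · exact absurd h.1 h1
    · have := hF.2.2.2 e h1 h2
      omega

theorem s2sw_lower {y : St E} (hM : (stM s t W0 M0 N y).PosDef) {L P : Finset E}
    (h : ∀ e, coef s t L P (stW s t W0 N y) (stx N y) e ≤
      coef s t y.2.2.1 y.2.2.2 (stW s t W0 N y) (stx N y) e) :
    (stM s t W0 M0 N (y.1, y.2.1, L, P)).PosDef ∧
      stPhi s t W0 M0 N (y.1, y.2.1, L, P) ≤ stPhi s t W0 M0 N y := by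
  have e : stM s t W0 M0 N (y.1, y.2.1, L, P) - stM s t W0 M0 N y = LE s t fun e =>
      coef s t y.2.2.1 y.2.2.2 (stW s t W0 N y) (stx N y) e - coef s t L P (stW s t W0 N y) (stx N y) e := by
    rw [← s2sw_LE_sub]
    exact sub_sub_sub_cancel_left _ _ _
  have := trace_inv_anti hM (e ▸ LE_psd s t fun e => sub_nonneg.2 (h e))
  exact ⟨this.1, add_le_add_left this.2 _⟩

theorem sw_spec (hN : 0 < N) {y : St E} (hF : Feas s t k N y) (hW : (stW s t W0 N y).PosDef)
    (hM : (stM s t W0 M0 N y).PosDef) (e : E) :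
    Feas s t k N (sw s t W0 N y e) ∧ (sw s t W0 N y e).1 = y.1 ∧ (sw s t W0 N y e).2.1 = y.2.1 ∧
      (stM s t W0 M0 N (sw s t W0 N y e)).PosDef ∧
      stPhi s t W0 M0 N (sw s t W0 N y e) ≤ stPhi s t W0 M0 N y := by
  have hc := s2sw_coef hN hF hW e
  unfold sw
  split_ifs with h1 h2
  · refine ⟨⟨hF.1, hF.2.1, hF.2.2.1.mono (erase_subset _ _) (erase_subset _ _), fun f a b => ?_⟩, rfl, rfl,
      s2sw_lower hM fun f => ?_⟩
    · by_cases hf : f = e
      · exact hf ▸ h1
      · exact hF.2.2.2 f (fun h => a (mem_erase.2 ⟨hf, h⟩)) fun h => b (mem_erase.2 ⟨hf, h⟩)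
    · by_cases hf : f = e
      · subst hf
        exact le_of_eq_of_le (by simp [coef]) hc.1
      · simp [coef, hf]
  · refine ⟨⟨hF.1, hF.2.1, disjoint_insert_right.2 ⟨notMem_erase _ _,
      hF.2.2.1.mono (erase_subset _ _) le_rfl⟩, fun f a b => ?_⟩, rfl, rfl, s2sw_lower hM fun f => ?_⟩
    · have hf : f ≠ e := fun h => b (h ▸ mem_insert_self _ _)
      exact hF.2.2.2 f (fun h => a (mem_erase.2 ⟨hf, h⟩)) fun h => b (mem_insert_of_mem h)
    · by_cases hf : f = e
      · subst hf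
        exact le_of_eq_of_le (by simp [coef]) (hc.2 (Or.inl h2))
      · simp [coef, hf]
  · exact ⟨hF, rfl, rfl, hM, le_rfl⟩

theorem sw_prog {y : St E} (hF : Feas s t k N y) (h : ¬ Nrm s t W0 N y) :
    ∃ e, 2 * (sw s t W0 N y e).2.2.1.card + (sw s t W0 N y e).2.2.2.card <
      2 * y.2.2.1.card + y.2.2.2.card := by
  unfold Nrm at h
  rcases not_and_or.1 h with h | h
  · push Not at h
    obtain ⟨e, he, h⟩ := h
    refine ⟨e, ?_⟩
    have c1 := card_erase_add_one he
    have c2 := card_erase_le (s := y.2.2.2) (a := e)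
    have c3 := card_insert_le e y.2.2.2
    unfold sw
    split_ifs with h1 h2
    · simp only
      omega
    · simp only
      omega
    · refine absurd ⟨he, (hF.2.1 e).lt_or_eq.symm.imp id (h ?_)⟩ h2
      exact lt_of_le_of_ne (hF.1.1 e) (Ne.symm h1)
  · push Not at h
    obtain ⟨e, he, h⟩ := h
    refine ⟨e, ?_⟩
    have c1 := card_erase_add_one he
    have c2 := card_erase_le (s := y.2.2.1) (a := e)
    unfold sw
    rw [if_pos (le_antisymm h (hF.1.1 e))]
    simp only
    omega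

theorem s2_final (hN : 0 < N) {y : St E} (hF : Feas s t k N y) (hW : (stW s t W0 N y).PosDef)
    (hM : (stM s t W0 M0 N y).PosDef) (h : ∀ e, y.1 e = 0 ∨ y.1 e = N) :
    Base s t k (ind (univ.filter fun e => y.1 e = N)) ∧
      ∀ S, (((univ.filter fun e => y.1 e = N) ∩ cut s t S).card : ℝ) ≤ cv M0 S := by
  refine ⟨base_unscale (by exact_mod_cast hN) hF.1 h, fun S => ?_⟩
  have hc := s2sw_coef hN hF hW
  have h1 := cv_nonneg hM.posSemidef S
  have h2 := cv_nonneg hW.posSemidef S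
  rw [stM, M2, cv_sub, cv_sub, cv_LE] at h1
  have h3 : (((univ.filter fun e => y.1 e = N) ∩ cut s t S).card : ℝ) ≤
      ∑ e ∈ cut s t S, coef s t y.2.2.1 y.2.2.2 (stW s t W0 N y) (stx N y) e := by
    rw [card_eq_sum_ones, Nat.cast_sum]
    refine (sum_le_sum fun e he => ?_).trans
      (sum_le_sum_of_subset_of_nonneg inter_subset_right fun e _ _ => (hc e).1)
    simpa using (hc e).2 (Or.inr (mem_filter.1 (mem_inter.1 he).1).2)
  unfold stW at h2 h3
  linarith

theorem s2_init (hn : 1 ≤ n) {H : Finset E} {w : Fin n → Fin n → ℝ} {q Ω : ℕ} (hq : 1 ≤ q) (hΩ : 1 ≤ Ω)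
    (hH : Base s t (2 * k) (ind H)) (hw : ∀ a b, 0 ≤ w a b) (hC : Cert s t H w (1 / q ^ 2)) :
    Feas s t k (2 * Ω ^ 12) (st0 H Ω) ∧ (W00 s t w q).IsHermitian ∧ (M00 s t H w q).IsHermitian ∧
      (stW s t (W00 s t w q) (2 * Ω ^ 12) (st0 H Ω)).PosDef ∧
      (stM s t (W00 s t w q) (M00 s t H w q) (2 * Ω ^ 12) (st0 H Ω)).PosDef ∧
      stPhi s t (W00 s t w q) (M00 s t H w q) (2 * Ω ^ 12) (st0 H Ω) ≤ (q + 1) * n ^ 2 ∧
      (M00 s t H w q).trace ≤ 307 * n * (Fintype.card E + 1) ∧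
      ∀ S, cv (M00 s t H w q) S ≤
        ((cut s t S).card : ℝ) / 2 + 306 / q * ((cut s t S).card + 1) + 1 := by
  have n0 : (0 : ℝ) < n := by exact_mod_cast hn
  have q1 : (1 : ℝ) ≤ q := by exact_mod_cast hq
  have q0 : (0 : ℝ) < 1 / q := by positivity
  have hG := GamLw_posDef s t hw
  have eW : stW s t (W00 s t w q) (2 * Ω ^ 12) (st0 H Ω) = W00 s t w q := by
    simp [stW, W2, LE, sta, st0]
  have w1 := trace_inv_le (M := W00 s t w q) (ε := 1 / q * (1 / n)) (by positivity) (by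
    have : W00 s t w q - (1 / q * (1 / n) : ℝ) • (1 : Mat n) = (1 / q : ℝ) • (LE s t (fun _ => 1) + Lw w) := by
      rw [W00, Gam, mul_smul, ← smul_sub]
      congr 1
      abel
    exact this ▸ psd_smul ((LE_psd s t fun _ => zero_le_one).add (Lw_psd hw)) q0.le)
  have ec : ∀ e, coef s t H ∅ (W00 s t w q) (fun _ => 1 / 2) e =
      if e ∈ H then 1 / 2 + 304 * (q * res (Gam s t + Lw w) (s e) (t e)) else 0 := fun e => by
    simp only [coef, W00, res_smul hG q0, notMem_empty, if_false]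
    split_ifs
    · field_simp
      ring
    · rfl
  have eM : stM s t (W00 s t w q) (M00 s t H w q) (2 * Ω ^ 12) (st0 H Ω) = (1 / (n : ℝ)) • (1 : Mat n) := by
    have : coef s t H ∅ (W00 s t w q) (stx (2 * Ω ^ 12) (st0 H Ω)) =
        coef s t H ∅ (W00 s t w q) fun _ => 1 / 2 := by
      funext e
      have Ω0 : (Ω : ℝ) ≠ 0 := by positivity
      by_cases he : e ∈ H
      · have : stx (2 * Ω ^ 12) (st0 H Ω) e = 1 / 2 := by
          simp only [stx, st0, ind, he, if_true]
          push_cast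
          field_simp
        simp only [coef, this]
      · simp only [coef, he, if_false]
    show M00 s t H w q - stW s t _ _ _ - LE s t (coef s t H ∅ (stW s t _ _ _) _) = _
    rw [eW, this, M00]
    abel
  have m1 := trace_inv_le (M := (1 / (n : ℝ)) • (1 : Mat n)) (ε := 1 / n) (by positivity)
    (by simpa using PosSemidef.zero)
  have hcv : ∀ S, cv (M00 s t H w q) S ≤
      ((cut s t S).card : ℝ) / 2 + 306 / q * ((cut s t S).card + 1) + 1 := fun S => by
    have a1 := hC S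
    have a2 := cv_Gam_le s t S
    have a3 := cv_nonneg (Lw_psd hw) S
    have a4 : 0 ≤ ∑ e ∈ H ∩ cut s t S, res (Gam s t + Lw w) (s e) (t e) :=
      sum_nonneg fun e _ => res_nonneg hG _ _
    have a5 : (S.card : ℝ) ≤ n := by exact_mod_cast (card_le_univ S).trans_eq (Fintype.card_fin n)
    have a6 : ((H ∩ cut s t S).card : ℝ) ≤ (cut s t S).card := by
      exact_mod_cast card_le_card inter_subset_right
    rw [M00, cv_add, cv_add, cv_smul, cv_one, cv_LE, W00, cv_smul, cv_add]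
    simp only [← W00.eq_1, ec]
    rw [← sum_filter, filter_mem_eq_inter, inter_comm, sum_add_distrib, sum_const, nsmul_eq_mul,
      ← mul_sum, ← mul_sum]
    have a7 : 1 / (n : ℝ) * S.card ≤ 1 := by
      rw [one_div, inv_mul_le_iff₀ n0, mul_one]
      exact a5
    set c : ℝ := (cut s t S).card + 1
    set r := ∑ e ∈ H ∩ cut s t S, res (Gam s t + Lw w) (s e) (t e)
    have c0 : 0 ≤ c := by positivity
    have b1 : q * r ≤ 1 / q * c := by
      have : (q : ℝ) * (1 / q ^ 2 * c) = 1 / q * c := by field_simp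
      rw [← this]
      exact mul_le_mul_of_nonneg_left (by linarith) (by linarith)
    have b2 : 1 / (q : ℝ) ^ 2 * c ≤ c :=
      mul_le_of_le_one_left c0 ((div_le_one (by positivity)).2 (one_le_pow₀ q1))
    have b3 : 1 / (q : ℝ) * (cv (Gam s t) S + cv (Lw w) S) ≤ 1 / q * (2 * c) :=
      mul_le_mul_of_nonneg_left (by linarith) q0.le
    have b4 : 306 / (q : ℝ) * c = 306 * (1 / q * c) := by ring
    linarith
  refine ⟨⟨?_, fun e => ?_, disjoint_empty_right _, fun e he _ => ?_⟩, w1.1.isHermitian,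
    (w1.1.isHermitian.add (LE_psd s t fun e => ?_).isHermitian).add m1.1.isHermitian, by rw [eW]; exact w1.1, by rw [eM]; exact m1.1,
    ?_, ?_, hcv⟩
  · have := base_scale hH (M := (Ω : ℤ) ^ 12) (by positivity)
    simpa [st0] using this
  · simp only [st0, ind]
    have : (0 : ℤ) ≤ Ω ^ 12 := by positivity
    push_cast
    split_ifs <;> linarith
  · have he : e ∉ H := he
    simp [st0, ind, he]
  · rw [ec]
    have := res_nonneg hG (s e) (t e)
    split_ifs
    · positivity
    · rfl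
  · show (stM s t _ _ _ _)⁻¹.trace + (stW s t _ _ _)⁻¹.trace ≤ _
    rw [eM, eW]
    refine (add_le_add m1.2 w1.2).trans_eq ?_
    field_simp
    ring
  · rw [trace_eq_sum_cv]
    have : ∀ a : Fin n, cv (M00 s t H w q) {a} ≤ 307 * (Fintype.card E + 1) := fun a => by
      have a1 : ((cut s t {a}).card : ℝ) ≤ Fintype.card E := by exact_mod_cast card_le_univ _
      have a2 : 306 / (q : ℝ) * ((cut s t {a}).card + 1) ≤ 306 * ((cut s t {a}).card + 1) :=
        mul_le_mul_of_nonneg_right (div_le_self (by norm_num) q1) (by positivity)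
      have a3 : (0 : ℝ) ≤ Fintype.card E := by positivity
      linarith [hcv {a}]
    refine (sum_le_sum fun a _ => this a).trans_eq ?_
    simp
    ring

end Crest.Agent.R37
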