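import Crest.Agent.R37.S2Jet
import Crest.Agent.R37.S2Dir
import Crest.Agent.R37.Pow
import Crest.Agent.R37.S2Mov
import Crest.Agent.R37.S2Sw

/-!
# R37/S2Prog: some candidate lowers the measure.
`N = 2Ω^12`, `η = 1/Ω^8`.  Compose the jet of `s2_jet` with `β ↦ Sum.elim (px L rep β) (β ∘ inr)` (`Jet.comp`, `px_linear`) to get a jet of `stF`; `Jet.pow1`.
Cases: not `Nrm` (`sw_prog`, `sw_spec`); `L = ∅` (a fractional edge is paid and so is its `exists_partner`: `pp_block`); some `f ∈ L` with `2 z_f < Ξ'_ff` (`jet_step1`,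
`z ≥ 2/A²`); otherwise `s2_dir`, `neg_curv`, choose the sign with `F1 ≤ 0`, `first_block` with `T = 2Ω^9 m`, `kap_approx`, `jet_step` with `σ = (j/m)/N`.
-/

set_option autoImplicit false

open Matrix Finset

noncomputable section

namespace Crest.Agent.R37

variable {n : ℕ} {E : Type} [Fintype E] [DecidableEq E]

theorem s2p_ceil_lt {a b η : ℝ} (hη : 0 < η) (ha : 0 ≤ a) (h : a ≤ b - η) : ⌈a / η⌉₊ + 1 ≤ ⌈b / η⌉₊ := by
  rw [← Nat.ceil_add_one (div_nonneg ha hη.le)]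
  refine Nat.ceil_mono ?_
  rw [div_add_one hη.ne']
  exact div_le_div_of_nonneg_right (by linarith) hη.le

theorem s2p_ceil_le {a b η : ℝ} (hη : 0 < η) (hb : 0 ≤ b) (h : a ≤ b + η) : ⌈a / η⌉₊ ≤ ⌈b / η⌉₊ + 1 := by
  rw [← Nat.ceil_add_one (div_nonneg hb hη.le)]
  refine Nat.ceil_mono ?_
  rw [div_add_one hη.ne']
  exact div_le_div_of_nonneg_right h hη.le

theorem s2p_nonneg {s t : E → Fin n} {W0 M0 : Mat n} {N : ℕ} {y : St E} (hW : (stW s t W0 N y).PosDef)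
    (hM : (stM s t W0 M0 N y).PosDef) : 0 ≤ stPhi s t W0 M0 N y :=
  add_nonneg (trace_inv_nonneg hM) (trace_inv_nonneg hW)

/-- the raw perturbation attached to `β` -/
def s2pψ (L : Finset E) (rep : E → E) (β : E ⊕ E → ℝ) : E ⊕ E → ℝ :=
  Sum.elim (px L rep β) (fun e => β (Sum.inr e))

theorem s2pψ_linear (L : Finset E) (rep : E → E) : IsLinearMap ℝ (s2pψ L rep) := by
  refine ⟨fun a b => ?_, fun c a => ?_⟩
  · funext i
    rcases i with i | i <;> simp [s2pψ, (px_linear L rep).1.map_add]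
  · funext i
    rcases i with i | i <;> simp [s2pψ, (px_linear L rep).1.map_smul]

theorem s2pψ_le (L : Finset E) (rep : E → E) {A : ℝ} (hA : 10 ≤ A) (hm : (Fintype.card E : ℝ) ≤ A)
    (β : E ⊕ E → ℝ) : ‖s2pψ L rep β‖ ≤ A ^ 2 * ‖β‖ := by
  have h0 := norm_nonneg β
  refine (pi_norm_le_iff_of_nonneg (by positivity)).2 fun i => ?_
  rcases i with i | i
  · refine (norm_le_pi_norm (px L rep β) i).trans (((px_linear L rep).2 β).trans ?_)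
    exact mul_le_mul_of_nonneg_right (by nlinarith) h0
  · exact (norm_le_pi_norm β (Sum.inr i)).trans (le_mul_of_one_le_left h0 (by nlinarith))

theorem s2pψ_single (L : Finset E) (rep : E → E) (f : E) :
    s2pψ L rep (Pi.single (Sum.inr f) 1) = Pi.single (Sum.inr f) 1 := by
  funext i
  rcases i with i | i <;> simp [s2pψ, px]

theorem s2p_kap {m Ω : ℕ} {β : Fin m ⊕ Fin m → ℝ} (hΩ : 1 ≤ Ω) (hβ : ‖β‖ ≤ 1) {j : ℕ} (hj : j ≤ 2 * Ω ^ 9 * m)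
    (i : Fin m ⊕ Fin m) : |kap β j i| ≤ 4 * (Ω : ℤ) ^ 9 := by
  have h1 := kap_approx hβ j i
  have h2 : j / m ≤ 2 * Ω ^ 9 := Nat.div_le_of_le_mul (by rwa [mul_comm])
  have h3 : ((j / m : ℕ) : ℝ) ≤ 2 * (Ω : ℝ) ^ 9 := by exact_mod_cast h2
  have h4 : |β i| ≤ 1 := (norm_le_pi_norm β i).trans hβ
  have h5 : |((j / m : ℕ) : ℝ) * β i| ≤ 2 * (Ω : ℝ) ^ 9 := by
    rw [abs_mul, Nat.abs_cast]
    exact (mul_le_of_le_one_right (Nat.cast_nonneg _) h4).trans h3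
  have h6 : (1 : ℝ) ≤ (Ω : ℝ) ^ 9 := one_le_pow₀ (by exact_mod_cast hΩ)
  have h7 : |(kap β j i : ℝ)| ≤ 4 * (Ω : ℝ) ^ 9 := by
    have := abs_add_le ((kap β j i : ℝ) - ((j / m : ℕ) : ℝ) * β i) (((j / m : ℕ) : ℝ) * β i)
    rw [sub_add_cancel] at this
    linarith
  exact_mod_cast h7

theorem s2p_sign {V : Type} [NormedAddCommGroup V] [NormedSpace ℝ V] {F F1 : V → ℝ} {F2 : V → V → ℝ} {B : ℝ}
    {j : ℕ} (h : Jet F F1 F2 B j) (v : V) : ∃ σ : Bool, F1 ((if σ then 1 else -1 : ℝ) • v) ≤ 0 ∧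
      F2 ((if σ then 1 else -1 : ℝ) • v) ((if σ then 1 else -1 : ℝ) • v) = F2 v v := by
  by_cases h0 : F1 v ≤ 0
  · exact ⟨true, by simpa using h0, by simp⟩
  · refine ⟨false, ?_, ?_⟩
    · rw [h.lin1.map_smul]
      simp only [Bool.false_eq_true, if_false, smul_eq_mul]
      linarith
    · rw [(h.lin2 _).map_smul, h.symm, (h.lin2 _).map_smul]
      simp

theorem s2_prog : ∃ j0 : ℕ, ∀ (n m : ℕ) (s t : Fin m → Fin n) (W0 M0 : Mat n) (k Ω : ℕ) (A : ℝ)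
    (y : St (Fin m)) (rep : Fin m → Fin m), (∀ e, s e ≠ t e) → 10 ≤ A → (n : ℝ) ≤ A → (m : ℝ) ≤ A →
    A ^ j0 ≤ Ω → W0.IsHermitian → M0.IsHermitian → M0.trace ≤ A → Feas s t k (2 * Ω ^ 12) y →
    (stW s t W0 (2 * Ω ^ 12) y).PosDef → (stM s t W0 M0 (2 * Ω ^ 12) y).PosDef →
    stPhi s t W0 M0 (2 * Ω ^ 12) y ≤ A →
    (∀ β : Fin m ⊕ Fin m → ℝ, ‖β‖ ≤ 2 / Ω →
      (W2 s t W0 (sta (2 * Ω ^ 12) y + fun e => β (Sum.inr e))).PosDef ∧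
      (M2 s t W0 M0 y.2.2.1 y.2.2.2 (stx (2 * Ω ^ 12) y + px y.2.2.1 rep β)
        (sta (2 * Ω ^ 12) y + fun e => β (Sum.inr e))).PosDef) ∧
    (∀ c, (stW s t W0 (2 * Ω ^ 12) (cand s t W0 M0 Ω y rep c)).PosDef ∧
      (stM s t W0 M0 (2 * Ω ^ 12) (cand s t W0 M0 Ω y rep c)).PosDef ∧
      ∀ e, |(cand s t W0 M0 Ω y rep c).2.1 e| ≤ |y.2.1 e| + 4 * Ω ^ 9) ∧
    ((Nrm s t W0 (2 * Ω ^ 12) y → IsRep s t k (2 * Ω ^ 12) y rep) →
      (∃ e, y.1 e ≠ 0 ∧ y.1 e ≠ 2 * Ω ^ 12) →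
      ∃ c, Feas s t k (2 * Ω ^ 12) (cand s t W0 M0 Ω y rep c) ∧
        msr s t W0 M0 k (2 * Ω ^ 12) (1 / Ω ^ 8) (cand s t W0 M0 Ω y rep c) <
          msr s t W0 M0 k (2 * Ω ^ 12) (1 / Ω ^ 8) y) := by
  obtain ⟨j, hj⟩ := s2_jet
  refine ⟨7 * (j + 7), fun n m s t W0 M0 k Ω A y rep hl hA hn hm hΩ hW0 hM0 htr hF hW hM hPhi => ?_⟩
  have hA1 : (1 : ℝ) ≤ A := by linarith
  have hpow : ∀ i, i ≤ 7 * (j + 7) → A ^ i ≤ Ω := fun i hi => (pow_le_pow_right₀ hA1 hi).trans hΩ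
  have hΩ10 : (10 : ℝ) ≤ Ω := hA.trans (by simpa using hpow 1 (by omega))
  have hΩ1 : 1 ≤ Ω := by exact_mod_cast (show (1 : ℝ) ≤ Ω by linarith)
  have hΩ0 : (0 : ℝ) < Ω := by linarith
  have hN : 0 < 2 * Ω ^ 12 := by positivity
  have hNr : ((2 * Ω ^ 12 : ℕ) : ℝ) = 2 * (Ω : ℝ) ^ 12 := by push_cast; rfl
  have hNz : ((2 * Ω ^ 12 : ℕ) : ℤ) = 2 * (Ω : ℤ) ^ 12 := by push_cast; rfl
  have hm' : (Fintype.card (Fin m) : ℝ) ≤ A := by rwa [Fintype.card_fin]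
  have hx : ∀ e, 0 ≤ stx (2 * Ω ^ 12) y e ∧ stx (2 * Ω ^ 12) y e ≤ 1 := fun e =>
    ⟨div_nonneg (by exact_mod_cast hF.1.1 e) (Nat.cast_nonneg _),
      div_le_one_of_le₀ (by exact_mod_cast hF.2.1 e) (Nat.cast_nonneg _)⟩
  obtain ⟨hWt, hMt, F1, F2, hJ, hpd, hF1, hF2⟩ := hj n (Fin m) s t W0 M0 y.2.2.1 y.2.2.2 (stx (2 * Ω ^ 12) y)
    (sta (2 * Ω ^ 12) y) A hA hn hm' hW0 hM0 htr (fun e _ => hx e) hW hM hPhi
  have hJ' : Jet (stF s t W0 M0 (2 * Ω ^ 12) y rep) (fun v => F1 (s2pψ y.2.2.1 rep v))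
      (fun v w => F2 (s2pψ y.2.2.1 rep v) (s2pψ y.2.2.1 rep w)) (A ^ (j + 7)) 1 :=
    ((hJ.comp hA (s2pψ_linear y.2.2.1 rep) (s2pψ_le y.2.2.1 rep hA hm')).mono hA (by omega)).pow1
  have hB7 : A ^ 7 ≤ A ^ (j + 7) := pow_le_pow_right₀ hA1 (by omega)
  have hB2 : A ^ 2 ≤ A ^ (j + 7) := pow_le_pow_right₀ hA1 (by omega)
  have hB : 10 ≤ A ^ (j + 7) := le_trans (by nlinarith) hB2
  have hBΩ : (A ^ (j + 7)) ^ 7 ≤ Ω := by rwa [← pow_mul, mul_comm]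
  have hF0 : stF s t W0 M0 (2 * Ω ^ 12) y rep 0 = stPhi s t W0 M0 (2 * Ω ^ 12) y := by
    rw [stF, (px_linear _ _).1.map_zero, add_zero]
    exact congrArg _ (add_zero _)
  have P1 : ∀ β : Fin m ⊕ Fin m → ℝ, ‖β‖ ≤ 2 / Ω →
      (W2 s t W0 (sta (2 * Ω ^ 12) y + fun e => β (Sum.inr e))).PosDef ∧
      (M2 s t W0 M0 y.2.2.1 y.2.2.2 (stx (2 * Ω ^ 12) y + px y.2.2.1 rep β)
        (sta (2 * Ω ^ 12) y + fun e => β (Sum.inr e))).PosDef := fun β hβ => by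
    refine hpd (s2pψ y.2.2.1 rep β) ((s2pψ_le _ _ hA hm' β).trans ?_)
    refine (mul_le_mul_of_nonneg_left hβ (by positivity)).trans ?_
    rw [mul_div_assoc', div_le_div_iff₀ hΩ0 (by positivity), one_mul]
    refine le_trans ?_ (hpow (j + 3) (by omega))
    have : 0 < A ^ 2 * A ^ j := by positivity
    calc A ^ 2 * 2 * A ^ j = 2 * (A ^ 2 * A ^ j) := by ring
      _ ≤ A * (A ^ 2 * A ^ j) := mul_le_mul_of_nonneg_right (by linarith) this.le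
      _ = A ^ (j + 3) := by ring
  have Pm : ∀ κ : Fin m ⊕ Fin m → ℤ, (∀ i, |κ i| ≤ 4 * (Ω : ℤ) ^ 9) →
      (stW s t W0 (2 * Ω ^ 12) (mvz y rep κ)).PosDef ∧ (stM s t W0 M0 (2 * Ω ^ 12) (mvz y rep κ)).PosDef ∧
      ∀ e, |(mvz y rep κ).2.1 e| ≤ |y.2.1 e| + 4 * Ω ^ 9 := fun κ hκ => by
    obtain ⟨e1, e2, -⟩ := stF_mvz (s := s) (t := t) (W0 := W0) (M0 := M0) hN y rep κ
    have h := P1 (fun i => κ i / (2 * Ω ^ 12 : ℕ)) (by
      refine (pi_norm_le_iff_of_nonneg (by positivity)).2 fun i => ?_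
      have h1 : |(κ i : ℝ)| ≤ 4 * (Ω : ℝ) ^ 9 := by exact_mod_cast hκ i
      rw [Real.norm_eq_abs, abs_div, Nat.abs_cast, hNr, div_le_div_iff₀ (by positivity) hΩ0]
      have h2 : (Ω : ℝ) ^ 10 ≤ (Ω : ℝ) ^ 12 := pow_le_pow_right₀ (by linarith) (by omega)
      calc |(κ i : ℝ)| * Ω ≤ 4 * (Ω : ℝ) ^ 9 * Ω := mul_le_mul_of_nonneg_right h1 hΩ0.le
        _ = 4 * (Ω : ℝ) ^ 10 := by ring
        _ ≤ _ := by linarith)
    refine ⟨?_, ?_, fun e => (abs_add_le _ _).trans (add_le_add_right (hκ _) _)⟩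
    · rw [stW, e2]
      exact h.1
    · rw [stM, e1, e2]
      exact h.2
  have hβn : ∀ (σ : Bool) (i : Fin m ⊕ Fin m),
      ‖(if σ then 1 else -1 : ℝ) • pwd (stF s t W0 M0 (2 * Ω ^ 12) y rep) Ω i‖ ≤ 1 := fun σ i => by
    rw [norm_smul]
    cases σ <;> simpa using norm_pwd_le _ Ω i
  have P2 : ∀ c, (stW s t W0 (2 * Ω ^ 12) (cand s t W0 M0 Ω y rep c)).PosDef ∧
      (stM s t W0 M0 (2 * Ω ^ 12) (cand s t W0 M0 Ω y rep c)).PosDef ∧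
      ∀ e, |(cand s t W0 M0 Ω y rep c).2.1 e| ≤ |y.2.1 e| + 4 * Ω ^ 9 := by
    rintro (e | f | ⟨e, f, i⟩ | ⟨i, σ, l⟩)
    · obtain ⟨-, -, h2, h3, -⟩ := sw_spec (M0 := M0) hN hF hW hM e
      refine ⟨?_, h3, fun f => ?_⟩
      · have : sta (2 * Ω ^ 12) (sw s t W0 (2 * Ω ^ 12) y e) = sta (2 * Ω ^ 12) y := by
          unfold sta
          rw [h2]
        simp only [cand, stW, this]
        exact hW
      · simp only [cand, h2]
        exact le_add_of_nonneg_right (by positivity)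
    · refine Pm _ fun i => ?_
      have : (0 : ℤ) ≤ (Ω : ℤ) ^ 9 := by positivity
      rw [Pi.single_apply]
      split_ifs
      · rw [abs_of_nonneg (by positivity)]
        linarith
      · rw [abs_zero]
        positivity
    · obtain ⟨h1, h2, h3⟩ := pp_same (W0 := W0) (M0 := M0) hF e f i.val
      simp only [cand, h1, h2, h3]
      exact ⟨hW, hM, fun e => le_add_of_nonneg_right (by positivity)⟩
    · exact Pm _ (s2p_kap hΩ1 (hβn σ i) (Nat.lt_succ_iff.1 l.2))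
  refine ⟨P1, P2, fun hrep ⟨e, he0, heN⟩ => ?_⟩
  have hη : (0 : ℝ) < 1 / Ω ^ 8 := by positivity
  by_cases hNr' : Nrm s t W0 (2 * Ω ^ 12) y
  swap
  · obtain ⟨e, he⟩ := sw_prog hF hNr'
    obtain ⟨h0, h1, -, -, h4⟩ := sw_spec (M0 := M0) hN hF hW hM e
    refine ⟨Sum.inl e, h0, ?_⟩
    have := Nat.ceil_mono (div_le_div_of_nonneg_right h4 hη.le)
    simp only [cand, msr, h1]
    omega
  have hr := hrep hNr'
  rcases y.2.2.1.eq_empty_or_nonempty with hL | hL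
  · have hP : ∀ e, 0 < y.1 e → e ∈ y.2.2.2 := fun e he => by
      by_contra h
      exact he.ne' (hF.2.2.2 e (by rw [hL]; exact notMem_empty e) h)
    have h0 : 0 < y.1 e := lt_of_le_of_ne (hF.1.1 e) he0.symm
    have h1 : y.1 e < (2 * Ω ^ 12 : ℕ) := lt_of_le_of_ne (hF.2.1 e) (by rwa [hNz])
    obtain ⟨f, hfe, hc, hf0, hf1⟩ := exists_partner (by exact_mod_cast hN) hF.1 hF.2.1 h0 h1
    obtain ⟨l, hl, h2, h3⟩ := pp_block hF hfe.symm (hP e h0) (hP f hf0) ⟨h0, h1⟩ ⟨hf0, hf1⟩ hc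
    obtain ⟨h4, h5, h6⟩ := pp_same (W0 := W0) (M0 := M0) hF e f l
    refine ⟨Sum.inr (Sum.inr (Sum.inl (e, f, ⟨l, Nat.lt_succ_of_le hl⟩))), h2, ?_⟩
    have h7 : stPhi s t W0 M0 (2 * Ω ^ 12) (pp y e f l) = stPhi s t W0 M0 (2 * Ω ^ 12) y := by
      change (stM s t W0 M0 _ _)⁻¹.trace + (stW s t W0 _ _)⁻¹.trace = _
      rw [h4, h5]
      rfl
    have h8 := evn_le s t k (2 * Ω ^ 12) (pp y e f l).1
    simp only [cand, msr, h6, h7]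
    omega
  by_cases hXi : ∀ f ∈ y.2.2.1, qf (XiM s t y.2.2.1 (stW s t W0 (2 * Ω ^ 12) y) (stM s t W0 M0 (2 * Ω ^ 12) y)
      (stx (2 * Ω ^ 12) y)) (s f) (t f) ≤ 2 * zz s t (stM s t W0 M0 (2 * Ω ^ 12) y) f
  swap
  · push Not at hXi
    obtain ⟨f, -, hf⟩ := hXi
    have hz : 2 / A ^ 2 ≤ zz s t (stM s t W0 M0 (2 * Ω ^ 12) y) f := qf_inv_sq_ge hM hMt (hl f)
    have h1 := jet_step1 hB hJ' hBΩ (β := Pi.single (Sum.inr f) 1) (by rw [Pi.norm_single, norm_one]) (by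
      rw [s2pψ_single, hF1]
      have h2 : 1 / A ^ (j + 7) ≤ 2 / A ^ 2 :=
        (one_div_le_one_div_of_le (by positivity) hB2).trans (div_le_div_of_nonneg_right one_le_two (by positivity))
      simp only [stM, stW] at hf hz
      linarith)
    obtain ⟨-, -, e3⟩ := stF_mvz (s := s) (t := t) (W0 := W0) (M0 := M0) hN y rep (Pi.single (Sum.inr f) (2 * Ω ^ 9))
    have e4 : (fun i => ((Pi.single (Sum.inr f) (2 * Ω ^ 9) : Fin m ⊕ Fin m → ℤ) i : ℝ) / (2 * Ω ^ 12 : ℕ)) =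
        (1 / (Ω : ℝ) ^ 3) • (Pi.single (Sum.inr f) 1 : Fin m ⊕ Fin m → ℝ) := by
      funext i
      rw [Pi.smul_apply, Pi.single_apply, Pi.single_apply, hNr]
      split_ifs
      · push_cast
        rw [smul_eq_mul]
        field_simp
      · simp
    rw [← e4, ← e3, hF0] at h1
    have e5 : (mvz y rep (Pi.single (Sum.inr f) (2 * Ω ^ 9))).1 = y.1 := by simp [mvz]
    obtain ⟨h2, h3, -⟩ := P2 (Sum.inr (Sum.inl f))
    have h4 := s2p_ceil_lt hη (s2p_nonneg h2 h3) h1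
    refine ⟨Sum.inr (Sum.inl f), ?_, ?_⟩
    · simp only [cand, Feas, e5]
      exact hF
    · simp only [cand, msr, e5] at h4 ⊢
      simp only [mvz] at h4 ⊢
      omega
  obtain ⟨β, g, hβ0, hβg, hg, hh, hq⟩ := s2_dir hl hA hm' hW hM hWt hMt hL
    (fun e he => ⟨(hx e).1, (hx e).2, (hNr'.1 e he).2.2.le⟩) hXi (rep_partner hN hF hNr' hr)
  have e1 : s2pψ y.2.2.1 rep β = Sum.elim (px y.2.2.1 rep β) (-g) := by
    rw [s2pψ]
    congr 1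
    exact funext hβg
  obtain ⟨i, hi⟩ := neg_curv hB (by
      rw [Fintype.card_sum, Fintype.card_fin]
      push_cast
      nlinarith) hJ' hβ0 (by
      rw [e1, hF2 _ g hg hh]
      have h1 : ‖β‖ ^ 2 / A ^ (j + 7) ≤ ‖β‖ ^ 2 / A ^ 7 :=
        div_le_div_of_nonneg_left (by positivity) (by positivity) hB7
      have h2 : 0 ≤ ‖β‖ ^ 2 / A ^ 7 := by positivity
      simp only [stM, stW] at hq
      linarith) hBΩ
  obtain ⟨σ, hσ1, hσ2⟩ := s2p_sign hJ' (pwd (stF s t W0 M0 (2 * Ω ^ 12) y rep) Ω i)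
  obtain ⟨l, hl, h1, h2, h3⟩ := first_block hF hNr' hr (hβn σ i) (2 * Ω ^ 9 * m)
  refine ⟨Sum.inr (Sum.inr (Sum.inr (i, σ, ⟨l, Nat.lt_succ_of_le hl⟩))), h1, ?_⟩
  obtain ⟨h4, h5, -⟩ := P2 (Sum.inr (Sum.inr (Sum.inr (i, σ, ⟨l, Nat.lt_succ_of_le hl⟩))))
  simp only [cand] at h4 h5 ⊢
  have hβ1 := hβn σ i
  generalize (if σ then 1 else -1 : ℝ) • pwd (stF s t W0 M0 (2 * Ω ^ 12) y rep) Ω i = b at *
  have hlm : ((l / m : ℕ) : ℝ) ≤ 2 * (Ω : ℝ) ^ 9 := by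
    exact_mod_cast (Nat.div_le_of_le_mul (by rwa [mul_comm]) : l / m ≤ 2 * Ω ^ 9)
  have e6 : 2 * (Ω : ℝ) ^ 9 / (2 * Ω ^ 12) = 1 / Ω ^ 3 := by field_simp
  obtain ⟨h6, h7⟩ := jet_step hB hJ' hBΩ hβ1 hσ1 (hσ2.trans_le hi)
    (v := fun i => (kap b l i : ℝ) / (2 * Ω ^ 12 : ℕ)) (σ := ((l / m : ℕ) : ℝ) / (2 * Ω ^ 12))
    (by positivity) (e6 ▸ div_le_div_of_nonneg_right hlm (by positivity)) (by
      refine (pi_norm_le_iff_of_nonneg (by positivity)).2 fun i => ?_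
      have := kap_approx hβ1 l i
      rw [Pi.sub_apply, Pi.smul_apply, smul_eq_mul, hNr, div_mul_eq_mul_div, ← sub_div, Real.norm_eq_abs, abs_div,
        abs_of_pos (by positivity : (0 : ℝ) < 2 * Ω ^ 12), div_le_div_iff₀ (by positivity) (by positivity)]
      have h0 : (0 : ℝ) < (Ω : ℝ) ^ 12 := by positivity
      nlinarith)
  obtain ⟨-, -, e3⟩ := stF_mvz (s := s) (t := t) (W0 := W0) (M0 := M0) hN y rep (kap b l)
  rw [← e3, hF0] at h6 h7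
  have h8 := evn_le s t k (2 * Ω ^ 12) (mvz y rep (kap b l)).1
  have e7 : (mvz y rep (kap b l)).2.2 = y.2.2 := rfl
  rcases h3 with h3 | h3
  · have hm0 : 0 < m := Fin.pos e
    have h9 := s2p_ceil_lt hη (s2p_nonneg h4 h5) (h7 (by
      rw [h3, Nat.mul_div_cancel _ hm0, ← e6]
      push_cast
      rfl))
    simp only [msr, e7]
    omega
  · have h9 := s2p_ceil_le hη (s2p_nonneg hW hM) h6
    simp only [msr, e7]
    omega

end Crest.Agent.R37
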