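import Crest.Agent.R37.CCand
import Crest.Agent.R37.S2Prog

/-!
# R37/CS2: Stage 2 in polynomial time.
`B = n + m + q + 100`, `A = B⁴`, `Ω = A^{j0}`, `G = A Ω^8 ≥ msr (st0 H Ω)`.  `Solv.localSearch` on states with `Feas`, `stW, stM` positive definite, `msr ≤ G`,
`|a e| ≤ (G - msr) 4 Ω^9`; then `stPhi ≤ η msr ≤ η G = A` (`s2_init`).  Step: `solv_rep`, search over `C2` for
`Feas (cand c) ∧ msr (cand c) < msr y`; if there is none, no edge is fractional (`s2_prog`) and `s2_final` applies.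
-/

set_option autoImplicit false

open Matrix Finset Crest.Agent.Lib.PolyTime

noncomputable section

namespace Crest.Agent.R37

variable {α α' : Type} [Enc α] [Enc α']

variable {n m : α → ℕ} {s t : ∀ a, Fin (m a) → Fin (n a)}

theorem cs2_add {f g : α → ℕ} (hf : UN f) (hg : UN g) : UN fun a => f a + g a :=
  ⟨hf.1.nat_add hg.1, hf.2.add hg.2⟩

theorem cs2_mul {f g : α → ℕ} (hf : UN f) (hg : UN g) : UN fun a => f a * g a :=
  ⟨hf.1.nat_mul hg.1, hf.2.mul hg.2⟩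

theorem cs2_pow {f : α → ℕ} (hf : UN f) (k : ℕ) : UN fun a => f a ^ k :=
  ⟨hf.1.nat_pow (PT.const k) (PB.const k), hf.2.pow k⟩

theorem cs2_const (c : ℕ) : UN fun _ : α => c := ⟨PT.const c, PB.const c⟩

theorem cs2_and {c d : α → Prop} (hc : PT c) (hd : PT fun a : {a // c a} => d a.1) :
    PT fun a => c a ∧ d a :=
  PT.cases_sub hc (hd.of_iff fun a => by simp [a.2])
    ((PT.const False).of_iff fun a => by simp [a.2])

theorem cs2_en {Ω : α → ℕ} (hm : UN m) (hΩ : UN Ω) : En fun a => C2 (m a) (Ω a) :=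
  (En.fin hm).sum ((En.fin hm).sum
    (((En.fin hm).prod ((En.fin hm).prod
      (En.fin (cs2_add (cs2_mul (cs2_const 2) (cs2_pow hΩ 12)) (cs2_const 1))))).sum
    (((En.fin hm).sum (En.fin hm)).prod (En.bool.prod
      (En.fin (cs2_add (cs2_mul (cs2_mul (cs2_const 2) (cs2_pow hΩ 9)) hm) (cs2_const 1)))))))

/-- the loop invariant -/
def Inv2 {n m : ℕ} (s t : Fin m → Fin n) (W0 M0 : Mat n) (k Ω G : ℕ) (y : St (Fin m)) : Prop :=
  Feas s t k (2 * Ω ^ 12) y ∧ (stW s t W0 (2 * Ω ^ 12) y).PosDef ∧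
    (stM s t W0 M0 (2 * Ω ^ 12) y).PosDef ∧ msr s t W0 M0 k (2 * Ω ^ 12) (1 / Ω ^ 8) y ≤ G ∧
    ∀ e, |y.2.1 e| ≤ ((G : ℤ) - msr s t W0 M0 k (2 * Ω ^ 12) (1 / Ω ^ 8) y) * (4 * Ω ^ 9)

theorem Inv2.esize_le {n m : ℕ} {s t : Fin m → Fin n} {W0 M0 : Mat n} {k Ω G : ℕ} {y : St (Fin m)}
    (h : Inv2 s t W0 M0 k Ω G y) :
    esize y ≤ m * (6 * (2 * Ω ^ 12) + 8) + m * (6 * (G * (4 * Ω ^ 9)) + 8) + 8 * m + 7 := by
  obtain ⟨hF, -, -, -, ha⟩ := h
  have h1 : esize y.1 ≤ m * (6 * (2 * Ω ^ 12) + 7 + 1) + 1 :=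
    esize_pi_le fun e => esize_int_le (by
      rw [abs_of_nonneg (hF.1.1 e)]; exact hF.2.1 e)
  have h2 : esize y.2.1 ≤ m * (6 * (G * (4 * Ω ^ 9)) + 7 + 1) + 1 :=
    esize_pi_le fun e => esize_int_le ((ha e).trans (by
      push_cast
      exact mul_le_mul_of_nonneg_right (sub_le_self _ (by positivity)) (by positivity)))
  have h3 := esize_finset_le y.2.2.1
  have h4 := esize_finset_le y.2.2.2
  rw [esize_prod, esize_prod, esize_prod]
  simp only [Nat.add_assoc, Nat.reduceAdd] at h1 h2 ⊢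
  omega

theorem Inv2.phi_le {n m : ℕ} {s t : Fin m → Fin n} {W0 M0 : Mat n} {k Ω A : ℕ} {y : St (Fin m)}
    (hΩ : 1 ≤ Ω) (h : Inv2 s t W0 M0 k Ω (A * Ω ^ 8) y) : stPhi s t W0 M0 (2 * Ω ^ 12) y ≤ A := by
  have h1 : ⌈stPhi s t W0 M0 (2 * Ω ^ 12) y / (1 / Ω ^ 8)⌉₊ ≤ A * Ω ^ 8 := by
    refine le_trans ?_ h.2.2.2.1
    unfold msr; omega
  have h2 := Nat.ceil_le.1 h1
  have h3 : (0 : ℝ) < (Ω : ℝ) ^ 8 := by positivity
  rw [div_div_eq_mul_div, div_one] at h2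
  push_cast at h2
  exact le_of_mul_le_mul_right h2 h3

theorem cs2_loop (hG : PG n m s t) {k Ω G : α → ℕ} (hk : UN k) (hΩ : UN Ω) (hg : UN G)
    {W0 M0 : ∀ a, Mat (n a)} (hW : MPT W0) (hM : MPT M0) {y0 : ∀ a, St (Fin (m a))} (hy0 : DPT y0)
    (h0 : ∀ a, Inv2 (s a) (t a) (W0 a) (M0 a) (k a) (Ω a) (G a) (y0 a))
    (hp : ∀ a y rep, Inv2 (s a) (t a) (W0 a) (M0 a) (k a) (Ω a) (G a) y →
      (∀ β : Fin (m a) ⊕ Fin (m a) → ℝ, ‖β‖ ≤ 2 / Ω a →
        (W2 (s a) (t a) (W0 a) (sta (2 * Ω a ^ 12) y + fun e => β (Sum.inr e))).PosDef ∧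
        (M2 (s a) (t a) (W0 a) (M0 a) y.2.2.1 y.2.2.2 (stx (2 * Ω a ^ 12) y + px y.2.2.1 rep β)
          (sta (2 * Ω a ^ 12) y + fun e => β (Sum.inr e))).PosDef) ∧
      (∀ c, (stW (s a) (t a) (W0 a) (2 * Ω a ^ 12) (cand (s a) (t a) (W0 a) (M0 a) (Ω a) y rep c)).PosDef ∧
        (stM (s a) (t a) (W0 a) (M0 a) (2 * Ω a ^ 12) (cand (s a) (t a) (W0 a) (M0 a) (Ω a) y rep c)).PosDef ∧
        ∀ e, |(cand (s a) (t a) (W0 a) (M0 a) (Ω a) y rep c).2.1 e| ≤ |y.2.1 e| + 4 * Ω a ^ 9) ∧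
      ((Nrm (s a) (t a) (W0 a) (2 * Ω a ^ 12) y → IsRep (s a) (t a) (k a) (2 * Ω a ^ 12) y rep) →
        (∃ e, y.1 e ≠ 0 ∧ y.1 e ≠ 2 * Ω a ^ 12) →
        ∃ c, Feas (s a) (t a) (k a) (2 * Ω a ^ 12) (cand (s a) (t a) (W0 a) (M0 a) (Ω a) y rep c) ∧
          msr (s a) (t a) (W0 a) (M0 a) (k a) (2 * Ω a ^ 12) (1 / Ω a ^ 8)
              (cand (s a) (t a) (W0 a) (M0 a) (Ω a) y rep c) <
            msr (s a) (t a) (W0 a) (M0 a) (k a) (2 * Ω a ^ 12) (1 / Ω a ^ 8) y)) :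
    Solv fun a (y : St (Fin (m a))) => Inv2 (s a) (t a) (W0 a) (M0 a) (k a) (Ω a) (G a) y ∧
      ∀ e, y.1 e = 0 ∨ y.1 e = 2 * Ω a ^ 12 := by
  classical
  have hN : UN fun a => 2 * Ω a ^ 12 := cs2_mul (cs2_const 2) (cs2_pow hΩ 12)
  have hη : RPT fun a => (1 / (Ω a : ℝ) ^ 8) := RPT.one.div ((RPT.nat hΩ.1).pow 8)
  let I : ∀ a, St (Fin (m a)) → Prop := fun a y => Inv2 (s a) (t a) (W0 a) (M0 a) (k a) (Ω a) (G a) y
  obtain ⟨rep, hrep, hr⟩ := solv_rep (α := Σ a, {y // I a y}) (W0 := fun p => W0 p.1)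
    (hG.comp pt_sigma_fst) (hk.comp pt_sigma_fst) (hN.comp pt_sigma_fst)
    (y := fun p => p.2.1) dpt_sigma_snd.val (fun p => p.2.2.1)
  let rep' : ∀ a, St (Fin (m a)) → Fin (m a) → Fin (m a) := fun a y =>
    if h : I a y then rep ⟨a, ⟨y, h⟩⟩ else id
  let mv : ∀ a, St (Fin (m a)) → C2 (m a) (Ω a) → St (Fin (m a)) := fun a y c =>
    cand (s a) (t a) (W0 a) (M0 a) (Ω a) y (rep' a y) c
  let μ : ∀ a, St (Fin (m a)) → ℕ := fun a y =>
    msr (s a) (t a) (W0 a) (M0 a) (k a) (2 * Ω a ^ 12) (1 / Ω a ^ 8) y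
  let ok : ∀ a, St (Fin (m a)) → C2 (m a) (Ω a) → Prop := fun a y c =>
    Feas (s a) (t a) (k a) (2 * Ω a ^ 12) (mv a y c) ∧ μ a (mv a y c) < μ a y
  have hy : DPT fun p : Σ a, {x // I a x} × C2 (m a) (Ω a) => p.2.1.1 := dpt_sigma_snd.fst.val
  have hφ : PT fun p : Σ a, {x // I a x} × C2 (m a) (Ω a) => p.1 := pt_sigma_fst
  have hr' : DPT fun p : Σ a, {x // I a x} × C2 (m a) (Ω a) => rep' p.1 p.2.1.1 :=
    (hrep.comp (pt_sigma_mk (β := fun a => {x // I a x}) hφ dpt_sigma_snd.fst)).of_eq fun p => by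
      simp only [rep']; rw [dif_pos p.2.1.2]
  have hmv : DPT fun p : Σ a, {x // I a x} × C2 (m a) (Ω a) => mv p.1 p.2.1.1 p.2.2 :=
    dpt_cand (hG.comp hφ) (hW.comp hφ) (hM.comp hφ) (hΩ.comp hφ) hy hr'
      (fun p => (hp p.1 _ _ p.2.1.2).1) dpt_sigma_snd.snd
  have hok : PT fun p : Σ a, {x // I a x} × C2 (m a) (Ω a) => ok p.1 p.2.1.1 p.2.2 := by
    refine cs2_and (pt_feas (hG.comp hφ) (hk.comp hφ) (hN.comp hφ) hmv) (PT.nat_lt ?_ ?_)
    · have hψ := hφ.comp (pt_val (p := fun p : Σ a, {x // I a x} × C2 (m a) (Ω a) =>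
        Feas (s p.1) (t p.1) (k p.1) (2 * Ω p.1 ^ 12) (mv p.1 p.2.1.1 p.2.2)))
      exact pt_msr (hG.comp hψ) (hW.comp hψ) (hM.comp hψ) (hk.comp hψ) (hN.comp hψ)
        (hmv.comp pt_val) (hη.comp hψ) fun p =>
          ⟨p.2, ((hp _ _ _ p.1.2.1.2).2.1 _).1, ((hp _ _ _ p.1.2.1.2).2.1 _).2.1⟩
    · exact (pt_msr (hG.comp hφ) (hW.comp hφ) (hM.comp hφ) (hk.comp hφ) (hN.comp hφ)
        hy (hη.comp hφ) fun p => ⟨p.2.1.2.1, p.2.1.2.2.1, p.2.1.2.2.2.1⟩).comp pt_val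
  have hb : PB fun a => m a * (6 * (2 * Ω a ^ 12) + 8) + m a * (6 * (G a * (4 * Ω a ^ 9)) + 8) +
      8 * m a + 7 + G a := by
    have := hG.hm.2; have := hΩ.2; have := hg.2
    fun_prop
  refine (Solv.localSearch I μ hb hy0 (fun a => ⟨h0 a, (h0 a).2.2.2.1.trans (Nat.le_add_left _ _)⟩)
    (fun a x hx => hx.esize_le.trans (Nat.le_add_right _ _)) (cs2_en hG.hm hΩ) mv ok hmv hok
    fun a x i hx hi => ⟨?_, hi.2⟩).mono fun a y hy => ⟨hy.1, fun e => ?_⟩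
  · have h1 := (hp a x (rep' a x) hx).2.1 i
    refine ⟨hi.1, h1.1, h1.2.1, hi.2.le.trans hx.2.2.2.1, fun e => (h1.2.2 e).trans ?_⟩
    have h2 := hx.2.2.2.2 e
    have h3 : ((μ a (mv a x i) : ℕ) : ℤ) + 1 ≤ μ a x := by exact_mod_cast hi.2
    have h4 : (0 : ℤ) ≤ 4 * (Ω a : ℤ) ^ 9 := by positivity
    have h5 := mul_le_mul_of_nonneg_right h3 h4
    change |x.2.1 e| ≤ ((G a : ℤ) - μ a x) * (4 * Ω a ^ 9) at h2
    change _ ≤ ((G a : ℤ) - μ a (mv a x i)) * (4 * Ω a ^ 9)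
    linarith
  · by_contra hne
    push Not at hne
    obtain ⟨c, hc⟩ := (hp a y (rep' a y) hy.1).2.2 (by
      simp only [rep']; rw [dif_pos hy.1]; exact hr ⟨a, ⟨y, hy.1⟩⟩) ⟨e, hne⟩
    exact hy.2 c hc

theorem solv_half (hG : PG n m s t) {k q : α → ℕ} (hk : UN k) (hq : UN q)
    {H : ∀ a, Finset (Fin (m a))} (hH : DPT H) {w : ∀ a, Fin (n a) → Fin (n a) → ℚ} (hw : DPT w)
    (h : ∀ a, 1 ≤ n a ∧ (∀ e, s a e ≠ t a e) ∧ 1 ≤ q a ∧ Base (s a) (t a) (2 * k a) (ind (H a)) ∧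
      (∀ x y, 0 ≤ w a x y) ∧ Cert (s a) (t a) (H a) (fun x y => w a x y) (1 / q a ^ 2)) :
    Solv fun a (H' : Finset (Fin (m a))) => Base (s a) (t a) (k a) (ind H') ∧
      ∀ S, ((H' ∩ cut (s a) (t a) S).card : ℝ) ≤
        ((cut (s a) (t a) S).card : ℝ) / 2 + 306 / q a * ((cut (s a) (t a) S).card + 1) + 1 := by
  classical
  obtain ⟨j, hj⟩ := s2_prog
  let B : α → ℕ := fun a => n a + m a + q a + 100
  let A : α → ℕ := fun a => B a ^ 4
  let Ω : α → ℕ := fun a => A a ^ j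
  have hB : UN B := cs2_add (cs2_add (cs2_add hG.hn hG.hm) hq) (cs2_const 100)
  have hA : UN A := cs2_pow hB 4
  have hΩ : UN Ω := cs2_pow hA j
  have hΩ1 : ∀ a, 1 ≤ Ω a := fun a => Nat.one_le_pow _ _ (by simp only [A, B]; positivity)
  have hw0 : ∀ a x y, (0 : ℝ) ≤ w a x y := fun a x y => by exact_mod_cast (h a).2.2.2.2.1 x y
  obtain ⟨hW, hM⟩ := mpt_init hG hH hw (fun a => (h a).2.2.2.2.1) hq.1 fun a => (h a).2.2.1
  have hi := fun a => s2_init (k := k a) (h a).1 (h a).2.2.1 (hΩ1 a) (h a).2.2.2.1 (hw0 a)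
    (h a).2.2.2.2.2
  have hy0 : DPT fun a => (st0 (H a) (Ω a) : St (Fin (m a))) := by
    refine DPT.pair (DPT.pi hG.hm (DPT.of_pt ?_)) (DPT.pair (DPT.pi hG.hm (DPT.of_pt (PT.const 0)))
      (DPT.pair hH (DPT.finset hG.hm ((PT.const False).of_iff fun p => by simp))))
    exact (((cs2_pow hΩ 12).1.comp pt_sigma_fst).int_natCast.int_mul
      (PT.ite ((hH.comp pt_sigma_fst).mem dpt_sigma_snd) (PT.const 1) (PT.const 0))).of_eq
        fun p => by simp [ind]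
  have hBA : ∀ a, B a ≤ A a := fun a => Nat.le_self_pow (by norm_num) _
  have hL := cs2_loop hG hk hΩ (cs2_mul hA (cs2_pow hΩ 8)) hW hM hy0 (fun a => ?_) fun a y rep hy => ?_
  · obtain ⟨f, hf, hs⟩ := hL
    refine ⟨fun a => univ.filter fun e => (f a).1 e = (2 * Ω a ^ 12 : ℕ), DPT.finset hG.hm ?_,
      fun a => ?_⟩
    · exact (((hf.fst.comp pt_sigma_fst).apply dpt_sigma_snd).pt.eq
        ((cs2_mul (cs2_const 2) (cs2_pow hΩ 12)).1.comp pt_sigma_fst).int_natCast).of_iff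
          fun p => by simp
    · have h1 := s2_final (by have := hΩ1 a; positivity) (hs a).1.1 (hs a).1.2.1 (hs a).1.2.2.1
        (by simpa using (hs a).2)
      exact ⟨h1.1, fun S => (h1.2 S).trans ((hi a).2.2.2.2.2.2.2 S)⟩
  · obtain ⟨h1, -, -, h2, h3, h4, -, -⟩ := hi a
    have h5 : msr (s a) (t a) (W00 (s a) (t a) (fun x y => w a x y) (q a))
        (M00 (s a) (t a) (H a) (fun x y => w a x y) (q a)) (k a) (2 * Ω a ^ 12) (1 / Ω a ^ 8)
        (st0 (H a) (Ω a)) ≤ A a * Ω a ^ 8 := by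
      have e1 : ⌈stPhi (s a) (t a) (W00 (s a) (t a) (fun x y => w a x y) (q a))
          (M00 (s a) (t a) (H a) (fun x y => w a x y) (q a)) (2 * Ω a ^ 12) (st0 (H a) (Ω a)) /
          (1 / Ω a ^ 8)⌉₊ ≤ (q a + 1) * n a ^ 2 * Ω a ^ 8 := by
        rw [Nat.ceil_le, div_div_eq_mul_div, div_one]
        push_cast
        exact mul_le_mul_of_nonneg_right h4 (by positivity)
      have e2 : (H a).card ≤ m a := by simpa using (H a).card_le_univ
      have e3 : 1 ≤ Ω a ^ 8 := Nat.one_le_pow _ _ (hΩ1 a)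
      have e4 : (q a + 1) * n a ^ 2 + (2 * m a ^ 2 + 4 * m a) ≤ A a := by
        have b1 : q a + 1 ≤ B a := by simp only [B]; omega
        have b2 : n a ≤ B a := by simp only [B]; omega
        have b3 : m a ≤ B a := by simp only [B]; omega
        have b4 : 100 ≤ B a := by simp only [B]; omega
        have b5 : (q a + 1) * n a ^ 2 ≤ B a * B a ^ 2 := by gcongr
        have b6 : m a ^ 2 ≤ B a ^ 2 := by gcongr
        have b7 : B a ≤ B a ^ 2 := Nat.le_self_pow (by norm_num) _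
        have b8 : 100 * B a ^ 2 ≤ B a * B a ^ 2 := by gcongr
        have b9 : 100 * (B a * B a ^ 2) ≤ B a * (B a * B a ^ 2) := by gcongr
        have b10 : A a = B a * (B a * B a ^ 2) := by simp only [A]; ring
        omega
      have e5 : 2 * m a ^ 2 + 4 * m a ≤ (2 * m a ^ 2 + 4 * m a) * Ω a ^ 8 :=
        Nat.le_mul_of_pos_right _ e3
      have e6 := Nat.mul_le_mul_right (Ω a ^ 8) e4
      rw [add_mul] at e6
      unfold msr
      simp only [Fintype.card_fin, st0, card_empty] at e1 ⊢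
      omega
    refine ⟨h1, h2, h3, h5, fun e => ?_⟩
    simp only [st0, abs_zero]
    refine mul_nonneg (sub_nonneg.2 ?_) (by positivity)
    exact_mod_cast h5
  · obtain ⟨-, h1, h2, -, -, -, h3, -⟩ := hi a
    have b2 : n a ≤ B a := by simp only [B]; omega
    have b3 : m a + 1 ≤ B a := by simp only [B]; omega
    have b4 : 100 ≤ B a := by simp only [B]; omega
    refine hj (n a) (m a) (s a) (t a) _ _ (k a) (Ω a) (A a) y rep (h a).2.1 ?_ ?_ ?_ ?_ h1 h2 ?_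
      hy.1 hy.2.1 hy.2.2.1 (hy.phi_le (hΩ1 a))
    · exact_mod_cast (show 10 ≤ A a by have := hBA a; omega)
    · exact_mod_cast (show n a ≤ A a by have := hBA a; omega)
    · exact_mod_cast (show m a ≤ A a by have := hBA a; omega)
    · simp [Ω]
    · refine h3.trans ?_
      rw [Fintype.card_fin]
      have : 307 * n a * (m a + 1) ≤ A a := by
        have b5 : 100 * 100 ≤ B a * B a := by gcongr
        calc 307 * n a * (m a + 1) ≤ (B a * B a) * B a * B a := by gcongr; omega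
          _ = A a := by simp only [A]; ring
      exact_mod_cast this

end Crest.Agent.R37
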