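import Crest.Agent.R37.Mat1

/-!
# R37/Mat2: the span relation `Sp` and maximal independent sets.
Let `J ⊆ F` be a maximal independent subset.  Every `f ∈ F \ J` lies inside a `J`-tight set
(`ind_add_iff`); the maximal `J`-tight sets (singletons are tight) partition the vertices.
`sp_iff_tight`, hard direction: if `U` is `Dense` through `J'`, with the partition `U_1..U_p` of `U`
induced by the maximal `J`-tight sets `T_i`: `K(|U|-1) = |J'| ≤ ∑ K(|U_i|-1) + #(F-edges inside U between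
parts)`, these crossing edges lie in `J`, so `J` has `≥ K(p-1)` edges between the `T_i` inside `⋃ T_i`, so
`⋃ T_i` is tight, so `p = 1`.  `ncl`: the classes `univ.filter (r a)` partition `Fin n`.
-/

set_option autoImplicit false

open Matrix Finset

noncomputable section

namespace Crest.Agent.R37

variable {n : ℕ} {E : Type} [Fintype E] [DecidableEq E]

variable {s t : E → Fin n} {K : ℤ}

/-- `J` is a maximal independent subset of `F` -/
def MaxInd (s t : E → Fin n) (K : ℤ) (F J : Finset E) : Prop :=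
  J ⊆ F ∧ Ind s t K (ind J) ∧ ∀ f ∈ F, f ∉ J → ¬ Ind s t K (ind (insert f J))

theorem mat2a_sum (J S : Finset E) : ∑ e ∈ S, ind J e = ((S ∩ J).card : ℤ) := by
  simp [ind, Finset.sum_ite_mem]

theorem mat2a_nonneg (J : Finset E) (e : E) : 0 ≤ ind J e := by
  unfold ind
  split_ifs <;> simp

theorem mat2a_mem {U : Finset (Fin n)} {e : E} : e ∈ ins s t U ↔ s e ∈ U ∧ t e ∈ U := by
  simp [ins]

theorem mat2a_single {J : Finset E} (hJ : Ind s t K (ind J)) (a : Fin n) :
    Tight s t K (ind J) {a} := by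
  refine ⟨singleton_nonempty a, le_antisymm (hJ _ (singleton_nonempty a)) ?_⟩
  rw [card_singleton, Nat.cast_one, sub_self, mul_zero]
  exact sum_nonneg fun e _ => mat2a_nonneg J e

theorem mat2a_max {J : Finset E} (hJ : Ind s t K (ind J)) (a : Fin n) :
    ∃ T, Tight s t K (ind J) T ∧ a ∈ T ∧ ∀ T', Tight s t K (ind J) T' → (T ∩ T').Nonempty → T' ⊆ T := by
  classical
  obtain ⟨T, hT, h⟩ := (univ.filter fun T => Tight s t K (ind J) T ∧ a ∈ T).exists_max_image card
    ⟨{a}, mem_filter.2 ⟨mem_univ _, mat2a_single hJ a, mem_singleton_self a⟩⟩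
  have hT := (mem_filter.1 hT).2
  refine ⟨T, hT.1, hT.2, fun T' hT' hne => ?_⟩
  have h1 := h (T ∪ T') (mem_filter.2 ⟨mem_univ _,
    (tight_union_inter (mat2a_nonneg J) hJ hT.1 hT' hne).1, mem_union_left _ hT.2⟩)
  rw [eq_of_subset_of_card_le subset_union_left h1]
  exact subset_union_right

theorem mat2a_in {F J : Finset E} (hJ : MaxInd s t K F J) {e : E} (he : e ∈ F) (he' : e ∉ J) :
    ∃ T, Tight s t K (ind J) T ∧ e ∈ ins s t T ∧
      ∀ T', Tight s t K (ind J) T' → (T ∩ T').Nonempty → T' ⊆ T := by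
  have h1 : ind (insert e J) = ind J + Pi.single e 1 := by
    funext x
    by_cases h : x = e
    · subst h
      simp [ind, he']
    · simp [ind, h]
  obtain ⟨U, hU, heU⟩ := (ind_add_iff hJ.2.1 e).1 (h1 ▸ hJ.2.2 e he he')
  obtain ⟨T, hT, hs, h⟩ := mat2a_max hJ.2.1 (s e)
  have h2 := h U hU ⟨s e, mem_inter.2 ⟨hs, (mat2a_mem.1 heU).1⟩⟩
  exact ⟨T, hT, mat2a_mem.2 ⟨hs, h2 (mat2a_mem.1 heU).2⟩, h⟩

theorem mat2a_key (hK : 0 ≤ K) {F J : Finset E} (hJ : MaxInd s t K F J) (m : ℕ) :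
    ∀ (U : Finset (Fin n)) (J' : Finset E), (J' \ J).card ≤ m → U.Nonempty → J' ⊆ F →
      J' ⊆ ins s t U → K * ((U.card : ℤ) - 1) ≤ J'.card →
      (∀ T, Tight s t K (ind J) T → (∀ T', Tight s t K (ind J) T' → (T ∩ T').Nonempty → T' ⊆ T) →
        ((J' \ J) ∩ ins s t T).Nonempty →
        ((J' ∩ ins s t T).card : ℤ) ≤ K * (((U ∩ T).card : ℤ) - 1)) →
      ∃ W, Tight s t K (ind J) W ∧ U ⊆ W := by
  induction m with
  | zero =>
    intro U J' hm hU _ hin hc _
    refine ⟨U, ⟨hU, le_antisymm (hJ.2.1 U hU) (hc.trans ?_)⟩, subset_rfl⟩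
    rw [mat2a_sum]
    exact_mod_cast card_le_card (subset_inter hin
      (sdiff_eq_empty_iff_subset.1 (card_eq_zero.1 (Nat.le_zero.1 hm))))
  | succ m ih =>
    intro U J' hm hU hF hin hc hI
    by_cases h0 : (J' \ J).card ≤ m
    · exact ih U J' h0 hU hF hin hc hI
    obtain ⟨e, he⟩ : (J' \ J).Nonempty := card_pos.1 (by omega)
    obtain ⟨T, hT, heT, hmax⟩ := mat2a_in hJ (hF (mem_sdiff.1 he).1) (mem_sdiff.1 he).2
    have hs : (J' \ ins s t T ∪ ins s t T ∩ J) \ J ⊆ (J' \ J) \ ins s t T := by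
      intro x hx
      simp only [mem_sdiff, mem_union, mem_inter] at hx ⊢
      tauto
    obtain ⟨W, hW, hUW⟩ := ih (U ∪ T) (J' \ ins s t T ∪ ins s t T ∩ J) (by
        have h1 : (J' \ J) \ ins s t T ⊆ (J' \ J).erase e := fun x hx =>
          mem_erase.2 ⟨fun h => (mem_sdiff.1 hx).2 (h ▸ heT), (mem_sdiff.1 hx).1⟩
        have h2 := card_le_card (hs.trans h1)
        rw [card_erase_of_mem he] at h2
        omega) (hU.mono subset_union_left)
      (union_subset (sdiff_subset.trans hF) (inter_subset_right.trans hJ.1))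
      (union_subset (fun x hx => by
          have := mat2a_mem.1 (hin (mem_sdiff.1 hx).1)
          exact mat2a_mem.2 ⟨mem_union_left _ this.1, mem_union_left _ this.2⟩)
        fun x hx => by
          have := mat2a_mem.1 (mem_inter.1 hx).1
          exact mat2a_mem.2 ⟨mem_union_right _ this.1, mem_union_right _ this.2⟩)
      (by
        have h1 := hI T hT hmax ⟨e, mem_inter.2 ⟨he, heT⟩⟩
        have h2 := hT.2
        rw [mat2a_sum] at h2
        have h3 : ((U ∪ T).card : ℤ) + (U ∩ T).card = U.card + T.card := by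
          exact_mod_cast card_union_add_card_inter U T
        have h4 : ((J' \ ins s t T).card : ℤ) + (J' ∩ ins s t T).card = J'.card := by
          exact_mod_cast card_sdiff_add_card_inter J' (ins s t T)
        rw [card_union_of_disjoint (sdiff_disjoint.mono_right inter_subset_left), Nat.cast_add, h2,
          eq_sub_of_add_eq h3]
        linarith)
      (fun T' hT' hmax' ⟨x, hx⟩ => by
        have hx1 := mem_sdiff.1 (hs (mem_inter.1 hx).1)
        have hd : ¬ (T ∩ T').Nonempty := fun hne => hx1.2 (by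
          have h1 := hmax T' hT' hne
          have h2 := mat2a_mem.1 (mem_inter.1 hx).2
          exact mat2a_mem.2 ⟨h1 h2.1, h1 h2.2⟩)
        refine le_trans ?_ ((hI T' hT' hmax' ⟨x, mem_inter.2 ⟨hx1.1, (mem_inter.1 hx).2⟩⟩).trans
          (mul_le_mul_of_nonneg_left (sub_le_sub_right (Int.ofNat_le.2 (card_le_card
            (inter_subset_inter_right subset_union_left))) 1) hK))
        refine Int.ofNat_le.2 (card_le_card fun y hy => ?_)
        obtain ⟨hy1, hy2⟩ := mem_inter.1 hy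
        rcases mem_union.1 hy1 with h | h
        · exact mem_inter.2 ⟨(mem_sdiff.1 h).1, hy2⟩
        · exact absurd ⟨s y, mem_inter.2 ⟨(mat2a_mem.1 (mem_inter.1 h).1).1, (mat2a_mem.1 hy2).1⟩⟩ hd)
    exact ⟨W, hW, subset_union_left.trans hUW⟩

theorem exists_maxInd (hK : 0 ≤ K) (F : Finset E) : ∃ J, MaxInd s t K F J := by
  classical
  obtain ⟨J, hJ, h⟩ := (F.powerset.filter fun J => Ind s t K (ind J)).exists_max_image card
    ⟨∅, mem_filter.2 ⟨empty_mem_powerset F, fun U hU => by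
      rw [mat2a_sum, inter_empty, card_empty, Nat.cast_zero]
      exact mul_nonneg hK (sub_nonneg.2 (by exact_mod_cast hU.card_pos))⟩⟩
  rw [mem_filter, mem_powerset] at hJ
  refine ⟨J, hJ.1, hJ.2, fun f hf hfJ hI => ?_⟩
  have := h (insert f J) (mem_filter.2 ⟨mem_powerset.2 (insert_subset hf hJ.1), hI⟩)
  rw [card_insert_of_notMem hfJ] at this
  omega

theorem sp_iff_tight (hK : 0 ≤ K) {F J : Finset E} (hJ : MaxInd s t K F J) (a b : Fin n) :
    Sp s t K F a b ↔ ∃ U, Tight s t K (ind J) U ∧ a ∈ U ∧ b ∈ U := by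
  constructor
  · rintro (rfl | ⟨U, ⟨J', hF, hin, hI, hc⟩, ha, hb⟩)
    · exact ⟨{a}, mat2a_single hJ.2.1 a, mem_singleton_self a, mem_singleton_self a⟩
    · obtain ⟨W, hW, h⟩ := mat2a_key hK hJ _ U J' le_rfl ⟨a, ha⟩ hF hin hc.ge
        fun T _ _ ⟨e, he⟩ => by
          have h1 := hI (U ∩ T) ⟨s e, mem_inter.2
            ⟨(mat2a_mem.1 (hin (mem_sdiff.1 (mem_inter.1 he).1).1)).1,
              (mat2a_mem.1 (mem_inter.1 he).2).1⟩⟩
          rw [mat2a_sum] at h1
          refine le_trans (Int.ofNat_le.2 (card_le_card fun x hx => ?_)) h1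
          obtain ⟨h2, h3⟩ := mem_inter.1 hx
          have h4 := mat2a_mem.1 (hin h2)
          have h5 := mat2a_mem.1 h3
          exact mem_inter.2 ⟨mat2a_mem.2 ⟨mem_inter.2 ⟨h4.1, h5.1⟩, mem_inter.2 ⟨h4.2, h5.2⟩⟩, h2⟩
      exact ⟨W, hW, h ha, h hb⟩
  · rintro ⟨U, hU, ha, hb⟩
    refine Or.inr ⟨U, ⟨ins s t U ∩ J, inter_subset_right.trans hJ.1, inter_subset_left,
      hJ.2.1.mono fun e => ?_, (mat2a_sum J _).symm.trans hU.2⟩, ha, hb⟩
    by_cases h : e ∈ ins s t U ∩ J
    · simp only [ind, if_pos h, if_pos (mem_inter.1 h).2, le_refl]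
    · simp only [ind, if_neg h]
      exact mat2a_nonneg J e

theorem sp_equiv (s t : E → Fin n) (hK : 0 ≤ K) (F : Finset E) : Equivalence (Sp s t K F) := by
  obtain ⟨J, hJ⟩ := exists_maxInd (s := s) (t := t) hK F
  refine ⟨fun a => Or.inl rfl, ?_, fun {a b c} h h' => ?_⟩
  · rintro a b (rfl | ⟨U, hU, ha, hb⟩)
    exacts [Or.inl rfl, Or.inr ⟨U, hU, hb, ha⟩]
  · obtain ⟨U, hU, ha, hb⟩ := (sp_iff_tight hK hJ a b).1 h
    obtain ⟨V, hV, hb', hc⟩ := (sp_iff_tight hK hJ b c).1 h'
    exact (sp_iff_tight hK hJ a c).2 ⟨U ∪ V, (tight_union_inter (mat2a_nonneg J) hJ.2.1 hU hV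
      ⟨b, mem_inter.2 ⟨hb, hb'⟩⟩).1, mem_union_left _ ha, mem_union_right _ hc⟩

theorem sp_mono {F F' : Finset E} (h : F ⊆ F') {a b : Fin n} (hs : Sp s t K F a b) :
    Sp s t K F' a b := by
  rcases hs with rfl | ⟨U, ⟨J, h1, h2⟩, ha, hb⟩
  exacts [Or.inl rfl, Or.inr ⟨U, ⟨J, h1.trans h, h2⟩, ha, hb⟩]

theorem sp_empty (hK : 1 ≤ K) (a b : Fin n) : Sp s t K ∅ a b ↔ a = b := by
  refine ⟨?_, Or.inl⟩
  rintro (h | ⟨U, ⟨J, h1, -, -, h2⟩, ha, hb⟩)
  · exact h
  · rw [subset_empty.1 h1, card_empty, Nat.cast_zero, eq_comm, mul_eq_zero] at h2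
    exact card_le_one.1 (by omega) a ha b hb

theorem one_le_ncl (hn : 1 ≤ n) (r : Fin n → Fin n → Prop) : 1 ≤ ncl r := by
  classical
  unfold ncl
  exact Finset.card_pos.2 ⟨_, Finset.mem_image_of_mem _ (Finset.mem_univ ⟨0, hn⟩)⟩

theorem m2b_sum (H V : Finset E) : ∑ e ∈ V, ind H e = ((H ∩ V).card : ℤ) := by
  unfold ind
  rw [Finset.sum_ite_mem, Finset.inter_comm]
  simp

theorem m2b_le (hn : 1 ≤ n) {J : Finset E} (hI : Ind s t K (ind J)) :
    (J.card : ℤ) ≤ K * ((n : ℤ) - 1) := by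
  have := hI univ ⟨⟨0, hn⟩, mem_univ _⟩
  rw [m2b_sum] at this
  simpa [ins] using this

open Classical in
theorem m2b_cls {r : Fin n → Fin n → Prop} (hr : Equivalence r) (a b : Fin n) :
    (univ.filter fun c => r a c) = (univ.filter fun c => r b c) ↔ r b a := by
  constructor
  · intro h
    have : a ∈ univ.filter fun c => r a c := by simp [hr.refl]
    rw [h] at this
    simpa using this
  · intro h
    ext c
    simp only [mem_filter, mem_univ, true_and]
    exact ⟨fun h' => hr.trans h h', fun h' => hr.trans (hr.symm h) h'⟩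

open Classical in
theorem m2b_vert {r : Fin n → Fin n → Prop} (hr : Equivalence r) :
    ∑ U ∈ univ.image (fun a => univ.filter fun b => r a b), K * ((U.card : ℤ) - 1) =
      K * ((n : ℤ) - ncl r) := by
  have h1 : (univ : Finset (Fin n)).card =
      ∑ U ∈ univ.image (fun a => univ.filter fun b => r a b), U.card := by
    rw [Finset.card_eq_sum_card_image (fun a => univ.filter fun b => r a b)]
    refine Finset.sum_congr rfl fun U hU => ?_
    obtain ⟨a, -, rfl⟩ := mem_image.1 hU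
    congr 1
    ext c
    simp only [mem_filter, mem_univ, true_and]
    exact m2b_cls hr c a
  rw [Finset.card_univ, Fintype.card_fin] at h1
  rw [← Finset.mul_sum, Finset.sum_sub_distrib, ← Nat.cast_sum, ← h1]
  simp [ncl]

open Classical in
theorem m2b_edge {r : Fin n → Fin n → Prop} (hr : Equivalence r) (H : Finset E) :
    (H.card : ℤ) = (H ∩ cross s t r).card +
      ∑ U ∈ univ.image (fun a => univ.filter fun b => r a b), ∑ e ∈ ins s t U, ind H e := by
  have h1 : (H \ cross s t r).card =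
      ∑ U ∈ univ.image (fun a => univ.filter fun b => r a b), (H ∩ ins s t U).card := by
    rw [Finset.card_eq_sum_card_fiberwise (f := fun e => univ.filter fun b => r (s e) b)
      (t := univ.image (fun a => univ.filter fun b => r a b))
      (fun e _ => mem_coe.2 (mem_image_of_mem _ (mem_univ _)))]
    refine Finset.sum_congr rfl fun U hU => ?_
    obtain ⟨a, -, rfl⟩ := mem_image.1 hU
    congr 1
    ext e
    simp only [mem_filter, mem_sdiff, mem_inter, cross, ins, mem_univ, true_and, not_not, m2b_cls hr]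
    exact ⟨fun h => ⟨h.1.1, h.2, hr.trans h.2 h.1.2⟩,
      fun h => ⟨⟨h.1, hr.trans (hr.symm h.2.1) h.2.2⟩, h.2.1⟩⟩
  have h2 := Finset.card_sdiff_add_card_inter H (cross s t r)
  simp only [m2b_sum]
  rw [← Nat.cast_sum, ← h1, ← h2]
  push_cast
  ring

theorem m2b_sub (hK : 0 ≤ K) {F J : Finset E} (hJ : MaxInd s t K F J) :
    F ∩ cross s t (Sp s t K F) ⊆ J ∩ cross s t (Sp s t K F) := by
  intro f hf
  obtain ⟨hfF, hc⟩ := mem_inter.1 hf
  refine mem_inter.2 ⟨?_, hc⟩
  by_contra hfJ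
  have h1 := hJ.2.2 f hfF hfJ
  have h2 : ind (insert f J) = ind J + Pi.single f 1 := by
    funext e
    by_cases he : e = f
    · subst he; simp [ind, hfJ]
    · simp [ind, he]
  rw [h2] at h1
  obtain ⟨U, hU, hfU⟩ := (ind_add_iff hJ.2.1 f).1 h1
  simp only [ins, mem_filter, mem_univ, true_and] at hfU
  simp only [cross, mem_filter, mem_univ, true_and] at hc
  exact hc ((sp_iff_tight hK hJ _ _).2 ⟨U, hU, hfU⟩)

open Classical in
theorem m2b_tight (hK : 0 ≤ K) {F J : Finset E} (hJ : MaxInd s t K F J) (a : Fin n) :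
    Tight s t K (ind J) (univ.filter fun b => Sp s t K F a b) := by
  obtain ⟨U₀, hU₀, ha₀, -⟩ := (sp_iff_tight hK hJ a a).1 (Or.inl rfl)
  obtain ⟨U, hU, hmax⟩ := Finset.exists_max_image
    (univ.filter fun U : Finset (Fin n) => Tight s t K (ind J) U ∧ a ∈ U) card ⟨U₀, by simp [hU₀, ha₀]⟩
  simp only [mem_filter, mem_univ, true_and] at hU hmax
  have h0 : ∀ e, 0 ≤ ind J e := fun e => by unfold ind; split_ifs <;> simp
  convert hU.1 using 1
  ext b
  simp only [mem_filter, mem_univ, true_and, sp_iff_tight hK hJ]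
  refine ⟨fun ⟨V, hV, haV, hbV⟩ => ?_, fun hb => ⟨U, hU.1, hU.2, hb⟩⟩
  have h1 := (tight_union_inter h0 hJ.2.1 hU.1 hV ⟨a, mem_inter.2 ⟨hU.2, haV⟩⟩).1
  have h2 := Finset.eq_of_subset_of_card_le (subset_union_left (s₂ := V))
    (hmax _ ⟨h1, mem_union_left _ hU.2⟩)
  rw [h2]
  exact mem_union_right _ hbV

theorem m2b_card (hK : 0 ≤ K) {F J : Finset E} (hJ : MaxInd s t K F J) :
    (J.card : ℤ) = (J ∩ cross s t (Sp s t K F)).card + K * ((n : ℤ) - ncl (Sp s t K F)) := by
  rw [m2b_edge (s := s) (t := t) (sp_equiv s t hK F) J, ← m2b_vert (sp_equiv s t hK F)]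
  congr 1
  refine Finset.sum_congr rfl fun U hU => ?_
  obtain ⟨a, -, rfl⟩ := mem_image.1 hU
  exact (m2b_tight hK hJ a).2

/-- few `F`-edges cross the span partition of `F` -/
theorem cross_sp_le (hn : 1 ≤ n) (hK : 0 ≤ K) (F : Finset E) :
    ((F ∩ cross s t (Sp s t K F)).card : ℤ) ≤ K * ((ncl (Sp s t K F) : ℤ) - 1) := by
  obtain ⟨J, hJ⟩ := exists_maxInd (s := s) (t := t) hK F
  have h1 := m2b_card hK hJ
  have h2 := m2b_le hn hJ.2.1
  have h3 : ((F ∩ cross s t (Sp s t K F)).card : ℤ) ≤ (J ∩ cross s t (Sp s t K F)).card := by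
    exact_mod_cast Finset.card_le_card (m2b_sub hK hJ)
  linarith

theorem maxInd_base (hn : 1 ≤ n) (hK : 0 ≤ K) (hPC : PC s t K) {J : Finset E}
    (hJ : MaxInd s t K univ J) : Base s t K (ind J) := by
  refine ⟨fun e => by unfold ind; split_ifs <;> simp, hJ.2.1, ?_⟩
  have h1 := m2b_card hK hJ
  have h2 := m2b_le hn hJ.2.1
  have h3 : ((cross s t (Sp s t K univ)).card : ℤ) ≤ (J ∩ cross s t (Sp s t K univ)).card := by
    have := m2b_sub hK hJ
    rw [univ_inter] at this
    exact_mod_cast Finset.card_le_card this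
  have h4 := hPC _ (sp_equiv s t hK univ)
  rw [m2b_sum, inter_univ]
  linarith

theorem base_cross (hn : 1 ≤ n) {H : Finset E} (hB : Base s t K (ind H))
    {r : Fin n → Fin n → Prop} (hr : Equivalence r) :
    K * ((ncl r : ℤ) - 1) ≤ (H ∩ cross s t r).card := by
  classical
  have h1 := m2b_edge (s := s) (t := t) hr H
  have h2 := m2b_vert (K := K) hr
  have h3 := hB.2.2
  rw [m2b_sum, inter_univ] at h3
  have h4 := Finset.sum_le_sum (s := univ.image (fun a => univ.filter fun b => r a b))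
    (f := fun U => ∑ e ∈ ins s t U, ind H e) (g := fun U => K * ((U.card : ℤ) - 1)) (fun U hU => by
      obtain ⟨a, -, rfl⟩ := mem_image.1 hU
      exact hB.2.1 _ ⟨a, by simp [hr.refl]⟩)
  linarith

theorem PC.mono (hn : 1 ≤ n) {k k' : ℤ} (h : PC s t k) (hk : k' ≤ k) : PC s t k' := by
  intro r hr
  have h1 : (1 : ℤ) ≤ ncl r := by exact_mod_cast one_le_ncl hn r
  exact (mul_le_mul_of_nonneg_right hk (by linarith)).trans (h r hr)

theorem PC.le_cut {k : ℤ} (h : PC s t k) {S : Finset (Fin n)} (hS : S.Nonempty) (hS' : S ≠ univ) :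
    k ≤ (cut s t S).card := by
  classical
  have hr : Equivalence fun a b : Fin n => (a ∈ S ↔ b ∈ S) :=
    ⟨fun _ => Iff.rfl, fun h => h.symm, fun h h' => h.trans h'⟩
  have h1 := h _ hr
  have h2 : cross s t (fun a b : Fin n => (a ∈ S ↔ b ∈ S)) = cut s t S := by
    ext e; simp [cross, cut]
  obtain ⟨a, ha⟩ := hS
  obtain ⟨b, hb⟩ : ∃ b, b ∉ S := by
    by_contra hcon
    push Not at hcon
    exact hS' (eq_univ_of_forall hcon)
  have h3 : 1 < ncl fun a b : Fin n => (a ∈ S ↔ b ∈ S) := by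
    unfold ncl
    refine Finset.one_lt_card.2 ⟨_, mem_image_of_mem _ (mem_univ a), _, mem_image_of_mem _ (mem_univ b), ?_⟩
    intro he
    exact hb (((m2b_cls hr a b).1 he).2 ha)
  have h4 : (2 : ℤ) ≤ ncl fun a b : Fin n => (a ∈ S ↔ b ∈ S) := by exact_mod_cast h3
  rw [h2] at h1
  rcases le_total k 0 with hk | hk
  · exact hk.trans (by positivity)
  · nlinarith

theorem PC.le_card (hn : 2 ≤ n) {k : ℤ} (h : PC s t k) : k ≤ Fintype.card E := by
  have h1 := h.le_cut (S := {⟨0, by omega⟩}) (singleton_nonempty _) (fun he => by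
    have := congrArg card he
    rw [card_singleton, card_univ, Fintype.card_fin] at this
    omega)
  exact h1.trans (by exact_mod_cast Finset.card_le_univ _)

end Crest.Agent.R37
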