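import Crest.Agent.R37.DepDefs
import Crest.Agent.R37.Mat2
import Crest.Prelude.Def_MultigraphCut

/-!
# R37/ListG: graphs given by lists; parameters; preprocessing (mathematics).
-/

set_option autoImplicit false

open Matrix Finset Crest.Agent.Lib.PolyTime

noncomputable section

namespace Crest.Agent.R37


variable {n : ℕ}

theorem lg_card {m : ℕ} (q : Fin m → Prop) [DecidablePred q] :
    (univ.filter q).card = (List.finRange m).countP fun e => decide (q e) := by
  rw [List.countP_eq_length_filter]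
  rfl

theorem card_filter_list (es : List (Fin n × Fin n)) (p : Fin n × Fin n → Prop) [DecidablePred p] :
    (univ.filter fun e : Fin es.length => p (es.get e)).card = es.countP fun x => decide (p x) := by
  rw [lg_card]
  conv_rhs => rw [← List.map_get_finRange es, List.countP_map]
  rfl

theorem countP_subL (es : List (Fin n × Fin n)) (H : Finset (Fin es.length)) (p : Fin n × Fin n → Prop)
    [DecidablePred p] :
    (subL es H).countP (fun x => decide (p x)) = (H.filter fun e => p (es.get e)).card := by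
  rw [subL, List.countP_map, List.countP_filter, ← univ_inter H, ← filter_mem_eq_inter, filter_filter, lg_card]
  refine List.countP_congr fun e _ => ?_
  simp [and_comm]

theorem subL_sublist (es : List (Fin n × Fin n)) (H : Finset (Fin es.length)) :
    (subL es H).Sublist es := by
  conv_rhs => rw [← List.map_get_finRange es]
  exact List.filter_sublist.map _

theorem cut_card (es : List (Fin n × Fin n)) (S : Finset (Fin n)) :
    (cut (sL es) (tL es) S).card = cutL es S := by
  exact card_filter_list es fun p => ¬ (p.1 ∈ S ↔ p.2 ∈ S)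

theorem cutL_subL (es : List (Fin n × Fin n)) (H : Finset (Fin es.length)) (S : Finset (Fin n)) :
    cutL (subL es H) S = (H ∩ cut (sL es) (tL es) S).card := by
  rw [cutL, countP_subL es H fun p => ¬ (p.1 ∈ S ↔ p.2 ∈ S)]
  congr 1
  ext e
  simp [cut, sL, tL]

theorem base_subL {es : List (Fin n × Fin n)} {H : Finset (Fin es.length)} {K : ℤ}
    (h : Base (sL es) (tL es) K (ind H)) : Base (sL (subL es H)) (tL (subL es H)) K (fun _ => 1) := by
  have key : ∀ (p : Fin n × Fin n → Prop) [DecidablePred p],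
      ∑ _e ∈ univ.filter fun e : Fin (subL es H).length => p ((subL es H).get e), (1 : ℤ) =
        ∑ e ∈ univ.filter fun e : Fin es.length => p (es.get e), ind H e := fun p _ => by
    rw [sum_const, card_filter_list, countP_subL]
    simp only [ind, sum_boole, filter_filter, nsmul_eq_mul, mul_one]
    congr 2
    ext e
    simp [and_comm]
  refine ⟨fun _ => zero_le_one, fun U hU => ?_, ?_⟩
  · exact (key fun p => p.1 ∈ U ∧ p.2 ∈ U).trans_le (h.2.1 U hU)
  · have := key fun _ => True
    rw [filter_true, filter_true] at this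
    exact this.trans h.2.2

theorem pc_of_base (hn : 1 ≤ n) {es : List (Fin n × Fin n)} {K : ℤ}
    (h : Base (sL es) (tL es) K (fun _ => 1)) : PC (sL es) (tL es) K := by
  intro r hr
  have e : (fun _ => 1) = ind (univ : Finset (Fin es.length)) := by
    funext e
    simp [ind]
  have := base_cross hn (e ▸ h) hr
  rwa [Finset.univ_inter] at this

open Crest.CombinatoricsR.Multigraph in
/-- a base of the graphic matroid is a spanning tree -/
theorem tree_of_base (hn : 1 ≤ n) {T : List (Fin n × Fin n)} (h : Base (sL T) (tL T) 1 (fun _ => 1)) :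
    T.toFinset.card + 1 = n ∧ (adjGraph Prod.fst Prod.snd T.toFinset).Connected ∧
      ∀ S, (cutEdges Prod.fst Prod.snd T.toFinset S).card ≤ cutL T S := by
  have hnd : T.Nodup := by
    refine List.nodup_iff_injective_get.2 fun i j hij => ?_
    by_contra hne
    have h1 := h.2.1 {(T.get i).1, (T.get i).2} (insert_nonempty _ _)
    have h2 : ({i, j} : Finset _) ⊆ ins (sL T) (tL T) {(T.get i).1, (T.get i).2} := by
      intro e he
      rcases mem_insert.1 he with rfl | he
      · simp [ins, sL, tL]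
      · rw [mem_singleton.1 he]
        simp only [ins, sL, tL, mem_filter, ← hij]
        simp
    have h3 := card_le_card h2
    have h4 := card_le_two (a := (T.get i).1) (b := (T.get i).2)
    rw [card_pair hne] at h3
    rw [sum_const, nsmul_eq_mul] at h1
    omega
  refine ⟨?_, ?_, fun S => ?_⟩
  · have := h.2.2
    rw [sum_const, card_univ, Fintype.card_fin, nsmul_eq_mul] at this
    rw [List.toFinset_card_of_nodup hnd]
    omega
  · classical
    have : Nonempty (Fin n) := ⟨⟨0, hn⟩⟩
    refine ⟨fun a b => ?_⟩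
    by_contra hab
    have h1 := (pc_of_base hn h).le_cut
      (S := univ.filter fun v => (adjGraph Prod.fst Prod.snd T.toFinset).Reachable a v) ⟨a, by simp⟩
      fun e => hab (mem_filter.1 (e ▸ mem_univ b)).2
    obtain ⟨e, he⟩ := card_pos.1 (show 0 < _ by exact_mod_cast h1)
    simp only [cut, mem_filter, mem_univ, true_and] at he
    by_cases hst : sL T e = tL T e
    · exact he (by rw [hst])
    · have ha : (adjGraph Prod.fst Prod.snd T.toFinset).Adj (sL T e) (tL T e) :=
        ⟨hst, T.get e, List.mem_toFinset.2 (List.get_mem _ _), Or.inl ⟨rfl, rfl⟩⟩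
      exact he ⟨fun h => h.trans ha.reachable, fun h => h.trans ha.symm.reachable⟩
  · rw [cutL, List.countP_eq_length_filter]
    refine le_trans (card_le_card fun p hp => ?_) (List.toFinset_card_le _)
    simp only [cutEdges, mem_filter, List.mem_toFinset, List.mem_filter, decide_eq_true_eq] at hp ⊢
    refine ⟨hp.1, ?_⟩
    tauto

/-- connectivity schedule -/
def kp : ℕ → ℕ
  | 0 => 1
  | j + 1 => 2 * kp j + (2 * kp j / (j + 1) ^ 2 + 1)

theorem kp_bounds : ∃ C : ℕ, ∀ j, 2 ^ j ≤ kp j ∧ kp j ≤ C * 2 ^ j := by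
  have h1 : ∀ j, 2 ^ j ≤ kp j := fun j => by
    induction j with
    | zero => simp [kp]
    | succ j ih => rw [kp, pow_succ]; exact le_add_right (by omega)
  have h2 : ∀ j : ℕ, (kp j : ℝ) + 1 ≤ 2 * 2 ^ j * Real.exp (2 - 2 / (j + 1)) := fun j => by
    induction j with
    | zero => simp [kp]; norm_num
    | succ j ih =>
      have a : ((2 * kp j / (j + 1) ^ 2 : ℕ) : ℝ) ≤ 2 * kp j / (j + 1) ^ 2 := by
        have := Nat.cast_div_le (α := ℝ) (m := 2 * kp j) (n := (j + 1) ^ 2)
        exact_mod_cast this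
      have b : 1 + 1 / ((j : ℝ) + 1) ^ 2 ≤ Real.exp (2 / (j + 1) - 2 / (j + 1 + 1)) := by
        refine le_trans ?_ (Real.add_one_le_exp _)
        rw [div_sub_div _ _ (by positivity) (by positivity), add_comm]
        gcongr ?_ + _
        rw [div_le_div_iff₀ (by positivity) (by positivity)]
        nlinarith [Nat.cast_nonneg (α := ℝ) j]
      have c : (kp (j + 1) : ℝ) + 1 ≤ 2 * ((kp j + 1) * (1 + 1 / ((j : ℝ) + 1) ^ 2)) := by
        rw [kp]; push_cast
        have : (0 : ℝ) ≤ 1 / ((j : ℝ) + 1) ^ 2 := by positivity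
        have e : 2 * (kp j : ℝ) / (j + 1) ^ 2 = 2 * (kp j * (1 / ((j : ℝ) + 1) ^ 2)) := by ring
        nlinarith
      refine c.trans ?_
      have d := mul_le_mul ih b (by positivity) (by positivity)
      rw [mul_assoc, mul_assoc, ← Real.exp_add] at d
      push_cast
      rw [pow_succ 2 j, show (2 : ℝ) - 2 / (j + 1 + 1) = 2 - 2 / (j + 1) + (2 / (j + 1) - 2 / (j + 1 + 1)) by
        ring]
      linarith
  refine ⟨⌈2 * Real.exp 2⌉₊, fun j => ⟨h1 j, ?_⟩⟩
  have a := h2 j
  have b : Real.exp (2 - 2 / ((j : ℝ) + 1)) ≤ Real.exp 2 :=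
    Real.exp_le_exp.2 (by have : (0 : ℝ) ≤ 2 / ((j : ℝ) + 1) := by positivity
                          linarith)
  have c := Nat.le_ceil (2 * Real.exp 2)
  have : (kp j : ℝ) ≤ (⌈2 * Real.exp 2⌉₊ : ℝ) * 2 ^ j := by
    have : (0 : ℝ) < 2 ^ j := by positivity
    nlinarith
  exact_mod_cast this

theorem kp_round (q0 : ℕ) : ∃ j0 : ℕ, 1 ≤ j0 ∧ ∀ j, j0 ≤ j → q0 ≤ (j + 1) ^ 2 ∧
    2 * kp j ≤ (j + 1) ^ 2 * (2 * kp j / (j + 1) ^ 2 + 1) ∧
    ((j + 1) ^ 2) ^ 12 ≤ 2 * kp j / (j + 1) ^ 2 + 1 := by
  obtain ⟨C, hC⟩ := kp_bounds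
  have h := tendsto_pow_const_div_const_pow_of_one_lt 26 (r := (2 : ℝ)) (by norm_num)
  obtain ⟨j1, hj1⟩ := Filter.eventually_atTop.1 (h.eventually (gt_mem_nhds one_pos))
  refine ⟨max (max q0 j1) 1, le_max_right _ _, fun j hj => ⟨?_, ?_, ?_⟩⟩
  · have : q0 ≤ j := by omega
    nlinarith
  · exact (Nat.lt_mul_div_succ _ (by positivity)).le
  · have h1 := hj1 (j + 1) (by omega)
    rw [div_lt_one (by positivity)] at h1
    have h2 : (j + 1) ^ 26 < 2 ^ (j + 1) := by exact_mod_cast h1
    have h3 := (hC j).1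
    refine Nat.le_succ_of_le ((Nat.le_div_iff_mul_le (by positivity)).2 ?_)
    rw [← pow_mul, ← pow_add]
    rw [pow_succ 2] at h2
    exact h2.le.trans (by omega)

/-- capped, doubled multiplicities -/
def pk (n k : ℕ) : ℕ := if k ≤ 2 * n ^ 2 then k else n ^ 2

def pm (n k μ : ℕ) : ℕ := 2 * if k ≤ 2 * n ^ 2 then min μ k else min (μ * (2 * n ^ 2) / k) (2 * n ^ 2)

def preL (k : ℕ) (mult : Fin n → Fin n → ℕ) : List (Fin n × Fin n) :=
  (List.finRange n).flatMap fun i => (List.finRange n).flatMap fun j =>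
    List.replicate (if i < j then pm n k (mult i j) else 0) (i, j)

theorem preL_count (k : ℕ) (mult : Fin n → Fin n → ℕ) (p : Fin n × Fin n → Prop) [DecidablePred p] :
    (preL k mult).countP (fun x => decide (p x)) =
      ∑ i, ∑ j, if i < j then (if p (i, j) then pm n k (mult i j) else 0) else 0 := by
  simp only [preL, List.countP_flatMap, Function.comp_def, List.countP_replicate, decide_eq_true_eq]
  rw [← List.ofFn_eq_map, List.sum_ofFn]
  refine Finset.sum_congr rfl fun i _ => ?_
  rw [← List.ofFn_eq_map, List.sum_ofFn]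
  refine Finset.sum_congr rfl fun j _ => ?_
  split_ifs <;> rfl

theorem preL_two (g : Fin n → Fin n → ℕ) (hs : ∀ i j, g i j = g j i) (h0 : ∀ i, g i i = 0) :
    2 * (∑ i, ∑ j, if i < j then g i j else 0) = ∑ i, ∑ j, g i j := by
  rw [two_mul]
  nth_rewrite 2 [Finset.sum_comm]
  rw [← Finset.sum_add_distrib]
  refine Finset.sum_congr rfl fun i _ => ?_
  rw [← Finset.sum_add_distrib]
  refine Finset.sum_congr rfl fun j _ => ?_
  rcases lt_trichotomy i j with h | rfl | h
  · simp [h, h.not_gt]
  · simp [h0]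
  · simp [h, h.not_gt, hs j i]

theorem preL_cut (k : ℕ) {mult : Fin n → Fin n → ℕ} (hs : ∀ i j, mult i j = mult j i)
    (S : Finset (Fin n)) : cutL (preL k mult) S = ∑ i ∈ S, ∑ j ∈ Sᶜ, pm n k (mult i j) := by
  have h := preL_two (fun i j => if ¬ (i ∈ S ↔ j ∈ S) then pm n k (mult i j) else 0)
    (fun i j => by rw [hs i j]; exact if_congr (not_congr iff_comm) rfl rfl) (fun i => by simp)
  rw [← preL_count k mult fun x => ¬ (x.1 ∈ S ↔ x.2 ∈ S)] at h
  have e : ∑ i, ∑ j, (if ¬ (i ∈ S ↔ j ∈ S) then pm n k (mult i j) else 0) =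
      2 * ∑ i ∈ S, ∑ j ∈ Sᶜ, pm n k (mult i j) := by
    rw [two_mul, ← Finset.sum_add_sum_compl S]
    congr 1
    · refine Finset.sum_congr rfl fun i hi => ?_
      rw [← Finset.sum_filter]
      exact Finset.sum_congr (by ext j; simp [hi]) fun _ _ => rfl
    · rw [Finset.sum_comm (s := S)]
      refine Finset.sum_congr rfl fun i hi => ?_
      rw [← Finset.sum_filter]
      exact Finset.sum_congr (by ext j; simp [Finset.mem_compl.1 hi]) fun j _ => by rw [hs]
  rw [e] at h
  exact Nat.eq_of_mul_eq_mul_left two_pos h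

theorem preL_low {ι : Type} (I : Finset ι) (μ : ι → ℕ) {k : ℕ} (hk : 1 ≤ k) (hI : I.card ≤ n ^ 2)
    (h : k ≤ ∑ i ∈ I, μ i) : 2 * pk n k ≤ ∑ i ∈ I, pm n k (μ i) := by
  have key : ∀ (ν : ι → ℕ) (c d : ℕ), d ≤ c → d ≤ ∑ i ∈ I, ν i → d ≤ ∑ i ∈ I, min (ν i) c := by
    intro ν c d hd hν
    by_cases hc : ∃ i ∈ I, c ≤ ν i
    · obtain ⟨i, hi, hc⟩ := hc
      exact (hd.trans (le_min hc le_rfl)).trans
        (Finset.single_le_sum (f := fun i => min (ν i) c) (fun _ _ => Nat.zero_le _) hi)
    · push Not at hc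
      rwa [Finset.sum_congr rfl fun i hi => min_eq_left (hc i hi).le]
  simp only [pk, pm, ← Finset.mul_sum]
  refine Nat.mul_le_mul_left 2 ?_
  split_ifs with hk2
  · exact key μ k k le_rfl h
  · refine key (fun i => μ i * (2 * n ^ 2) / k) _ _ (by omega) ?_
    have h1 : ∑ i ∈ I, μ i * (2 * n ^ 2) ≤ ∑ i ∈ I, k * (μ i * (2 * n ^ 2) / k + 1) :=
      Finset.sum_le_sum fun i _ => (Nat.lt_mul_div_succ _ hk).le
    rw [← Finset.sum_mul, ← Finset.mul_sum, Finset.sum_add_distrib] at h1
    have h2 := Nat.le_of_mul_le_mul_left ((Nat.mul_le_mul_right _ h).trans h1) hk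
    simp only [Finset.sum_const, smul_eq_mul, mul_one] at h2
    omega

theorem preL_spec {k : ℕ} {mult : Fin n → Fin n → ℕ} (hn : 1 ≤ n) (hk : 1 ≤ k)
    (hs : ∀ i j, mult i j = mult j i)
    (hc : ∀ S : Finset (Fin n), S.Nonempty → S ≠ univ → k ≤ ∑ i ∈ S, ∑ j ∈ Sᶜ, mult i j) :
    1 ≤ pk n k ∧ (∀ p ∈ preL k mult, p.1 < p.2 ∧ 1 ≤ mult p.1 p.2) ∧
      PC (sL (preL k mult)) (tL (preL k mult)) (pk n k) ∧
      ∀ S : Finset (Fin n), k * cutL (preL k mult) S ≤ 4 * pk n k * ∑ i ∈ S, ∑ j ∈ Sᶜ, mult i j := by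
  have hlow : ∀ S : Finset (Fin n), S.Nonempty → S ≠ univ →
      2 * pk n k ≤ ∑ i ∈ S, ∑ j ∈ Sᶜ, pm n k (mult i j) := fun S h1 h2 => by
    have := preL_low (n := n) (S ×ˢ Sᶜ) (fun p => mult p.1 p.2) hk
      ((Finset.card_le_univ _).trans (by simp [sq])) (by rw [Finset.sum_product]; exact hc S h1 h2)
    rwa [Finset.sum_product] at this
  refine ⟨?_, fun p hp => ?_, fun r hr => ?_, fun S => ?_⟩
  · unfold pk; split_ifs
    · exact hk
    · exact Nat.one_le_pow _ _ hn
  · simp only [preL, List.mem_flatMap, List.mem_replicate] at hp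
    obtain ⟨i, -, j, -, h, rfl⟩ := hp
    split_ifs at h with hij
    · refine ⟨hij, Nat.pos_of_ne_zero fun h0 => h ?_⟩
      simp only at h0
      simp [pm, h0]
    · exact absurd rfl h
  · classical
    have e1 : (cross (sL (preL k mult)) (tL (preL k mult)) r).card =
        (preL k mult).countP fun x => decide (¬ r x.1 x.2) := by
      rw [← card_filter_list]; unfold cross; congr
    have h := preL_two (fun i j => if ¬ r i j then pm n k (mult i j) else 0)
      (fun i j => by rw [hs i j, show r i j ↔ r j i from ⟨hr.symm, hr.symm⟩]) (fun i => by simp [hr.refl])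
    rw [← preL_count k mult fun x => ¬ r x.1 x.2, ← e1] at h
    by_cases h1 : ncl r ≤ 1
    · have : (pk n k : ℤ) * ((ncl r : ℤ) - 1) ≤ 0 :=
        mul_nonpos_of_nonneg_of_nonpos (Int.natCast_nonneg _) (by omega)
      exact this.trans (Int.natCast_nonneg _)
    set cl : Fin n → Finset (Fin n) := fun a => univ.filter fun b => r a b with hcl
    have hn' : ncl r = (univ.image cl).card := by unfold ncl; congr
    have hmem : ∀ a b, cl a = cl b ↔ r a b := fun a b =>
      ⟨fun e => by
        have : b ∈ cl b := by simp [hcl, hr.refl]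
        rw [← e] at this; simpa [hcl] using this,
      fun e => by ext c; simp only [hcl, mem_filter, mem_univ, true_and]
                  exact ⟨hr.trans (hr.symm e), hr.trans e⟩⟩
    have h2 : (univ.image cl).card * (2 * pk n k) ≤
        ∑ i, ∑ j, if ¬ r i j then pm n k (mult i j) else 0 := by
      rw [← Finset.sum_fiberwise_of_maps_to (s := univ) (t := univ.image cl) (g := cl)
        fun a _ => mem_image_of_mem _ (mem_univ a), ← smul_eq_mul]
      refine Finset.card_nsmul_le_sum _ _ _ fun C hC => ?_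
      obtain ⟨a, -, rfl⟩ := mem_image.1 hC
      refine (hlow (cl a) ⟨a, by simp [hcl, hr.refl]⟩ fun hu => h1 ?_).trans (le_of_eq ?_)
      · rw [hn']
        refine Finset.card_le_one.2 fun C hC D hD => ?_
        obtain ⟨b, -, rfl⟩ := mem_image.1 hC
        obtain ⟨c, -, rfl⟩ := mem_image.1 hD
        have hb : b ∈ cl a := hu ▸ mem_univ b
        have hc : c ∈ cl a := hu ▸ mem_univ c
        simp only [hcl, mem_filter, mem_univ, true_and] at hb hc
        exact (hmem b c).2 (hr.trans (hr.symm hb) hc)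
      · refine Finset.sum_congr (by
          ext i; rw [mem_filter, mem_filter, hmem]
          exact and_congr_right fun _ => ⟨hr.symm, hr.symm⟩) fun i hi => ?_
        rw [← Finset.sum_filter]
        refine Finset.sum_congr ?_ fun _ _ => rfl
        rw [← (mem_filter.1 hi).2]; ext j; simp [hcl]
    rw [← h, ← hn'] at h2
    have h3 : ncl r * pk n k ≤ (cross (sL (preL k mult)) (tL (preL k mult)) r).card := by nlinarith
    have h4 : ((ncl r * pk n k : ℕ) : ℤ) ≤ (cross (sL (preL k mult)) (tL (preL k mult)) r).card := by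
      exact_mod_cast h3
    push_cast at h4
    nlinarith [Int.natCast_nonneg (pk n k)]
  · rw [preL_cut k hs]
    simp only [Finset.mul_sum]
    refine Finset.sum_le_sum fun i _ => Finset.sum_le_sum fun j _ => ?_
    unfold pm pk
    split_ifs
    · have := min_le_left (mult i j) k
      nlinarith
    · have h1 := min_le_left (mult i j * (2 * n ^ 2) / k) (2 * n ^ 2)
      have h2 := Nat.mul_div_le (mult i j * (2 * n ^ 2)) k
      nlinarith

end Crest.Agent.R37
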