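import Crest.Agent.R37.CFTL
import Crest.Agent.R37.CS2
import Crest.Agent.R37.ListG

/-!
# R37/CRound: one halving round.  `solv_cert` with `K = 2k`, `solv_half`, `subL`; a nonempty cut has `≥ 2k + Δ ≥ q^12` edges (`PC.le_cut`); `k, q ≤ m` (`PC.le_card`).
-/

set_option autoImplicit false

open Matrix Finset Crest.Agent.Lib.PolyTime

noncomputable section

namespace Crest.Agent.R37

variable {α α' : Type} [Enc α] [Enc α']

theorem solv_round : ∃ q0 : ℕ, ∀ (α : Type) [Enc α] (n : α → ℕ) (es : ∀ a, List (Fin (n a) × Fin (n a)))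
    (k Δ q : α → ℕ), UN n → DPT es → PT k → PT q →
    (∀ a, 2 ≤ n a ∧ (∀ p ∈ es a, p.1 ≠ p.2) ∧ q0 ≤ q a ∧ 1 ≤ k a ∧ 2 * k a ≤ q a * Δ a ∧
      q a ^ 12 ≤ Δ a ∧ PC (sL (es a)) (tL (es a)) (2 * k a + Δ a)) →
    Solv fun a (es' : List (Fin (n a) × Fin (n a))) => es'.Sublist (es a) ∧
      PC (sL es') (tL es') (k a) ∧ ∀ S, (cutL es' S : ℝ) ≤ (1 / 2 + 1000 / q a) * cutL (es a) S := by
  obtain ⟨q0, h0⟩ := solv_cert
  refine ⟨q0 + 1, fun α _ n es k Δ q hn hes hk hq h => ?_⟩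
  have hG := pg_list hn hes
  have hl : ∀ a e, sL (es a) e ≠ tL (es a) e := fun a e => (h a).2.1 _ (List.get_mem _ e)
  have hqΔ : ∀ a, q a ≤ Δ a := fun a => (Nat.le_self_pow (by norm_num) _).trans (h a).2.2.2.2.2.1
  have hm : ∀ a, 2 * k a + Δ a ≤ (es a).length := fun a => by
    have := (h a).2.2.2.2.2.2.le_card (h a).1
    rw [Fintype.card_fin] at this
    exact_mod_cast this
  obtain ⟨o, ho, h1⟩ := h0 α n _ _ _ (fun a => 2 * k a) Δ q hG ((PT.const 2).nat_mul hk) hq fun a => by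
    obtain ⟨a1, -, a2, a3, a4, a5, a6⟩ := h a
    exact ⟨a1, hl a, by omega, by omega, a4, a5, by exact_mod_cast a6⟩
  obtain ⟨H, hH, h2⟩ := solv_half hG ⟨hk, hG.hm.2.mono fun a => by have := hm a; omega⟩
    ⟨hq, hG.hm.2.mono fun a => by have := hm a; have := hqΔ a; omega⟩ ho.fst ho.snd fun a =>
    ⟨by have := (h a).1; omega, hl a, by have := (h a).2.2.1; omega, by exact_mod_cast (h1 a).1, (h1 a).2⟩
  refine ⟨_, dpt_subL hes hH, fun a => ⟨subL_sublist _ _, pc_of_base (by have := (h a).1; omega)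
    (base_subL (h2 a).1), fun S => ?_⟩⟩
  rw [cutL_subL, ← cut_card]
  by_cases hS : S.Nonempty ∧ S ≠ univ
  · have h3 : (q a : ℝ) ≤ (cut (sL (es a)) (tL (es a)) S).card := by
      have := (h a).2.2.2.2.2.2.le_cut hS.1 hS.2
      have := hqΔ a
      exact_mod_cast (by omega : q a ≤ (cut (sL (es a)) (tL (es a)) S).card)
    have h4 : (1 : ℝ) ≤ q a := by exact_mod_cast (by have := (h a).2.2.1; omega : 1 ≤ q a)
    refine ((h2 a).2 S).trans ?_
    field_simp
    nlinarith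
  · have : cut (sL (es a)) (tL (es a)) S = ∅ := by
      rcases not_and_or.1 hS with h | h
      · simp [not_nonempty_iff_eq_empty.1 h, cut]
      · simp [not_not.1 h, cut]
    simp [this]

end Crest.Agent.R37
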