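import Crest.Agent.R37.RPT2

/-!
# R37/RPT4: inverses of positive definite matrices.
Tabulate `A` over `ℚ`.  Let `A_k` agree with `A` on `[k] × [k]` and with `1` elsewhere (positive definite); iterate `k ↦ A_k⁻¹` by the bordering (Schur complement)
formula, or run Gauss-Jordan without pivoting.  Sizes: after clearing denominators the entries of `A_k⁻¹` are `adjugate / det`, of polynomial size
(`Matrix.det_le`, `Matrix.inv_def`).  A loop on the subtype `{(k, X) | X = A_k⁻¹}` (`Solv.loop`) does it.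
-/

set_option autoImplicit false

open Matrix Finset Crest.Agent.Lib.PolyTime

noncomputable section

namespace Crest.Agent.R37

variable {α α' : Type} [Enc α] [Enc α']

/-- the first `k` rows of `A`, the other rows of `1` -/
def inv_B {n : ℕ} {R : Type} [Zero R] [One R] (A : Matrix (Fin n) (Fin n) R) (k : ℕ) : Matrix (Fin n) (Fin n) R :=
  of fun i j => if i.val < k then A i j else if i = j then 1 else 0

/-- Sherman-Morrison update -/
def inv_nx {n : ℕ} (A X : Mat n) (k : Fin n) : Mat n :=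
  of fun i j => X i j - X i k * ((A * X - 1) k j / (A * X) k k)

theorem inv_row {n : ℕ} (A X : Mat n) (k : ℕ) (i j : Fin n) :
    (inv_B A k * X) i j = if i.val < k then (A * X) i j else X i j := by
  simp only [mul_apply, inv_B, of_apply]
  split_ifs <;> simp

theorem inv_step {n : ℕ} {A X : Mat n} (hp : A.PosDef) (k : Fin n) (h : inv_B A k * X = 1) :
    inv_B A (k + 1) * inv_nx A X k = 1 := by
  have h1 : ∀ i j : Fin n, (if i.val < k.val then (A * X) i j else X i j) = (1 : Mat n) i j := fun i j => by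
    rw [← inv_row, h]
  have hk : X k k = 1 := by simpa using h1 k k
  have hs : (A * X) k k ≠ 0 := by
    have h2 := hp.dotProduct_mulVec_pos (x := fun i => X i k) fun h0 => by simpa [hk] using congrFun h0 k
    refine fun h0 => h2.ne' (Finset.sum_eq_zero fun i _ => ?_)
    show X i k * (A * X) i k = 0
    have h3 := h1 i k
    rcases lt_trichotomy i k with h4 | rfl | h4
    · rw [if_pos (show i.val < k from h4), one_apply_ne h4.ne] at h3
      rw [h3, mul_zero]
    · rw [h0, mul_zero]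
    · rw [if_neg (show ¬i.val < k from h4.not_gt), one_apply_ne h4.ne'] at h3
      rw [h3, zero_mul]
  ext i j
  have h2 : (inv_B A (k + 1) * inv_nx A X k) i j = (inv_B A (k + 1) * X) i j -
      (inv_B A (k + 1) * X) i k * ((A * X - 1) k j / (A * X) k k) := by
    simp only [mul_apply (M := inv_B A (k + 1)), inv_nx, of_apply, mul_sub, sum_sub_distrib, sum_mul, mul_assoc]
  rw [h2, inv_row, inv_row]
  by_cases h3 : i = k
  · subst h3
    simp only [Nat.lt_succ_self, if_true, Matrix.sub_apply]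
    field_simp
    ring
  · have h4 : i.val < k + 1 ↔ i.val < k := by
      have := Fin.val_ne_of_ne h3
      omega
    simp only [h4, h1, one_apply_ne h3, zero_mul, sub_zero]

theorem inv_mpt {n : α → ℕ} (hn : UN n) {A X : ∀ a, Mat (n a)} (hA : MPT A) (hX : MPT X) {k : ∀ a, Fin (n a)}
    (hk : DPT k) : MPT fun a => inv_nx (A a) (X a) (k a) := by
  have h1 := (hA.mul (En.fin hn) hX).comp (pt_sigma_fst (β := fun a => Fin (n a) × Fin (n a)))
  have h2 := hk.comp (pt_sigma_fst (β := fun a => Fin (n a) × Fin (n a)))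
  exact RPT.sub hX (((hX.comp pt_sigma_fst).apply dpt_sigma_snd.fst h2).mul
    (((h1.sub MPT.one).apply h2 dpt_sigma_snd.snd).div (h1.apply h2 h2)))

theorem inv_ofQ {n : α → ℕ} {x : ∀ a, Fin (n a) → Fin (n a) → ℚ} (hx : DPT x) :
    MPT fun a => (of fun i j => (x a i j : ℝ) : Mat (n a)) :=
  RPT.rat (((hx.comp pt_sigma_fst).apply dpt_sigma_snd.fst).apply dpt_sigma_snd.snd).pt

theorem inv_toQ {n : α → ℕ} (hn : UN n) {M : ∀ a, Mat (n a)} (hM : MPT M) :
    Solv fun a (x : Fin (n a) → Fin (n a) → ℚ) => ∀ i j, (x i j : ℝ) = M a i j :=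
  Solv.pi (R := fun a i (y : Fin (n a) → ℚ) => ∀ j, (y j : ℝ) = M a i j) hn
    (VPT.toQ (hn.comp pt_sigma_fst) ((hM.comp (pt_sigma_fst.comp pt_sigma_fst)).apply
      (dpt_sigma_snd.comp pt_sigma_fst) dpt_sigma_snd))

theorem inv_esize {k : ℕ} {σ : Type} [Enc σ] (F : Fin k → σ) (i : Fin k) : esize (F i) ≤ esize F :=
  (esize_lt_of_mem (l := List.ofFn F) (List.mem_ofFn.2 ⟨i, rfl⟩)).le

def inv_e (n h : ℕ) : ℕ := n * n + (h * (n * n) + h) * n + 1

theorem inv_ratH {z : ℤ} {e : ℕ} (h : |(z : ℚ)| ≤ 2 ^ e) : ratH z ≤ e + 1 := by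
  have h1 : z.natAbs ≤ 2 ^ e := by
    have h2 : ((z.natAbs : ℕ) : ℚ) ≤ (2 ^ e : ℕ) := by simpa using h
    exact_mod_cast h2
  have h2 : 0 < 2 ^ e := by positivity
  simp only [ratH, Rat.num_intCast, Rat.den_intCast, Nat.size_le, pow_succ]
  omega

theorem inv_det {n h : ℕ} {M : Matrix (Fin n) (Fin n) ℚ} (hM : ∀ i j, ratH (M i j) ≤ h) :
    ratH M.det ≤ 2 * inv_e n h := by
  have h1 : ∀ i j, (M i j).num.natAbs ≤ 2 ^ h ∧ (M i j).den ≤ 2 ^ h := fun i j =>
    max_le_iff.1 (Nat.size_le.1 (hM i j)).le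
  obtain ⟨d, hd⟩ : ∃ d : ℕ, d = ∏ p : Fin n × Fin n, (M p.1 p.2).den := ⟨_, rfl⟩
  have d0 : 0 < d := hd ▸ Finset.prod_pos fun p _ => Rat.den_pos _
  have d1 : d ≤ 2 ^ (h * (n * n)) := by
    have h2 := Finset.prod_le_pow_card univ (fun p : Fin n × Fin n => (M p.1 p.2).den) _ fun p _ => (h1 p.1 p.2).2
    rwa [← hd, card_univ, Fintype.card_prod, Fintype.card_fin, ← pow_mul] at h2
  have d1' : (d : ℚ) ≤ 2 ^ (h * (n * n)) := by exact_mod_cast d1
  have h2 : ∀ i j, ∃ z : ℤ, (z : ℚ) = d * M i j := fun i j => by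
    obtain ⟨c, hc⟩ : (M i j).den ∣ d := hd ▸ Finset.dvd_prod_of_mem (fun p : Fin n × Fin n => (M p.1 p.2).den)
      (mem_univ (i, j))
    refine ⟨c * (M i j).num, ?_⟩
    rw [hc]
    push_cast
    rw [← Rat.mul_den_eq_num]
    ring
  choose Z hZ using h2
  have h3 : ((of Z).det : ℚ) = ((d : ℚ) • M).det := by
    rw [Int.cast_det]
    congr 1
    ext i j
    simp [hZ]
  have h4 : ∀ i j, |((d : ℚ) • M) i j| ≤ 2 ^ (h * (n * n) + h) := fun i j => by
    rw [Matrix.smul_apply, smul_eq_mul, abs_mul, pow_add, Nat.abs_cast]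
    refine mul_le_mul d1' ?_ (abs_nonneg _) (by positivity)
    have h5 : (((M i j).num.natAbs : ℕ) : ℚ) ≤ (2 ^ h : ℕ) := by exact_mod_cast (h1 i j).1
    have h6 : (1 : ℚ) ≤ (M i j).den := by exact_mod_cast Rat.den_pos _
    have h7 : |((M i j).num : ℚ)| = |M i j| * (M i j).den := by rw [← Rat.mul_den_eq_num, abs_mul, Nat.abs_cast]
    simp only [Nat.cast_natAbs, Int.cast_abs, Nat.cast_pow, Nat.cast_ofNat] at h5
    nlinarith [abs_nonneg (M i j)]
  have h5 := Matrix.det_le (abv := AbsoluteValue.abs) h4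
  rw [Fintype.card_fin, nsmul_eq_mul, AbsoluteValue.abs_apply, ← h3, ← pow_mul] at h5
  have h6 : ((n.factorial : ℕ) : ℚ) ≤ 2 ^ (n * n) := by
    have h7 := (Nat.factorial_le_pow n).trans (Nat.pow_le_pow_left (Nat.lt_two_pow_self (n := n)).le n)
    rw [← pow_mul] at h7
    exact_mod_cast h7
  have h7 := inv_ratH (h5.trans (mul_le_mul_of_nonneg_right h6 (by positivity)) |>.trans (pow_add _ _ _).ge)
  have h8 := inv_ratH (z := (d : ℤ) ^ n) (e := h * (n * n) * n) (by
    rw [pow_mul]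
    simpa using pow_le_pow_left₀ (Nat.cast_nonneg d) d1' n)
  have h9 : M.det = ((of Z).det : ℚ) / (((d : ℤ) ^ n : ℤ) : ℚ) := by
    rw [h3, det_smul, Fintype.card_fin]
    have : (d : ℚ) ≠ 0 := by exact_mod_cast d0.ne'
    push_cast
    field_simp
  have h10 := ratH_div_le ((of Z).det : ℚ) (((d : ℤ) ^ n : ℤ) : ℚ)
  rw [h9, inv_e]
  rw [add_mul] at h7 ⊢
  omega

theorem inv_size {n h : ℕ} {M : Matrix (Fin n) (Fin n) ℚ} {X : Fin n → Fin n → ℚ} (hX : M * of X = 1) (h0 : 0 < h)
    (hM : ∀ i j, ratH (M i j) ≤ h) (i j : Fin n) : ratH (X i j) ≤ 4 * inv_e n h := by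
  have h1 : X i j = M.det⁻¹ * (M.updateRow j (Pi.single i 1)).det := by
    rw [← adjugate_apply, ← Ring.inverse_eq_inv', ← smul_eq_mul, ← Matrix.smul_apply, ← Matrix.inv_def, inv_eq_right_inv hX,
      of_apply]
  have h2 := inv_det hM
  have h3 := inv_det (M := M.updateRow j (Pi.single i 1)) (h := h) fun k l => by
    rw [updateRow_apply, Pi.single_apply]
    split_ifs
    · exact h0
    · exact h0
    · exact hM k l
  have h4 := ratH_mul_le M.det⁻¹ (M.updateRow j (Pi.single i 1)).det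
  have h5 := ratH_inv_le M.det
  rw [h1]
  omega

abbrev inv_T {n : ℕ} (A : Mat n) : Type :=
  {p : ℕ × (Fin n → Fin n → ℚ) // p.1 ≤ n ∧ inv_B A p.1 * (of fun i j => (p.2 i j : ℝ)) = 1}

theorem MPT.inv {n : α → ℕ} (hn : UN n) {A : ∀ a, Mat (n a)} (hA : MPT A) (hp : ∀ a, (A a).PosDef) :
    MPT fun a => (A a)⁻¹ := by
  obtain ⟨Q, hQ, hQA⟩ := inv_toQ hn hA
  let g : α → ℕ := fun a => 6 * n a + 1 + (n a * (n a * (12 * (4 * inv_e (n a) (esize (Q a))) + 9 + 1) + 1 + 1) + 1) + 1
  have hg : PB g := by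
    have h1 := hn.2
    have h2 := hQ.esize
    simp only [g, inv_e]
    fun_prop
  have h1 : MPT fun a => (1 : Mat (n a)) := MPT.one
  obtain ⟨X0, hX0, hX1⟩ := inv_toQ hn h1
  suffices hL : Solv fun a (x : inv_T (A a)) => n a ≤ x.1.1 by
    obtain ⟨f, hf, h⟩ := hL
    refine MPT.of_eq (inv_ofQ hf.val.snd) fun a => (inv_eq_right_inv ?_).symm
    have h2 := (f a).2.2
    rwa [show inv_B (A a) (f a).1.1 = A a from Matrix.ext fun i j => if_pos (i.2.trans_le (h a))] at h2
  refine Solv.loop _ (fun a x => n a - x.1.1) hg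
    (x0 := fun a => ⟨(0, X0 a), Nat.zero_le _, by
      rw [show (of fun i j => (X0 a i j : ℝ)) = 1 from Matrix.ext (hX1 a), mul_one]
      ext i j
      simp [inv_B, one_apply]⟩)
    ((DPT.of_pt (PT.const 0)).pair hX0) (fun a => by simp only [g]; omega) (fun a x => ?_) ?_
  · obtain ⟨⟨k, X⟩, hk, hX⟩ := x
    have h2 : inv_B (of (Q a)) k * of X = 1 := by
      refine Matrix.map_injective (f := fun q : ℚ => (q : ℝ)) Rat.cast_injective ?_
      have h3 := Matrix.map_mul (L := inv_B (of (Q a)) k) (M := of X) (f := Rat.castHom ℝ)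
      refine h3.trans (Eq.trans ?_ (hX.trans ?_))
      · congr 1
        ext i j
        simp only [inv_B, map_apply, of_apply, ← hQA]
        split_ifs <;> simp
      · ext i j
        simp only [map_apply, one_apply]
        split_ifs <;> simp
    have h3 : ∀ i j, ratH (inv_B (of (Q a)) k i j) ≤ esize (Q a) := fun i j => by
      simp only [inv_B, of_apply]
      split_ifs
      · exact (ratH_le_esize _).trans ((inv_esize (Q a i) j).trans (inv_esize (Q a) i))
      · exact esize_pos _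
      · exact esize_pos _
    have h4 : esize X ≤ _ := esize_pi_le fun i => esize_pi_le fun j => (esize_rat_le (X i j)).trans
      (Nat.add_le_add_right (Nat.mul_le_mul_left 12 (inv_size h2 (esize_pos _) h3 i j)) 9)
    have h5 := esize_nat_le_self k
    show esize k + esize X + 1 ≤ _
    simp only [g]
    omega
  · refine Solv.cases (c := fun p => p.2.1.1 < n p.1)
      (dpt_sigma_snd.val.fst.pt.nat_lt (hn.1.comp pt_sigma_fst)) ?_
      ⟨fun _ => none, DPT.none, fun p => ⟨fun _ => not_lt.1 p.2, by simp⟩⟩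
    have hφ := pt_sigma_fst.comp (pt_val (p := fun p : Σ a, inv_T (A a) => p.2.1.1 < n p.1))
    have hs := (dpt_sigma_snd.comp (pt_val (p := fun p : Σ a, inv_T (A a) => p.2.1.1 < n p.1))).val
    obtain ⟨Y, hY, hY'⟩ := inv_toQ (hn.comp hφ)
      (inv_mpt (hn.comp hφ) (hA.comp hφ) (inv_ofQ hs.snd) (DPT.finMk hs.fst.pt fun p => p.2))
    refine ⟨fun p => some ⟨(p.1.2.1.1 + 1, Y p), p.2, ?_⟩,
      (((DPT.of_pt (hs.fst.pt.nat_add (PT.const 1))).pair hY).mk _).some, fun p => ⟨by simp, ?_⟩⟩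
    · rw [show (of fun i j => (Y p i j : ℝ)) = _ from Matrix.ext (hY' p)]
      exact inv_step (hp _) ⟨_, p.2⟩ p.1.2.2.2
    · rintro y ⟨rfl⟩
      have := p.2
      simp only
      omega

theorem rpt_res {n : α → ℕ} (hn : UN n) {W : ∀ a, Mat (n a)} (hW : MPT W) (hp : ∀ a, (W a).PosDef)
    {i j : ∀ a, Fin (n a)} (hi : DPT i) (hj : DPT j) : RPT fun a => res (W a) (i a) (j a) :=
  rpt_qf hn (hW.inv hn hp) hi hj

end Crest.Agent.R37
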