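import Crest.Agent.R37.S1Prog
import Crest.Agent.R37.RPT4

/-!
# R37/CS1: Stage 1 in polynomial time.
`Solv.localSearch` on `X1 (n a)` with invariant `nn1 x ∧ (M1z ..).PosDef ∧ Phi1z .. ≤ 3`, candidates `C1 (n a) × Bool` (`σ = ±1`), test
`nn1 (mv1 x i σ) ∧ Phi1z (mv1 x i σ) ≤ Phi1z x - θ`, measure `⌈Phi1z / θ⌉₊`, start `(2 B^j, 0, 0)` (`s1_init`); `s1_prog` gives sizes, positivity and the outcome.
-/

set_option autoImplicit false

open Matrix Finset Crest.Agent.Lib.PolyTime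

noncomputable section

namespace Crest.Agent.R37

variable {α α' : Type} [Enc α] [Enc α']

variable {n m : α → ℕ} {s t : ∀ a, Fin (m a) → Fin (n a)}

theorem cs1a_w {x : ∀ a, X1 (n a)} (hx : DPT x) :
    PT fun p : Σ a, Fin (n a) × Fin (n a) => (x p.1).2.1 p.2.1 p.2.2 :=
  DPT.pt (((hx.snd.fst.comp pt_sigma_fst).apply dpt_sigma_snd.fst).apply dpt_sigma_snd.snd)

theorem cs1a_t {x : ∀ a, X1 (n a)} (hx : DPT x) :
    PT fun p : Σ a, Fin (n a) × Fin (n a) × Fin (n a) => (x p.1).2.2 p.2.1 p.2.2.1 p.2.2.2 :=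
  DPT.pt ((((hx.snd.snd.comp pt_sigma_fst).apply dpt_sigma_snd.fst).apply dpt_sigma_snd.snd.fst).apply
    dpt_sigma_snd.snd.snd)

theorem cs1a_pi2 {σ : Type} [Enc σ] (hn : UN n) {F : ∀ a, Fin (n a) → Fin (n a) → σ}
    (h : PT fun p : Σ a, Fin (n a) × Fin (n a) => F p.1 p.2.1 p.2.2) : DPT F :=
  DPT.pi hn (DPT.pi (hn.comp pt_sigma_fst) ((DPT.of_pt h).comp
    (φ := fun q : Σ p : Σ a, Fin (n a), Fin (n p.1) => ⟨q.1.1, q.1.2, q.2⟩)
    (pt_sigma_mk (DPT.pt ((DPT.of_pt pt_sigma_fst).comp pt_sigma_fst))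
      ((dpt_sigma_snd.comp pt_sigma_fst).pair dpt_sigma_snd))))

theorem cs1a_pi3 {σ : Type} [Enc σ] (hn : UN n) {F : ∀ a, Fin (n a) → Fin (n a) → Fin (n a) → σ}
    (h : PT fun p : Σ a, Fin (n a) × Fin (n a) × Fin (n a) => F p.1 p.2.1 p.2.2.1 p.2.2.2) : DPT F :=
  DPT.pi hn (cs1a_pi2 (hn.comp pt_sigma_fst) (DPT.pt ((DPT.of_pt h).comp
    (φ := fun q : Σ p : Σ a, Fin (n a), Fin (n p.1) × Fin (n p.1) => ⟨q.1.1, q.1.2, q.2⟩)
    (pt_sigma_mk (DPT.pt ((DPT.of_pt pt_sigma_fst).comp pt_sigma_fst))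
      ((dpt_sigma_snd.comp pt_sigma_fst).pair dpt_sigma_snd)))))

theorem cs1a_ite {β : α → Type} [∀ a, Enc (β a)] [∀ a, DecidableEq (β a)] {i j : ∀ a, β a} (hi : DPT i)
    (hj : DPT j) {σ : α → ℤ} (hσ : PT σ) : PT fun a => if i a = j a then σ a else 0 :=
  DPT.pt (DPT.ite (hi.eq hj) (DPT.of_pt hσ) (DPT.of_pt (PT.const 0)))

theorem dpt_mv1 (hn : UN n) {x : ∀ a, X1 (n a)} (hx : DPT x) {i : ∀ a, C1 (n a)} (hi : DPT i)
    {σ : α → ℤ} (hσ : PT σ) : DPT fun a => mv1 (x a) (i a) (σ a) := by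
  refine DPT.pair (DPT.of_pt (hx.fst.pt.int_add (cs1a_ite hi (DPT.of_pt (PT.const ())).inl hσ)))
    (DPT.pair (cs1a_pi2 hn ((cs1a_w hx).int_add ?_)) (cs1a_pi3 hn ((cs1a_t hx).int_add ?_)))
  · exact cs1a_ite (hi.comp pt_sigma_fst) dpt_sigma_snd.inl.inr ((DPT.of_pt hσ).comp pt_sigma_fst).pt
  · exact cs1a_ite (hi.comp pt_sigma_fst) dpt_sigma_snd.inr.inr ((DPT.of_pt hσ).comp pt_sigma_fst).pt

theorem pt_nn1 (hn : UN n) {x : ∀ a, X1 (n a)} (hx : DPT x) : PT fun a => nn1 (x a) := by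
  have h1 := (PT.const (0 : ℤ)).int_le hx.fst.pt
  have h2 := ((En.fin hn).prod (En.fin hn)).forall (p := fun a q => 0 ≤ (x a).2.1 q.1 q.2)
    ((PT.const (0 : ℤ)).int_le (cs1a_w hx))
  have h3 := ((En.fin hn).prod ((En.fin hn).prod (En.fin hn))).forall
    (p := fun a q => 0 ≤ (x a).2.2 q.1 q.2.1 q.2.2) ((PT.const (0 : ℤ)).int_le (cs1a_t hx))
  exact (h1.and (h2.and h3)).of_iff fun a => by simp [nn1]

theorem mpt_M1z (hG : PG n m s t) {H : ∀ a, Finset (Fin (m a))} (hH : DPT H) {N : α → ℝ} (hN : RPT N)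
    (hN0 : ∀ a, 0 < N a) {x : ∀ a, X1 (n a)} (hx : DPT x) (h0 : ∀ a, nn1 (x a)) :
    MPT fun a => M1z (s a) (t a) (H a) (N a) (x a) := by
  have hw := mpt_Lw hG.hn (w := fun a i j => (x a).2.1 i j / N a)
    ((RPT.int (cs1a_w hx)).div (hN.comp pt_sigma_fst))
  have hτ := mpt_Ltri hG.hn (τ := fun a i j k => (x a).2.2 i j k / N a)
    ((RPT.int (cs1a_t hx)).div (hN.comp pt_sigma_fst))
  have hr := rpt_res (hG.hn.comp pt_sigma_fst)
    (((mpt_Gam hG).add hw).comp (φ := fun p : Σ a, Fin (m a) => p.1) pt_sigma_fst)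
    (fun p => GamLw_posDef _ _ fun i j => div_nonneg (Int.cast_nonneg ((h0 p.1).2.1 i j)) (hN0 p.1).le)
    ((hG.hs.comp pt_sigma_fst).apply dpt_sigma_snd) ((hG.ht.comp pt_sigma_fst).apply dpt_sigma_snd)
  exact (((MPT.smul ((RPT.int hx.fst.pt).div hN) (mpt_Gam hG)).sub hw).sub
    (mpt_LE hG (RPT.ite ((hH.comp pt_sigma_fst).mem dpt_sigma_snd) hr RPT.zero))).sub hτ

theorem rpt_Phi1z (hG : PG n m s t) {H : ∀ a, Finset (Fin (m a))} (hH : DPT H) {μ κ N : α → ℝ}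
    (hμ : RPT μ) (hκ : RPT κ) (hN : RPT N) (hN0 : ∀ a, 0 < N a) {x : ∀ a, X1 (n a)} (hx : DPT x)
    (h0 : ∀ a, nn1 (x a)) (hp : ∀ a, (M1z (s a) (t a) (H a) (N a) (x a)).PosDef) :
    RPT fun a => Phi1z (s a) (t a) (H a) (μ a) (κ a) (N a) (x a) := by
  have e := En.fin hG.hn
  have hw := VPT.sum (e.prod e) (v := fun a q => (x a).2.1 q.1 q.2 / N a)
    ((RPT.int (cs1a_w hx)).div (hN.comp pt_sigma_fst))
  have hτ := VPT.sum (e.prod (e.prod e)) (v := fun a q => (x a).2.2 q.1 q.2.1 q.2.2 / N a)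
    ((RPT.int (cs1a_t hx)).div (hN.comp pt_sigma_fst))
  refine ((((RPT.int hx.fst.pt).div hN).add
    (hμ.mul (((mpt_M1z hG hH hN hN0 hx h0).inv hG.hn hp).trace e))).add (hκ.mul (hw.add hτ))).of_eq fun a => ?_
  simp only [Fintype.sum_prod_type]
  rfl

theorem cs1_ceil_lt {a b η : ℝ} (hη : 0 < η) (ha : 0 ≤ a) (h : a ≤ b - η) : ⌈a / η⌉₊ < ⌈b / η⌉₊ := by
  rw [Nat.lt_iff_add_one_le, ← Nat.ceil_add_one (div_nonneg ha hη.le)]
  refine Nat.ceil_mono ?_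
  rw [div_add_one hη.ne']
  exact div_le_div_of_nonneg_right (by linarith) hη.le

theorem cs1_and {c d : α → Prop} (hc : PT c) (hd : PT fun a : {a // c a} => d a.1) : PT fun a => c a ∧ d a :=
  PT.cases_sub hc (hd.of_iff fun a => by simp [a.2]) ((PT.const False).of_iff fun a => by simp [a.2])

theorem cs1_size {k b : ℕ} {x : X1 k} (h0 : nn1 x)
    (h : x.1 ≤ b ∧ (∀ u v, x.2.1 u v ≤ b) ∧ ∀ u v w, x.2.2 u v w ≤ b) :
    esize x ≤ 6 * b + 7 + (k * (k * (6 * b + 7 + 1) + 1 + 1) + 1) +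
      (k * (k * (k * (6 * b + 7 + 1) + 1 + 1) + 1 + 1) + 1) + 2 := by
  have h1 : esize x.1 ≤ 6 * b + 7 := esize_int_le (by rw [abs_of_nonneg h0.1]; exact h.1)
  have h2 : esize x.2.1 ≤ _ := esize_pi_le fun u => esize_pi_le fun v =>
    esize_int_le (B := b) (by rw [abs_of_nonneg (h0.2.1 u v)]; exact h.2.1 u v)
  have h3 : esize x.2.2 ≤ _ := esize_pi_le fun u => esize_pi_le fun v => esize_pi_le fun w =>
    esize_int_le (B := b) (by rw [abs_of_nonneg (h0.2.2 u v w)]; exact h.2.2 u v w)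
  rw [esize_prod, esize_prod]
  omega

theorem solv_s1 (hG : PG n m s t) {H : ∀ a, Finset (Fin (m a))} (hH : DPT H) {B : α → ℕ} (hB : UN B)
    {cap : α → ℝ} (hc : RPT cap)
    (hb : ∀ a, 1 ≤ n a ∧ 100 ≤ B a ∧ n a ≤ B a ∧ m a ≤ B a ∧ cap a ≤ 1 ∧ 1 ≤ cap a * B a) :
    Solv fun a (o : Bool × (Fin (n a) → Fin (n a) → ℚ) × (Fin (m a) → ℚ)) =>
      (o.1 = true → (∀ x y, 0 ≤ o.2.1 x y) ∧ Cert (s a) (t a) (H a) (fun x y => o.2.1 x y) (cap a)) ∧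
      (o.1 = false → ∃ Z, Dual (s a) (t a) (H a) Z (cap a) (2 / B a ^ 4) (B a) ∧
        ∀ e, (o.2.2 e : ℝ) = qf Z (s a e) (t a e)) := by
  obtain ⟨j, hj⟩ := s1_prog
  let N : α → ℝ := fun a => (B a : ℝ) ^ j
  let μ : α → ℝ := fun a => cap a ^ 2 / (400 * (n a : ℝ) ^ 2)
  let κ : α → ℝ := fun a => 1 / (B a : ℝ) ^ 4
  let θ : α → ℝ := fun a => 1 / (B a : ℝ) ^ (j + 8)
  let Φ : ∀ a, X1 (n a) → ℝ := fun a x => Phi1z (s a) (t a) (H a) (μ a) (κ a) (N a) x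
  let I : ∀ a, X1 (n a) → Prop := fun a x => nn1 x ∧ (M1z (s a) (t a) (H a) (N a) x).PosDef ∧ Φ a x ≤ 3
  have hB0 : ∀ a, (0 : ℝ) < B a := fun a => by exact_mod_cast (by have := (hb a).2.1; omega : 0 < B a)
  have hN0 : ∀ a, 0 < N a := fun a => pow_pos (hB0 a) _
  have hθ0 : ∀ a, 0 < θ a := fun a => one_div_pos.2 (pow_pos (hB0 a) _)
  have hN : RPT N := (RPT.nat hB.1).pow j
  have hμ : RPT μ := (hc.pow 2).div ((RPT.ofNat 400).mul ((RPT.nat hG.hn.1).pow 2))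
  have hκ : RPT κ := RPT.one.div ((RPT.nat hB.1).pow 4)
  have hθ : RPT θ := RPT.one.div ((RPT.nat hB.1).pow _)
  have hP := fun a x (h : I a x) => hj (n a) (Fin (m a)) (s a) (t a) (H a) (B a) (cap a) (hb a).1 (hb a).2.1
    (hb a).2.2.1 (by rw [Fintype.card_fin]; exact (hb a).2.2.2.1) (hb a).2.2.2.2.1 (hb a).2.2.2.2.2 x h.1 h.2.1 h.2.2
  have hsg : ∀ b : Bool, |(cond b 1 (-1) : ℤ)| ≤ 1 := by decide
  have hΦ : ∀ {α' : Type} [Enc α'] {φ : α' → α} (hφ : PT φ) {x : ∀ a', X1 (n (φ a'))} (hx : DPT x)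
      (h0 : ∀ a', nn1 (x a')) (hp : ∀ a', (M1z (s (φ a')) (t (φ a')) (H (φ a')) (N (φ a')) (x a')).PosDef),
      RPT fun a' => Φ (φ a') (x a') := fun hφ x hx h0 hp =>
    rpt_Phi1z (hG.comp hφ) (hH.comp hφ) (hμ.comp hφ) (hκ.comp hφ) (hN.comp hφ) (fun _ => hN0 _) hx h0 hp
  have hmv : DPT fun p : Σ a, {x // I a x} × (C1 (n a) × Bool) => mv1 p.2.1.1 p.2.2.1 (cond p.2.2.2 1 (-1)) :=
    dpt_mv1 (hG.hn.comp pt_sigma_fst) dpt_sigma_snd.fst.val dpt_sigma_snd.snd.fst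
      (PT.cond dpt_sigma_snd.snd.snd.pt (PT.const _) (PT.const _))
  have hx1 : DPT fun p : Σ a, {x // I a x} × (C1 (n a) × Bool) => p.2.1.1 := dpt_sigma_snd.fst.val
  have hms : ∀ a x, I a x → ⌈Φ a x / θ a⌉₊ ≤ 3 * B a ^ (j + 8) := fun a x h => by
    refine Nat.ceil_le.2 ?_
    simp only [θ]
    rw [div_div_eq_mul_div, div_one]
    push_cast
    exact mul_le_mul_of_nonneg_right h.2.2 (pow_pos (hB0 a) _).le
  have hI0 : ∀ a, I a (2 * (B a : ℤ) ^ j, fun _ _ => 0, fun _ _ _ => 0) := fun a => by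
    have hn : (1 : ℝ) ≤ n a := by exact_mod_cast (hb a).1
    obtain ⟨h1, h2⟩ := s1_init (s a) (t a) (hb a).1 (H a) (μ := μ a) (κ a) (by simp only [μ]; positivity)
    have e : ((2 * (B a : ℤ) ^ j : ℤ) : ℝ) / N a = 2 := by
      have := hN0 a
      simp only [N] at this ⊢
      push_cast
      field_simp
    refine ⟨⟨by positivity, fun _ _ => le_rfl, fun _ _ _ => le_rfl⟩, ?_, ?_⟩
    · simpa only [M1z, e, Int.cast_zero, zero_div] using h1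
    · have h3 : μ a * n a ^ 2 = cap a ^ 2 / 400 := by
        simp only [μ]
        field_simp
      have h4 := (hb a).2.2.2.2.1
      have h5 : 0 ≤ cap a := nonneg_of_mul_nonneg_left (zero_le_one.trans (hb a).2.2.2.2.2) (hB0 a)
      simp only [Φ, Phi1z, e, Int.cast_zero, zero_div]
      nlinarith
  have hn2 := hG.hn.2
  have hB1 := hB.1
  have hB2 := hB.2
  obtain ⟨x, hx, h⟩ := Solv.localSearch (ι := fun a => C1 (n a) × Bool) I (fun a x => ⌈Φ a x / θ a⌉₊)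
    (g := fun a => 3 * B a ^ (j + 8) + (6 * B a ^ (j + 5) + 7 + (n a * (n a * (6 * B a ^ (j + 5) + 7 + 1) + 1 + 1) + 1) +
      (n a * (n a * (n a * (6 * B a ^ (j + 5) + 7 + 1) + 1 + 1) + 1 + 1) + 1) + 2)) (by fun_prop)
    (x0 := fun a => (2 * (B a : ℤ) ^ j, fun _ _ => 0, fun _ _ _ => 0))
    ((DPT.of_pt (by fun_prop)).pair ((DPT.pi hG.hn (DPT.pi (hG.hn.comp pt_sigma_fst) (DPT.of_pt (PT.const 0)))).pair
      (DPT.pi hG.hn (DPT.pi (hG.hn.comp pt_sigma_fst)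
        (DPT.pi (hG.hn.comp (pt_sigma_fst.comp pt_sigma_fst)) (DPT.of_pt (PT.const 0)))))))
    (fun a => ⟨hI0 a, (hms a _ (hI0 a)).trans (Nat.le_add_right _ _)⟩)
    (fun a x h => (cs1_size h.1 (by simpa only [Nat.cast_pow] using (hP a x h).2.1)).trans (Nat.le_add_left _ _))
    ((En.unit.sum (((En.fin hG.hn).prod (En.fin hG.hn)).sum
      ((En.fin hG.hn).prod ((En.fin hG.hn).prod (En.fin hG.hn))))).prod En.bool)
    (fun a x i => mv1 x i.1 (cond i.2 1 (-1)))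
    (fun a x i => nn1 (mv1 x i.1 (cond i.2 1 (-1))) ∧ Φ a (mv1 x i.1 (cond i.2 1 (-1))) ≤ Φ a x - θ a) hmv
    (cs1_and (pt_nn1 (hG.hn.comp pt_sigma_fst) hmv)
      ((hΦ (pt_sigma_fst.comp pt_val) (hmv.comp pt_val) (fun p => p.2)
        fun p => (hP _ _ p.1.2.1.2).2.2.1 _ _ (hsg _)).le
      ((hΦ (pt_sigma_fst.comp pt_val) (hx1.comp pt_val) (fun p => p.1.2.1.2.1)
        fun p => p.1.2.1.2.2.1).sub (hθ.comp (pt_sigma_fst.comp pt_val)))))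
    (fun a x i h hok => by
      have h1 : I a (mv1 x i.1 (cond i.2 1 (-1))) :=
        ⟨hok.1, (hP a x h).2.2.1 _ _ (hsg _), by linarith [hok.2, h.2.2, hθ0 a]⟩
      exact ⟨h1, cs1_ceil_lt (hθ0 a) (hP a _ h1).1 hok.2⟩)
  have hM := (mpt_M1z hG hH hN hN0 hx fun a => (h a).1.1).inv hG.hn fun a => (h a).1.2.1
  have hZ : MPT fun a => Z1z (s a) (t a) (H a) (μ a) (N a) (x a) := MPT.smul hμ (MPT.mul (En.fin hG.hn) hM hM)
  obtain ⟨z, hz, hz'⟩ := VPT.toQ hG.hm (v := fun a e => qf (Z1z (s a) (t a) (H a) (μ a) (N a) (x a)) (s a e) (t a e))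
    (rpt_qf (hG.hn.comp pt_sigma_fst) (hZ.comp pt_sigma_fst) ((hG.hs.comp pt_sigma_fst).apply dpt_sigma_snd)
      ((hG.ht.comp pt_sigma_fst).apply dpt_sigma_snd))
  have hout := fun a => (hP a _ (h a).1).2.2.2 fun i σ hσ hnn => by
    have h1 := (h a).2
    rcases hσ with rfl | rfl
    · exact not_le.1 fun h2 => h1 (i, true) ⟨hnn, h2⟩
    · exact not_le.1 fun h2 => h1 (i, false) ⟨hnn, h2⟩
  classical
  refine ⟨fun a => (decide (((x a).1 : ℝ) / N a ≤ cap a), fun u v => ((x a).2.1 u v : ℚ) / (B a : ℚ) ^ j, z a),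
    (DPT.of_pt (((RPT.int hx.fst.pt).div hN).le hc).decide).pair
      ((DPT.pi hG.hn (DPT.pi (hG.hn.comp pt_sigma_fst) (DPT.of_pt ?_))).pair hz), fun a => ⟨fun h1 => ?_, fun h1 => ?_⟩⟩
  · exact ((((hx.snd.fst.comp (pt_sigma_fst.comp pt_sigma_fst)).apply (dpt_sigma_snd.comp pt_sigma_fst)).apply
      dpt_sigma_snd).pt.rat_intCast).rat_div
      ((hB1.comp (pt_sigma_fst.comp pt_sigma_fst)).rat_natCast.rat_pow (PT.const j) (PB.const j))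
  · refine ⟨fun u v => div_nonneg (by exact_mod_cast (h a).1.1.2.1 u v) (by positivity), ?_⟩
    rcases hout a with h2 | h2
    · simpa only [Rat.cast_div, Rat.cast_intCast, Rat.cast_pow, Rat.cast_natCast] using h2.2
    · exact absurd (of_decide_eq_true h1) (not_le.2 h2.1)
  · rcases hout a with h2 | h2
    · exact absurd h2.1 (of_decide_eq_false h1)
    · exact ⟨_, h2.2, hz' a⟩

end Crest.Agent.R37
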