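import Crest.Agent.R37.CRound

/-!
# R37/CTree: all rounds.
`J` = largest index with `kp J ≤ k` (search over `Fin (k+1)`, `kp (min j ..)` computed by iteration; `2^J ≤ k ≤ m`).  `Solv.loop` on `(es', j)` with `es'.Sublist es`, `j ≤ J`,
`PC es' (kp j)`, `cutL es' S · G J ≤ G j · cutL es S` for `G j = 2^j exp (2000/j)`; step while `j0 < j` by `solv_round` with `q = j²`.  Finish with `solv_greedy`
(`K = 1`, `c = 0`), `subL`, `base_subL`; `k < kp (J+1) ≤ C 2^(J+1)`.
-/

set_option autoImplicit false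

open Matrix Finset Crest.Agent.Lib.PolyTime

noncomputable section

namespace Crest.Agent.R37

variable {α α' : Type} [Enc α] [Enc α']

theorem pt_kp {j : α → ℕ} (hj : UN j) : PT fun a => kp (j a) := by
  obtain ⟨C, hC⟩ := kp_bounds
  have key : ∀ i, (fun c : ℕ × ℕ => (c.1 + 1, 2 * c.2 + (2 * c.2 / (c.1 + 1) ^ 2 + 1)))^[i] (0, 1) = (i, kp i) := by
    intro i
    induction i with
    | zero => rfl
    | succ i ih => rw [Function.iterate_succ_apply', ih]; rfl
  have h2 := hj.2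
  have h := PT.iterate (n := j) (x := fun _ => ((0, 1) : ℕ × ℕ))
    (f := fun _ c => (c.1 + 1, 2 * c.2 + (2 * c.2 / (c.1 + 1) ^ 2 + 1)))
    (fun a => 6 * j a + 1 + (esize C + (6 * j a + 7)) + 1) hj.1 hj.2 (PT.const _) (by fun_prop) (by fun_prop)
    fun a i hi => by
      rw [key, esize_pair]
      have h1 := esize_nat_le_self i
      have h3 := (esize_nat_mono (hC i).2).trans (esize_nat_mul_le C (2 ^ i))
      have h4 := esize_nat_le_of_le_two_pow (le_refl (2 ^ i))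
      omega
  exact h.snd.of_eq fun a => by rw [key]

/-- the potential of the rounds -/
def ctG (j : ℕ) : ℝ := 2 ^ j * Real.exp (2000 / j)

theorem ctG_ge (j : ℕ) : 2 ^ j ≤ ctG j :=
  le_mul_of_one_le_right (by positivity) (Real.one_le_exp (by positivity))

theorem ctG_le {j j0 : ℕ} (h : j ≤ j0) : ctG j ≤ 2 ^ j0 * Real.exp 2000 := by
  refine mul_le_mul (pow_le_pow_right₀ one_le_two h) (Real.exp_le_exp.2 ?_) (by positivity) (by positivity)
  rcases Nat.eq_zero_or_pos j with rfl | hj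
  · simp
  · exact div_le_self (by norm_num) (by exact_mod_cast hj)

theorem ctG_step {j : ℕ} (h : 1 ≤ j) : (1 / 2 + 1000 / (((j + 1) ^ 2 : ℕ) : ℝ)) * ctG (j + 1) ≤ ctG j := by
  have hj : (1 : ℝ) ≤ j := by exact_mod_cast h
  have h1 := Real.add_one_le_exp (2000 / ((j : ℝ) + 1) ^ 2)
  have h2 : 2000 / ((j : ℝ) + 1) ^ 2 + 2000 / (j + 1) ≤ 2000 / j := by
    rw [div_add_div _ _ (by positivity) (by positivity), div_le_div_iff₀ (by positivity) (by positivity)]
    nlinarith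
  have h3 := Real.exp_le_exp.2 h2
  rw [Real.exp_add] at h3
  have h4 := mul_le_mul_of_nonneg_right h1 (Real.exp_pos (2000 / (j + 1))).le
  simp only [ctG]
  push_cast
  calc _ = 2 ^ j * ((2000 / ((j : ℝ) + 1) ^ 2 + 1) * Real.exp (2000 / (j + 1))) := by ring
    _ ≤ _ := mul_le_mul_of_nonneg_left (h4.trans h3) (by positivity)

theorem solv_tree : ∃ C : ℝ, 0 < C ∧ ∀ (α : Type) [Enc α] (n : α → ℕ)
    (es : ∀ a, List (Fin (n a) × Fin (n a))) (k : α → ℕ), UN n → DPT es → PT k →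
    (∀ a, 2 ≤ n a ∧ (∀ p ∈ es a, p.1 ≠ p.2) ∧ 1 ≤ k a ∧ PC (sL (es a)) (tL (es a)) (k a)) →
    Solv fun a (T : List (Fin (n a) × Fin (n a))) => T.Sublist (es a) ∧
      Base (sL T) (tL T) 1 (fun _ => 1) ∧ ∀ S, (cutL T S : ℝ) ≤ C / k a * cutL (es a) S := by
  obtain ⟨q0, hround⟩ := solv_round
  obtain ⟨j0, hj1, hj0⟩ := kp_round q0
  obtain ⟨C, hC⟩ := kp_bounds
  have hC1 : (1 : ℝ) ≤ C := by
    have := (hC 0).1.trans (hC 0).2
    exact_mod_cast (by simpa using this : 1 ≤ C)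
  refine ⟨2 ^ j0 * Real.exp 2000 * (2 * C), by positivity, fun α _ n es k hn hes hk hp => ?_⟩
  have hkU : UN k := ⟨hk, hes.length.2.mono fun a => by
    have := (hp a).2.2.2.le_card (hp a).1
    rw [Fintype.card_fin] at this
    exact_mod_cast this⟩
  have hk1U : UN fun a => k a + 1 := ⟨hk.nat_add (PT.const 1), hkU.2.add (PB.const 1)⟩
  have hvU : UN fun p : Σ a, Fin (k a + 1) => p.2.val :=
    ⟨(dpt_sigma_snd (β := fun a => Fin (k a + 1))).finVal, (hk1U.comp pt_sigma_fst).2.mono fun p => p.2.2.le⟩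
  obtain ⟨J, hJ, hJs⟩ := Solv.choose (En.fin hk1U) (p := fun a j => kp j.val ≤ k a ∧ k a < kp (j.val + 1))
    (((pt_kp hvU).nat_le (hk.comp pt_sigma_fst)).and ((hk.comp pt_sigma_fst).nat_lt
      (pt_kp ⟨hvU.1.nat_add (PT.const 1), hvU.2.add (PB.const 1)⟩))) fun a => by
    have hex : ∃ j, k a < kp (j + 1) := ⟨k a, Nat.lt_two_pow_self.trans_le
      ((Nat.pow_le_pow_right two_pos (Nat.le_succ _)).trans (hC _).1)⟩
    have h1 : kp (Nat.find hex) ≤ k a := by
      rcases h : Nat.find hex with _ | i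
      · exact (hp a).2.2.1
      · exact not_lt.1 (Nat.find_min hex (by omega))
    exact ⟨⟨Nat.find hex, by have := Nat.lt_two_pow_self.trans_le ((hC _).1.trans h1); omega⟩, h1, Nat.find_spec hex⟩
  let Inv : ∀ a, List (Fin (n a) × Fin (n a)) × ℕ → Prop := fun a x =>
    x.1.Sublist (es a) ∧ x.2 ≤ k a ∧ PC (sL x.1) (tL x.1) (kp x.2) ∧
      ∀ S, (cutL x.1 S : ℝ) ≤ ctG x.2 * (2 * C / k a * cutL (es a) S)
  have hI0 : ∀ a, Inv a (es a, (J a).val) := fun a => by
    have h1 := (hp a).1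
    refine ⟨List.Sublist.refl _, Nat.lt_succ_iff.1 (J a).2,
      (hp a).2.2.2.mono (by omega) (by exact_mod_cast (hJs a).1), fun S => ?_⟩
    rw [← mul_assoc]
    refine le_mul_of_one_le_left (Nat.cast_nonneg _) ?_
    have hk0 : (0 : ℝ) < k a := by exact_mod_cast (hp a).2.2.1
    have h2 : (k a : ℝ) ≤ C * 2 ^ ((J a).val + 1) := by exact_mod_cast ((hJs a).2.trans_le (hC _).2).le
    have h3 := ctG_ge (J a).val
    rw [mul_div_assoc', le_div_iff₀ hk0, one_mul]
    refine h2.trans ?_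
    rw [pow_succ]
    nlinarith
  have hx1 : DPT fun p : Σ a, {x // Inv a x} => p.2.1.1 := dpt_sigma_snd.val.fst
  have hx2 : PT fun p : Σ a, {x // Inv a x} => p.2.1.2 := dpt_sigma_snd.val.snd.pt
  obtain ⟨f, hf, h⟩ := Solv.loop (β := fun a => {x // Inv a x}) (fun a x => x.1.2 ≤ j0) (fun a x => x.1.2)
    (g := fun a => esize (es a) + (6 * k a + 1) + 1) (by have := hes.esize; have := hkU.2; fun_prop)
    (x0 := fun a => ⟨_, hI0 a⟩) (DPT.mk (hes.pair (DPT.of_pt hJ.finVal)) hI0)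
    (fun a => by have := (J a).2; simp only; omega) (fun a x => by
      have h1 := esize_sublist x.2.1
      have h2 := esize_nat_le_self x.1.2
      have h3 := x.2.2.1
      rw [esize_subtype, esize_prod]
      omega) (by
      refine Solv.cases (c := fun p => p.2.1.2 ≤ j0) (hx2.nat_le (PT.const _))
        ⟨fun _ => none, DPT.none, fun p => ⟨fun _ => p.2, by simp⟩⟩ ?_
      have hi : PT fun p : {p : Σ a, {x // Inv a x} // ¬ p.2.1.2 ≤ j0} => p.1.2.1.2 - 1 :=
        (hx2.comp pt_val).nat_sub (PT.const 1)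
      obtain ⟨e, he, hs⟩ := hround {p : Σ a, {x // Inv a x} // ¬ p.2.1.2 ≤ j0} (fun p => n p.1.1)
        (fun p => p.1.2.1.1) (fun p => kp (p.1.2.1.2 - 1))
        (fun p => 2 * kp (p.1.2.1.2 - 1) / (p.1.2.1.2 - 1 + 1) ^ 2 + 1) (fun p => (p.1.2.1.2 - 1 + 1) ^ 2)
        (hn.comp (pt_sigma_fst.comp pt_val)) (hx1.comp pt_val)
        (pt_kp ⟨hi, (hkU.comp (pt_sigma_fst.comp pt_val)).2.mono fun p => (Nat.sub_le _ _).trans p.1.2.2.2.1⟩)
        ((hi.nat_add (PT.const 1)).nat_pow (PT.const 2) (PB.const 2)) fun p => by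
          have h0 := p.2
          obtain ⟨h1, h2, h3⟩ := hj0 (p.1.2.1.2 - 1) (by omega)
          refine ⟨(hp _).1, fun x hx => (hp _).2.1 x (p.1.2.2.1.subset hx), h1,
            (Nat.one_le_two_pow).trans (hC _).1, h2, h3, ?_⟩
          have h4 := p.1.2.2.2.2.1
          rw [show p.1.2.1.2 = p.1.2.1.2 - 1 + 1 by omega, kp] at h4
          exact_mod_cast h4
      have hI : ∀ p : {p : Σ a, {x // Inv a x} // ¬ p.2.1.2 ≤ j0}, Inv p.1.1 (e p, p.1.2.1.2 - 1) := fun p => by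
        have h0 := p.2
        refine ⟨(hs p).1.trans p.1.2.2.1, (Nat.sub_le _ _).trans p.1.2.2.2.1, (hs p).2.1,
          fun S => ((hs p).2.2 S).trans ?_⟩
        have h4 := p.1.2.2.2.2.2 S
        rw [show p.1.2.1.2 = p.1.2.1.2 - 1 + 1 by omega] at h4
        refine (mul_le_mul_of_nonneg_left h4 (by positivity)).trans ?_
        rw [← mul_assoc]
        exact mul_le_mul_of_nonneg_right (ctG_step (by omega)) (by positivity)
      refine ⟨fun p => some ⟨_, hI p⟩, DPT.some (DPT.mk (he.pair (DPT.of_pt hi)) hI), fun p => ⟨by simp, ?_⟩⟩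
      rintro y ⟨rfl⟩
      have h0 := p.2
      simp only
      omega)
  have hf1 : DPT fun a => (f a).1.1 := hf.val.fst
  obtain ⟨H, hH, hHs⟩ := solv_greedy (pg_list hn hf1) (K := fun _ => 1) ⟨PT.const 1, PB.const 1⟩
    (c := fun _ _ => 0) RPT.zero (fun a => by have := (hp a).1; omega)
    (fun a e => (hp a).2.1 _ ((f a).2.1.subset (List.get_mem _ _))) fun a =>
      (f a).2.2.2.1.mono (by have := (hp a).1; omega) (by exact_mod_cast (Nat.one_le_two_pow).trans (hC _).1)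
  refine ⟨fun a => subL (f a).1.1 (H a), dpt_subL hf1 hH, fun a =>
    ⟨(subL_sublist _ _).trans (f a).2.1, base_subL (hHs a).1, fun S => ?_⟩⟩
  have h1 : (cutL (subL (f a).1.1 (H a)) S : ℝ) ≤ cutL (f a).1.1 S := by
    exact_mod_cast (subL_sublist _ _).countP_le
  refine (h1.trans ((f a).2.2.2.2 S)).trans ?_
  rw [mul_div_assoc _ (2 * C : ℝ), mul_assoc _ (2 * C / k a : ℝ)]
  exact mul_le_mul_of_nonneg_right (ctG_le (h a)) (by positivity)

end Crest.Agent.R37
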