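import Crest.Agent.R37.Defs

/-!
# R37/Lin1: pairings, cuts, positivity (elementary).
-/

set_option autoImplicit false

open Matrix Finset

noncomputable section

namespace Crest.Agent.R37

variable {n : ℕ} {E : Type} [Fintype E] [DecidableEq E]

theorem bv_swap (a b : Fin n) : bv b a = -bv a b := by simp [bv]

theorem form_Lp (a b : Fin n) (x y : Fin n → ℝ) :
    x ⬝ᵥ Lp a b *ᵥ y = (bv a b ⬝ᵥ x) * (bv a b ⬝ᵥ y) := by
  rw [Lp, Matrix.vecMulVec_mulVec, dotProduct_comm (bv a b) x]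
  simp [mul_comm]

theorem bv_dot (a b : Fin n) (x : Fin n → ℝ) : bv a b ⬝ᵥ x = x a - x b := by
  simp [bv, sub_dotProduct]

theorem psd_smul {A : Mat n} (hA : A.PosSemidef) {c : ℝ} (hc : 0 ≤ c) : (c • A).PosSemidef :=
  hA.smul hc

theorem psd_sum {ι : Type} (I : Finset ι) {A : ι → Mat n} (h : ∀ i ∈ I, (A i).PosSemidef) :
    (∑ i ∈ I, A i).PosSemidef := Matrix.posSemidef_sum I h

theorem qf_eq_trace (Z : Mat n) (a b : Fin n) : (Z * Lp a b).trace = qf Z a b := by
  rw [Lp, Matrix.mul_vecMulVec, Matrix.trace_vecMulVec, qf, dotProduct_comm]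

theorem qf_symm (Z : Mat n) (a b : Fin n) : qf Z a b = qf Z b a := by
  rw [qf, qf, bv_swap a b, Matrix.mulVec_neg, neg_dotProduct, dotProduct_neg, neg_neg]

theorem qf_self (Z : Mat n) (a : Fin n) : qf Z a a = 0 := by
  simp [qf, bv]

theorem qf_add (Z Z' : Mat n) (a b : Fin n) : qf (Z + Z') a b = qf Z a b + qf Z' a b := by
  simp [qf, Matrix.add_mulVec]

theorem qf_smul (c : ℝ) (Z : Mat n) (a b : Fin n) : qf (c • Z) a b = c * qf Z a b := by
  simp [qf, Matrix.smul_mulVec]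

theorem qf_nonneg {Z : Mat n} (hZ : Z.PosSemidef) (a b : Fin n) : 0 ≤ qf Z a b := by
  simpa [qf] using hZ.dotProduct_mulVec_nonneg (bv a b)

theorem Lp_psd (a b : Fin n) : (Lp a b).PosSemidef := by
  simpa [Lp] using Matrix.posSemidef_vecMulVec_self_star (bv a b)

theorem LE_psd (s t : E → Fin n) {x : E → ℝ} (hx : ∀ e, 0 ≤ x e) : (LE s t x).PosSemidef := by
  exact psd_sum _ fun e _ => psd_smul (Lp_psd _ _) (hx e)

theorem Lw_psd {w : Fin n → Fin n → ℝ} (hw : ∀ a b, 0 ≤ w a b) : (Lw w).PosSemidef := by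
  exact psd_sum _ fun a _ => psd_sum _ fun b _ => psd_smul (Lp_psd _ _) (hw a b)

theorem Gam_posDef (s t : E → Fin n) : (Gam s t).PosDef := by
  rcases Nat.eq_zero_or_pos n with rfl | hn
  · exact Matrix.posDef_iff_dotProduct_mulVec.2 ⟨by ext i; exact i.elim0,
      fun x hx => absurd (Subsingleton.elim _ _) hx⟩
  · exact Matrix.PosDef.posSemidef_add (LE_psd s t fun _ => zero_le_one)
      (Matrix.PosDef.one.smul (by positivity))

theorem GamLw_posDef (s t : E → Fin n) {w : Fin n → Fin n → ℝ} (hw : ∀ a b, 0 ≤ w a b) :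
    (Gam s t + Lw w).PosDef := by
  exact (Gam_posDef s t).add_posSemidef (Lw_psd hw)

theorem trace_mul_LE (Z : Mat n) (s t : E → Fin n) (x : E → ℝ) :
    (Z * LE s t x).trace = ∑ e, x e * qf Z (s e) (t e) := by
  simp [LE, Finset.mul_sum, Matrix.trace_sum, qf_eq_trace]

theorem trace_mul_Lw (Z : Mat n) (w : Fin n → Fin n → ℝ) :
    (Z * Lw w).trace = ∑ a, ∑ b, w a b * qf Z a b := by
  simp [Lw, Finset.mul_sum, Matrix.trace_sum, qf_eq_trace]

theorem trace_mul_Ltri (Z : Mat n) (τ : Fin n → Fin n → Fin n → ℝ) :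
    (Z * Ltri τ).trace = ∑ a, ∑ b, ∑ c, τ a b c * (qf Z a b + qf Z b c - qf Z a c) := by
  simp only [Ltri, Tri, Finset.mul_sum, Matrix.trace_sum, Matrix.mul_smul, Matrix.trace_smul,
    mul_sub, mul_add, Matrix.trace_sub, Matrix.trace_add, qf_eq_trace, smul_eq_mul]

theorem trace_mul_Gam (Z : Mat n) (s t : E → Fin n) :
    (Z * Gam s t).trace = ∑ e, qf Z (s e) (t e) + Z.trace / n := by
  rw [Gam, mul_add, Matrix.trace_add, trace_mul_LE]
  simp [div_eq_inv_mul]

theorem cv_add (A B : Mat n) (S : Finset (Fin n)) : cv (A + B) S = cv A S + cv B S := by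
  simp [cv, Matrix.add_mulVec]

theorem cv_sub (A B : Mat n) (S : Finset (Fin n)) : cv (A - B) S = cv A S - cv B S := by
  simp [cv, Matrix.sub_mulVec]

theorem cv_smul (c : ℝ) (A : Mat n) (S : Finset (Fin n)) : cv (c • A) S = c * cv A S := by
  simp [cv, Matrix.smul_mulVec]

theorem cv_nonneg {A : Mat n} (hA : A.PosSemidef) (S : Finset (Fin n)) : 0 ≤ cv A S := by
  simpa [cv] using hA.dotProduct_mulVec_nonneg (iv S)

theorem cv_one (S : Finset (Fin n)) : cv (1 : Mat n) S = S.card := by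
  simp [cv, iv, dotProduct]

theorem cv_sum {ι : Type} (I : Finset ι) (A : ι → Mat n) (S : Finset (Fin n)) :
    cv (∑ i ∈ I, A i) S = ∑ i ∈ I, cv (A i) S := by
  simp [cv, Matrix.sum_mulVec, dotProduct_sum]

theorem cv_Lp (a b : Fin n) (S : Finset (Fin n)) :
    cv (Lp a b) S = if ¬ (a ∈ S ↔ b ∈ S) then 1 else 0 := by
  rw [cv, form_Lp, bv_dot]
  by_cases ha : a ∈ S <;> by_cases hb : b ∈ S <;> simp [iv, ha, hb]

theorem cv_LE (s t : E → Fin n) (x : E → ℝ) (S : Finset (Fin n)) :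
    cv (LE s t x) S = ∑ e ∈ cut s t S, x e := by
  simp only [LE, cv_sum, cv_smul, cv_Lp, cut, Finset.sum_filter, mul_ite, mul_one, mul_zero]

theorem cv_Gam_le (s t : E → Fin n) (S : Finset (Fin n)) :
    cv (Gam s t) S ≤ ((cut s t S).card : ℝ) + 1 := by
  rw [Gam, cv_add, cv_LE, cv_smul, cv_one]
  have : (1 / (n : ℝ)) * S.card ≤ 1 := by
    rw [one_div, ← div_eq_inv_mul]
    refine div_le_one_of_le₀ ?_ (Nat.cast_nonneg _)
    exact_mod_cast (Finset.card_le_univ S).trans (by simp)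
  simpa using this

theorem cv_Ltri_nonneg {τ : Fin n → Fin n → Fin n → ℝ} (hτ : ∀ a b c, 0 ≤ τ a b c)
    (S : Finset (Fin n)) : 0 ≤ cv (Ltri τ) S := by
  simp only [Ltri, cv_sum, cv_smul]
  refine Finset.sum_nonneg fun a _ => Finset.sum_nonneg fun b _ => Finset.sum_nonneg fun c _ =>
    mul_nonneg (hτ a b c) ?_
  rw [Tri, cv_sub, cv_add, cv_Lp, cv_Lp, cv_Lp]
  by_cases ha : a ∈ S <;> by_cases hb : b ∈ S <;> by_cases hc : c ∈ S <;> simp [ha, hb, hc]

/-- the trace is the sum of the values on singletons -/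
theorem trace_eq_sum_cv (A : Mat n) : A.trace = ∑ a, cv A {a} := by
  refine Finset.sum_congr rfl fun a _ => ?_
  simp [cv, iv, dotProduct, Matrix.mulVec]

end Crest.Agent.R37
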