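import Crest.Agent.R37.S2Mov
import Crest.Agent.R37.RPT4
import Crest.Agent.R37.CFeas
import Crest.Agent.R37.Lin1

/-!
# R37/CVal2: Stage-2 quantities in polynomial time.
-/

set_option autoImplicit false

open Matrix Finset Crest.Agent.Lib.PolyTime

noncomputable section

namespace Crest.Agent.R37

variable {α α' : Type} [Enc α] [Enc α']

variable {n m : α → ℕ} {s t : ∀ a, Fin (m a) → Fin (n a)} {W0 M0 : ∀ a, Mat (n a)} {k N : α → ℕ}
  {y : ∀ a, St (Fin (m a))}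

theorem cval2_coef (hG : PG n m s t) {L P : ∀ a, Finset (Fin (m a))} (hL : DPT L) (hP : DPT P)
    {W : ∀ a, Mat (n a)} (hW : MPT W) (hp : ∀ a, (W a).PosDef) {x : ∀ a, Fin (m a) → ℝ} (hx : VPT x) :
    VPT fun a => coef (s a) (t a) (L a) (P a) (W a) (x a) :=
  RPT.ite ((hL.comp pt_sigma_fst).mem dpt_sigma_snd)
    (RPT.add hx (((RPT.ofNat 64).mul ((RPT.ofNat 5).sub (RPT.pow hx 2))).mul
      (rpt_res (hG.hn.comp pt_sigma_fst) (hW.comp pt_sigma_fst) (fun p => hp p.1)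
        ((hG.hs.comp pt_sigma_fst).apply dpt_sigma_snd) ((hG.ht.comp pt_sigma_fst).apply dpt_sigma_snd))))
    (RPT.ite ((hP.comp pt_sigma_fst).mem dpt_sigma_snd) RPT.one RPT.zero)

theorem mpt_M2 (hG : PG n m s t) (hW : MPT W0) (hM : MPT M0) {L P : ∀ a, Finset (Fin (m a))}
    (hL : DPT L) (hP : DPT P) {x al : ∀ a, Fin (m a) → ℝ} (hx : VPT x) (hal : VPT al)
    (hp : ∀ a, (W2 (s a) (t a) (W0 a) (al a)).PosDef) :
    MPT fun a => M2 (s a) (t a) (W0 a) (M0 a) (L a) (P a) (x a) (al a) := by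
  have h1 : MPT fun a => W2 (s a) (t a) (W0 a) (al a) := hW.add (mpt_LE hG hal)
  exact (hM.sub h1).sub (mpt_LE hG (cval2_coef hG hL hP h1 hp hx))

theorem rpt_Phi2 (hG : PG n m s t) (hW : MPT W0) (hM : MPT M0) {L P : ∀ a, Finset (Fin (m a))}
    (hL : DPT L) (hP : DPT P) {x al : ∀ a, Fin (m a) → ℝ} (hx : VPT x) (hal : VPT al)
    (hp : ∀ a, (W2 (s a) (t a) (W0 a) (al a)).PosDef ∧
      (M2 (s a) (t a) (W0 a) (M0 a) (L a) (P a) (x a) (al a)).PosDef) :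
    RPT fun a => Phi2 (s a) (t a) (W0 a) (M0 a) (L a) (P a) (x a) (al a) := by
  have h1 : MPT fun a => W2 (s a) (t a) (W0 a) (al a) := hW.add (mpt_LE hG hal)
  exact (((mpt_M2 hG hW hM hL hP hx hal fun a => (hp a).1).inv hG.hn fun a => (hp a).2).trace (En.fin hG.hn)).add
    ((h1.inv hG.hn fun a => (hp a).1).trace (En.fin hG.hn))

theorem mpt_init (hG : PG n m s t) {H : ∀ a, Finset (Fin (m a))} (hH : DPT H)
    {w : ∀ a, Fin (n a) → Fin (n a) → ℚ} (hw : DPT w) (hw0 : ∀ a x y, 0 ≤ w a x y) {q : α → ℕ}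
    (hq : PT q) (hq1 : ∀ a, 1 ≤ q a) :
    MPT (fun a => W00 (s a) (t a) (fun x y => w a x y) (q a)) ∧
      MPT fun a => M00 (s a) (t a) (H a) (fun x y => w a x y) (q a) := by
  have h1 : MPT fun a => W00 (s a) (t a) (fun x y => w a x y) (q a) :=
    MPT.smul (RPT.one.div (RPT.nat hq)) ((mpt_Gam hG).add (mpt_Lw hG.hn
      (RPT.rat (((hw.comp pt_sigma_fst).apply dpt_sigma_snd.fst).apply dpt_sigma_snd.snd).pt)))
  have h2 : ∀ a, (W00 (s a) (t a) (fun x y => w a x y) (q a)).PosDef := fun a =>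
    (GamLw_posDef (s a) (t a) fun x y => by exact_mod_cast hw0 a x y).smul
      (one_div_pos.2 (by exact_mod_cast hq1 a))
  exact ⟨h1, (h1.add (mpt_LE hG (cval2_coef hG hH (DPT.finset hG.hm ((PT.const False).of_iff fun p => by simp))
    h1 h2 (RPT.one.div (RPT.ofNat 2))))).add (MPT.smul (RPT.one.div (RPT.nat hG.hn.1)) MPT.one)⟩

theorem pt_feas (hG : PG n m s t) (hk : UN k) (hN : UN N) (hy : DPT y) :
    PT fun a => Feas (s a) (t a) (k a) (N a) (y a) := by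
  have hu : PT fun p : Σ a, Fin (m a) => (y p.1).1 p.2 := ((hy.fst.comp pt_sigma_fst).apply dpt_sigma_snd).pt
  have hL : PT fun p : Σ a, Fin (m a) => p.2 ∈ (y p.1).2.2.1 :=
    (hy.snd.snd.fst.comp pt_sigma_fst).mem dpt_sigma_snd
  have hP : PT fun p : Σ a, Fin (m a) => p.2 ∈ (y p.1).2.2.2 :=
    (hy.snd.snd.snd.comp pt_sigma_fst).mem dpt_sigma_snd
  have h1 := pt_base (K := fun a => (k a : ℤ) * N a) (g := fun a => k a * N a + N a) hG
    (hk.1.int_natCast.int_mul hN.1.int_natCast) hy.fst ((hk.2.mul hN.2).add hN.2) fun a =>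
      ⟨by positivity, by push_cast; exact le_add_of_nonneg_right (Int.natCast_nonneg _)⟩
  have h2 : PT fun a => ∀ e, (y a).1 e ≤ N a :=
    (En.fin hG.hm).forall (hu.int_le (hN.1.comp pt_sigma_fst).int_natCast)
  have h3 : PT fun a => ∀ e, ¬ (e ∈ (y a).2.2.1 ∧ e ∈ (y a).2.2.2) := (En.fin hG.hm).forall (hL.and hP).not
  have h4 : PT fun a => ∀ e, ¬ (e ∉ (y a).2.2.1 ∧ e ∉ (y a).2.2.2 ∧ ¬ (y a).1 e = 0) :=
    (En.fin hG.hm).forall (hL.not.and (hP.not.and (hu.eq (PT.const 0)).not)).not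
  refine (h1.and (h2.and (h3.and h4))).of_iff fun a => ?_
  simp only [Feas, Finset.disjoint_left, not_and, not_not]
  refine ⟨fun h => ⟨h.1.1, h.2⟩, fun h => ⟨⟨h.1, fun e => (h.2.1 e).trans ?_⟩, h.2⟩⟩
  push_cast
  exact le_add_of_nonneg_left (by positivity)

theorem cv2b_sep (hG : PG n m s t) (hk : UN k) (hN : UN N) (hy : DPT y)
    (h : ∀ a, Feas (s a) (t a) (k a) (N a) (y a)) {e f : ∀ a, Fin (m a)} (he : DPT e) (hf : DPT f) :
    PT fun a => (y a).1 (e a) = 0 ∨ Sep (s a) (t a) (k a * N a) (y a).1 (e a) (f a) :=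
  pt_sep (g := fun a => k a * N a + N a) hG (hk.1.int_natCast.int_mul hN.1.int_natCast) hy.fst
    ((hk.2.mul hN.2).add hN.2) (fun a => ⟨by positivity, by push_cast; omega⟩)
    (fun a e => ⟨(h a).1.1 e, ((h a).2.1 e).trans (by push_cast; exact le_add_of_nonneg_left (by positivity))⟩)
    (fun a => (h a).1.2.1) he hf

theorem pt_msr (hG : PG n m s t) (hW : MPT W0) (hM : MPT M0) (hk : UN k) (hN : UN N) (hy : DPT y)
    {η : α → ℝ} (hη : RPT η)
    (h : ∀ a, Feas (s a) (t a) (k a) (N a) (y a) ∧ (stW (s a) (t a) (W0 a) (N a) (y a)).PosDef ∧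
      (stM (s a) (t a) (W0 a) (M0 a) (N a) (y a)).PosDef) :
    PT fun a => msr (s a) (t a) (W0 a) (M0 a) (k a) (N a) (η a) (y a) := by
  classical
  have hN' : RPT fun p : Σ a, Fin (m a) => (N p.1 : ℝ) := (RPT.nat hN.1).comp pt_sigma_fst
  have h1 : RPT fun a => stPhi (s a) (t a) (W0 a) (M0 a) (N a) (y a) :=
    rpt_Phi2 hG hW hM hy.snd.snd.fst hy.snd.snd.snd ((VPT.ofZ hy.fst).div hN') ((VPT.ofZ hy.snd.fst).div hN')
      fun a => (h a).2
  have e := En.fin hG.hm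
  have hu : PT fun p : Σ a, Fin (m a) => (y p.1).1 p.2 := ((hy.fst.comp pt_sigma_fst).apply dpt_sigma_snd).pt
  have h2 := (e.prod e).count
    (p := fun a q => (y a).1 q.1 = 0 ∨ Sep (s a) (t a) (k a * N a) (y a).1 q.1 q.2)
    (cv2b_sep (hG.comp pt_sigma_fst) (hk.comp pt_sigma_fst) (hN.comp pt_sigma_fst) (hy.comp pt_sigma_fst)
      (fun p => (h p.1).1) dpt_sigma_snd.fst dpt_sigma_snd.snd)
  have h3 := e.count (p := fun a i => (y a).1 i = 0 ∨ (y a).1 i = N a)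
    (((DPT.of_pt hu).eq (DPT.of_pt (PT.const 0))).or
      ((DPT.of_pt hu).eq (DPT.of_pt (hN.comp pt_sigma_fst).1.int_natCast)))
  refine ((((h1.div hη).natCeil.nat_add ((PT.const 2).nat_mul
    (((hG.hm.1.nat_mul hG.hm.1).nat_add hG.hm.1).nat_sub (h2.nat_add h3)))).nat_add
    ((PT.const 2).nat_mul hy.snd.snd.fst.card)).nat_add hy.snd.snd.snd.card).of_eq fun a => ?_
  simp only [msr, evn, Fintype.card_fin, sq]

section
variable {n' m' : ℕ} (s t : Fin m' → Fin n') (k N : ℕ) (y : St (Fin m'))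

/-- the computable version of `Cl` -/
def cv2b_cl (e f : Fin m') : Prop :=
  ¬ (y.1 e = 0 ∨ Sep s t (k * N) y.1 e f) ∧ ¬ (y.1 f = 0 ∨ Sep s t (k * N) y.1 f e)

def cv2b_pd (e f : Fin m') : Prop := f ∈ y.2.2.2 ∧ y.1 f < N ∧ cv2b_cl s t k N y e f

def cv2b_c (e f : Fin m') : Prop :=
  cv2b_pd s t k N y e f ∨ (f ∈ y.2.2.1 ∧ cv2b_cl s t k N y e f ∧ ¬ ∃ g, cv2b_pd s t k N y e g)

def cv2b_R (e r : Fin m') : Prop :=
  (∃ f, cv2b_c s t k N y e f) → cv2b_c s t k N y e r ∧ ∀ f, cv2b_c s t k N y e f → r.val ≤ f.val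

theorem cv2b_ex (e : Fin m') : ∃ r, cv2b_R s t k N y e r := by
  by_cases h : ∃ f, cv2b_c s t k N y e f
  · obtain ⟨r, hr, hm⟩ := wellFounded_lt.has_min {f | cv2b_c s t k N y e f} h
    exact ⟨r, fun _ => ⟨hr, fun f hf => not_lt.1 (hm f hf)⟩⟩
  · exact ⟨e, fun h' => (h h').elim⟩

variable {s t k N y}

theorem cv2b_trans {K : ℤ} {u : Fin m' → ℤ} {e f g : Fin m'} (h : ¬ Sep s t K u e f) (h' : ¬ Sep s t K u f g) :
    ¬ Sep s t K u e g := by
  rintro ⟨U, hU, hg, he⟩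
  by_cases hf : f ∈ ins s t U
  · exact h ⟨U, hU, hf, he⟩
  · exact h' ⟨U, hU, hg, hf⟩

theorem cv2b_cl_iff {e f : Fin m'} (h : cv2b_cl s t k N y e f) (g : Fin m') :
    cv2b_cl s t k N y e g ↔ cv2b_cl s t k N y f g := by
  simp only [cv2b_cl, not_or] at h ⊢
  exact ⟨fun h' => ⟨⟨h.2.1, cv2b_trans h.2.2 h'.1.2⟩, h'.2.1, cv2b_trans h'.2.2 h.1.2⟩,
    fun h' => ⟨⟨h.1.1, cv2b_trans h.1.2 h'.1.2⟩, h'.2.1, cv2b_trans h'.2.2 h.2.2⟩⟩

theorem cv2b_isRep {W : Mat n'} (hn : Nrm s t W N y) {rep : Fin m' → Fin m'}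
    (h : ∀ e, cv2b_R s t k N y e (rep e)) : IsRep s t k N y rep := by
  have hcl : ∀ e f, 0 < y.1 e → 0 < y.1 f → Cl s t (k * N) y.1 e f → cv2b_cl s t k N y e f :=
    fun e f he hf hc => ⟨not_or.2 ⟨he.ne', hc.1⟩, not_or.2 ⟨hf.ne', hc.2⟩⟩
  have hR : ∀ e ∈ y.2.2.1, cv2b_c s t k N y e (rep e) ∧ ∀ f, cv2b_c s t k N y e f → (rep e).val ≤ f.val := by
    intro e he
    refine h e ?_
    by_cases hg : ∃ g, cv2b_pd s t k N y e g
    · exact hg.imp fun g hg => Or.inl hg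
    · have : ¬ Sep s t (k * N) y.1 e e := fun ⟨U, _, h1, h2⟩ => h2 h1
      exact ⟨e, Or.inr ⟨he, hcl e e (hn.1 e he).1 (hn.1 e he).1 ⟨this, this⟩, hg⟩⟩
  intro e he
  refine ⟨?_, ?_, fun f hf hc => ?_, fun f hf hN hc => ?_⟩
  · exact (hR e he).1.elim (fun h => Or.inr ⟨h.1, h.2.1⟩) fun h => Or.inl h.1
  · have : cv2b_cl s t k N y e (rep e) := (hR e he).1.elim (fun h => h.2.2) fun h => h.2.1
    exact ⟨(not_or.1 this.1).2, (not_or.1 this.2).2⟩
  · have h1 := cv2b_cl_iff (hcl e f (hn.1 e he).1 (hn.1 f hf).1 hc)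
    have h2 : ∀ g, cv2b_c s t k N y e g ↔ cv2b_c s t k N y f g := fun g => by simp only [cv2b_c, cv2b_pd, h1]
    exact Fin.ext (le_antisymm ((hR f hf).2 _ ((h2 _).1 (hR e he).1)) ((hR e he).2 _ ((h2 _).2 (hR f hf).1)))
  · exact (hR e he).1.elim (fun h => h.1) fun h =>
      (h.2.2 ⟨f, hf, hN, hcl e f (hn.1 e he).1 (hn.2 f hf) hc⟩).elim

end

theorem cv2b_pt_cl (hG : PG n m s t) (hk : UN k) (hN : UN N) (hy : DPT y)
    (h : ∀ a, Feas (s a) (t a) (k a) (N a) (y a)) {e f : ∀ a, Fin (m a)} (he : DPT e) (hf : DPT f) :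
    PT fun a => cv2b_cl (s a) (t a) (k a) (N a) (y a) (e a) (f a) :=
  (cv2b_sep hG hk hN hy h he hf).not.and (cv2b_sep hG hk hN hy h hf he).not

theorem cv2b_pt_pd (hG : PG n m s t) (hk : UN k) (hN : UN N) (hy : DPT y)
    (h : ∀ a, Feas (s a) (t a) (k a) (N a) (y a)) {e f : ∀ a, Fin (m a)} (he : DPT e) (hf : DPT f) :
    PT fun a => cv2b_pd (s a) (t a) (k a) (N a) (y a) (e a) (f a) :=
  (hy.snd.snd.snd.mem hf).and (((hy.fst.apply hf).pt.int_lt hN.1.int_natCast).and (cv2b_pt_cl hG hk hN hy h he hf))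

theorem cv2b_pt_c (hG : PG n m s t) (hk : UN k) (hN : UN N) (hy : DPT y)
    (h : ∀ a, Feas (s a) (t a) (k a) (N a) (y a)) {e f : ∀ a, Fin (m a)} (he : DPT e) (hf : DPT f) :
    PT fun a => cv2b_c (s a) (t a) (k a) (N a) (y a) (e a) (f a) :=
  (cv2b_pt_pd hG hk hN hy h he hf).or ((hy.snd.snd.fst.mem hf).and ((cv2b_pt_cl hG hk hN hy h he hf).and
    ((En.fin hG.hm).exists (p := fun a g => cv2b_pd (s a) (t a) (k a) (N a) (y a) (e a) g)
      (cv2b_pt_pd (hG.comp pt_sigma_fst) (hk.comp pt_sigma_fst) (hN.comp pt_sigma_fst) (hy.comp pt_sigma_fst)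
        (fun p => h p.1) (he.comp pt_sigma_fst) dpt_sigma_snd)).not))

theorem cv2b_pt_R (hG : PG n m s t) (hk : UN k) (hN : UN N) (hy : DPT y)
    (h : ∀ a, Feas (s a) (t a) (k a) (N a) (y a)) {e f : ∀ a, Fin (m a)} (he : DPT e) (hf : DPT f) :
    PT fun a => cv2b_R (s a) (t a) (k a) (N a) (y a) (e a) (f a) := by
  have hc := cv2b_pt_c (hG.comp pt_sigma_fst) (hk.comp pt_sigma_fst) (hN.comp pt_sigma_fst)
    (hy.comp pt_sigma_fst) (fun p : Σ a, Fin (m a) => h p.1) (he.comp pt_sigma_fst) dpt_sigma_snd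
  exact ((En.fin hG.hm).exists (p := fun a g => cv2b_c (s a) (t a) (k a) (N a) (y a) (e a) g) hc).imp
    ((cv2b_pt_c hG hk hN hy h he hf).and ((En.fin hG.hm).forall
      (p := fun a g => cv2b_c (s a) (t a) (k a) (N a) (y a) (e a) g → (f a).val ≤ g.val)
      (hc.imp ((hf.comp pt_sigma_fst).finVal.nat_le
        (dpt_sigma_snd (β := fun a => Fin (m a))).finVal))))

/-- least paid fractional edge of the class if there is one, else least light edge of the class -/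
theorem solv_rep (hG : PG n m s t) (hk : UN k) (hN : UN N) (hy : DPT y)
    (h : ∀ a, Feas (s a) (t a) (k a) (N a) (y a)) :
    Solv fun a (rep : Fin (m a) → Fin (m a)) =>
      Nrm (s a) (t a) (W0 a) (N a) (y a) → IsRep (s a) (t a) (k a) (N a) (y a) rep := by
  have hφ : PT fun q : Σ p : Σ a, Fin (m a), Fin (m p.1) => q.1.1 :=
    ((DPT.of_pt pt_sigma_fst).comp pt_sigma_fst).pt
  refine (Solv.pi hG.hm (R := fun a e r => cv2b_R (s a) (t a) (k a) (N a) (y a) e r)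
    (Solv.choose (En.fin (hG.hm.comp pt_sigma_fst)) ?_ fun p => cv2b_ex _ _ _ _ _ _)).mono
    fun a rep hr hn => cv2b_isRep hn hr
  exact cv2b_pt_R (hG.comp hφ) (hk.comp hφ) (hN.comp hφ) (hy.comp hφ) (fun q => h q.1.1)
    (dpt_sigma_snd.comp pt_sigma_fst) dpt_sigma_snd

end Crest.Agent.R37
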