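import Mathlib

/-!
# Row 37 (thin spanning trees): basic definitions.  See `Crest/Agent/R37/Blueprint.lean` for the route.
-/

set_option autoImplicit false

open Matrix Finset

noncomputable section

namespace Crest.Agent.R37

abbrev Mat (n : ℕ) := Matrix (Fin n) (Fin n) ℝ

variable {n : ℕ} {E : Type} [Fintype E] [DecidableEq E]

/-- `χ_a - χ_b` -/
def bv (a b : Fin n) : Fin n → ℝ := Pi.single a 1 - Pi.single b 1

/-- Laplacian of the single edge `ab` -/
def Lp (a b : Fin n) : Mat n := vecMulVec (bv a b) (bv a b)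

/-- bilinear pairing `b_{ab}ᵀ Z b_{cd}` -/
def bf (Z : Mat n) (a b c d : Fin n) : ℝ := bv a b ⬝ᵥ Z *ᵥ bv c d

/-- `b_{ab}ᵀ Z b_{ab}` -/
def qf (Z : Mat n) (a b : Fin n) : ℝ := bv a b ⬝ᵥ Z *ᵥ bv a b

/-- effective resistance with respect to a positive definite matrix -/
def res (W : Mat n) (a b : Fin n) : ℝ := qf W⁻¹ a b

/-- Laplacian with weights on ordered pairs -/
def Lw (w : Fin n → Fin n → ℝ) : Mat n := ∑ a, ∑ b, w a b • Lp a b

/-- Laplacian with weights on the edges -/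
def LE (s t : E → Fin n) (x : E → ℝ) : Mat n := ∑ e, x e • Lp (s e) (t e)

/-- the budget matrix `L_G + I / n` -/
def Gam (s t : E → Fin n) : Mat n := LE s t (fun _ => 1) + (1 / (n : ℝ)) • (1 : Mat n)

/-- triangle matrix -/
def Tri (a b c : Fin n) : Mat n := Lp a b + Lp b c - Lp a c

def Ltri (τ : Fin n → Fin n → Fin n → ℝ) : Mat n := ∑ a, ∑ b, ∑ c, τ a b c • Tri a b c

/-- indicator vector of a vertex set -/
def iv (S : Finset (Fin n)) : Fin n → ℝ := fun i => if i ∈ S then 1 else 0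

/-- value of a matrix on a cut -/
def cv (A : Mat n) (S : Finset (Fin n)) : ℝ := iv S ⬝ᵥ A *ᵥ iv S

/-- edges inside `U` -/
def ins (s t : E → Fin n) (U : Finset (Fin n)) : Finset E := univ.filter fun e => s e ∈ U ∧ t e ∈ U

/-- edges with exactly one end in `S` -/
def cut (s t : E → Fin n) (S : Finset (Fin n)) : Finset E :=
  univ.filter fun e => ¬ (s e ∈ S ↔ t e ∈ S)

/-- `u (E[U]) ≤ K (|U| - 1)` for all nonempty `U` -/
def Ind (s t : E → Fin n) (K : ℤ) (u : E → ℤ) : Prop :=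
  ∀ U : Finset (Fin n), U.Nonempty → ∑ e ∈ ins s t U, u e ≤ K * ((U.card : ℤ) - 1)

/-- integer points of `K` times the spanning tree polytope -/
def Base (s t : E → Fin n) (K : ℤ) (u : E → ℤ) : Prop :=
  (∀ e, 0 ≤ u e) ∧ Ind s t K u ∧ ∑ e, u e = K * ((n : ℤ) - 1)

/-- indicator of an edge set -/
def ind (F : Finset E) : E → ℤ := fun e => if e ∈ F then 1 else 0

/-- tight vertex sets -/
def Tight (s t : E → Fin n) (K : ℤ) (u : E → ℤ) (U : Finset (Fin n)) : Prop :=
  U.Nonempty ∧ ∑ e ∈ ins s t U, u e = K * ((U.card : ℤ) - 1)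

/-- some tight set contains `f` and not `e`: the exchange `e → f` is blocked -/
def Sep (s t : E → Fin n) (K : ℤ) (u : E → ℤ) (e f : E) : Prop :=
  ∃ U, Tight s t K u U ∧ f ∈ ins s t U ∧ e ∉ ins s t U

/-- `e` and `f` lie in the same tight sets -/
def Cl (s t : E → Fin n) (K : ℤ) (u : E → ℤ) (e f : E) : Prop :=
  ¬ Sep s t K u e f ∧ ¬ Sep s t K u f e

/-- `U` carries `K` spanning trees made of edges of `F` -/
def Dense (s t : E → Fin n) (K : ℤ) (F : Finset E) (U : Finset (Fin n)) : Prop :=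
  ∃ J : Finset E, J ⊆ F ∧ J ⊆ ins s t U ∧ Ind s t K (ind J) ∧ (J.card : ℤ) = K * ((U.card : ℤ) - 1)

/-- `a`, `b` are spanned by `F` in the `K`-fold graphic matroid -/
def Sp (s t : E → Fin n) (K : ℤ) (F : Finset E) (a b : Fin n) : Prop :=
  a = b ∨ ∃ U, Dense s t K F U ∧ a ∈ U ∧ b ∈ U

open Classical in
/-- number of classes of a relation on the vertices (used for equivalence relations) -/
def ncl (r : Fin n → Fin n → Prop) : ℕ :=
  (univ.image fun a => univ.filter fun b => r a b).card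

open Classical in
/-- edges cheaper than `τ` -/
def cheap (c : E → ℝ) (τ : ℝ) : Finset E := univ.filter fun e => c e < τ

/-- Stage-1 certificate -/
def Cert (s t : E → Fin n) (H : Finset E) (w : Fin n → Fin n → ℝ) (cap : ℝ) : Prop :=
  ∀ S : Finset (Fin n), cv (Lw w) S + ∑ e ∈ H ∩ cut s t S, res (Gam s t + Lw w) (s e) (t e) ≤
    cap * (((cut s t S).card : ℝ) + 1)

open Classical in
/-- edges whose ends are not related by `r` -/
def cross (s t : E → Fin n) (r : Fin n → Fin n → Prop) : Finset E :=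
  univ.filter fun e => ¬ r (s e) (t e)

/-- partition connectivity: every partition into `p` parts is crossed by `k (p - 1)` edges -/
def PC (s t : E → Fin n) (k : ℤ) : Prop :=
  ∀ r : Fin n → Fin n → Prop, Equivalence r → k * ((ncl r : ℤ) - 1) ≤ (cross s t r).card

/-- pseudo-metric given as a function -/
def IsMet (D : Fin n → Fin n → ℝ) : Prop :=
  (∀ a, D a a = 0) ∧ (∀ a b, 0 ≤ D a b) ∧ (∀ a b, D a b = D b a) ∧ ∀ a b c, D a c ≤ D a b + D b c

/-- Stage-1 dual solution -/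
def Dual (s t : E → Fin n) (H : Finset E) (Z : Mat n) (cap κ B : ℝ) : Prop :=
  Z.PosSemidef ∧ (Z * Gam s t).trace ≤ 3 / 2 ∧ (∀ a b c, qf Z a c ≤ qf Z a b + qf Z b c + κ) ∧
    ∀ w : Fin n → Fin n → ℝ, (∀ a b, 0 ≤ w a b) → ∑ a, ∑ b, w a b ≤ B ^ 2 →
      cap / 2 ≤ ∑ a, ∑ b, w a b * qf Z a b +
        ∑ e ∈ H, qf Z (s e) (t e) * res (Gam s t + Lw w) (s e) (t e)

end Crest.Agent.R37
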