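import Crest.Agent.R37.DepDefs

/-!
# R37/Dep1: closure properties of `DPT` (structural).  Most follow from `PT.of_enc_eq`, `PT.of_enc_eq_out` and the lemmas for `Tr`-valued data:
view `β a` as `Tr` through `enc` (e.g. `enc (x, y) = enc (enc x, enc y)`, `enc l = enc (l.map enc)`).
-/

set_option autoImplicit false

open Matrix Finset Crest.Agent.Lib.PolyTime

noncomputable section

namespace Crest.Agent.R37

variable {α α' : Type} [Enc α] [Enc α']

variable {β γ δ : α → Type} [∀ a, Enc (β a)] [∀ a, Enc (γ a)] [∀ a, Enc (δ a)]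

theorem DPT.of_pt {σ : Type} [Enc σ] {f : α → σ} (h : PT f) : DPT (β := fun _ => σ) f := by
  exact h.enc'

theorem DPT.pt {σ : Type} [Enc σ] {f : α → σ} (h : DPT (β := fun _ => σ) f) : PT f := by
  exact PT.of_enc_eq_out h fun _ => rfl

theorem DPT.of_eq {f g : ∀ a, β a} (h : DPT f) (e : ∀ a, f a = g a) : DPT g := by
  exact PT.of_eq h fun a => by rw [e a]

theorem DPT.comp {f : ∀ a, β a} (h : DPT f) {φ : α' → α} (hφ : PT φ) : DPT fun a' => f (φ a') := by
  exact PT.comp (f := fun a => (enc (f a) : Tr)) h hφ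

theorem DPT.esize {f : ∀ a, β a} (h : DPT f) : PB fun a => esize (f a) := by
  exact PB.esize (f := fun a => (enc (f a) : Tr)) h

theorem pt_sigma_mk {φ : α' → α} (hφ : PT φ) {g : ∀ a', β (φ a')} (hg : DPT g) :
    PT fun a' => (⟨φ a', g a'⟩ : Sigma β) := by
  exact (hφ.prodMk hg).of_enc_eq_out fun _ => rfl

theorem pt_sigma_fst : PT fun p : Sigma β => p.1 := by
  exact PT.fst (f := fun p : Sigma β => (p.1, (enc p.2 : Tr))) (PT.of_enc_eq fun _ => rfl)

theorem dpt_sigma_snd : DPT fun p : Sigma β => p.2 := by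
  exact PT.snd (f := fun p : Sigma β => (p.1, (enc p.2 : Tr))) (PT.of_enc_eq fun _ => rfl)

theorem DPT.pair {f : ∀ a, β a} {g : ∀ a, γ a} (hf : DPT f) (hg : DPT g) : DPT fun a => (f a, g a) := by
  exact (PT.prodMk hf hg).of_enc_eq_out fun _ => rfl

theorem DPT.fst {f : ∀ a, β a × γ a} (h : DPT f) : DPT fun a => (f a).1 := by
  exact PT.fst (f := fun a => ((enc (f a).1 : Tr), (enc (f a).2 : Tr)))
    (PT.of_enc_eq_out h fun _ => rfl)

theorem DPT.snd {f : ∀ a, β a × γ a} (h : DPT f) : DPT fun a => (f a).2 := by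
  exact PT.snd (f := fun a => ((enc (f a).1 : Tr), (enc (f a).2 : Tr)))
    (PT.of_enc_eq_out h fun _ => rfl)

theorem DPT.inl {f : ∀ a, β a} (h : DPT f) : DPT fun a => (Sum.inl (f a) : β a ⊕ γ a) := by
  exact ((PT.const false).prodMk h).of_enc_eq_out fun _ => rfl

theorem DPT.inr {f : ∀ a, γ a} (h : DPT f) : DPT fun a => (Sum.inr (f a) : β a ⊕ γ a) := by
  exact ((PT.const true).prodMk h).of_enc_eq_out fun _ => rfl

theorem DPT.some {f : ∀ a, β a} (h : DPT f) : DPT fun a => some (f a) := by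
  exact (PT.some h).of_enc_eq_out fun _ => rfl

theorem DPT.none : DPT fun a => (none : Option (β a)) := by
  exact (PT.const (Option.none : Option Tr)).of_enc_eq_out fun _ => rfl

theorem DPT.val {p : ∀ a, β a → Prop} {f : ∀ a, {x // p a x}} (h : DPT f) : DPT fun a => (f a).1 := by
  exact h

theorem DPT.mk {p : ∀ a, β a → Prop} {f : ∀ a, β a} (h : DPT f) (hp : ∀ a, p a (f a)) :
    DPT fun a => (⟨f a, hp a⟩ : {x // p a x}) := by
  exact h

theorem DPT.finVal {n : α → ℕ} {i : ∀ a, Fin (n a)} (h : DPT i) : PT fun a => (i a).val := by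
  exact PT.of_enc_eq_out h fun _ => rfl

theorem DPT.finMk {n k : α → ℕ} (h : PT k) (hk : ∀ a, k a < n a) :
    DPT fun a => (⟨k a, hk a⟩ : Fin (n a)) := by
  exact h.of_enc_eq_out fun _ => rfl

theorem DPT.eq {f g : ∀ a, β a} (hf : DPT f) (hg : DPT g) : PT fun a => f a = g a := by
  exact (PT.eq hf hg).of_iff fun a => ⟨fun h => Enc.inj h, fun h => congrArg enc h⟩

theorem DPT.cases {c : α → Prop} {f : ∀ a, β a} (hc : PT c) (h1 : DPT fun a : {a // c a} => f a.1)
    (h2 : DPT fun a : {a // ¬ c a} => f a.1) : DPT f := by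
  exact PT.cases_sub (out := fun a => (enc (f a) : Tr)) hc h1 h2

theorem DPT.ite {c : α → Prop} [∀ a, Decidable (c a)] {f g : ∀ a, β a} (hc : PT c) (hf : DPT f)
    (hg : DPT g) : DPT fun a => if c a then f a else g a := by
  exact (PT.ite hc hf hg).of_eq fun a => by beta_reduce; split_ifs <;> rfl

/-- case split on a sum-typed index -/
theorem DPT.sumCases {ε : (Σ a, β a ⊕ γ a) → Type} [∀ p, Enc (ε p)] {F : ∀ p, ε p}
    (h1 : DPT fun p : Σ a, β a => F ⟨p.1, Sum.inl p.2⟩)
    (h2 : DPT fun p : Σ a, γ a => F ⟨p.1, Sum.inr p.2⟩) : DPT F := by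
  have hs : PT fun p : Σ a, β a ⊕ γ a => (p.2.isRight, (p.2.elim enc enc : Tr)) :=
    PT.of_enc_eq_out dpt_sigma_snd fun p => by rcases p with ⟨a, b | c⟩ <;> rfl
  refine DPT.cases (c := fun p => p.2.isRight = true) hs.fst.eq_true ?_ ?_
  · have hφ : PT fun p : {p : Σ a, β a ⊕ γ a // p.2.isRight = true} =>
        (⟨p.1.1, p.1.2.getRight p.2⟩ : Σ a, γ a) :=
      ((pt_sigma_fst.restrict _).prodMk (hs.snd.restrict _)).of_enc_eq_out fun p => by
        rcases p with ⟨⟨a, b | c⟩, h⟩
        · simp at h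
        · rfl
    refine PT.of_eq (h2.comp hφ) fun p => ?_
    rcases p with ⟨⟨a, b | c⟩, h⟩
    · simp at h
    · rfl
  · have hφ : PT fun p : {p : Σ a, β a ⊕ γ a // ¬ p.2.isRight = true} =>
        (⟨p.1.1, p.1.2.getLeft (by simpa using p.2)⟩ : Σ a, β a) :=
      ((pt_sigma_fst.restrict _).prodMk (hs.snd.restrict _)).of_enc_eq_out fun p => by
        rcases p with ⟨⟨a, b | c⟩, h⟩
        · rfl
        · simp at h
    refine PT.of_eq (h1.comp hφ) fun p => ?_
    rcases p with ⟨⟨a, b | c⟩, h⟩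
    · rfl
    · simp at h

theorem DPT.optCases {ε : (Σ a, Option (β a)) → Type} [∀ p, Enc (ε p)] {F : ∀ p, ε p}
    (h1 : DPT fun a => F ⟨a, Option.none⟩) (h2 : DPT fun p : Σ a, β a => F ⟨p.1, Option.some p.2⟩) :
    DPT F := by
  have hs : PT fun p : Σ a, Option (β a) => (p.2.map enc : Option Tr) :=
    PT.of_enc_eq_out dpt_sigma_snd fun p => by rcases p with ⟨a, _ | c⟩ <;> rfl
  refine DPT.cases (c := fun p => p.2.isSome = true)
    (hs.isSome.eq_true.of_iff fun p => by simp) ?_ ?_
  · have hφ : PT fun p : {p : Σ a, Option (β a) // p.2.isSome = true} =>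
        (⟨p.1.1, p.1.2.get p.2⟩ : Σ a, β a) :=
      ((pt_sigma_fst.restrict _).prodMk
        ((hs.option_getD (PT.const Tr.nil)).restrict _)).of_enc_eq_out fun p => by
        rcases p with ⟨⟨a, _ | c⟩, h⟩
        · simp at h
        · rfl
    refine PT.of_eq (h2.comp hφ) fun p => ?_
    rcases p with ⟨⟨a, _ | c⟩, h⟩
    · simp at h
    · rfl
  · refine PT.of_eq (h1.comp (pt_sigma_fst.restrict fun p : Σ a, Option (β a) =>
      ¬ p.2.isSome = true)) fun p => ?_
    rcases p with ⟨⟨a, _ | c⟩, h⟩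
    · rfl
    · simp at h

theorem UN.comp {n : α → ℕ} (h : UN n) {φ : α' → α} (hφ : PT φ) : UN fun a' => n (φ a') := by
  exact ⟨h.1.comp hφ, h.2.comp hφ⟩

theorem PG.comp {n m : α → ℕ} {s t : ∀ a, Fin (m a) → Fin (n a)} (h : PG n m s t) {φ : α' → α}
    (hφ : PT φ) : PG (fun a' => n (φ a')) (fun a' => m (φ a')) (fun a' => s (φ a')) (fun a' => t (φ a')) := by
  exact ⟨h.hn.comp hφ, h.hm.comp hφ, h.hs.comp hφ, h.ht.comp hφ⟩

theorem dep1_ptc {f : α → List Bool} (hf : PT f) :
    Crest.Complexity.PolyTimeComputable (fun a : α => (enc a : Tr).bits) (fun y : List Bool => y) f := by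
  obtain ⟨k, hk⟩ := hf.exists_CT
  have hu : PT fun r : List Bool => (pairUp r.reverse).map Prod.fst :=
    (pairUp_pt.comp (PT.reverse PT.id')).map (f := fun _ p => p.1) (by fun_prop)
  obtain ⟨k0, h0⟩ := hu.exists_CT
  have h1 := TC.reindex h0 fun a : α => (((enc a : Tr).bits).flatMap fun g => [id g, id g]).reverse
  simp only [List.reverse_reverse, pairUp_flatMap, List.map_map] at h1
  have h2 : TC (fun a : α => bitsTr (enc a : Tr).bits) (fun a => (enc a : Tr))
      (fun a => 9 * (enc a : Tr).bits.length + 4) := ⟨outP, 2, fun a => runs_outP _⟩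
  have h1' : TC (fun a : α => bitsTr (((enc a : Tr).bits).flatMap fun g => [id g, id g]).reverse)
      (fun a => bitsTr (enc a : Tr).bits) _ :=
    h1.congr (fun _ => rfl) fun a => by
      show _ = bitsTr _
      congr 1
      simp [Function.comp_def]
  have h3 := (h1'.comp h2).comp hk
  refine polyTimeComputable_of_timeBound (timeBoundComputable_of_TC (fun a : α => (enc a : Tr).bits)
    (fun y : List Bool => y) f id id _
    (fun n => (8 * n + 2) ^ k0 + 9 * n + 4 + (n + 1) ^ k + 9 * (n + (n + 1) ^ k)) h3 fun a => ?_)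
    ((8 * Polynomial.X + 2) ^ k0 + 9 * Polynomial.X + 4 + (Polynomial.X + 1) ^ k +
      9 * (Polynomial.X + (Polynomial.X + 1) ^ k) + 15 * Polynomial.X + 8) fun n => by simp
  have h4 := hk.esize_le a
  have h5 := length_lt_esize (f a)
  have h6 : (enc a : Tr).bits.length = esize a := Tr.length_bits _
  have h7 : (esize (((enc a : Tr).bits).flatMap fun g => [id g, id g]).reverse + 1) ^ k0 ≤
      (8 * esize a + 2) ^ k0 := by
    refine Nat.pow_le_pow_left ?_ _
    have := esize_boolList_le (((enc a : Tr).bits).flatMap fun g => [id g, id g]).reverse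
    have hl : (((enc a : Tr).bits).flatMap fun g => [id g, id g]).reverse.length =
        2 * (enc a : Tr).bits.length := by
      simp [List.length_flatMap, Nat.mul_comm]
    omega
  rw [h6]
  omega

open Converse Crest.Agent.R290 Crest.Agent.R290.GmSim in
theorem dep1_ext {β : Type} {ea : β → List Bool} {f : β → List Bool}
    (h : Crest.Complexity.PolyTimeComputable ea (fun y : List Bool => y) f) :
    ∃ g : List Bool → List Bool, PT g ∧ ∀ a, g (ea a) = f a := by
  obtain ⟨M⟩ := h
  let i : Bool → Σ k, M.tm.Γ k := fun g => ⟨M.tm.k₀, M.inputAlphabet.invFun g⟩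
  let o : Bool → Σ k, M.tm.Γ k := fun g => ⟨M.tm.k₁, M.outputAlphabet.invFun g⟩
  obtain ⟨τ, q₀, A, c₀, c₁, c, cS, hinj, h⟩ := exists_gm_out M.tm
    ((Set.finite_range i).union (Set.finite_range o))
  obtain ⟨d, hd, hd'⟩ := exists_dec (c := fun g => cS (o g)) fun g g' e => by
    have := hinj (Or.inr ⟨g, rfl⟩) (Or.inr ⟨g', rfl⟩) e
    simp only [o, Sigma.mk.injEq, heq_eq_eq, true_and] at this
    exact M.outputAlphabet.symm.injective this
  have hi : PT fun g => cS (i g) := PT.of_finite _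
  have hea : PT fun x : List Bool => x := PT.id'
  have hrun := pt_gm_run τ (n := fun x : List Bool => c * M.time.eval x.length)
    (x := fun x => (q₀, (List.replicate A []).set c₀ (x.map fun g => cS (i g))))
    ((PT.const c).nat_mul (hea.length.polyEval _)) (by fun_prop)
    ((PT.const q₀).prodMk ((PT.const _).set (PT.const c₀)
      (hea.map (f := fun _ g => cS (i g)) (hi.comp PT.snd'))))
  have hfin : PT fun x : List Bool => (((GM.step τ)^[c * M.time.eval x.length]
      (q₀, (List.replicate A []).set c₀ (x.map fun g => cS (i g)))).2.getD c₁ []).filterMap d := by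
    fun_prop
  refine ⟨_, hfin, fun a => ?_⟩
  have h1 := h _ _ _ (fun s hs => by
    obtain ⟨g, -, rfl⟩ := List.mem_map.1 hs
    exact Or.inl ⟨g, rfl⟩) ⟨M.outputsFun a⟩
  rw [List.map_map, List.map_map] at h1
  beta_reduce
  rw [show ((ea a).map fun g => cS (i g)) = (ea a).map
    ((fun s => cS ⟨M.tm.k₀, s⟩) ∘ M.inputAlphabet.invFun) from rfl, h1, List.filterMap_map]
  exact (List.filterMap_congr fun g _ => hd' g).trans (by simp)

/-- a promise algorithm extends to a total one (run the compiled machine with a clock, as in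
`PT.of_polyTimeComputable`; the machine comes from `topTM_outputs` / `timeBoundComputable_of_TC`) -/
theorem exists_total {f : α → List Bool} (hf : PT f) :
    ∃ g : Tr → List Bool, PT g ∧ ∀ a, g (enc a) = f a := by
  obtain ⟨g, hg, h⟩ := dep1_ext (dep1_ptc hf)
  exact ⟨fun x => g (enc x : Tr).bits, hg.comp PT.id'.encBits, h⟩

end Crest.Agent.R37
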