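import Crest.Agent.R37.Dep1

/-!
# R37/Dep2: tables, finsets, lists, enumerations.
-/

set_option autoImplicit false

open Matrix Finset Crest.Agent.Lib.PolyTime

noncomputable section

namespace Crest.Agent.R37

variable {α α' : Type} [Enc α] [Enc α']

variable {β γ ι κ : α → Type} [∀ a, Enc (β a)] [∀ a, Enc (γ a)] [∀ a, Enc (ι a)] [∀ a, Enc (κ a)]
  {n : α → ℕ}

theorem DPT.trList {l : ∀ a, List (β a)} (h : DPT l) : PT fun a => ((l a).map enc : List Tr) :=
  PT.of_enc_eq_out h fun a => by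
    show Tr.ofList (((l a).map enc).map enc) = Tr.ofList ((l a).map enc)
    rw [List.map_map]; rfl

theorem DPT.ofTrList {l : ∀ a, List (β a)} (h : PT fun a => ((l a).map enc : List Tr)) : DPT l :=
  PT.of_enc_eq_out h fun a => by
    show Tr.ofList ((l a).map enc) = Tr.ofList (((l a).map enc).map enc)
    rw [List.map_map]; rfl

theorem DPT.sigList {l : ∀ a, List (β a)} (h : DPT l) :
    PT fun a => (l a).map fun b => (⟨a, b⟩ : Σ a, β a) :=
  (h.trList.map (f := fun a t => (a, t)) (by fun_prop)).of_enc_eq_out fun a => by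
    show Tr.ofList (((l a).map _).map enc) = Tr.ofList ((((l a).map enc).map _).map enc)
    simp only [List.map_map]; rfl

theorem DPT.ofFn {F : ∀ a, Fin (n a) → β a} : DPT F ↔ DPT fun a => List.ofFn (F a) := Iff.rfl

theorem DPT.get' {l : ∀ a, List (β a)} (h : DPT l) {i : ∀ a, Fin (l a).length} (hi : DPT i) :
    DPT fun a => (l a).get (i a) :=
  (h.trList.getD hi.finVal (PT.const Tr.nil)).of_eq fun a => by
    simp [List.getD_eq_getElem?_getD]

theorem DPT.map' {l : ∀ a, List (β a)} (h : DPT l) {f : ∀ a, β a → γ a}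
    (hf : DPT fun p : Σ a, β a => f p.1 p.2) : DPT fun a => (l a).map (f a) :=
  DPT.ofTrList ((h.sigList.map (f := fun _ p => (enc (f p.1 p.2) : Tr)) (PT.comp hf PT.snd')).of_eq
    fun a => by simp only [List.map_map]; rfl)

theorem dpt_finRange' (hn : UN n) : DPT fun a => List.finRange (n a) :=
  PT.of_enc_eq_out (PT.range hn.1 hn.2) fun a => by
    show Tr.ofList ((List.finRange (n a)).map enc) = Tr.ofList ((List.range (n a)).map enc)
    rw [← List.map_coe_finRange_eq_range, List.map_map]; rfl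

theorem DPT.apply {F : ∀ a, Fin (n a) → β a} {i : ∀ a, Fin (n a)} (hF : DPT F) (hi : DPT i) :
    DPT fun a => F a (i a) := by
  have hl : ∀ a, (i a).val < (List.ofFn (F a)).length := fun a => by simp
  have h := (DPT.ofFn.1 hF).get' (DPT.finMk hi.finVal hl)
  exact h.of_eq fun a => by simp

theorem DPT.pi (hn : UN n) {F : ∀ a, Fin (n a) → β a} (h : DPT fun p : Σ a, Fin (n a) => F p.1 p.2) :
    DPT F := by
  refine DPT.ofFn.2 (((dpt_finRange' hn).map' h).of_eq fun a => ?_)
  rw [List.ofFn_eq_map]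

theorem DPT.mem {S : ∀ a, Finset (Fin (n a))} {i : ∀ a, Fin (n a)} (hS : DPT S) (hi : DPT i) :
    PT fun a => i a ∈ S a := by
  have h : DPT fun a => fun j : Fin (n a) => decide (j ∈ S a) := hS
  exact (h.apply hi).pt.of_bool fun a => by simp

theorem DPT.finset (hn : UN n) {S : ∀ a, Finset (Fin (n a))}
    (h : PT fun p : Σ a, Fin (n a) => p.2 ∈ S p.1) : DPT S := by
  exact DPT.pi (β := fun _ => Bool) hn (F := fun a j => decide (j ∈ S a)) (DPT.of_pt h.decide)

theorem DPT.card {S : ∀ a, Finset (Fin (n a))} (hS : DPT S) : PT fun a => (S a).card := by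
  have h : PT fun a => List.ofFn fun j : Fin (n a) => decide (j ∈ S a) :=
    PT.of_enc_eq_out hS fun _ => rfl
  refine (h.countP (f := fun _ b => b) PT.snd').of_eq fun a => ?_
  rw [List.ofFn_eq_map, List.countP_map, List.countP_eq_length_filter,
    ← List.toFinset_card_of_nodup ((List.nodup_finRange _).filter _)]
  congr 1; ext j; simp

theorem DPT.length {l : ∀ a, List (β a)} (h : DPT l) : UN fun a => (l a).length := by
  exact ⟨h.trList.length.of_eq fun a => by simp,
    (PB.length h.trList).mono fun a => by simp⟩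

theorem DPT.get {l : ∀ a, List (β a)} (h : DPT l) {i : ∀ a, Fin (l a).length} (hi : DPT i) :
    DPT fun a => (l a).get (i a) := by
  exact h.get' hi

theorem DPT.map {l : ∀ a, List (β a)} (h : DPT l) {f : ∀ a, β a → γ a}
    (hf : DPT fun p : Σ a, β a => f p.1 p.2) : DPT fun a => (l a).map (f a) := by
  exact h.map' hf

theorem DPT.filter {l : ∀ a, List (β a)} (h : DPT l) {f : ∀ a, β a → Bool}
    (hf : PT fun p : Σ a, β a => f p.1 p.2) : DPT fun a => (l a).filter (f a) := by
  refine DPT.ofTrList ((((h.sigList.filter (f := fun _ p => f p.1 p.2) (hf.comp PT.snd'))).map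
    (f := fun _ p => (enc p.2 : Tr)) (PT.comp dpt_sigma_snd PT.snd')).of_eq fun a => ?_)
  rw [List.filter_map, List.map_map]; rfl

theorem DPT.flatMap {l : ∀ a, List (β a)} (h : DPT l) {f : ∀ a, β a → List (γ a)}
    (hf : DPT fun p : Σ a, β a => f p.1 p.2) : DPT fun a => (l a).flatMap (f a) := by
  refine DPT.ofTrList ((h.sigList.flatMap (f := fun _ p => ((f p.1 p.2).map enc : List Tr))
    (hf.trList.comp PT.snd')).of_eq fun a => ?_)
  rw [List.flatMap_map, List.map_flatMap]

theorem DPT.replicate {k : α → ℕ} (hk : UN k) {f : ∀ a, β a} (hf : DPT f) :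
    DPT fun a => List.replicate (k a) (f a) := by
  exact DPT.ofTrList ((PT.replicate hk.1 hk.2 hf).of_eq fun a => by simp)

theorem DPT.listMem {l : ∀ a, List (β a)} (h : DPT l) {f : ∀ a, β a} (hf : DPT f) :
    PT fun a => f a ∈ l a := by
  exact (PT.mem_list hf h.trList).of_iff fun a => List.mem_map_of_injective Enc.inj

theorem dpt_finRange (hn : UN n) : DPT fun a => List.finRange (n a) := by
  exact dpt_finRange' hn

theorem En.fin (hn : UN n) : En fun a => Fin (n a) := by
  exact ⟨_, dpt_finRange hn, fun a => ⟨List.nodup_finRange _, List.mem_finRange⟩⟩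

theorem En.unit : En fun _ : α => Unit := by
  exact ⟨fun _ => [()], DPT.of_pt (PT.const _), fun a => by simp⟩

theorem En.bool : En fun _ : α => Bool := by
  exact ⟨fun _ => [false, true], DPT.of_pt (PT.const _), fun a => by simp⟩

theorem En.prod (h : En ι) (h' : En κ) : En fun a => ι a × κ a := by
  obtain ⟨l, hl, h⟩ := h
  obtain ⟨l', hl', h'⟩ := h'
  refine ⟨fun a => (l a).flatMap fun i => (l' a).map fun j => (i, j), hl.flatMap
    ((hl'.comp pt_sigma_fst).map ((dpt_sigma_snd.comp pt_sigma_fst).pair dpt_sigma_snd)),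
    fun a => ⟨(h a).1.product (h' a).1, fun p => ?_⟩⟩
  exact List.mem_flatMap.2 ⟨p.1, (h a).2 _, List.mem_map.2 ⟨p.2, (h' a).2 _, rfl⟩⟩

theorem En.sum (h : En ι) (h' : En κ) : En fun a => ι a ⊕ κ a := by
  obtain ⟨l, hl, h⟩ := h
  obtain ⟨l', hl', h'⟩ := h'
  refine ⟨fun a => (l a).map Sum.inl ++ (l' a).map Sum.inr, DPT.ofTrList
    (((hl.map (f := fun _ i => Sum.inl i) dpt_sigma_snd.inl).trList.append
      (hl'.map (f := fun _ i => Sum.inr i) dpt_sigma_snd.inr).trList).of_eq fun a => by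
        rw [List.map_append]), fun a => ⟨?_, fun p => ?_⟩⟩
  · refine ((h a).1.map Sum.inl_injective).append ((h' a).1.map Sum.inr_injective) ?_
    intro x hx hx'
    obtain ⟨i, -, rfl⟩ := List.mem_map.1 hx
    simp at hx'
  · rcases p with i | j
    · simp [(h a).2]
    · simp [(h' a).2]

theorem En.comp (h : En ι) {φ : α' → α} (hφ : PT φ) : En fun a' => ι (φ a') := by
  obtain ⟨l, hl, h⟩ := h
  exact ⟨_, hl.comp hφ, fun a => h _⟩

theorem En.forall (h : En ι) {p : ∀ a, ι a → Prop} (hp : PT fun x : Σ a, ι a => p x.1 x.2) :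
    PT fun a => ∀ i, p a i := by
  obtain ⟨l, hl, h⟩ := h
  refine (hl.sigList.forall_mem (p := fun _ x => p x.1 x.2) (hp.comp PT.snd')).of_iff fun a => ?_
  simp [(h a).2]

theorem En.exists (h : En ι) {p : ∀ a, ι a → Prop} (hp : PT fun x : Σ a, ι a => p x.1 x.2) :
    PT fun a => ∃ i, p a i := by
  obtain ⟨l, hl, h⟩ := h
  refine (hl.sigList.exists_mem (p := fun _ x => p x.1 x.2) (hp.comp PT.snd')).of_iff fun a => ?_
  simp [(h a).2]

theorem sum_eq_list {σ M : Type} [Fintype σ] [AddCommMonoid M] {l : List σ} (h : l.Nodup)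
    (h' : ∀ i, i ∈ l) (f : σ → M) : (l.map f).sum = ∑ i, f i := by
  classical
  rw [← List.sum_toFinset f h]
  congr 1; ext i; simp [h']

theorem En.sumInt [∀ a, Fintype (ι a)] (h : En ι) {f : ∀ a, ι a → ℤ}
    (hf : PT fun x : Σ a, ι a => f x.1 x.2) : PT fun a => ∑ i, f a i := by
  obtain ⟨l, hl, h⟩ := h
  exact (hl.map (γ := fun _ => ℤ) (DPT.of_pt hf)).pt.int_sum.of_eq fun a =>
    sum_eq_list (h a).1 (h a).2 _

theorem En.count [∀ a, Fintype (ι a)] (h : En ι) {p : ∀ a, ι a → Prop} [∀ a, DecidablePred (p a)]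
    (hp : PT fun x : Σ a, ι a => p x.1 x.2) : PT fun a => (univ.filter (p a)).card := by
  obtain ⟨l, hl, h⟩ := h
  refine (hl.filter (f := fun a i => decide (p a i)) hp.decide).length.1.of_eq fun a => ?_
  classical
  rw [← List.toFinset_card_of_nodup ((h a).1.filter _)]
  congr 1; ext j; simp [(h a).2]

theorem pg_list {es : ∀ a, List (Fin (n a) × Fin (n a))} (hn : UN n) (h : DPT es) :
    PG n (fun a => (es a).length) (fun a => sL (es a)) (fun a => tL (es a)) := by
  exact ⟨hn, h.length, DPT.pi h.length ((h.comp pt_sigma_fst).get dpt_sigma_snd).fst,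
    DPT.pi h.length ((h.comp pt_sigma_fst).get dpt_sigma_snd).snd⟩

theorem dpt_subL {es : ∀ a, List (Fin (n a) × Fin (n a))} (h : DPT es)
    {H : ∀ a, Finset (Fin (es a).length)} (hH : DPT H) : DPT fun a => subL (es a) (H a) := by
  exact ((dpt_finRange h.length).filter ((hH.comp pt_sigma_fst).mem dpt_sigma_snd).decide).map
    ((h.comp pt_sigma_fst).get dpt_sigma_snd)

theorem esize_pi_le {k : ℕ} {σ : Type} [Enc σ] {F : Fin k → σ} {B : ℕ} (h : ∀ i, esize (F i) ≤ B) :
    esize F ≤ k * (B + 1) + 1 := by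
  have := esize_list_le (l := List.ofFn F) (B := B) fun x hx => by
    obtain ⟨i, rfl⟩ := List.mem_ofFn.1 hx
    exact h i
  rw [List.length_ofFn] at this
  exact this

theorem esize_finset_le {k : ℕ} (S : Finset (Fin k)) : esize S ≤ 4 * k + 1 := by
  have := esize_pi_le (F := fun i => decide (i ∈ S)) (B := 3) fun i => esize_bool_le _
  rw [mul_comm]; exact this

theorem esize_int_le {z : ℤ} {B : ℕ} (h : |z| ≤ B) : esize z ≤ 6 * B + 7 := by
  have h1 : z.natAbs ≤ B := by
    have : (z.natAbs : ℤ) ≤ B := by rwa [Int.natCast_natAbs]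
    exact_mod_cast this
  have := esize_nat_le_self z.natAbs
  rw [esize_int]; omega

end Crest.Agent.R37
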