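import Crest.Agent.R37.Defs
import Crest.Agent.Lib.PolyTime.More
import Crest.Agent.Lib.PolyTime.Converse
import Crest.Agent.Lib.PolyTime.Codes

/-!
# R37/DepDefs: polynomial time for dependent data on promise types.
`α` is an arbitrary encodable index type (in applications a subtype carrying the promise); running time is only asked on `α`.
-/

set_option autoImplicit false

open Matrix Finset Crest.Agent.Lib.PolyTime

noncomputable section

namespace Crest.Agent.R37

variable {α α' : Type} [Enc α] [Enc α']

instance encSigma {β : α → Type} [∀ a, Enc (β a)] : Enc (Sigma β) :=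
  ⟨fun p => Tr.cons (enc p.1) (enc p.2), by
    rintro ⟨a, b⟩ ⟨a', b'⟩ h
    simp only [Tr.cons.injEq] at h
    obtain rfl := Enc.inj h.1
    rw [Enc.inj h.2]⟩

instance encPi {n : ℕ} {β : Type} [Enc β] : Enc (Fin n → β) :=
  Enc.ofInj List.ofFn List.ofFn_injective

instance encFinset {n : ℕ} : Enc (Finset (Fin n)) :=
  Enc.ofInj (fun S => fun i => decide (i ∈ S)) (fun S T h => by
    ext i; simpa using congrFun h i)

/-- polynomial-time dependent function -/
def DPT {β : α → Type} [∀ a, Enc (β a)] (f : ∀ a, β a) : Prop := PT fun a => (enc (f a) : Tr)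

/-- real function with polynomial-time computable rational values -/
@[fun_prop] def RPT (f : α → ℝ) : Prop := ∃ g : α → ℚ, PT g ∧ ∀ a, (g a : ℝ) = f a

/-- real vectors / matrices, entry by entry -/
abbrev VPT {ι : α → Type} [∀ a, Enc (ι a)] (v : ∀ a, ι a → ℝ) : Prop :=
  RPT fun p : Σ a, ι a => v p.1 p.2

abbrev MPT {ι : α → Type} [∀ a, Enc (ι a)] (M : ∀ a, Matrix (ι a) (ι a) ℝ) : Prop :=
  RPT fun p : Σ a, ι a × ι a => M p.1 p.2.1 p.2.2

/-- enumerable index families -/
def En (ι : α → Type) [∀ a, Enc (ι a)] : Prop :=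
  ∃ l : ∀ a, List (ι a), DPT l ∧ ∀ a, (l a).Nodup ∧ ∀ i, i ∈ l a

/-- search problems solvable in polynomial time -/
def Solv {β : α → Type} [∀ a, Enc (β a)] (R : ∀ a, β a → Prop) : Prop :=
  ∃ f : ∀ a, β a, DPT f ∧ ∀ a, R a (f a)

/-- unary-bounded numbers -/
def UN (n : α → ℕ) : Prop := PT n ∧ PB n

/-- polynomial-time families of multigraphs -/
structure PG (n m : α → ℕ) (s t : ∀ a, Fin (m a) → Fin (n a)) : Prop where
  hn : UN n
  hm : UN m
  hs : DPT s
  ht : DPT t

/-- graphs given by edge lists -/
def sL {n : ℕ} (es : List (Fin n × Fin n)) : Fin es.length → Fin n := fun e => (es.get e).1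
def tL {n : ℕ} (es : List (Fin n × Fin n)) : Fin es.length → Fin n := fun e => (es.get e).2

/-- number of listed edges in a cut -/
def cutL {n : ℕ} (es : List (Fin n × Fin n)) (S : Finset (Fin n)) : ℕ :=
  es.countP fun p => decide (¬ (p.1 ∈ S ↔ p.2 ∈ S))

/-- the sublist picked by an index set -/
def subL {n : ℕ} (es : List (Fin n × Fin n)) (H : Finset (Fin es.length)) : List (Fin n × Fin n) :=
  ((List.finRange es.length).filter fun e => decide (e ∈ H)).map es.get

end Crest.Agent.R37
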