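import Crest.Agent.R37.RF

/-!
# R37/Erode: heights and erosion.
`H v` = longest downward path from `v` (strong induction on `C - rk`, or `sup` over descendants).
Erosion: define `pos'` by recursion on `rk`: with `ℓ v = dist (pos v) (pos (par v))`: roots and vertices with `δ ≤ H v`
stay; if `H v < δ ≤ H v + ℓ v` move `v` along the segment towards `pos (par v)` by `δ - H v` (the parent has `H ≥ δ`
and stays); if `H v + ℓ v < δ` put `pos' v = pos' (par v)`.  Then `dist (pos' v) (pos v) ≤ max (δ - H v) 0` and the new
edge length is `≤ ℓ v - (min (H v + ℓ v) δ - min (H v) δ)`.  Summing and regrouping by parents, the saving is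
`∑_v brk v + ∑_{roots} min (H root) δ`, all terms `≥ 0`.
-/

set_option autoImplicit false
set_option linter.unusedSectionVars false

open Finset

noncomputable section

namespace Crest.Agent.R37

variable {V : Type} [Fintype V] [DecidableEq V]

variable {X : Type} [NormedAddCommGroup X] [NormedSpace ℝ X]

def IsHt (par : V → V) (pos : V → X) (H : V → ℝ) : Prop :=
  (∀ v, 0 ≤ H v) ∧ (∀ u, H u + dist (pos u) (pos (par u)) ≤ H (par u)) ∧
    ∀ v, H v = 0 ∨ ∃ u, par u = v ∧ u ≠ v ∧ H v = H u + dist (pos u) (pos v)

theorem exists_ht {par : V → V} {rk : V → ℕ} (h : IsRF par rk) (pos : V → X) :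
    ∃ H, IsHt par pos H := by
  have wf : WellFounded fun u v : V => par u = v ∧ u ≠ v := by
    have : WellFounded fun u v : V => rk v < rk u :=
      @Finite.wellFounded_of_trans_of_irrefl V _ _ ⟨fun _ _ _ h1 h2 => h2.trans h1⟩ ⟨fun _ => lt_irrefl _⟩
    refine Subrelation.wf ?_ this
    rintro u _ ⟨rfl, h2⟩
    exact (h u).resolve_left h2.symm
  obtain ⟨H, hH⟩ : ∃ H : V → ℝ, ∀ v, H v = ⨆ u : {u // par u = v ∧ u ≠ v}, (H u + dist (pos u) (pos v)) :=
    ⟨wf.fix (C := fun _ => ℝ) fun v ih => ⨆ u : {u // par u = v ∧ u ≠ v}, (ih u u.2 + dist (pos u) (pos v)),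
      fun v => by rw [wf.fix_eq]⟩
  refine ⟨H, fun v => ?_, fun u => ?_, fun v => ?_⟩
  · induction v using wf.induction with
    | _ v ih =>
      rw [hH]
      exact Real.iSup_nonneg fun u => add_nonneg (ih u u.2) dist_nonneg
  · by_cases hu : u = par u
    · rw [← hu, dist_self, add_zero]
    · rw [hH (par u)]
      exact le_ciSup (f := fun w : {w // par w = par u ∧ w ≠ par u} => H w + dist (pos w) (pos (par u)))
        (Set.finite_range _).bddAbove ⟨u, rfl, hu⟩
  · rcases isEmpty_or_nonempty {u // par u = v ∧ u ≠ v} with h0 | h0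
    · left
      rw [hH, Real.iSup_of_isEmpty]
    · obtain ⟨u, hu⟩ := exists_eq_ciSup_of_finite
        (f := fun u : {u // par u = v ∧ u ≠ v} => H u + dist (pos u) (pos v))
      exact Or.inr ⟨u, u.2.1, u.2.2, by rw [hH v, ← hu]⟩

theorem ht_anc {par : V → V} {pos : V → X} {H : V → ℝ} (hH : IsHt par pos H) {z u : V}
    (hz : Anc par z u) : H u + dist (pos u) (pos z) ≤ H z := by
  obtain ⟨k, rfl⟩ := hz
  induction k with
  | zero => simp
  | succ k ih =>
    rw [Function.iterate_succ_apply']
    linarith [hH.2.1 (par^[k] u), dist_triangle (pos u) (pos (par^[k] u)) (pos (par (par^[k] u)))]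

def brk (par : V → V) (pos : V → X) (H : V → ℝ) (δ : ℝ) (v : V) : ℝ :=
  ∑ u ∈ univ.filter (fun u => par u = v ∧ u ≠ v), min (H u + dist (pos u) (pos v)) δ - min (H v) δ

theorem brk_nonneg {par : V → V} {pos : V → X} {H : V → ℝ} (hH : IsHt par pos H) {δ : ℝ}
    (hδ : 0 ≤ δ) (v : V) : 0 ≤ brk par pos H δ v := by
  have h0 : ∀ u, 0 ≤ min (H u + dist (pos u) (pos v)) δ := fun u =>
    le_min (add_nonneg (hH.1 u) dist_nonneg) hδ
  unfold brk
  rcases hH.2.2 v with h | ⟨u, h1, h2, h3⟩
  · rw [h, min_eq_left hδ, sub_zero]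
    exact sum_nonneg fun u _ => h0 u
  · rw [h3, sub_nonneg]
    exact single_le_sum (f := fun u => min (H u + dist (pos u) (pos v)) δ) (fun u _ => h0 u)
      (mem_filter.2 ⟨mem_univ _, h1, h2⟩)

theorem erode {par : V → V} {rk : V → ℕ} (h : IsRF par rk) {pos : V → X} {H : V → ℝ}
    (hH : IsHt par pos H) {δ : ℝ} (hδ : 0 ≤ δ) :
    ∃ pos' : V → X, (∀ v, dist (pos' v) (pos v) ≤ δ) ∧
      flen par pos' ≤ flen par pos - ∑ v, brk par pos H δ v := by
  set mv : V → X := fun v =>
    pos v + (max (δ - H v) 0 / dist (pos v) (pos (par v))) • (pos (par v) - pos v) with hmv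
  obtain ⟨p, hp⟩ : ∃ p : V → X, ∀ v, p v =
      if rk (par v) < rk v ∧ H v + dist (pos v) (pos (par v)) < δ then p (par v) else mv v :=
    ⟨(measure rk).wf.fix (C := fun _ => X) fun v ih =>
      if h : rk (par v) < rk v ∧ H v + dist (pos v) (pos (par v)) < δ then ih (par v) h.1 else mv v,
      fun v => by rw [WellFounded.fix_eq, dite_eq_ite]⟩
  have hA : ∀ v, dist (p v) (pos v) ≤ max (δ - H v) 0 := by
    intro v
    induction v using (measure rk).wf.induction with
    | _ v ih =>
      rw [hp]
      split_ifs with hc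
      · have h1 := ih (par v) hc.1
        have h2 := hH.2.1 v
        have h3 := dist_triangle_right (p (par v)) (pos v) (pos (par v))
        have h4 : max (δ - H (par v)) 0 ≤ δ - H v - dist (pos v) (pos (par v)) :=
          max_le (by linarith) (by linarith [hc.2])
        linarith [le_max_left (δ - H v) 0]
      · rw [hmv, dist_self_add_left, norm_smul, ← dist_eq_norm, dist_comm (pos (par v)),
          Real.norm_of_nonneg (by positivity)]
        rcases (dist_nonneg (x := pos v) (y := pos (par v))).eq_or_lt with h5 | h5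
        · rw [← h5, mul_zero]
          positivity
        · rw [div_mul_cancel₀ _ h5.ne']
  have hB : ∀ v, dist (p v) (p (par v)) ≤ dist (pos v) (pos (par v)) -
      (min (H v + dist (pos v) (pos (par v))) δ - min (H v) δ) := by
    intro v
    rcases h v with h1 | h1
    · simp [h1]
    have hl : 0 ≤ dist (pos v) (pos (par v)) := dist_nonneg
    by_cases hc : H v + dist (pos v) (pos (par v)) < δ
    · rw [hp v, if_pos ⟨h1, hc⟩, dist_self, min_eq_left hc.le, min_eq_left (by linarith)]
      linarith
    · have h2 : p (par v) = pos (par v) := by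
        have := hA (par v)
        rw [max_eq_right (by linarith [hH.2.1 v])] at this
        exact dist_le_zero.1 this
      have h3 : max (δ - H v) 0 ≤ dist (pos v) (pos (par v)) := max_le (by linarith) hl
      have h4 : δ - min (H v) δ = max (δ - H v) 0 := by
        rcases le_total (H v) δ with h5 | h5
        · rw [min_eq_left h5, max_eq_left (by linarith)]
        · rw [min_eq_right h5, max_eq_right (by linarith), sub_self]
      rw [hp v, if_neg fun h => hc h.2, h2, min_eq_right (not_lt.1 hc), h4]
      rcases hl.eq_or_lt with h5 | h5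
      · have h6 : pos v = pos (par v) := dist_eq_zero.1 h5.symm
        have h7 : mv v = pos (par v) := by simp [hmv, ← h6]
        rw [h7, dist_self]
        linarith
      · have h7 : mv v - pos (par v) =
            (1 - max (δ - H v) 0 / dist (pos v) (pos (par v))) • (pos v - pos (par v)) := by
          simp only [hmv]
          module
        rw [dist_eq_norm, h7, norm_smul,
          Real.norm_of_nonneg (sub_nonneg.2 (div_le_one_of_le₀ h3 hl)), ← dist_eq_norm, sub_mul, one_mul,
          div_mul_cancel₀ _ h5.ne']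
  refine ⟨p, fun v => (hA v).trans (max_le (by linarith [hH.1 v]) hδ), ?_⟩
  have hS : ∑ v, ∑ u ∈ univ.filter (fun u => par u = v ∧ u ≠ v), min (H u + dist (pos u) (pos v)) δ ≤
      ∑ u, min (H u + dist (pos u) (pos (par u))) δ := by
    rw [← sum_fiberwise univ par fun u => min (H u + dist (pos u) (pos (par u))) δ]
    refine sum_le_sum fun v _ => ?_
    rw [sum_congr rfl (g := fun u => min (H u + dist (pos u) (pos (par u))) δ)
      fun u hu => by rw [(mem_filter.1 hu).2.1]]
    exact sum_le_sum_of_subset_of_nonneg (monotone_filter_right _ fun u _ hu => hu.1)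
      fun u _ _ => le_min (add_nonneg (hH.1 u) dist_nonneg) hδ
  have := sum_le_sum fun v (_ : v ∈ univ) => hB v
  simp only [flen, brk, sum_sub_distrib] at this ⊢
  linarith

end Crest.Agent.R37
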