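import Crest.Agent.R37.GL1

/-!
# R37/GL: the geometric lemma.  Induction with `gl_step` from `par = id`, `pos = kur D` (length `0`); lengths are `≥ 0`.
-/

set_option autoImplicit false

open Matrix Finset

noncomputable section

namespace Crest.Agent.R37

variable {n : ℕ} {E : Type} [Fintype E] [DecidableEq E]

theorem gl {D : Fin n → Fin n → ℝ} (hD : IsMet D) {θ : ℝ} (hθ : 0 < θ) (hθ1 : θ ≤ 1) {s : ℕ → ℝ}
    (hs : ∀ t, 0 < s t) (hG : ∀ t, 3200 * s t ≤ θ * s (t + 1)) {r : ℕ → Fin n → Fin n → Prop}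
    (hr0 : ∀ a b, r 0 a b ↔ a = b) (Lk : ℕ → Finset (Fin n × Fin n))
    (hr : ∀ t a b, r (t + 1) a b ↔ Relation.EqvGen (fun a b => r t a b ∨ (a, b) ∈ Lk t) a b)
    (X : ℕ → Finset (Fin n))
    (hsep : ∀ t, ∀ x ∈ X t, ∀ x' ∈ X t, x ≠ x' → r (t + 1) x x' → θ * s t ≤ D x x')
    (hpart : ∀ t, ∀ x ∈ X t, ∃ y, r (t + 1) x y ∧ ¬ r t x y ∧ s t ≤ D x y ∧ D x y ≤ 2 * s t) (T : ℕ) :
    θ * ∑ t ∈ range T, s t * (X t).card ≤
      1000 * ∑ t ∈ range T, ∑ p ∈ Lk t, (D p.1 p.2 + 10 * s t) := by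
  have key : ∀ T : ℕ, ∃ (par : Fin n → Fin n) (rk : Fin n → ℕ) (pos : Fin n → Fin n → ℝ),
      IsRF par rk ∧ (∀ a b, Rch par a b ↔ r T a b) ∧
      (∀ v, dist (pos v) (kur D v) ≤ θ * s T / 16) ∧
      flen par pos ≤ ∑ t ∈ range T, ∑ p ∈ Lk t, (D p.1 p.2 + 10 * s t) -
        θ * (∑ t ∈ range T, s t * (X t).card) / 1000 := by
    intro T
    induction T with
    | zero =>
      refine ⟨id, fun _ => 0, kur D, fun v => Or.inl rfl, fun a b => ?_, fun v => ?_, ?_⟩
      · rw [hr0]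
        constructor
        · rintro ⟨u, h1, h2⟩
          exact (rfa_root rfl h1).symm.trans (rfa_root rfl h2)
        · rintro rfl
          exact (rch_equiv _).refl a
      · rw [dist_self]
        have := hs 0
        positivity
      · simp [flen]
    | succ T ih =>
      obtain ⟨par, rk, pos, h1, h2, h3, h4⟩ := ih
      have e : (fun a b => Rch par a b ∨ (a, b) ∈ Lk T) = fun a b => r T a b ∨ (a, b) ∈ Lk T := by
        funext a b
        rw [h2]
      obtain ⟨par', rk', pos', a1, a2, a3, a4⟩ := gl_step hD hθ hθ1 (hs T) h1 h3 (Lk T)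
        (r' := r (T + 1)) (fun a b => by rw [e]; exact hr T a b) (X T) (hsep T)
        (fun x hx => by
          obtain ⟨y, b1, b2, b3⟩ := hpart T x hx
          exact ⟨y, b1, fun hh => b2 ((h2 _ _).1 hh), b3⟩)
      refine ⟨par', rk', pos', a1, a2, fun v => by linarith [a3 v, hG T], ?_⟩
      rw [sum_range_succ, sum_range_succ]
      linarith
  obtain ⟨par, rk, pos, -, -, -, h4⟩ := key T
  have h0 : 0 ≤ flen par pos := sum_nonneg fun _ _ => dist_nonneg
  linarith

end Crest.Agent.R37
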