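import Crest.Agent.R37.RFL1

/-!
# R37/RFL: loose regions.
Induction on `Y.card` (over all forests and positions) with the displacement bound
`r + (if ∃ y ∈ Y, dist (pos v) (c y) < 2r then 3r else 0)`.  Take heights `H`.  If some `y0 ∈ Y` has the second
alternative of `lemL1`, apply it and the induction hypothesis to `Y.erase y0` (moved vertices were within `2r` and are within `r` of
`c y0`, hence were not inside and are not within `2r` of other centres; the inside relations of the other regions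
only shrink).  Otherwise every `y` has a junction `j y` inside its ball (distinct), `brk (j y) ≥ r`, and `erode` with `δ = r` ends.
-/

set_option autoImplicit false

open Finset

noncomputable section

namespace Crest.Agent.R37

variable {V : Type} [Fintype V] [DecidableEq V]

variable {X : Type} [NormedAddCommGroup X] [NormedSpace ℝ X]

omit [NormedSpace ℝ X] in
theorem rfl_brk {par : V → V} {pos : V → X} {H : V → ℝ} (hH : IsHt par pos H) {r : ℝ} (hr : 0 < r)
    {j u1 u2 : V} (h0 : u1 ≠ u2) (h1 : par u1 = j) (h2 : par u2 = j) (h3 : u1 ≠ j) (h4 : u2 ≠ j)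
    (h5 : r ≤ H u1 + dist (pos u1) (pos j)) (h6 : r ≤ H u2 + dist (pos u2) (pos j)) :
    r ≤ brk par pos H r j := by
  have h7 : ∑ u ∈ ({u1, u2} : Finset V), min (H u + dist (pos u) (pos j)) r ≤
      ∑ u ∈ univ.filter (fun u => par u = j ∧ u ≠ j), min (H u + dist (pos u) (pos j)) r := by
    refine sum_le_sum_of_subset_of_nonneg (fun u hu => ?_) fun u _ _ =>
      le_min (add_nonneg (hH.1 u) dist_nonneg) hr.le
    rcases mem_insert.1 hu with rfl | hu
    · simp [h1, h3]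
    · rw [mem_singleton.1 hu]; simp [h2, h4]
  rw [sum_pair h0, min_eq_right h5, min_eq_right h6] at h7
  unfold brk
  linarith [min_le_right (H j) r]

open Classical in
theorem rfl_ind {ι : Type} [DecidableEq ι] (c : ι → X) (p1 p2 : ι → V) {r η : ℝ} (hr : 0 < r)
    (hη : 0 ≤ η) (hηr : 6 * η ≤ r) (n : ℕ) : ∀ (Y : Finset ι), Y.card = n →
    ∀ {par : V → V} {rk : V → ℕ}, IsRF par rk → ∀ pos : V → X,
    (∀ y ∈ Y, ∀ y' ∈ Y, y ≠ y' → 3 * r ≤ dist (c y) (c y')) →
    (∀ y ∈ Y, dist (pos (p1 y)) (c y) ≤ η ∧ dist (pos (p2 y)) (c y) ≤ η ∧ Rch par (p1 y) (p2 y) ∧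
      ¬ Relation.EqvGen (InR par pos (c y) r) (p1 y) (p2 y)) →
    ∃ (par' : V → V) (rk' : V → ℕ) (pos' : V → X), IsRF par' rk' ∧
      (∀ a b, Rch par' a b ↔ Rch par a b) ∧
      (∀ v, dist (pos' v) (pos v) ≤ r + if ∃ y ∈ Y, dist (pos v) (c y) < 2 * r then 3 * r else 0) ∧
      flen par' pos' ≤ flen par pos - Y.card * r / 4 := by
  induction n using Nat.strong_induction_on with
  | _ n ih =>
  intro Y hY par rk h pos hsep h1
  obtain ⟨H, hH⟩ := exists_ht h pos
  by_cases hA : ∀ y ∈ Y, ∃ j u1 u2, dist (pos j) (c y) < r ∧ u1 ≠ u2 ∧ par u1 = j ∧ par u2 = j ∧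
      u1 ≠ j ∧ u2 ≠ j ∧ r ≤ H u1 + dist (pos u1) (pos j) ∧ r ≤ H u2 + dist (pos u2) (pos j)
  · have hA' : ∀ y, ∃ j, y ∈ Y → dist (pos j) (c y) < r ∧ r ≤ brk par pos H r j := fun y => by
      by_cases hy : y ∈ Y
      · obtain ⟨j, u1, u2, b, b0, b1, b2, b3, b4, b5, b6⟩ := hA y hy
        exact ⟨j, fun _ => ⟨b, rfl_brk hH hr b0 b1 b2 b3 b4 b5 b6⟩⟩
      · exact ⟨p1 y, fun h => absurd h hy⟩
    choose j hj using hA'
    obtain ⟨pos', k1, k2⟩ := erode h hH hr.le
    refine ⟨par, rk, pos', h, fun _ _ => Iff.rfl, fun v => (k1 v).trans ?_, k2.trans ?_⟩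
    · split_ifs <;> linarith
    · have hinj : Set.InjOn j Y := by
        intro y hy y' hy' e
        by_contra hne
        have a1 := (hj y hy).1
        have a2 := (hj y' hy').1
        rw [← e] at a2
        linarith [hsep y hy y' hy' hne, dist_triangle_left (c y) (c y') (pos (j y))]
      have a1 : ∑ v ∈ Y.image j, brk par pos H r v ≤ ∑ v, brk par pos H r v :=
        sum_le_sum_of_subset_of_nonneg (subset_univ _) fun v _ _ => brk_nonneg hH hr.le v
      rw [sum_image hinj] at a1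
      have a2 : ∑ _y ∈ Y, r ≤ ∑ y ∈ Y, brk par pos H r (j y) := sum_le_sum fun y hy => (hj y hy).2
      rw [sum_const, nsmul_eq_mul] at a2
      have a3 : 0 ≤ (Y.card : ℝ) * r := by positivity
      linarith
  rw [not_forall₂] at hA
  obtain ⟨y0, hy0, hA⟩ := hA
  obtain ⟨par1, rk1, pos1, k1, k2, k3, k4, k5⟩ := (lemL1 h hH hr hη hηr (h1 y0 hy0).1 (h1 y0 hy0).2.1
    (h1 y0 hy0).2.2.1 (h1 y0 hy0).2.2.2).resolve_left hA
  have hs : ∀ y ∈ Y.erase y0, 3 * r ≤ dist (c y) (c y0) := fun y hy =>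
    hsep y (mem_of_mem_erase hy) y0 hy0 (ne_of_mem_erase hy)
  have e1 : ∀ y ∈ Y.erase y0, ∀ v, dist (pos v) (c y) ≤ η → pos1 v = pos v := fun y hy v hv =>
    (k4 v).resolve_right fun h2 => by
      linarith [hs y hy, h2.1, dist_triangle_left (c y) (c y0) (pos v)]
  have e2 : ∀ y ∈ Y.erase y0, ∀ v, dist (pos1 v) (c y) < 2 * r → ¬ dist (pos1 v) (c y0) < r :=
    fun y hy v hv h2 => by linarith [hs y hy, dist_triangle_left (c y) (c y0) (pos1 v)]
  have hc : (Y.erase y0).card + 1 = Y.card := card_erase_add_one hy0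
  obtain ⟨par', rk', pos', l1, l2, l3, l4⟩ := ih _ (by omega) (Y.erase y0) rfl k1 pos1
    (fun y hy y' hy' => hsep y (mem_of_mem_erase hy) y' (mem_of_mem_erase hy')) (fun y hy => by
      obtain ⟨b1, b2, b3, b4⟩ := h1 y (mem_of_mem_erase hy)
      refine ⟨by rwa [e1 y hy _ b1], by rwa [e1 y hy _ b2], (k2 _ _).2 b3, fun b5 => b4 ?_⟩
      refine b5.mono fun a b hab => ?_
      have c1 := e2 y hy a (by linarith [hab.2.1])
      have c2 := e2 y hy b (by linarith [hab.2.2])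
      exact ⟨((k5 a).resolve_right c1).symm.trans hab.1,
        (k4 a).resolve_right (fun h => c1 h.2) ▸ hab.2.1,
        (k4 b).resolve_right (fun h => c2 h.2) ▸ hab.2.2⟩)
  refine ⟨par', rk', pos', l1, fun a b => (l2 a b).trans (k2 a b), fun v => ?_, ?_⟩
  · have l5 := l3 v
    rcases k4 v with h2 | h2
    · rw [h2] at l5
      refine l5.trans ?_
      by_cases h3 : ∃ y ∈ Y.erase y0, dist (pos v) (c y) < 2 * r
      · obtain ⟨y, hy, h4⟩ := h3
        rw [if_pos ⟨y, hy, h4⟩, if_pos ⟨y, mem_of_mem_erase hy, h4⟩]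
      · rw [if_neg h3]
        split_ifs <;> linarith
    · rw [if_neg fun ⟨y, hy, h4⟩ => e2 y hy v h4 h2.2] at l5
      rw [if_pos ⟨y0, hy0, h2.1⟩]
      linarith [h2.1, h2.2, dist_triangle (pos' v) (pos1 v) (pos v),
        dist_triangle_right (pos1 v) (pos v) (c y0)]
  · rw [← hc]
    push_cast
    linarith

theorem lemL {par : V → V} {rk : V → ℕ} (h : IsRF par rk) (pos : V → X) {ι : Type} [DecidableEq ι]
    (Y : Finset ι) (c : ι → X) (p1 p2 : ι → V) {r η : ℝ} (hr : 0 < r) (hη : 0 ≤ η)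
    (hηr : 6 * η ≤ r) (hsep : ∀ y ∈ Y, ∀ y' ∈ Y, y ≠ y' → 3 * r ≤ dist (c y) (c y'))
    (h1 : ∀ y ∈ Y, dist (pos (p1 y)) (c y) ≤ η ∧ dist (pos (p2 y)) (c y) ≤ η ∧ Rch par (p1 y) (p2 y) ∧
      ¬ Relation.EqvGen (InR par pos (c y) r) (p1 y) (p2 y)) :
    ∃ (par' : V → V) (rk' : V → ℕ) (pos' : V → X), IsRF par' rk' ∧
      (∀ a b, Rch par' a b ↔ Rch par a b) ∧ (∀ v, dist (pos' v) (pos v) ≤ 4 * r) ∧
      flen par' pos' ≤ flen par pos - Y.card * r / 4 := by
  obtain ⟨par', rk', pos', k1, k2, k3, k4⟩ := rfl_ind c p1 p2 hr hη hηr _ Y rfl h pos hsep h1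
  refine ⟨par', rk', pos', k1, k2, fun v => (k3 v).trans ?_, k4⟩
  split_ifs <;> linarith

end Crest.Agent.R37
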