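import Crest.Agent.R37.RFC
import Crest.Agent.R37.RFL

/-!
# R37/GL1: one step of the geometric lemma.
`kur D v = D v ·` is an isometric embedding into the sup-norm space.  `ρ = θ s / 16`.  `add_links` gives `par1` (trees = classes of `r'`;
link length `≤ D p + 2ρ`).  Pass to `(Fin n → ℝ) × ℝ` with second coordinate `1000 s · idx v` (`idx v : ℕ` = value of the root of `v`,
constant on trees, different for different trees), apply a lemma there and project back (1-Lipschitz; edge lengths unchanged by the lift).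
`Y ⊆ Xs` maximal such that distinct `y, y'` in one tree have `55 s ≤ D y y'`; `cy x ∈ Y` in the tree of `x` with `D < 55 s`.
If `|Y| · 230 s ≤ |Xs| θ s · 7/128`: `lemC` with `s' = 7θ s/8`, `R' = 56 s`, `c y = pos y`; saving
`≥ |Xs| θ s · 7/128`.  Otherwise `θ |Xs| ≤ 4300 |Y|`: `lemL` with `η = 3 s`, `r = 18 s`, `c y = pos y`, `p1 y = y`, `p2 y` the partner, on the
centres whose ball of radius `r` contains no end of a link (an end lies in at most one ball: at least `|Y| - 2|Lk|` centres; inside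
such a ball every forest edge is an `r`-edge, and `¬ r y (p2 y)`); saving `≥ 4.5 s (|Y| - 2 |Lk|)`.
-/

set_option autoImplicit false

open Matrix Finset

noncomputable section

namespace Crest.Agent.R37

variable {n : ℕ} {E : Type} [Fintype E] [DecidableEq E]

def kur (D : Fin n → Fin n → ℝ) (v : Fin n) : Fin n → ℝ := fun w => D v w

theorem dist_kur {D : Fin n → Fin n → ℝ} (hD : IsMet D) (a b : Fin n) :
    dist (kur D a) (kur D b) = D a b := by
  obtain ⟨h0, h1, h2, h3⟩ := hD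
  refine le_antisymm ((dist_pi_le_iff (h1 a b)).2 fun w => ?_) ?_
  · simp only [kur, Real.dist_eq, abs_le]
    constructor
    · have := h3 b a w
      rw [h2 b a] at this
      linarith
    · linarith [h3 a b w]
  · refine le_trans ?_ (dist_le_pi_dist (kur D a) (kur D b) b)
    simp only [kur, Real.dist_eq, h0 b, sub_zero]
    exact le_abs_self _

theorem gl1_idx {r : Fin n → Fin n → Prop} (hr : Equivalence r) :
    ∃ idx : Fin n → ℝ, ∀ a b, (r a b → idx a = idx b) ∧ (¬ r a b → 1 ≤ |idx a - idx b|) := by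
  let S : Setoid (Fin n) := ⟨r, hr⟩
  refine ⟨fun v => (((Quotient.mk S v).out : ℕ) : ℝ), fun a b => ⟨fun h => ?_, fun h => ?_⟩⟩
  · simp only [Quotient.sound (s := S) h]
  · have : ((Quotient.mk S a).out : ℕ) ≠ (Quotient.mk S b).out := fun e =>
      h (Quotient.exact (Quotient.out_inj.1 (Fin.val_inj.1 e)))
    rw [le_abs]
    rcases lt_or_gt_of_ne this with h | h
    · have : (((Quotient.mk S a).out : ℕ) : ℝ) + 1 ≤ ((Quotient.mk S b).out : ℕ) := by exact_mod_cast h
      right; linarith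
    · have : (((Quotient.mk S b).out : ℕ) : ℝ) + 1 ≤ ((Quotient.mk S a).out : ℕ) := by exact_mod_cast h
      left; linarith

theorem gl1_net {V : Type} [DecidableEq V] (Xs : Finset V) {Q : V → V → Prop} (h1 : ∀ x, Q x x)
    (h2 : ∀ x y, Q x y → Q y x) :
    ∃ Y ⊆ Xs, (∀ y ∈ Y, ∀ y' ∈ Y, y ≠ y' → ¬ Q y y') ∧ ∀ x ∈ Xs, ∃ y ∈ Y, Q x y := by
  obtain ⟨Y, hY, hmax⟩ := Set.exists_max_image {Y : Finset V | Y ⊆ Xs ∧ ∀ y ∈ Y, ∀ y' ∈ Y, y ≠ y' → ¬ Q y y'} card
    (Xs.powerset.finite_toSet.subset fun Y hY => mem_powerset.2 hY.1) ⟨∅, by simp⟩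
  refine ⟨Y, hY.1, hY.2, fun x hx => ?_⟩
  by_contra hn
  push Not at hn
  have hxY : x ∉ Y := fun h => hn x h (h1 x)
  have := hmax (insert x Y) ⟨insert_subset hx hY.1, fun y hy y' hy' hne => by
    rcases mem_insert.1 hy with e | hy1 <;> rcases mem_insert.1 hy' with e' | hy2
    · exact absurd (e.trans e'.symm) hne
    · exact e ▸ hn _ hy2
    · exact fun h => hn _ hy1 (e' ▸ h2 _ _ h)
    · exact hY.2 _ hy1 _ hy2 hne⟩
  rw [card_insert_of_notMem hxY] at this
  omega

theorem gl1_proj {V X : Type} [Fintype V] [PseudoMetricSpace X] (par : V → V) (pos : V → X × ℝ) :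
    flen par (fun v => (pos v).1) ≤ flen par pos :=
  sum_le_sum fun _ _ => le_max_left _ _

theorem gl_step {D : Fin n → Fin n → ℝ} (hD : IsMet D) {θ s : ℝ} (hθ : 0 < θ) (hθ1 : θ ≤ 1)
    (hs : 0 < s) {par : Fin n → Fin n} {rk : Fin n → ℕ} (h : IsRF par rk) {pos : Fin n → Fin n → ℝ}
    (hpos : ∀ v, dist (pos v) (kur D v) ≤ θ * s / 16) (Lk : Finset (Fin n × Fin n))
    {r' : Fin n → Fin n → Prop}
    (hr' : ∀ a b, r' a b ↔ Relation.EqvGen (fun a b => Rch par a b ∨ (a, b) ∈ Lk) a b)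
    (Xs : Finset (Fin n)) (hsep : ∀ x ∈ Xs, ∀ x' ∈ Xs, x ≠ x' → r' x x' → θ * s ≤ D x x')
    (hpart : ∀ x ∈ Xs, ∃ y, r' x y ∧ ¬ Rch par x y ∧ s ≤ D x y ∧ D x y ≤ 2 * s) :
    ∃ (par' : Fin n → Fin n) (rk' : Fin n → ℕ) (pos' : Fin n → Fin n → ℝ), IsRF par' rk' ∧
      (∀ a b, Rch par' a b ↔ r' a b) ∧ (∀ v, dist (pos' v) (kur D v) ≤ 200 * s) ∧
      flen par' pos' ≤ flen par pos + ∑ p ∈ Lk, (D p.1 p.2 + 10 * s) - θ * s * Xs.card / 1000 := by
  classical
  obtain ⟨par1, rk1, h1, hR, hlen, hedge⟩ := add_links h pos Lk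
  have hR' : ∀ a b, Rch par1 a b ↔ r' a b := fun a b => (hR a b).trans (hr' a b).symm
  have hE := rch_equiv par1
  obtain ⟨idx, hidx⟩ := gl1_idx hE
  have hθs : θ * s ≤ s := by nlinarith
  have hθs0 : 0 < θ * s := by positivity
  have hup : ∀ a b, dist (pos a) (pos b) ≤ D a b + θ * s / 8 := fun a b => by
    have := dist_triangle4_right (pos a) (pos b) (kur D a) (kur D b)
    rw [dist_kur hD] at this
    linarith [hpos a, hpos b]
  have hlo : ∀ a b, D a b - θ * s / 8 ≤ dist (pos a) (pos b) := fun a b => by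
    have := dist_triangle4_left (pos a) (pos b) (kur D a) (kur D b)
    rw [dist_kur hD] at this
    linarith [hpos a, hpos b]
  set q : Fin n → (Fin n → ℝ) × ℝ := fun v => (pos v, 1000 * s * idx v) with hq
  have q1 : ∀ a b, Rch par1 a b → dist (q a) (q b) = dist (pos a) (pos b) := fun a b hab => by
    simp only [hq, Prod.dist_eq, (hidx a b).1 hab, dist_self, max_eq_left dist_nonneg]
  have q2 : ∀ a b, ¬ Rch par1 a b → 1000 * s ≤ dist (q a) (q b) := fun a b hab => by
    refine le_trans ?_ (le_max_right _ _)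
    rw [Real.dist_eq, ← mul_sub, abs_mul, abs_of_pos (by positivity)]
    exact le_mul_of_one_le_right (by positivity) ((hidx a b).2 hab)
  have q3 : flen par1 q = flen par1 pos := sum_congr rfl fun v _ => q1 _ _ (rch_par _ v)
  have hlen' : flen par1 q ≤ flen par pos + ∑ p ∈ Lk, (D p.1 p.2 + 10 * s) - 9 * s * Lk.card := by
    have : ∑ p ∈ Lk, dist (pos p.1) (pos p.2) ≤ ∑ p ∈ Lk, ((D p.1 p.2 + 10 * s) - 9 * s) :=
      sum_le_sum fun p _ => by linarith [hup p.1 p.2]
    rw [sum_sub_distrib, sum_const, nsmul_eq_mul] at this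
    linarith
  have fin : ∀ (par' : Fin n → Fin n) (rk' : Fin n → ℕ) (pos' : Fin n → (Fin n → ℝ) × ℝ), IsRF par' rk' →
      (∀ a b, Rch par' a b ↔ Rch par1 a b) → (∀ v, dist (pos' v) (q v) ≤ 199 * s) →
      flen par' pos' ≤ flen par1 q + 9 * s * Lk.card - θ * s * Xs.card / 1000 →
      ∃ (par' : Fin n → Fin n) (rk' : Fin n → ℕ) (pos' : Fin n → Fin n → ℝ), IsRF par' rk' ∧
        (∀ a b, Rch par' a b ↔ r' a b) ∧ (∀ v, dist (pos' v) (kur D v) ≤ 200 * s) ∧
        flen par' pos' ≤ flen par pos + ∑ p ∈ Lk, (D p.1 p.2 + 10 * s) - θ * s * Xs.card / 1000 := by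
    intro par' rk' pos' a1 a2 a3 a4
    refine ⟨par', rk', fun v => (pos' v).1, a1, fun a b => (a2 a b).trans (hR' a b), fun v => ?_, ?_⟩
    · have b1 : dist (pos' v).1 (pos v) ≤ dist (pos' v) (q v) := le_max_left _ _
      linarith [dist_triangle (pos' v).1 (pos v) (kur D v), hpos v, a3 v]
    · linarith [gl1_proj par' pos']
  obtain ⟨Y, hYX, hY, hcov⟩ := gl1_net Xs (Q := fun x y => Rch par1 x y ∧ D x y < 55 * s)
    (fun x => ⟨hE.refl x, by rw [hD.1]; positivity⟩) fun x y hxy => ⟨hE.symm hxy.1, hD.2.2.1 x y ▸ hxy.2⟩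
  choose! cy hcy using hcov
  choose! pa hpa using hpart
  have hL0 : (0 : ℝ) ≤ 9 * s * Lk.card := by positivity
  have hX0 : (0 : ℝ) ≤ θ * s * Xs.card := by positivity
  by_cases hc : (Y.card : ℝ) * (230 * s) ≤ θ * s * Xs.card * (7 / 128)
  · obtain ⟨par', rk', pos', a1, a2, a3, a4⟩ := lemC h1 q Y q Xs cy (s' := 7 * (θ * s) / 8) (R' := 56 * s)
      (by positivity) (by positivity)
      (fun x hx x' hx' hne => by
        by_cases hr : Rch par1 x x'
        · rw [q1 _ _ hr]; linarith [hlo x x', hsep x hx x' hx' hne ((hR' _ _).1 hr)]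
        · linarith [q2 _ _ hr])
      (fun x hx => ⟨pa x, (hR' _ _).2 (hpa x hx).1, by
        rw [q1 _ _ ((hR' _ _).2 (hpa x hx).1)]; linarith [hlo x (pa x), (hpa x hx).2.2.1]⟩)
      (fun x hx => ⟨(hcy x hx).1, by
        rw [q1 _ _ (hcy x hx).2.1]; linarith [hup x (cy x), (hcy x hx).2.2]⟩)
      (fun x hx x' hx' e => hE.trans (hcy x hx).2.1 (e ▸ hE.symm (hcy x' hx').2.1))
      (fun x hx v hv => by
        by_contra hr
        rw [dist_comm] at hv
        linarith [q2 _ _ hr])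
    refine fin par' rk' pos' a1 a2 (fun v => by linarith [a3 v]) ?_
    have : (Y.card : ℝ) * (4 * (56 * s) + 6 * (7 * (θ * s) / 8)) ≤ Y.card * (230 * s) :=
      mul_le_mul_of_nonneg_left (by linarith) (Nat.cast_nonneg _)
    linarith
  · have hsepY : ∀ y ∈ Y, ∀ y' ∈ Y, y ≠ y' → 3 * (18 * s) ≤ dist (q y) (q y') := fun y hy y' hy' hne => by
      by_cases hr : Rch par1 y y'
      · have : 55 * s ≤ D y y' := le_of_not_gt fun hl => hY y hy y' hy' hne ⟨hr, hl⟩
        rw [q1 _ _ hr]; linarith [hlo y y']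
      · linarith [q2 _ _ hr]
    have hbad : (Y.filter fun y => ∃ p ∈ Lk, dist (q p.1) (q y) < 18 * s).card ≤ Lk.card := by
      refine card_le_card_of_forall_subsingleton (fun y p => dist (q p.1) (q y) < 18 * s)
        (fun y hy => (mem_filter.1 hy).2) fun p _ y hy y' hy' => ?_
      by_contra hne
      have := hsepY y (mem_filter.1 hy.1).1 y' (mem_filter.1 hy'.1).1 hne
      linarith [dist_triangle_left (q y) (q y') (q p.1), hy.2, hy'.2]
    obtain ⟨par', rk', pos', a1, a2, a3, a4⟩ := lemL h1 q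
      (Y.filter fun y => ¬ ∃ p ∈ Lk, dist (q p.1) (q y) < 18 * s) q id pa (r := 18 * s) (η := 3 * s)
      (by positivity) (by positivity) (by linarith)
      (fun y hy y' hy' => hsepY y (mem_filter.1 hy).1 y' (mem_filter.1 hy').1)
      (fun y hy => by
        obtain ⟨hy, hn⟩ := mem_filter.1 hy
        obtain ⟨b1, b2, b3, b4⟩ := hpa y (hYX hy)
        have b5 := (hR' _ _).2 b1
        refine ⟨by rw [id, dist_self]; positivity, ?_, b5, fun hg => b2 ?_⟩
        · rw [dist_comm, q1 _ _ b5]; linarith [hup y (pa y)]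
        · refine (rch_equiv par).eqvGen_iff.1 (hg.mono fun a b hab => ?_)
          obtain ⟨rfl, c1, c2⟩ := hab
          rcases hedge a with e | e | e
          · exact e
          · exact absurd ⟨_, e, c1⟩ hn
          · exact absurd ⟨_, e, c2⟩ hn)
    refine fin par' rk' pos' a1 a2 (fun v => by linarith [a3 v]) ?_
    have c1 := card_filter_add_card_filter_not (s := Y) fun y => ∃ p ∈ Lk, dist (q p.1) (q y) < 18 * s
    have c2 : (Y.card : ℝ) ≤ (Y.filter fun y => ¬ ∃ p ∈ Lk, dist (q p.1) (q y) < 18 * s).card + Lk.card := by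
      exact_mod_cast (by omega : Y.card ≤ (Y.filter fun y => ¬ ∃ p ∈ Lk, dist (q p.1) (q y) < 18 * s).card + Lk.card)
    have c3 := mul_le_mul_of_nonneg_right c2 hs.le
    push Not at hc
    nlinarith

end Crest.Agent.R37
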