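import Crest.Agent.R37.Jet
import Crest.Agent.R37.Lin3

/-!
# R37/JetM: matrix norm facts (`L∞` operator norm = maximal absolute row sum) for the jets.
-/

set_option autoImplicit false

open Matrix Finset

noncomputable section

namespace Crest.Agent.R37

variable {n : ℕ} {E : Type} [Fintype E] [DecidableEq E]

open scoped Matrix.Norms.Operator

theorem norm_le_of_entries {A : Mat n} {c : ℝ} (hc : 0 ≤ c) (h : ∀ i j, |A i j| ≤ c) : ‖A‖ ≤ n * c := by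
  rw [Matrix.linfty_opNorm_def]
  have : (univ.sup fun i => ∑ j, ‖A i j‖₊) ≤ (n : NNReal) * ⟨c, hc⟩ := by
    refine Finset.sup_le fun i _ => ?_
    have := Finset.sum_le_card_nsmul univ (fun j => ‖A i j‖₊) ⟨c, hc⟩ fun j _ => h i j
    simpa using this
  exact_mod_cast this

theorem abs_entry_le_norm (A : Mat n) (i j : Fin n) : |A i j| ≤ ‖A‖ := by
  rw [Matrix.linfty_opNorm_def]
  have : ‖A i j‖₊ ≤ univ.sup fun i => ∑ j, ‖A i j‖₊ :=
    (Finset.single_le_sum (f := fun j => ‖A i j‖₊) (fun _ _ => zero_le) (mem_univ j)).trans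
      (Finset.le_sup (f := fun i => ∑ j, ‖A i j‖₊) (mem_univ i))
  exact_mod_cast this

theorem norm_psd_le {A : Mat n} (hA : A.PosSemidef) : ‖A‖ ≤ n * A.trace := by
  exact norm_le_of_entries hA.trace_nonneg (abs_entry_le_trace hA)

theorem jetm_bv_abs (a b i : Fin n) : |bv a b i| ≤ 1 := by
  simp only [bv, Pi.sub_apply, Pi.single_apply]
  split_ifs <;> simp

theorem jetm_bv_sum (a b : Fin n) : ∑ i, |bv a b i| ≤ 2 := by
  have : ∀ i, |bv a b i| ≤ (Pi.single a 1 : Fin n → ℝ) i + (Pi.single b 1 : Fin n → ℝ) i := fun i => by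
    simp only [bv, Pi.sub_apply, Pi.single_apply]
    split_ifs <;> simp
  refine (Finset.sum_le_sum fun i _ => this i).trans (le_of_eq ?_)
  simp [Finset.sum_add_distrib]; norm_num

theorem norm_Lp_le (a b : Fin n) : ‖Lp a b‖ ≤ 2 := by
  rw [Matrix.linfty_opNorm_def]
  have : (univ.sup fun i => ∑ j, ‖Lp a b i j‖₊) ≤ 2 := by
    refine Finset.sup_le fun i _ => ?_
    have : ∑ j, |Lp a b i j| ≤ 2 := by
      refine le_trans (Finset.sum_le_sum fun j _ => ?_) (jetm_bv_sum a b)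
      rw [Lp, vecMulVec_apply, abs_mul]
      exact mul_le_of_le_one_left (abs_nonneg _) (jetm_bv_abs a b i)
    rw [← NNReal.coe_le_coe]
    simpa using this
  exact_mod_cast this

theorem abs_trace_le (A : Mat n) : |A.trace| ≤ n * ‖A‖ := by
  refine (Finset.abs_sum_le_sum_abs _ _).trans ?_
  have := Finset.sum_le_card_nsmul univ (fun i => |A.diag i|) ‖A‖ fun i _ => abs_entry_le_norm A i i
  simpa using this

theorem jetm_form (A : Mat n) (x y : Fin n → ℝ) :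
    |x ⬝ᵥ A *ᵥ y| ≤ ‖A‖ * ((∑ i, |x i|) * ∑ j, |y j|) := by
  rw [Finset.sum_mul_sum, Finset.mul_sum]
  refine (Finset.abs_sum_le_sum_abs _ _).trans (Finset.sum_le_sum fun i _ => ?_)
  rw [Matrix.mulVec, dotProduct, Finset.mul_sum, Finset.mul_sum]
  refine (Finset.abs_sum_le_sum_abs _ _).trans (Finset.sum_le_sum fun j _ => ?_)
  rw [abs_mul, abs_mul]
  have := abs_entry_le_norm A i j
  have := mul_nonneg (abs_nonneg (x i)) (abs_nonneg (y j))
  nlinarith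

theorem abs_bf_le (A : Mat n) (a b c d : Fin n) : |bf A a b c d| ≤ 4 * ‖A‖ := by
  refine (jetm_form A _ _).trans ?_
  rw [mul_comm]
  gcongr
  have := mul_le_mul (jetm_bv_sum a b) (jetm_bv_sum c d)
    (Finset.sum_nonneg fun _ _ => abs_nonneg _) (by norm_num)
  linarith

theorem jetm_low {M : Mat n} (hM : M.PosDef) (x : Fin n → ℝ) :
    x ⬝ᵥ x ≤ M⁻¹.trace * (x ⬝ᵥ M *ᵥ x) := by
  obtain ⟨C, hC⟩ : ∃ C : Mat n, M⁻¹ = Cᵀ * C := by
    open scoped MatrixOrder in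
    obtain ⟨C, hC⟩ := CStarAlgebra.nonneg_iff_eq_star_mul_self.1 hM.inv.posSemidef.nonneg
    exact ⟨C, by simpa [star_eq_conjTranspose] using hC⟩
  have hu : M⁻¹ * M = 1 := Matrix.nonsing_inv_mul _ (isUnit_iff_isUnit_det _ |>.1 hM.isUnit)
  set y := C *ᵥ (M *ᵥ x) with hy
  have h1 : x = Cᵀ *ᵥ y := by rw [hy, Matrix.mulVec_mulVec, Matrix.mulVec_mulVec, ← hC, hu, one_mulVec]
  have h2 : x ⬝ᵥ M *ᵥ x = y ⬝ᵥ y := by
    conv_lhs => rw [h1, Matrix.mulVec_transpose, ← Matrix.dotProduct_mulVec, ← Matrix.mulVec_transpose,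
      ← h1]
  have h3 : M⁻¹.trace = ∑ i, ∑ j, Cᵀ i j ^ 2 := by
    simp [hC, Matrix.trace, Matrix.mul_apply, sq]
  rw [h2, h3, Finset.sum_mul]
  conv_lhs => rw [h1]
  refine Finset.sum_le_sum fun i _ => ?_
  have := Finset.sum_mul_sq_le_sq_mul_sq univ (Cᵀ i) y
  simpa [Matrix.mulVec, dotProduct, sq] using this

/-- a symmetric matrix close to a well-conditioned positive definite matrix is positive definite -/
theorem posDef_of_close {M M' : Mat n} (hM : M.PosDef) {T : ℝ} (hT : M⁻¹.trace ≤ T)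
    (hs : M'.IsHermitian) (h : (n : ℝ) * T * ‖M' - M‖ < 1) : M'.PosDef := by
  refine Matrix.posDef_iff_dotProduct_mulVec.2 ⟨hs, fun x hx => ?_⟩
  rw [star_trivial]
  have h1 := jetm_low hM x
  have h2 := jetm_form (M' - M) x x
  have h3 : (∑ i, |x i|) * ∑ j, |x j| ≤ n * (x ⬝ᵥ x) := by
    have := sq_sum_le_card_mul_sum_sq (s := univ) (f := fun i => |x i|)
    simpa [sq, dotProduct] using this
  have h4 : 0 < x ⬝ᵥ M *ᵥ x := by simpa using hM.dotProduct_mulVec_pos hx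
  have h5 : x ⬝ᵥ M' *ᵥ x = x ⬝ᵥ M *ᵥ x + x ⬝ᵥ (M' - M) *ᵥ x := by
    rw [Matrix.sub_mulVec, dotProduct_sub]; ring
  have h6 : x ⬝ᵥ x ≤ T * (x ⬝ᵥ M *ᵥ x) := h1.trans (by gcongr)
  have h7 : ‖M' - M‖ * ((∑ i, |x i|) * ∑ j, |x j|) ≤ ‖M' - M‖ * (n * (T * (x ⬝ᵥ M *ᵥ x))) := by
    gcongr _ * ?_; exact h3.trans (by gcongr)
  have := neg_abs_le (x ⬝ᵥ (M' - M) *ᵥ x)
  nlinarith

/-- jet of a matrix inverse at a positive definite point -/
theorem Jet.matInv {V : Type} [NormedAddCommGroup V] [NormedSpace ℝ V] {F F1 : V → Mat n}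
    {F2 : V → V → Mat n} {Ω : ℝ} {i : ℕ} (hΩ : 10 ≤ Ω) (hn : (n : ℝ) ≤ Ω) (h : Jet F F1 F2 Ω (i + 1))
    (hp : (F 0).PosDef) (hb : (F 0)⁻¹.trace ≤ Ω ^ i) (hs : ∀ v, (F v).IsHermitian) :
    Jet (fun v => (F v)⁻¹) (fun v => -((F 0)⁻¹ * F1 v * (F 0)⁻¹))
      (fun v w => (F 0)⁻¹ * F1 v * (F 0)⁻¹ * F1 w * (F 0)⁻¹ + (F 0)⁻¹ * F1 w * (F 0)⁻¹ * F1 v * (F 0)⁻¹ -
        (F 0)⁻¹ * F2 v w * (F 0)⁻¹) Ω (7 * i + 10) ∧
      ∀ v, ‖v‖ ≤ 1 / Ω ^ (7 * i + 10) → (F v).PosDef := by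
  have hK := jet_one_le hΩ i
  have ht := trace_inv_nonneg hp
  have hb' : ‖Ring.inverse (F 0)‖ ≤ Ω ^ (i + 1) := by
    rw [← Matrix.nonsing_inv_eq_ringInverse]
    refine (norm_psd_le hp.inv.posSemidef).trans ?_
    rw [pow_succ']; gcongr
  refine ⟨?_, fun v hv => posDef_of_close hp hb (hs v) ?_⟩
  · have := h.inv hΩ hp.isUnit hb'
    simp only [← Matrix.nonsing_inv_eq_ringInverse] at this
    exact this
  · have h1 := (h.sub_le hΩ (jet_rad hΩ (by omega) hv)).1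
    have h2 : Ω ^ (7 * i + 10) * ‖v‖ ≤ 1 := by
      rwa [le_div_iff₀ (by positivity), mul_comm] at hv
    have h3 := jet_pow_le hΩ (by omega : 2 * i + 2 + 1 ≤ 7 * i + 10)
    have h4 := jet_ten hΩ (2 * i + 2)
    have h5 : (n : ℝ) * Ω ^ i * ‖F v - F 0‖ ≤ Ω * Ω ^ i * (3 * Ω ^ (i + 1) * ‖v‖) := by
      gcongr
    have h6 : Ω * Ω ^ i * (3 * Ω ^ (i + 1) * ‖v‖) = 3 * (Ω ^ (2 * i + 2) * ‖v‖) := by ring
    have := mul_le_mul_of_nonneg_right (h4.trans h3) (norm_nonneg v)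
    nlinarith

end Crest.Agent.R37
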