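import Crest.Agent.R37.KL3

/-!
# R37/KL: the key lemma.
Rescale `D, c` by a constant so that `2^q ≤ D (s e) (t e)`; `kl_norm` with `g = q`, `a0 = 1000 q²`, `α = 1/a0`, `θ = 1/a0²`, `Λ = 16 q²`;
`card E ≥ K + Δ ≥ q^12` (`PC.le_card`); `q0` large (e.g. `10^18`, `2^q ≥ q^8`).
-/

set_option autoImplicit false

open Matrix Finset

noncomputable section

namespace Crest.Agent.R37

variable {n : ℕ} {E : Type} [Fintype E] [DecidableEq E]

theorem kl_const {q K Δ P : ℝ} (hq : 10 ^ 18 ≤ q) (hK : K ≤ q * Δ) (hΔ : q ^ 12 ≤ Δ) (hP : q ^ 8 ≤ P) :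
    2 * (1000 * q ^ 2) * (1 / (1000 * q ^ 2) ^ 2) + 3 * (1 / (1000 * q ^ 2)) + 6 / (1000 * q ^ 2) +
      2 * (16 * q ^ 2) / P + 4 * K * (16 * q ^ 2) / (P * Δ) +
      6 / (1 / (1000 * q ^ 2)) * (24000 * q * (16 * q ^ 2) / (1 / (1000 * q ^ 2) ^ 2 * Δ)) ≤ 1 / (16 * q ^ 2) := by
  have h0 : 0 < q := by linarith
  have h1 : 0 < Δ := (pow_pos h0 12).trans_le hΔ
  have h2 : 0 < P := (pow_pos h0 8).trans_le hP
  have h3 : 2 * (16 * q ^ 2) / P ≤ 32 / q ^ 6 :=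
    (div_le_div_of_nonneg_left (by positivity) (by positivity) hP).trans_eq (by field_simp; ring)
  have h4 : 4 * K * (16 * q ^ 2) / (P * Δ) ≤ 64 / q ^ 5 :=
    (div_le_div₀ (c := 4 * (q * Δ) * (16 * q ^ 2)) (d := q ^ 8 * Δ) (by positivity) (by gcongr) (by positivity)
      (by gcongr)).trans_eq (by field_simp; ring)
  have h5 : 6 / (1 / (1000 * q ^ 2)) * (24000 * q * (16 * q ^ 2) / (1 / (1000 * q ^ 2) ^ 2 * Δ)) ≤
      2304 * 10 ^ 12 / q ^ 3 := by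
    refine le_trans (b := 6 / (1 / (1000 * q ^ 2)) * (24000 * q * (16 * q ^ 2) / (1 / (1000 * q ^ 2) ^ 2 * q ^ 12)))
      (by gcongr) (le_of_eq ?_)
    field_simp; ring
  have h6 : ∀ (C : ℝ) (k : ℕ), C ≤ 10 ^ 16 → C / q ^ (k + 3) ≤ 1 / (100 * q ^ 2) := fun C k hC => by
    have h7 : q ^ 3 ≤ q ^ (k + 3) := pow_le_pow_right₀ (by linarith) (by omega)
    rw [div_le_div_iff₀ (by positivity) (by positivity)]
    nlinarith [pow_pos h0 2, mul_le_mul_of_nonneg_right (show C * 100 ≤ q by linarith) (pow_pos h0 2).le]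
  have h7 : 2 * (1000 * q ^ 2) * (1 / (1000 * q ^ 2) ^ 2) + 3 * (1 / (1000 * q ^ 2)) + 6 / (1000 * q ^ 2) +
      3 * (1 / (100 * q ^ 2)) = 41 / 1000 * (1 / q ^ 2) := by field_simp; ring
  have h8 : 1 / (16 * q ^ 2) = 1 / 16 * (1 / q ^ 2) := by field_simp
  have h9 : 0 < 1 / q ^ 2 := by positivity
  linarith [h6 32 3 (by norm_num), h6 64 2 (by norm_num), h6 (2304 * 10 ^ 12) 0 (by norm_num)]

open Classical in
theorem kl : ∃ q0 : ℕ, ∀ (n : ℕ) (E : Type) [Fintype E] [DecidableEq E] (s t : E → Fin n) (K Δ q : ℕ),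
    2 ≤ n → q0 ≤ q → 1 ≤ K → K ≤ q * Δ → q ^ 12 ≤ Δ → PC s t (K + Δ) →
    ∀ (D : Fin n → Fin n → ℝ) (c : E → ℝ), IsMet D → (∀ e, 0 < D (s e) (t e)) →
      (∀ e, D (s e) (t e) ≤ c e) →
      ∃ w : Fin n → Fin n → ℝ, (∀ a b, 0 ≤ w a b) ∧ ∑ a, ∑ b, w a b ≤ (Fintype.card E : ℝ) ^ 2 ∧
        ∑ a, ∑ b, w a b * D a b +
            ∑ e ∈ univ.filter (fun e => ¬ Sp s t K (cheap c (c e / (16 * q ^ 2))) (s e) (t e)),
              D (s e) (t e) * res (Gam s t + Lw w) (s e) (t e) ≤ (∑ e, c e) / (16 * q ^ 2) := by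
  obtain ⟨q1, h1⟩ := Filter.eventually_atTop.1
    ((tendsto_pow_const_div_const_pow_of_one_lt 8 (one_lt_two : (1 : ℝ) < 2)).eventually (eventually_le_nhds one_pos))
  refine ⟨max q1 (10 ^ 18), fun n E _ _ s t K Δ q hn hq hK hKΔ hΔ hPC D c hD h0 hc => ?_⟩
  have hq' : (10 : ℝ) ^ 18 ≤ q := by exact_mod_cast (le_max_right _ _).trans hq
  have hP : (q : ℝ) ^ 8 ≤ 2 ^ q := (div_le_one (by positivity)).1 (h1 q ((le_max_left _ _).trans hq))
  have hq0 : (0 : ℝ) < q := by linarith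
  have hq1 : (1 : ℝ) ≤ q := by linarith
  have hΔ' : (q : ℝ) ^ 12 ≤ Δ := by exact_mod_cast hΔ
  have hΔ0 : (0 : ℝ) < Δ := (pow_pos hq0 12).trans_le hΔ'
  have hq2 : (1 : ℝ) ≤ q ^ 2 := one_le_pow₀ hq1
  obtain ⟨l, hl, h2⟩ : ∃ l : ℝ, 0 < l ∧ ∀ e, (2 : ℝ) ^ q ≤ l * D (s e) (t e) := by
    have h2 : ∀ e, 0 ≤ (2 : ℝ) ^ q / D (s e) (t e) := fun e => (div_pos (by positivity) (h0 e)).le
    refine ⟨∑ e, 2 ^ q / D (s e) (t e) + 1, add_pos_of_nonneg_of_pos (sum_nonneg fun e _ => h2 e) one_pos, fun e => ?_⟩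
    rw [← div_le_iff₀ (h0 e)]
    exact (single_le_sum (fun e _ => h2 e) (mem_univ e)).trans (le_add_of_nonneg_right zero_le_one)
  have hG : 3200 ≤ 1 / (1000 * (q : ℝ) ^ 2) ^ 2 * 2 ^ q := by
    rw [one_div, inv_mul_eq_div, le_div_iff₀ (by positivity)]
    have h5 : (q : ℝ) ^ 5 ≤ q ^ 8 := pow_le_pow_right₀ hq1 (by norm_num)
    nlinarith [pow_pos hq0 4]
  obtain ⟨w, hw, h3, h4⟩ := kl_norm (s := s) (t := t) (by omega) (K := K) (Δ := Δ) (by exact_mod_cast hK)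
    (by exact_mod_cast hΔ0) hPC (D := fun a b => l * D a b)
    ⟨fun a => mul_eq_zero_of_right l (hD.1 a), fun a b => mul_nonneg hl.le (hD.2.1 a b),
      fun a b => congrArg (l * ·) (hD.2.2.1 a b),
      fun a b c => (mul_le_mul_of_nonneg_left (hD.2.2.2 a b c) hl.le).trans_eq (mul_add _ _ _)⟩
    (c := fun e => l * c e) (g := q) (by exact_mod_cast hq1) (fun e => mul_le_mul_of_nonneg_left (hc e) hl.le) h2
    (θ := 1 / (1000 * q ^ 2) ^ 2) (Λ := 16 * q ^ 2) (a0 := 1000 * q ^ 2) (α := 1 / (1000 * q ^ 2)) (by positivity)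
    ((div_le_one (by positivity)).2 (one_le_pow₀ (by linarith))) (by linarith) hG (by positivity) (by positivity)
  refine ⟨w, hw, h3.trans ?_, le_of_mul_le_mul_left ?_ hl⟩
  · have h5 : (K : ℝ) + Δ ≤ Fintype.card E := by exact_mod_cast hPC.le_card hn
    have h6 : 1 / (1000 * (q : ℝ) ^ 2) ≤ 1 := (div_le_one (by positivity)).2 (by linarith)
    have h7 : (q : ℝ) ^ 3 ≤ q ^ 12 := pow_le_pow_right₀ hq1 (by norm_num)
    rw [sq (Fintype.card E : ℝ)]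
    refine mul_le_mul_of_nonneg_left ?_ (Nat.cast_nonneg _)
    nlinarith [(Nat.cast_nonneg K : (0 : ℝ) ≤ K)]
  · have h5 : ∀ e, cheap (fun e => l * c e) (l * c e / (16 * q ^ 2)) = cheap c (c e / (16 * q ^ 2)) := fun e => by
      simp only [cheap, mul_div_assoc, mul_lt_mul_iff_right₀ hl]
    have h6 := kl_const hq' (show (K : ℝ) ≤ q * Δ by exact_mod_cast hKΔ) hΔ' hP
    have h7 : 0 ≤ ∑ e, l * c e := sum_nonneg fun e _ => mul_nonneg hl.le ((h0 e).le.trans (hc e))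
    simp only [h5, Int.cast_natCast] at h4
    refine le_trans (le_of_eq ?_) (h4.trans ((mul_le_mul_of_nonneg_right h6 h7).trans_eq ?_))
    · simp only [mul_add, mul_sum, mul_left_comm l, mul_assoc]
    · rw [← mul_sum]; ring

end Crest.Agent.R37
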