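import Crest.Agent.R37.GL
import Crest.Agent.R37.Mat3

/-!
# R37/KL1: counting net points.
`P j = Sp (cheap c (2^j/Λ))`.  For each residue `i0 < g` apply `gl` with `s t = 2^(i0+g t)`, `r t = P (i0 + g t)` (`P i0` is equality: no edge is
cheap, `sp_empty`), `Lk t` = the pairs `(s e, t e)`, `e` in the links (`exists_links`) from `P j` to `P (j+1)`, `i0+gt ≤ j < i0+g(t+1)`.  Such a link costs
`≤ 2^(j+1)/Λ + 10·2^j ≤ 12·2^j`; there are `≤ ncl (P j) - 1` of them; `slack_sum` ends.
-/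

set_option autoImplicit false

open Matrix Finset

noncomputable section

namespace Crest.Agent.R37

variable {n : ℕ} {E : Type} [Fintype E] [DecidableEq E]

theorem kl1_union {α β : Type} [DecidableEq β] (S : Finset α) (T : α → Finset β) {f : β → ℝ} (h : ∀ p, 0 ≤ f p) :
    ∑ p ∈ S.biUnion T, f p ≤ ∑ k ∈ S, ∑ p ∈ T k, f p := by
  classical
  induction S using Finset.induction_on with
  | empty => simp
  | insert k S hk ih =>
    rw [biUnion_insert, sum_insert hk]
    linarith [sum_union_inter (s₁ := T k) (s₂ := S.biUnion T) (f := f),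
      sum_nonneg (s := T k ∩ S.biUnion T) fun p _ => h p]

theorem kl1_gen {P : ℕ → Fin n → Fin n → Prop} (h : ∀ j, Equivalence (P j)) {L : ℕ → Finset (Fin n × Fin n)}
    (hL : ∀ j x y, P (j + 1) x y ↔ Relation.EqvGen (fun a b => P j a b ∨ (a, b) ∈ L j) x y) (j m : ℕ) (x y : Fin n) :
    P (j + m) x y ↔ Relation.EqvGen (fun a b => P j a b ∨ (a, b) ∈ (range m).biUnion fun k => L (j + k)) x y := by
  induction m generalizing x y with
  | zero => simp [(h j).eqvGen_iff]
  | succ m ih =>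
    rw [← add_assoc, hL, range_add_one, biUnion_insert]
    refine ⟨fun h1 => (Relation.EqvGen.is_equivalence _).eqvGen_iff.1 (h1.mono fun a b h2 => h2.elim
      (fun h2 => ((ih a b).1 h2).mono fun a b => Or.imp_right (mem_union_right _))
      fun h2 => .rel _ _ (.inr (mem_union_left _ h2))), fun h1 => h1.mono fun a b h2 => h2.elim
      (fun h2 => .inl ((ih a b).2 (.rel _ _ (.inl h2)))) fun h2 => (mem_union.1 h2).elim .inr
      fun h2 => .inl ((ih a b).2 (.rel _ _ (.inr h2)))⟩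


theorem kl_nets {s t : E → Fin n} (hn : 1 ≤ n) {K Δ : ℤ} (hK : 1 ≤ K) (hΔ : 0 ≤ Δ)
    (hPC : PC s t (K + Δ)) {D : Fin n → Fin n → ℝ} (hD : IsMet D) {c : E → ℝ} {g : ℕ} (hg : 1 ≤ g)
    (hDc : ∀ e, D (s e) (t e) ≤ c e) (hc : ∀ e, (2 : ℝ) ^ g ≤ c e) {θ Λ : ℝ} (hθ : 0 < θ) (hθ1 : θ ≤ 1)
    (hΛ : 1 ≤ Λ) (hG : 3200 ≤ θ * 2 ^ g) (X : ℕ → Finset (Fin n))
    (hsep : ∀ i, ∀ x ∈ X i, ∀ x' ∈ X i, x ≠ x' → Sp s t K (cheap c (2 ^ (i + g) / Λ)) x x' →
      θ * 2 ^ i ≤ D x x')
    (hpart : ∀ i, ∀ x ∈ X i, ∃ y, Sp s t K (cheap c (2 ^ (i + g) / Λ)) x y ∧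
      ¬ Sp s t K (cheap c (2 ^ i / Λ)) x y ∧ 2 ^ i ≤ D x y ∧ D x y ≤ 2 * 2 ^ i) (I : ℕ) :
    θ * (∑ i ∈ range I, (2 : ℝ) ^ i * (X i).card) * Δ ≤ 24000 * g * Λ * ∑ e, c e := by
  have hK0 : 0 ≤ K := zero_le_one.trans hK
  have Λ0 : 0 < Λ := zero_lt_one.trans_le hΛ
  have c0 : ∀ e, 0 ≤ c e := fun e => le_trans (by positivity) (hc e)
  choose Lk hL1 hL2 hL3 using fun j : ℕ => exists_links (s := s) (t := t) hn hK
    (F := cheap c (2 ^ j / Λ)) (F' := cheap c (2 ^ (j + 1) / Λ)) fun e he => mem_filter.2 ⟨mem_univ _,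
      (mem_filter.1 he).2.trans_le (by gcongr <;> norm_num)⟩
  set a : ℕ → ℝ := fun j => (2 : ℝ) ^ j * ((ncl (Sp s t K (cheap c (2 ^ j / Λ))) : ℝ) - 1)
  have a0 : ∀ j, 0 ≤ a j := fun j => mul_nonneg (by positivity) (sub_nonneg.2 (by exact_mod_cast one_le_ncl hn _))
  have key : ∀ i < g, θ * (∑ τ ∈ range I, (2 : ℝ) ^ (g * τ + i) * (X (g * τ + i)).card) * Δ ≤
      24000 * Λ * ∑ e, c e := fun i hi => by
    have h1 := gl hD hθ hθ1 (s := fun τ => (2 : ℝ) ^ (g * τ + i)) (fun _ => by positivity)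
      (fun τ => by
        rw [show g * (τ + 1) + i = g + (g * τ + i) by ring, pow_add _ g, ← mul_assoc]
        exact mul_le_mul_of_nonneg_right hG (by positivity))
      (r := fun τ => Sp s t K (cheap c (2 ^ (g * τ + i) / Λ))) (fun x y => by
        rw [← sp_empty (s := s) (t := t) hK, mul_zero, zero_add, cheap, filter_false_of_mem fun e _ => not_lt.2
          ((div_le_self (by positivity) hΛ).trans ((pow_le_pow_right₀ one_le_two hi.le).trans (hc e)))])
      (fun τ => (range g).biUnion fun k => (Lk (g * τ + i + k)).image fun e => (s e, t e))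
      (fun τ x y => by
        rw [show g * (τ + 1) + i = g * τ + i + g by ring]
        exact kl1_gen (P := fun j => Sp s t K (cheap c (2 ^ j / Λ))) (fun j => sp_equiv s t hK0 _)
          (L := fun j => (Lk j).image fun e => (s e, t e)) (fun j x y => by simp only [hL3, mem_image, Prod.mk.injEq]) _ _ x y)
      (fun τ => X (g * τ + i)) (fun τ => by
        rw [show g * (τ + 1) + i = g * τ + i + g by ring]
        exact hsep _) (fun τ => by
        rw [show g * (τ + 1) + i = g * τ + i + g by ring]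
        exact hpart _) I
    have h2 : ∀ τ, ∑ p ∈ (range g).biUnion fun k => (Lk (g * τ + i + k)).image fun e => (s e, t e),
        (D p.1 p.2 + 10 * (2 : ℝ) ^ (g * τ + i)) ≤ ∑ k ∈ range g, 12 * a (g * τ + i + k) := fun τ => by
      refine (kl1_union _ _ fun p => add_nonneg (hD.2.1 _ _) (by positivity)).trans (sum_le_sum fun k _ => ?_)
      refine (sum_le_card_nsmul _ _ (12 * (2 : ℝ) ^ (g * τ + i + k)) fun p hp => ?_).trans ?_
      · obtain ⟨e, he, rfl⟩ := mem_image.1 hp
        have h3 := (hDc e).trans ((mem_filter.1 (hL1 _ he)).2.le.trans (div_le_self (by positivity) hΛ))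
        have h4 : (2 : ℝ) ^ (g * τ + i) ≤ 2 ^ (g * τ + i + k) := pow_le_pow_right₀ one_le_two (by omega)
        rw [pow_succ] at h3
        linarith
      · have h3 : (((Lk (g * τ + i + k)).image fun e => (s e, t e)).card : ℝ) + 1 ≤
            ncl (Sp s t K (cheap c (2 ^ (g * τ + i + k) / Λ))) := by
          exact_mod_cast (Nat.add_le_add_right card_image_le 1).trans (hL2 _)
        rw [nsmul_eq_mul, mul_comm, mul_assoc]
        exact mul_le_mul_of_nonneg_left (mul_le_mul_of_nonneg_left (by linarith) (by positivity)) (by norm_num)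
    have h3 : ∀ T, ∑ τ ∈ range T, ∑ k ∈ range g, 12 * a (g * τ + i + k) ≤ 12 * ∑ j ∈ range (g * T + i), a j :=
      fun T => by
        induction T with
        | zero => exact mul_nonneg (by norm_num) (sum_nonneg fun j _ => a0 j)
        | succ T ih =>
          rw [sum_range_succ, show g * (T + 1) + i = g * T + i + g by ring, sum_range_add, mul_add, mul_sum (range g)]
          linarith
    have h4 := slack_sum hn hK0 hΔ hPC c0 Λ0 (g * I + i)
    rw [← sum_mul] at h4
    have h5 := mul_le_mul_of_nonneg_right (h1.trans (mul_le_mul_of_nonneg_left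
      ((sum_le_sum fun τ _ => h2 τ).trans (h3 I)) (by norm_num))) (Int.cast_nonneg (R := ℝ) hΔ)
    linarith
  have h6 : ∀ (b : ℕ → ℝ) T, ∑ j ∈ range (g * T), b j = ∑ τ ∈ range T, ∑ i ∈ range g, b (g * τ + i) := fun b T => by
    induction T with
    | zero => simp
    | succ T ih => rw [sum_range_succ, mul_add, mul_one, sum_range_add, ih]
  calc _ ≤ θ * (∑ j ∈ range (g * I), (2 : ℝ) ^ j * (X j).card) * Δ := by
        gcongr
        exact Nat.le_mul_of_pos_left _ hg
    _ = ∑ i ∈ range g, θ * (∑ τ ∈ range I, (2 : ℝ) ^ (g * τ + i) * (X (g * τ + i)).card) * Δ := by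
        rw [h6, sum_comm, mul_sum, sum_mul]
    _ ≤ ∑ i ∈ range g, 24000 * Λ * ∑ e, c e := sum_le_sum fun i hi => key i (mem_range.1 hi)
    _ = _ := by
        rw [sum_const, card_range, nsmul_eq_mul]
        ring

end Crest.Agent.R37
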