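import Crest.Agent.R37.Lin2

/-!
# R37/KL2: shortcuts to net points.
`w a b = ∑_{e ∈ U} (a0 [(a,b) = (s e, π (s e))] + a0 [(a,b) = (t e, π (t e))] + α [(a,b) = (π (s e), π (t e))])` with `π = π (lv e)`.
`res (s e) (t e) ≤ 3 (1/a0 + res (π s e) (π t e) + 1/a0)` (`res_tri`, `res_le_inv`); `foster` (with `ε = 1/n`) on each level.
-/

set_option autoImplicit false

open Matrix Finset

noncomputable section

namespace Crest.Agent.R37

variable {n : ℕ} {E : Type} [Fintype E] [DecidableEq E]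

theorem kl2_sum {M : Type} [AddCommGroup M] [Module ℝ M] (U : Finset E) (c : ℝ) (x y : E → Fin n)
    (F : Fin n → Fin n → M) :
    ∑ a, ∑ b, (∑ e ∈ U, if a = x e ∧ b = y e then c else 0) • F a b = ∑ e ∈ U, c • F (x e) (y e) := by
  simp only [sum_smul]
  rw [sum_congr rfl fun a _ => sum_comm, sum_comm]
  refine sum_congr rfl fun e _ => ?_
  rw [sum_eq_single (x e), sum_eq_single (y e)] <;> simp +contextual

theorem kl2_psd_sum {ι : Type} (U : Finset ι) {A : ι → Mat n} (h : ∀ e ∈ U, (A e).PosSemidef) :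
    (∑ e ∈ U, A e).PosSemidef :=
  sum_induction A Matrix.PosSemidef (fun _ _ => Matrix.PosSemidef.add) Matrix.PosSemidef.zero h

theorem kl2_psd_sub {ι : Type} [DecidableEq ι] {U V : Finset ι} (hV : V ⊆ U) {A : ι → Mat n}
    (h : ∀ e, (A e).PosSemidef) : (∑ e ∈ U, A e - ∑ e ∈ V, A e).PosSemidef := by
  rw [← sum_sdiff_eq_sub hV]
  exact kl2_psd_sum _ fun e _ => h e

theorem kl_short (s t : E → Fin n) (hn : 1 ≤ n) {D : Fin n → Fin n → ℝ} (hD : IsMet D) (U : Finset E)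
    (lv : E → ℕ) (π : ℕ → Fin n → Fin n) (X : ℕ → Finset (Fin n)) {θ a0 α : ℝ} (hθ : 0 ≤ θ)
    (hθ1 : θ ≤ 1) (ha : 0 < a0) (hα : 0 < α) (I : ℕ)
    (hU : ∀ e ∈ U, lv e < I ∧ 2 ^ lv e ≤ D (s e) (t e) ∧ D (s e) (t e) ≤ 2 * 2 ^ lv e ∧
      π (lv e) (s e) ∈ X (lv e) ∧ π (lv e) (t e) ∈ X (lv e) ∧
      D (s e) (π (lv e) (s e)) ≤ θ * 2 ^ lv e ∧ D (t e) (π (lv e) (t e)) ≤ θ * 2 ^ lv e) :
    ∃ w : Fin n → Fin n → ℝ, (∀ a b, 0 ≤ w a b) ∧
      ∑ a, ∑ b, w a b ≤ Fintype.card E * (2 * a0 + α) ∧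
      ∑ a, ∑ b, w a b * D a b + ∑ e ∈ U, D (s e) (t e) * res (Gam s t + Lw w) (s e) (t e) ≤
        (2 * a0 * θ + 3 * α + 6 / a0) * ∑ e ∈ U, D (s e) (t e) +
          6 / α * ∑ i ∈ range I, (2 : ℝ) ^ i * (X i).card := by
  obtain ⟨hD0, hD1, hD2, hD3⟩ := hD
  set p : E → Fin n := fun e => π (lv e) (s e) with hp
  set q : E → Fin n := fun e => π (lv e) (t e) with hq
  set w : Fin n → Fin n → ℝ := fun a b => (∑ e ∈ U, if a = s e ∧ b = p e then a0 else 0) +
    (∑ e ∈ U, if a = t e ∧ b = q e then a0 else 0) + ∑ e ∈ U, if a = p e ∧ b = q e then α else 0 with hw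
  have hw0 : ∀ a b, 0 ≤ w a b := fun a b => by
    refine add_nonneg (add_nonneg ?_ ?_) ?_ <;> refine sum_nonneg fun e _ => ?_ <;> split_ifs <;> positivity
  have key : ∀ {M : Type} [AddCommGroup M] [Module ℝ M] (F : Fin n → Fin n → M), ∑ a, ∑ b, w a b • F a b =
      ∑ e ∈ U, a0 • F (s e) (p e) + ∑ e ∈ U, a0 • F (t e) (q e) + ∑ e ∈ U, α • F (p e) (q e) := by
    intro M _ _ F
    simp only [hw, add_smul, sum_add_distrib, kl2_sum]
  have hL := key (fun a b => Lp a b)
  change Lw w = _ at hL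
  have hW := GamLw_posDef s t hw0
  have hA : ∀ (c : ℝ) (x y : E → Fin n), 0 < c → ∀ e, (c • Lp (x e) (y e)).PosSemidef :=
    fun c x y hc e => (Lp_psd _ _).smul hc.le
  have hA' : ∀ (c : ℝ) (x y : E → Fin n), 0 < c → (∑ e ∈ U, c • Lp (x e) (y e)).PosSemidef :=
    fun c x y hc => kl2_psd_sum _ fun e _ => hA c x y hc e
  have hG := (Gam_posDef s t).posSemidef
  have r1 : ∀ e ∈ U, res (Gam s t + Lw w) (s e) (p e) ≤ 1 / a0 := fun e he => by
    refine res_le_inv hW ha ?_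
    have := ((hG.add (kl2_psd_sub (singleton_subset_iff.2 he) (hA a0 s p ha))).add (hA' a0 t q ha)).add
      (hA' α p q hα)
    rw [sum_singleton] at this
    convert this using 1
    rw [hL]; abel
  have r2 : ∀ e ∈ U, res (Gam s t + Lw w) (q e) (t e) ≤ 1 / a0 := fun e he => by
    rw [res, qf_symm]
    refine res_le_inv hW ha ?_
    have := ((hG.add (kl2_psd_sub (singleton_subset_iff.2 he) (hA a0 t q ha))).add (hA' a0 s p ha)).add
      (hA' α p q hα)
    rw [sum_singleton] at this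
    convert this using 1
    rw [hL]; abel
  have r3 : ∀ i, ∑ e ∈ U.filter (fun e => lv e = i), α * res (Gam s t + Lw w) (p e) (q e) ≤ (X i).card := by
    intro i
    refine foster _ (fun _ => α) p q (X i) (fun _ _ => hα.le) (fun e he => ?_) (ε := 1 / (n : ℝ))
      (by have : (0 : ℝ) < n := by exact_mod_cast hn
          positivity) ?_
    · obtain ⟨he', rfl⟩ := mem_filter.1 he
      exact ⟨(hU e he').2.2.2.1, (hU e he').2.2.2.2.1⟩
    · have := (((LE_psd s t (x := fun _ => 1) fun _ => zero_le_one).add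
        (kl2_psd_sub (filter_subset (fun e => lv e = i) U) (hA α p q hα))).add (hA' a0 s p ha)).add (hA' a0 t q ha)
      convert this using 1
      rw [hL, Gam]; abel
  refine ⟨w, hw0, ?_, ?_⟩
  · have := key (M := ℝ) (fun _ _ => 1)
    simp only [smul_eq_mul, mul_one, sum_const, nsmul_eq_mul] at this
    have h1 : (U.card : ℝ) ≤ Fintype.card E := by exact_mod_cast card_le_univ U
    rw [this]
    nlinarith
  have e1 : ∑ a, ∑ b, w a b * D a b ≤ (2 * a0 * θ + 3 * α) * ∑ e ∈ U, D (s e) (t e) := by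
    have := key (M := ℝ) D
    simp only [smul_eq_mul] at this
    rw [this, ← sum_add_distrib, ← sum_add_distrib, mul_sum]
    refine sum_le_sum fun e he => ?_
    obtain ⟨-, h1, -, -, -, h2, h3⟩ := hU e he
    have h4 : θ * 2 ^ lv e ≤ θ * D (s e) (t e) := mul_le_mul_of_nonneg_left h1 hθ
    have h5 : θ * D (s e) (t e) ≤ D (s e) (t e) := mul_le_of_le_one_left (hD1 _ _) hθ1
    have h6 : D (p e) (q e) ≤ 3 * D (s e) (t e) := by
      have := hD3 (p e) (s e) (q e)
      have := hD3 (s e) (t e) (q e)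
      have := hD2 (p e) (s e)
      linarith
    have h7 := mul_le_mul_of_nonneg_left (h2.trans h4) ha.le
    have h8 := mul_le_mul_of_nonneg_left (h3.trans h4) ha.le
    have h9 := mul_le_mul_of_nonneg_left h6 hα.le
    linarith
  have e2 : ∑ e ∈ U, D (s e) (t e) * res (Gam s t + Lw w) (s e) (t e) ≤ 6 / a0 * ∑ e ∈ U, D (s e) (t e) +
      6 * ∑ e ∈ U, 2 ^ lv e * res (Gam s t + Lw w) (p e) (q e) := by
    rw [mul_sum, mul_sum, ← sum_add_distrib]
    refine sum_le_sum fun e he => ?_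
    have h1 := res_tri hW (s e) (p e) (q e) (t e)
    have h2 : res (Gam s t + Lw w) (s e) (t e) ≤ 6 / a0 + 3 * res (Gam s t + Lw w) (p e) (q e) := by
      have := r1 e he
      have := r2 e he
      have : 6 / a0 = 6 * (1 / a0) := by ring
      linarith
    have h3 := mul_le_mul_of_nonneg_left h2 (hD1 (s e) (t e))
    have h4 := mul_le_mul_of_nonneg_right (hU e he).2.2.1 (res_nonneg hW (p e) (q e))
    linarith
  have e3 : ∑ e ∈ U, 2 ^ lv e * res (Gam s t + Lw w) (p e) (q e) ≤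
      1 / α * ∑ i ∈ range I, (2 : ℝ) ^ i * (X i).card := by
    rw [← sum_fiberwise_of_maps_to (s := U) (t := range I) (g := lv) fun e he => mem_range.2 (hU e he).1, mul_sum]
    refine sum_le_sum fun i _ => ?_
    have h1 : ∑ e ∈ U.filter (fun e => lv e = i), 2 ^ lv e * res (Gam s t + Lw w) (p e) (q e) =
        1 / α * (2 ^ i * ∑ e ∈ U.filter (fun e => lv e = i), α * res (Gam s t + Lw w) (p e) (q e)) := by
      rw [mul_sum, mul_sum]
      refine sum_congr rfl fun e he => ?_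
      rw [(mem_filter.1 he).2]
      field_simp
    rw [h1]
    gcongr
    exact r3 i
  have : 6 / α = 6 * (1 / α) := by ring
  rw [this]
  nlinarith

end Crest.Agent.R37
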