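import Crest.Agent.R37.KL1
import Crest.Agent.R37.KL2

/-!
# R37/KL3: the key lemma, normalised, with free parameters.
`lv e` with `2^lv ≤ D_e < 2^(lv+1)`.  Split `U` into (a) `2^(lv+g)/Λ ≤ c e`: `D_e ρ_e ≤ 2·2^lv ≤ 2Λ 2^{-g} c e` (`res_GamLw_le_one`); (b) cheap at level
`lv+g` and crossing `P (lv+g)`: at most `K (ncl - 1)` per level (`cross_sp_le`), total `≤ 4KΛ 2^{-g} c(E)/Δ` by `slack_sum`; (c) `P (lv+g) (s e) (t e)`.
For (c): `X i` = a maximal subset of the ends of the level-`i` edges of (c) whose distinct `P (i+g)`-related points are `θ 2^i` apart; `π i v` = a point of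
`X i` within `θ 2^i`.  The partner of an end is the other end (`¬ P i` since `2^i/Λ ≤ c e/Λ`, `sp_mono`).  `kl_short` + `kl_nets`.
-/

set_option autoImplicit false

open Matrix Finset

noncomputable section

namespace Crest.Agent.R37

variable {n : ℕ} {E : Type} [Fintype E] [DecidableEq E]

open Classical in
theorem kl_norm {s t : E → Fin n} (hn : 1 ≤ n) {K Δ : ℤ} (hK : 1 ≤ K) (hΔ : 0 < Δ)
    (hPC : PC s t (K + Δ)) {D : Fin n → Fin n → ℝ} (hD : IsMet D) {c : E → ℝ} {g : ℕ} (hg : 1 ≤ g)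
    (hDc : ∀ e, D (s e) (t e) ≤ c e) (hc : ∀ e, (2 : ℝ) ^ g ≤ D (s e) (t e)) {θ Λ a0 α : ℝ} (hθ : 0 < θ)
    (hθ1 : θ ≤ 1) (hΛ : 1 ≤ Λ) (hG : 3200 ≤ θ * 2 ^ g) (ha : 0 < a0) (hα : 0 < α) :
    ∃ w : Fin n → Fin n → ℝ, (∀ a b, 0 ≤ w a b) ∧
      ∑ a, ∑ b, w a b ≤ Fintype.card E * (2 * a0 + α) ∧
      ∑ a, ∑ b, w a b * D a b +
          ∑ e ∈ univ.filter (fun e => ¬ Sp s t K (cheap c (c e / Λ)) (s e) (t e)),
            D (s e) (t e) * res (Gam s t + Lw w) (s e) (t e) ≤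
        (2 * a0 * θ + 3 * α + 6 / a0 + 2 * Λ / 2 ^ g + 4 * K * Λ / (2 ^ g * Δ) +
          6 / α * (24000 * g * Λ / (θ * Δ))) * ∑ e, c e := by
  have g1 : (1 : ℝ) ≤ 2 ^ g := one_le_pow₀ one_le_two
  choose lv l1 l2 using fun e => exists_nat_pow_near (g1.trans (hc e)) (one_lt_two (α := ℝ))
  have K0 : 0 ≤ K := by omega
  have Λ0 : 0 < Λ := by linarith
  have Δ0 : (0 : ℝ) < Δ := by exact_mod_cast hΔ
  have c0 : ∀ e, 0 ≤ c e := fun e => (hD.2.1 _ _).trans (hDc e)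
  set U := univ.filter (fun e => ¬ Sp s t K (cheap c (c e / Λ)) (s e) (t e)) with hU
  let P : ℕ → Fin n → Fin n → Prop := fun j => Sp s t K (cheap c (2 ^ j / Λ))
  have hP : ∀ j, Equivalence (P j) := fun j => sp_equiv s t K0 _
  let Uc := U.filter fun e => P (lv e + g) (s e) (t e)
  let Xs : ℕ → Finset (Fin n) := fun i => univ.filter fun x => ∃ e ∈ Uc, lv e = i ∧ (s e = x ∨ t e = x)
  choose X hX1 hX2 hX3 using fun i => gl1_net (Xs i) (Q := fun x y => P (i + g) x y ∧ D x y < θ * 2 ^ i)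
    (fun x => ⟨(hP _).refl x, by rw [hD.1]; positivity⟩) fun x y h => ⟨(hP _).symm h.1, hD.2.2.1 x y ▸ h.2⟩
  have : Nonempty (Fin n) := ⟨⟨0, hn⟩⟩
  choose! π hπ1 hπ2 using hX3
  set I := univ.sup lv + 1
  have hI : ∀ e, lv e < I := fun e => Nat.lt_succ_of_le (le_sup (mem_univ e))
  have l3 : ∀ e, D (s e) (t e) ≤ 2 * 2 ^ lv e := fun e => by linarith [l2 e, pow_succ (2 : ℝ) (lv e)]
  have hN := kl_nets hn hK hΔ.le hPC hD hg hDc (fun e => (hc e).trans (hDc e)) hθ hθ1 hΛ hG X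
    (fun i x hx x' hx' hne h => not_lt.1 fun h' => hX2 i x hx x' hx' hne ⟨h, h'⟩) (fun i x hx => by
      obtain ⟨e, he, rfl, h⟩ := (mem_filter.1 (hX1 i hx)).2
      obtain ⟨h1, h2⟩ := mem_filter.1 he
      have h3 : ¬ P (lv e) (s e) (t e) := fun h => (mem_filter.1 h1).2 (sp_mono (fun f hf => by
        simp only [cheap, mem_filter, mem_univ, true_and] at hf ⊢
        exact hf.trans_le (div_le_div_of_nonneg_right ((l1 e).trans (hDc e)) Λ0.le)) h)
      rcases h with rfl | rfl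
      · exact ⟨t e, h2, h3, l1 e, l3 e⟩
      · exact ⟨s e, (hP _).symm h2, fun h => h3 ((hP _).symm h), hD.2.2.1 _ _ ▸ l1 e, hD.2.2.1 _ _ ▸ l3 e⟩) I
  obtain ⟨w, w0, w1, w2⟩ := kl_short s t hn hD Uc lv π X hθ.le hθ1 ha hα I fun e he => by
    have a : s e ∈ Xs (lv e) := mem_filter.2 ⟨mem_univ _, e, he, rfl, Or.inl rfl⟩
    have b : t e ∈ Xs (lv e) := mem_filter.2 ⟨mem_univ _, e, he, rfl, Or.inr rfl⟩
    exact ⟨hI e, l1 e, l3 e, hπ1 _ _ a, hπ1 _ _ b, (hπ2 _ _ a).2.le, (hπ2 _ _ b).2.le⟩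
  refine ⟨w, w0, w1, ?_⟩
  set C := ∑ e, c e
  let B : ℕ → Finset E := fun j => cheap c (2 ^ j / Λ) ∩ cross s t (P j)
  have h1 : ∑ e ∈ U.filter (fun e => ¬ P (lv e + g) (s e) (t e)), D (s e) (t e) * res (Gam s t + Lw w) (s e) (t e) ≤
      ∑ e, (2 * Λ / 2 ^ g * c e + ∑ i ∈ range I, if e ∈ B (g + i) then (2 : ℝ) * 2 ^ i else 0) := by
    have n0 : ∀ e i, 0 ≤ if e ∈ B (g + i) then (2 : ℝ) * 2 ^ i else 0 := fun e i => by split_ifs <;> positivity
    refine (sum_le_sum fun e he => ?_).trans (sum_le_sum_of_subset_of_nonneg (subset_univ _) fun e _ _ =>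
      add_nonneg (mul_nonneg (by positivity) (c0 e)) (sum_nonneg fun i _ => n0 e i))
    refine ((mul_le_of_le_one_right (hD.2.1 _ _) (res_GamLw_le_one s t w0 e)).trans (l3 e)).trans ?_
    rcases le_or_gt (2 ^ (lv e + g) / Λ) (c e) with h | h
    · refine le_add_of_le_of_nonneg ?_ (sum_nonneg fun i _ => n0 e i)
      rw [div_le_iff₀ Λ0, pow_add] at h
      rw [div_mul_eq_mul_div, le_div_iff₀ (by positivity)]
      linarith
    · refine le_add_of_nonneg_of_le (mul_nonneg (by positivity) (c0 e))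
        (le_trans (le_of_eq (if_pos ?_).symm) (single_le_sum (fun i _ => n0 e i) (mem_range.2 (hI e))))
      rw [add_comm]
      exact mem_inter.2 ⟨mem_filter.2 ⟨mem_univ _, h⟩, mem_filter.2 ⟨mem_univ _, (mem_filter.1 he).2⟩⟩
  have h2 : ∑ i ∈ range I, (2 : ℝ) ^ (g + i) * ((ncl (P (g + i)) : ℝ) - 1) * Δ ≤ 2 * Λ * C := by
    refine le_trans ?_ (slack_sum hn K0 hΔ.le hPC c0 Λ0 (g + I))
    rw [sum_range_add _ g I]
    refine le_add_of_nonneg_left (sum_nonneg fun j _ => mul_nonneg (mul_nonneg (by positivity) ?_) Δ0.le)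
    exact sub_nonneg.2 (by exact_mod_cast one_le_ncl hn _)
  have h3 : ∑ e, ∑ i ∈ range I, (if e ∈ B (g + i) then (2 : ℝ) * 2 ^ i else 0) ≤ 4 * K * Λ / (2 ^ g * Δ) * C := by
    rw [sum_comm]
    calc _ ≤ ∑ i ∈ range I, 2 * K / (2 ^ g * Δ) * ((2 : ℝ) ^ (g + i) * ((ncl (P (g + i)) : ℝ) - 1) * Δ) := by
          refine sum_le_sum fun i _ => ?_
          rw [sum_ite_mem, univ_inter, sum_const, nsmul_eq_mul]
          have : ((B (g + i)).card : ℝ) ≤ K * ((ncl (P (g + i)) : ℝ) - 1) := by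
            exact_mod_cast cross_sp_le hn K0 _
          refine (mul_le_mul_of_nonneg_right this (by positivity)).trans (le_of_eq ?_)
          rw [pow_add]
          field_simp
      _ ≤ 2 * K / (2 ^ g * Δ) * (2 * Λ * C) := by
          rw [← mul_sum]
          exact mul_le_mul_of_nonneg_left h2 (by positivity)
      _ = _ := by ring
  have h4 : ∑ e ∈ Uc, D (s e) (t e) ≤ C :=
    (sum_le_sum fun e _ => hDc e).trans (sum_le_sum_of_subset_of_nonneg (subset_univ _) fun e _ _ => c0 e)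
  have h5 : ∑ i ∈ range I, (2 : ℝ) ^ i * (X i).card ≤ 24000 * g * Λ / (θ * Δ) * C := by
    rw [div_mul_eq_mul_div, le_div_iff₀ (by positivity)]
    linarith
  rw [sum_add_distrib, ← mul_sum] at h1
  rw [← sum_filter_add_sum_filter_not U fun e => P (lv e + g) (s e) (t e)]
  have h6 := mul_le_mul_of_nonneg_left h4 (show 0 ≤ 2 * a0 * θ + 3 * α + 6 / a0 by positivity)
  have h7 := mul_le_mul_of_nonneg_left h5 (show 0 ≤ 6 / α by positivity)
  linarith

end Crest.Agent.R37
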