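import Crest.Agent.R37.Lin1

/-!
# R37/Lin2: effective resistance.
`res_var`: expand `(x - W⁻¹b)ᵀ W (x - W⁻¹b) ≥ 0`.  `res_anti`: apply `res_var` for `W` at `x = W'⁻¹ b`.
`res_le_inv`: with `y = W⁻¹ b`, `r = bᵀy = yᵀWy ≥ α (bᵀy)² = α r²`.  `res_tri`: `b_{ad} = b_{ab}+b_{bc}+b_{cd}`
and `Q(x+y+z) ≤ 3(Q x+Q y+Q z)` for the psd form of `W⁻¹`.
`foster`: with `L = ∑ α_i L_i`, `res W ≤ res (L+εI)` and `tr((L+εI)⁻¹L) = n - ε tr (L+εI)⁻¹`; for
`x ∉ X`, `(L+εI) e_x = ε e_x`, so the diagonal entry of the inverse is `1/ε`; the others are `≥ 0`.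
`res_tangent` (convexity): `res_var` for `W'` at `x = W⁻¹ b`.
-/

set_option autoImplicit false

open Matrix Finset

noncomputable section

namespace Crest.Agent.R37

variable {n : ℕ} {E : Type} [Fintype E] [DecidableEq E]

theorem form_nonneg {A : Mat n} (hA : A.PosSemidef) (x : Fin n → ℝ) : 0 ≤ x ⬝ᵥ A *ᵥ x := by
  simpa using hA.dotProduct_mulVec_nonneg x

theorem form_symm {A : Mat n} (hA : A.IsHermitian) (x y : Fin n → ℝ) :
    x ⬝ᵥ A *ᵥ y = y ⬝ᵥ A *ᵥ x := by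
  have : Aᵀ = A := by simpa [Matrix.IsHermitian] using hA
  rw [Matrix.dotProduct_mulVec, ← Matrix.mulVec_transpose, this, dotProduct_comm]

theorem mulVec_inv {W : Mat n} (hW : W.PosDef) (x : Fin n → ℝ) : W *ᵥ (W⁻¹ *ᵥ x) = x := by
  rw [Matrix.mulVec_mulVec, Matrix.mul_nonsing_inv _ (isUnit_iff_isUnit_det _ |>.1 hW.isUnit),
    one_mulVec]

theorem form_var {W : Mat n} (hW : W.PosDef) (b x : Fin n → ℝ) :
    2 * (b ⬝ᵥ x) - x ⬝ᵥ W *ᵥ x ≤ b ⬝ᵥ W⁻¹ *ᵥ b := by
  have h := form_nonneg hW.posSemidef (x - W⁻¹ *ᵥ b)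
  rw [Matrix.mulVec_sub, mulVec_inv hW, sub_dotProduct, dotProduct_sub, dotProduct_sub,
    form_symm hW.1 (W⁻¹ *ᵥ b) x, mulVec_inv hW, dotProduct_comm x b, dotProduct_comm _ b] at h
  linarith

theorem form_anti {W W' : Mat n} (hW : W.PosDef) (h : (W' - W).PosSemidef) (b : Fin n → ℝ) :
    b ⬝ᵥ W'⁻¹ *ᵥ b ≤ b ⬝ᵥ W⁻¹ *ᵥ b := by
  have hW' : W'.PosDef := by simpa using hW.add_posSemidef h
  have h1 := form_var hW b (W'⁻¹ *ᵥ b)
  have h2 := form_nonneg h (W'⁻¹ *ᵥ b)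
  rw [Matrix.sub_mulVec, dotProduct_sub, mulVec_inv hW', dotProduct_comm _ b] at h2
  linarith

theorem form_cs {A : Mat n} (hA : A.PosSemidef) (x y : Fin n → ℝ) :
    (x ⬝ᵥ A *ᵥ y) ^ 2 ≤ (x ⬝ᵥ A *ᵥ x) * (y ⬝ᵥ A *ᵥ y) := by
  have h : ∀ r : ℝ, 0 ≤ (y ⬝ᵥ A *ᵥ y) * (r * r) + (2 * (x ⬝ᵥ A *ᵥ y)) * r + x ⬝ᵥ A *ᵥ x := fun r => by
    have := form_nonneg hA (x + r • y)
    simp only [Matrix.mulVec_add, Matrix.mulVec_smul, add_dotProduct, dotProduct_add, smul_dotProduct,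
      dotProduct_smul, smul_eq_mul, form_symm hA.1 y x] at this
    linarith
  have := discrim_le_zero h
  rw [discrim] at this
  linarith

theorem res_nonneg {W : Mat n} (hW : W.PosDef) (a b : Fin n) : 0 ≤ res W a b := by
  exact qf_nonneg hW.inv.posSemidef a b

theorem res_var {W : Mat n} (hW : W.PosDef) (a b : Fin n) (x : Fin n → ℝ) :
    2 * (bv a b ⬝ᵥ x) - x ⬝ᵥ W *ᵥ x ≤ res W a b := by
  exact form_var hW _ x

theorem res_anti {W W' : Mat n} (hW : W.PosDef) (h : (W' - W).PosSemidef) (a b : Fin n) :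
    res W' a b ≤ res W a b := by
  exact form_anti hW h _

theorem res_le_inv {W : Mat n} (hW : W.PosDef) {α : ℝ} (hα : 0 < α) {a b : Fin n}
    (h : (W - α • Lp a b).PosSemidef) : res W a b ≤ 1 / α := by
  have h1 := form_nonneg h (W⁻¹ *ᵥ bv a b)
  rw [Matrix.sub_mulVec, dotProduct_sub, mulVec_inv hW, Matrix.smul_mulVec, dotProduct_smul, form_Lp,
    dotProduct_comm _ (bv a b), smul_eq_mul] at h1
  have h0 := res_nonneg hW a b
  change 0 ≤ res W a b - α * (res W a b * res W a b) at h1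
  rw [le_div_iff₀ hα]
  rcases h0.eq_or_lt with h0 | h0
  · rw [← h0]; simp
  · nlinarith

theorem res_GamLw_le_one (s t : E → Fin n) {w : Fin n → Fin n → ℝ} (hw : ∀ a b, 0 ≤ w a b) (e : E) :
    res (Gam s t + Lw w) (s e) (t e) ≤ 1 := by
  have h := res_le_inv (GamLw_posDef s t hw) one_pos (a := s e) (b := t e) (by
    have e1 : Gam s t + Lw w - (1 : ℝ) • Lp (s e) (t e) =
        LE s t (fun f => if f = e then 0 else 1) + ((1 / (n : ℝ)) • (1 : Mat n) + Lw w) := by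
      have : LE s t (fun _ => 1) = LE s t (fun f => if f = e then 0 else 1) + Lp (s e) (t e) := by
        simp only [LE]
        rw [← Finset.add_sum_erase _ _ (mem_univ e), ← Finset.add_sum_erase _ _ (mem_univ e)]
        simp only [if_true, zero_smul, zero_add, one_smul]
        rw [add_comm]
        congr 1
        exact Finset.sum_congr rfl fun f hf => by simp [Finset.ne_of_mem_erase hf]
      rw [Gam, this, one_smul]; abel
    rw [e1]
    exact (LE_psd s t fun f => by split_ifs <;> norm_num).add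
      ((psd_smul Matrix.PosSemidef.one (by positivity)).add (Lw_psd hw)))
  simpa using h

theorem res_smul {W : Mat n} (hW : W.PosDef) {σ : ℝ} (hσ : 0 < σ) (a b : Fin n) :
    res (σ • W) a b = res W a b / σ := by
  have : (σ • W)⁻¹ = σ⁻¹ • W⁻¹ := by
    refine Matrix.inv_eq_right_inv ?_
    rw [smul_mul_smul_comm, mul_inv_cancel₀ hσ.ne',
      Matrix.mul_nonsing_inv _ (isUnit_iff_isUnit_det _ |>.1 hW.isUnit), one_smul]
  rw [res, this, qf_smul, res, div_eq_inv_mul]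

theorem res_tri {W : Mat n} (hW : W.PosDef) (a b c d : Fin n) :
    res W a d ≤ 3 * (res W a b + res W b c + res W c d) := by
  have hA := hW.inv.posSemidef
  have e : bv a d = bv a b + bv b c + bv c d := by simp [bv]
  simp only [res, qf]
  rw [e]
  generalize bv a b = x, bv b c = y, bv c d = z
  have h1 := form_nonneg hA (x - y)
  have h2 := form_nonneg hA (x - z)
  have h3 := form_nonneg hA (y - z)
  simp only [Matrix.mulVec_add, Matrix.mulVec_sub, add_dotProduct, dotProduct_add, sub_dotProduct,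
    dotProduct_sub] at *
  linarith

theorem bf_sq_le {Z : Mat n} (hZ : Z.PosSemidef) (a b c d : Fin n) :
    bf Z a b c d ^ 2 ≤ qf Z a b * qf Z c d := by
  exact form_cs hZ _ _

theorem foster {ι : Type} (I : Finset ι) (α : ι → ℝ) (a b : ι → Fin n) (X : Finset (Fin n))
    (hα : ∀ i ∈ I, 0 ≤ α i) (hX : ∀ i ∈ I, a i ∈ X ∧ b i ∈ X) {ε : ℝ} (hε : 0 < ε) {W : Mat n}
    (h : (W - (∑ i ∈ I, α i • Lp (a i) (b i) + ε • (1 : Mat n))).PosSemidef) :
    ∑ i ∈ I, α i * res W (a i) (b i) ≤ X.card := by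
  set L : Mat n := ∑ i ∈ I, α i • Lp (a i) (b i) with hL
  have hLp : L.PosSemidef := psd_sum _ fun i hi => psd_smul (Lp_psd _ _) (hα i hi)
  have hV : (L + ε • (1 : Mat n)).PosDef := Matrix.PosDef.posSemidef_add hLp (Matrix.PosDef.one.smul hε)
  set V := L + ε • (1 : Mat n) with hVd
  have h1 : ∑ i ∈ I, α i * res W (a i) (b i) ≤ (V⁻¹ * L).trace := by
    rw [hL, Finset.mul_sum, Matrix.trace_sum]
    refine Finset.sum_le_sum fun i hi => ?_
    rw [Matrix.mul_smul, Matrix.trace_smul, qf_eq_trace, smul_eq_mul]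
    exact mul_le_mul_of_nonneg_left (res_anti hV h _ _) (hα i hi)
  refine h1.trans ?_
  have hu : V⁻¹ * V = 1 := Matrix.nonsing_inv_mul _ (isUnit_iff_isUnit_det _ |>.1 hV.isUnit)
  have h2 : V⁻¹ * L = 1 - ε • V⁻¹ := by
    rw [← hu]; conv_rhs => rw [hVd]
    rw [mul_add, ← hVd, Matrix.mul_smul, mul_one]; abel
  have h3 : ∀ x, (V⁻¹ * L) x x ≤ if x ∈ X then 1 else 0 := fun x => by
    split_ifs with hx
    · have := hV.inv.posSemidef.diag_nonneg (i := x)
      rw [h2]; simp only [Matrix.sub_apply, Matrix.one_apply_eq, Matrix.smul_apply, smul_eq_mul]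
      nlinarith
    · refine le_of_eq ?_
      rw [Matrix.mul_apply]
      refine Finset.sum_eq_zero fun y _ => ?_
      rw [hL, Matrix.sum_apply, Finset.sum_eq_zero, mul_zero]
      intro i hi
      have ha : x ≠ a i := fun e => hx (e ▸ (hX i hi).1)
      have hb : x ≠ b i := fun e => hx (e ▸ (hX i hi).2)
      simp [Lp, vecMulVec_apply, bv, Pi.single_apply, ha, hb]
  refine (Finset.sum_le_sum fun x _ => h3 x).trans (le_of_eq ?_)
  simp

/-- convexity of the resistance in the weights: tangent inequality -/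
theorem res_tangent (G : Mat n) {w w' : Fin n → Fin n → ℝ} (hW : (G + Lw w).PosDef)
    (hW' : (G + Lw w').PosDef) (a b : Fin n) :
    res (G + Lw w) a b - ∑ c, ∑ d, (w' c d - w c d) * bf (G + Lw w)⁻¹ a b c d ^ 2 ≤
      res (G + Lw w') a b := by
  have h1 := res_var hW' a b ((G + Lw w)⁻¹ *ᵥ bv a b)
  have e : G + Lw w' = (G + Lw w) + ∑ c, ∑ d, (w' c d - w c d) • Lp c d := by
    simp only [Lw, sub_smul, Finset.sum_sub_distrib]; abel
  set V := G + Lw w
  refine le_trans (le_of_eq ?_) h1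
  conv_rhs => rw [e]
  rw [Matrix.add_mulVec, dotProduct_add, mulVec_inv hW, dotProduct_comm _ (bv a b)]
  simp only [Matrix.sum_mulVec, dotProduct_sum, Matrix.smul_mulVec, dotProduct_smul, form_Lp,
    smul_eq_mul, res, qf, bf, form_symm hW.inv.1 (bv a b), sq]
  ring

end Crest.Agent.R37
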