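import Crest.Agent.R37.CTree

/-!
# R37/Main: the algorithm on codes (statement of S0051).
`α` = triples `(n, k, l) : ℕ × ℕ × List ℕ` such that `l` is the flattened table of some admissible `mult` (so `mult i j = l.getD (i n + j) 0`, `n ≤ l.length`).  For `n = 1` output `[]`;
else `solv_tree` on `preL`, output `(List.range (n*n)).map fun x => decide (⟨x / n, x % n⟩ ∈ T)`.  `exists_total`, `Parses.nat/seq/natList`, `exists_decoder`, `PT.polyTime`.
-/

set_option autoImplicit false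

open Matrix Finset Crest.Agent.Lib.PolyTime

noncomputable section

namespace Crest.Agent.R37


/-- the table read off a list -/
def m51Tab (x : ℕ × ℕ × List ℕ) : Fin x.1 → Fin x.1 → ℕ := fun i j => x.2.2.getD (i * x.1 + j) 0

/-- admissible inputs -/
def m51Ok (x : ℕ × ℕ × List ℕ) : Prop :=
  2 ≤ x.1 ∧ 1 ≤ x.2.1 ∧ x.1 ≤ x.2.2.length ∧ (∀ i j, m51Tab x i j = m51Tab x j i) ∧
    ∀ S : Finset (Fin x.1), S.Nonempty → S ≠ univ → x.2.1 ≤ ∑ i ∈ S, ∑ j ∈ Sᶜ, m51Tab x i j

theorem m51_idx {n : ℕ} {p q : Fin n × Fin n} (h : p.1.val * n + p.2.val = q.1.val * n + q.2.val) : p = q := by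
  have h1 : ∀ r : Fin n × Fin n, (r.1.val * n + r.2.val) % n = r.2.val := fun r => by
    rw [Nat.mul_comm, Nat.mul_add_mod, Nat.mod_eq_of_lt r.2.2]
  have h2 : p.2.val = q.2.val := by rw [← h1 p, h, h1 q]
  rw [h2] at h
  exact Prod.ext (Fin.ext (Nat.eq_of_mul_eq_mul_right p.2.pos (Nat.add_right_cancel h))) (Fin.ext h2)

theorem m51_lt {n : ℕ} (i j : Fin n) : i.val * n + j.val < n * n := by
  have := Nat.mul_le_mul_right n (Nat.succ_le_of_lt i.2)
  have := j.2
  rw [Nat.succ_mul] at *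
  omega

theorem m51_flat {n : ℕ} (mult : Fin n → Fin n → ℕ) :
    ((List.finRange n).map fun i => (List.finRange n).map fun j => mult i j).flatten =
      List.ofFn fun x : Fin (n * n) => mult x.divNat x.modNat := by
  rw [List.ofFn_mul, ← List.ofFn_eq_map]
  congr 2
  funext i
  rw [← List.ofFn_eq_map]
  congr 1
  funext j
  congr 1 <;> apply Fin.ext
  · simp [Nat.add_comm, Nat.add_mul_div_right _ _ j.pos, Nat.div_eq_of_lt j.2]
  · simp [Nat.mod_eq_of_lt j.2]

theorem m51_tab {n k : ℕ} (mult : Fin n → Fin n → ℕ) :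
    m51Tab (n, k, ((List.finRange n).map fun i => (List.finRange n).map fun j => mult i j).flatten) = mult := by
  funext i j
  change List.getD _ (i.val * n + j.val) 0 = _
  rw [m51_flat, List.getD_eq_getElem _ _ (by rw [List.length_ofFn]; exact m51_lt i j), List.getElem_ofFn]
  congr 1 <;> apply Fin.ext
  · simp [Nat.add_comm, Nat.add_mul_div_right _ _ j.pos, Nat.div_eq_of_lt j.2]
  · simp [Nat.mod_eq_of_lt j.2]

open Crest.CombinatoricsR.Multigraph in
theorem m51_dec {n : ℕ} (T : List (Fin n × Fin n)) :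
    decodePairs n ((List.range (n * n)).map fun x => decide (x ∈ T.map fun p => p.1.val * n + p.2.val)) =
      T.toFinset := by
  ext p
  rw [decodePairs, mem_filter, List.getD_eq_getElem _ _ (by simpa using m51_lt p.1 p.2)]
  simp only [mem_univ, true_and, List.getElem_map, List.getElem_range, decide_eq_true_eq, List.mem_map,
    List.mem_toFinset]
  exact ⟨fun ⟨q, hq, e⟩ => m51_idx e ▸ hq, fun h => ⟨p, h, rfl⟩⟩

theorem m51_pre : UN (fun a : {x // m51Ok x} => a.1.1) ∧ PT (fun a : {x // m51Ok x} => pk a.1.1 a.1.2.1) ∧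
    DPT fun a : {x // m51Ok x} => preL a.1.2.1 (m51Tab a.1) := by
  have hn : UN fun a : {x // m51Ok x} => a.1.1 :=
    ⟨pt_val.fst, (PB.length (pt_val (p := m51Ok)).snd.snd).mono fun a => a.2.2.2.1⟩
  have h2 : ∀ {α : Type} [Enc α] {n : α → ℕ}, PT n → PT fun a => n a ^ 2 := fun h =>
    h.nat_pow (PT.const 2) (PB.const 2)
  refine ⟨hn, ?_, ?_⟩
  · exact (pt_val.snd.fst.nat_le ((PT.const 2).nat_mul (h2 hn.1))).ite pt_val.snd.fst (h2 hn.1)
  refine (dpt_finRange hn).flatMap ((dpt_finRange (hn.comp pt_sigma_fst)).flatMap ?_)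
  have ha : PT fun p : Σ p : (Σ a : {x // m51Ok x}, Fin a.1.1), Fin p.1.1.1 => p.1.1.1 :=
    pt_val.comp (pt_sigma_fst.comp pt_sigma_fst)
  have hi : DPT fun p : Σ p : (Σ a : {x // m51Ok x}, Fin a.1.1), Fin p.1.1.1 => p.1.2 :=
    dpt_sigma_snd.comp pt_sigma_fst
  have hj : DPT fun p : Σ p : (Σ a : {x // m51Ok x}, Fin a.1.1), Fin p.1.1.1 => p.2 := dpt_sigma_snd
  have hm := ha.snd.snd.getD ((hi.finVal.nat_mul ha.fst).nat_add hj.finVal) (PT.const 0)
  have hq := (PT.const 2).nat_mul (h2 ha.fst)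
  refine DPT.replicate ⟨(hi.finVal.nat_lt hj.finVal).ite ((PT.const 2).nat_mul
    ((ha.snd.fst.nat_le hq).ite (hm.nat_min ha.snd.fst) (((hm.nat_mul hq).nat_div ha.snd.fst).nat_min hq)))
    (PT.const 0), ?_⟩ (hi.pair hj)
  refine ((PB.const 4).mul ((hn.comp (pt_sigma_fst.comp pt_sigma_fst)).2.pow 2)).mono fun p => ?_
  split_ifs <;> omega

open Crest.CombinatoricsR.Multigraph in
theorem main51 :
    ∃ C : ℝ, 0 < C ∧ ∃ f : List Bool → List Bool, Crest.Complexity.PolyTime f ∧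
      ∀ (n k : ℕ) (mult : Fin n → Fin n → ℕ), 1 ≤ n → 1 ≤ k →
        (∀ i j, mult i j = mult j i) → (∀ i, mult i i = 0) →
        (∀ S : Finset (Fin n), S.Nonempty → S ≠ Finset.univ → k ≤ ∑ i ∈ S, ∑ j ∈ Sᶜ, mult i j) →
        ∀ T : Finset (Fin n × Fin n), T = decodePairs n (f (multigraphCode n k mult)) →
          (∀ p ∈ T, p.1 < p.2 ∧ 1 ≤ mult p.1 p.2) ∧ T.card + 1 = n ∧
          (adjGraph Prod.fst Prod.snd T).Connected ∧
          ∀ S : Finset (Fin n), S.Nonempty → S ≠ Finset.univ →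
            ((cutEdges Prod.fst Prod.snd T S).card : ℝ) ≤
              C / k * ((∑ i ∈ S, ∑ j ∈ Sᶜ, mult i j : ℕ) : ℝ) := by
  obtain ⟨C, hC, hT⟩ := solv_tree
  obtain ⟨hn, hk, hes⟩ := m51_pre
  have hs := fun a : {x // m51Ok x} => preL_spec (le_trans one_le_two a.2.1) a.2.2.1 a.2.2.2.2.1 a.2.2.2.2.2
  obtain ⟨T, hT1, hT2⟩ := hT _ _ _ _ hn hes hk fun a =>
    ⟨a.2.1, fun p hp => ((hs a).2.1 p hp).1.ne, (hs a).1, (hs a).2.2.1⟩
  have hc : PT fun a : {x // m51Ok x} => (T a).map fun p => p.1.val * a.1.1 + p.2.val :=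
    (hT1.map (γ := fun _ => ℕ) (DPT.of_pt ((dpt_sigma_snd.fst.finVal.nat_mul (hn.1.comp pt_sigma_fst)).nat_add
      dpt_sigma_snd.snd.finVal))).pt
  obtain ⟨g, hg, hg'⟩ := exists_total (f := fun a : {x // m51Ok x} => (List.range (a.1.1 * a.1.1)).map fun x =>
      decide (x ∈ (T a).map fun p => p.1.val * a.1.1 + p.2.val))
    ((PT.range (hn.1.nat_mul hn.1) (hn.2.mul hn.2)).map
      (((DPT.of_pt (hc.comp PT.fst')).listMem (DPT.of_pt PT.snd')).decide))
  obtain ⟨dec, hd, hd'⟩ := (Parses.nat.seq (Parses.nat.seq Parses.natList)).exists_decoder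
  refine ⟨4 * C, by positivity, fun w => if (dec w).1 = 1 then [] else g (enc (dec w)),
    (((DPT.of_pt hd.fst).eq (DPT.of_pt (PT.const 1))).ite (PT.const []) (hg.comp hd.enc')).polyTime, ?_⟩
  intro n k mult hn1 hk1 hsym h0 hcut T' hT'
  have e := hd' (n, k, ((List.finRange n).map fun i => (List.finRange n).map fun j => mult i j).flatten)
    ⟨trivial, trivial, trivial⟩
  rw [multigraphCode, List.append_assoc] at hT'
  simp only [e] at hT'
  rcases hn1.eq_or_lt with rfl | hn2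
  · have e' : T' = ∅ := by rw [hT', if_pos rfl]; decide
    subst e'
    refine ⟨by simp, rfl, SimpleGraph.Connected.of_subsingleton, fun S _ _ => ?_⟩
    rw [cutEdges, filter_empty, card_empty, Nat.cast_zero]
    positivity
  have hok : m51Ok (n, k, ((List.finRange n).map fun i => (List.finRange n).map fun j => mult i j).flatten) := by
    refine ⟨hn2, hk1, ?_, ?_⟩
    · simp only [m51_flat, List.length_ofFn]
      exact Nat.le_mul_self n
    · rw [m51_tab]
      exact ⟨hsym, hcut⟩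
  rw [if_neg hn2.ne'] at hT'
  replace hT' := hT'.trans ((congrArg (decodePairs n) (hg' ⟨_, hok⟩)).trans (m51_dec _))
  obtain ⟨a1, a2, a3⟩ := hT2 ⟨_, hok⟩
  obtain ⟨b1, b2, -, b4⟩ := hs ⟨_, hok⟩
  obtain ⟨c1, c2, c3⟩ := tree_of_base hn1 a2
  simp only [m51_tab] at a1 a3 b1 b2 b4
  subst hT'
  refine ⟨fun p hp => b2 p (a1.subset (List.mem_toFinset.1 hp)), c1, c2, fun S _ _ => ?_⟩
  have d1 : (1 : ℝ) ≤ pk n k := by exact_mod_cast b1
  have d2 : (1 : ℝ) ≤ k := by exact_mod_cast hk1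
  have d3 : (k : ℝ) * cutL (preL k mult) S ≤ 4 * pk n k * ((∑ i ∈ S, ∑ j ∈ Sᶜ, mult i j : ℕ) : ℝ) := by
    exact_mod_cast b4 S
  refine ((Nat.cast_le.2 (c3 S)).trans (a3 S)).trans ?_
  rw [div_mul_eq_mul_div, div_mul_eq_mul_div, div_le_div_iff₀ (by positivity) (by positivity)]
  nlinarith [mul_le_mul_of_nonneg_left d3 hC.le]

end Crest.Agent.R37
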