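import Crest.Agent.R37.Main

/-!
# R37/Main50: S0050 from `main51`: identify `V` with `Fin n`, `mult i j` = number of edges with ends `{i, j}`, choose an edge for every pair of `T`.
-/

set_option autoImplicit false

open Matrix Finset Crest.Agent.Lib.PolyTime

noncomputable section

namespace Crest.Agent.R37


theorem m50_ind {n : ℕ} (S : Finset (Fin n)) (a b : Fin n) :
    (∑ i ∈ S, ∑ j ∈ Sᶜ, if (a = i ∧ b = j) ∨ (a = j ∧ b = i) then 1 else 0 : ℕ) =
      if (a ∈ S ∧ b ∉ S) ∨ (a ∉ S ∧ b ∈ S) then 1 else 0 := by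
  have h : ∀ i ∈ S, ∀ j ∈ Sᶜ, (if (a = i ∧ b = j) ∨ (a = j ∧ b = i) then 1 else 0 : ℕ) =
      (if a = i then (if b = j then 1 else 0) else 0) + (if b = i then (if a = j then 1 else 0) else 0) := by
    intro i hi j hj
    have hij : i ≠ j := fun h => (Finset.mem_compl.1 hj) (h ▸ hi)
    by_cases h1 : a = i <;> by_cases h2 : b = j <;> by_cases h3 : b = i <;> by_cases h4 : a = j <;>
      simp_all
  rw [Finset.sum_congr rfl fun i hi => Finset.sum_congr rfl fun j hj => h i hi j hj]
  simp only [Finset.sum_add_distrib, Finset.sum_ite_irrel, Finset.sum_const_zero, Finset.sum_ite_eq,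
    Finset.mem_compl]
  by_cases ha : a ∈ S <;> by_cases hb : b ∈ S <;> simp [ha, hb]

open Crest.CombinatoricsR.Multigraph in
theorem m50_cut {n : ℕ} {E : Type} [Fintype E] (s t : E → Fin n) (S : Finset (Fin n)) :
    ∑ i ∈ S, ∑ j ∈ Sᶜ, (Finset.univ.filter fun e => (s e = i ∧ t e = j) ∨ (s e = j ∧ t e = i)).card =
      (cutEdges s t Finset.univ S).card := by
  simp only [cutEdges, Finset.card_filter]
  rw [Finset.sum_congr rfl fun i _ => Finset.sum_comm, Finset.sum_comm]
  exact Finset.sum_congr rfl fun e _ => m50_ind S (s e) (t e)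

open Crest.CombinatoricsR.Multigraph in
theorem main50 :
    ∃ C : ℝ, 0 < C ∧ ∀ k : ℕ, 1 ≤ k →
      ∀ (V E : Type) [Fintype V] [DecidableEq V] [Fintype E] (src tgt : E → V),
        (∀ e, src e ≠ tgt e) → 2 ≤ Fintype.card V →
        (∀ S : Finset V, S.Nonempty → S ≠ Finset.univ → k ≤ (cutEdges src tgt Finset.univ S).card) →
        ∃ T : Finset E, T.card + 1 = Fintype.card V ∧ (adjGraph src tgt T).Connected ∧
          ∀ S : Finset V, S.Nonempty → S ≠ Finset.univ →
            ((cutEdges src tgt T S).card : ℝ) ≤ C / k * (cutEdges src tgt Finset.univ S).card := by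
  obtain ⟨C, hC, f, -, hf⟩ := main51
  refine ⟨C, hC, fun k hk V E _ _ _ src tgt hl hV hc => ?_⟩
  set n := Fintype.card V with hn
  let φ : V ≃ Fin n := Fintype.equivFin V
  let s : E → Fin n := fun e => φ (src e)
  let t : E → Fin n := fun e => φ (tgt e)
  let mult : Fin n → Fin n → ℕ := fun i j =>
    (Finset.univ.filter fun e => (s e = i ∧ t e = j) ∨ (s e = j ∧ t e = i)).card
  have hcut : ∀ (F : Finset E) (S : Finset V), cutEdges s t F (S.map φ.toEmbedding) = cutEdges src tgt F S := by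
    intro F S
    simp [cutEdges, s, t]
  have hne : ∀ S : Finset V, S.Nonempty → S ≠ Finset.univ →
      (S.map φ.toEmbedding).Nonempty ∧ S.map φ.toEmbedding ≠ Finset.univ := by
    intro S h1 h2
    refine ⟨h1.map, fun h => h2 (Finset.eq_univ_of_forall fun v => ?_)⟩
    have := h ▸ Finset.mem_univ (φ v)
    simpa using this
  obtain ⟨hT1, hT2, hT3, hT4⟩ := hf n k mult (by omega) hk
    (fun i j => by simp only [mult, or_comm])
    (fun i => by
      simp only [mult, or_self, Finset.card_eq_zero, Finset.filter_eq_empty_iff]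
      rintro e - ⟨h1, h2⟩
      exact hl e (φ.injective (h1.trans h2.symm)))
    (fun S h1 h2 => by
      rw [m50_cut]
      have hS : S = (S.map φ.symm.toEmbedding).map φ.toEmbedding := by
        ext v; simp
      rw [hS, hcut]
      refine hc _ h1.map fun h => h2 (Finset.eq_univ_of_forall fun v => ?_)
      have := h ▸ Finset.mem_univ (φ.symm v)
      simpa using this) _ rfl
  set T := decodePairs n (f (multigraphCode n k mult))
  have hg : ∀ p : T, ∃ e, (s e = p.1.1 ∧ t e = p.1.2) ∨ (s e = p.1.2 ∧ t e = p.1.1) := by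
    intro p
    obtain ⟨e, he⟩ := Finset.card_pos.1 (hT1 p p.2).2
    exact ⟨e, (Finset.mem_filter.1 he).2⟩
  choose g hg using hg
  have ginj : Function.Injective g := by
    intro p q hpq
    have h1 := hg p
    have h2 := hg q
    have h3 := (hT1 p p.2).1
    have h4 := (hT1 q q.2).1
    rw [hpq] at h1
    refine Subtype.ext (Prod.ext ?_ ?_) <;> omega
  refine ⟨T.attach.map ⟨g, ginj⟩, by simpa using hT2, ?_, fun S h1 h2 => ?_⟩
  · refine hT3.map (⟨φ.symm, ?_⟩ : adjGraph Prod.fst Prod.snd T →g _) φ.symm.surjective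
    rintro u v ⟨huv, p, hp, hp'⟩
    refine ⟨fun h => huv (φ.symm.injective h), g ⟨p, hp⟩, Finset.mem_map_of_mem _ (Finset.mem_attach _ _), ?_⟩
    have h1 := hg ⟨p, hp⟩
    simp only [Equiv.eq_symm_apply]
    show (s _ = u ∧ t _ = v) ∨ (s _ = v ∧ t _ = u)
    rcases hp' with ⟨rfl, rfl⟩ | ⟨rfl, rfl⟩
    · exact h1
    · exact h1.symm
  · have h3 := hT4 _ (hne S h1 h2).1 (hne S h1 h2).2
    rw [m50_cut, hcut] at h3
    refine le_trans ?_ h3
    rw [← hcut]
    simp only [cutEdges, Finset.filter_map, Finset.card_map, Nat.cast_le]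
    refine Finset.card_le_card_of_injOn Subtype.val (fun p hp => ?_) Subtype.val_injective.injOn
    have h4 := (Finset.mem_filter.1 (Finset.mem_coe.1 hp)).2
    refine Finset.mem_coe.2 (Finset.mem_filter.2 ⟨p.2, ?_⟩)
    simp only [Function.comp_apply, Function.Embedding.coeFn_mk] at h4
    rcases hg p with ⟨h5, h6⟩ | ⟨h5, h6⟩
    · rw [← h5, ← h6]; exact h4
    · rw [← h5, ← h6]; tauto

end Crest.Agent.R37
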