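import Crest.Agent.R37.Defs

/-!
# R37/RF: rooted forests given by a parent map.
`path_le`: take the first common ancestor `j = par^[k] a` (`k` minimal); the strict ancestors of `a` below `j` are
not ancestors of `b` and conversely; telescope along both chains (the iterates before a root are distinct: `rk` drops).
`rch_of_par`: every vertex reaches a unique root; roots of `par'` are roots of `par` and `par'` stays in the
`par`-tree, so both maps have the same root function.
`add_links`: let `G` be the simple graph with edges `{v, par v}` and the links; in each component fix a root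
`ρ` and let `par' v` be a neighbour with smaller `G.dist · ρ` (`rk' = G.dist · ρ`); `v ↦ s(v, par' v)` is
injective on non-roots, which gives the length bound.
-/

set_option autoImplicit false

open Finset

noncomputable section

namespace Crest.Agent.R37

variable {V : Type} [Fintype V] [DecidableEq V]

def IsRF (par : V → V) (rk : V → ℕ) : Prop := ∀ v, par v = v ∨ rk (par v) < rk v

/-- `u` is an ancestor of `a` (or `a` itself) -/
def Anc (par : V → V) (u a : V) : Prop := ∃ k : ℕ, par^[k] a = u

/-- same tree -/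
def Rch (par : V → V) (a b : V) : Prop := ∃ u, Anc par u a ∧ Anc par u b

def flen {X : Type} [PseudoMetricSpace X] (par : V → V) (pos : V → X) : ℝ :=
  ∑ v, dist (pos v) (pos (par v))

theorem rfa_trans {par : V → V} {u v w : V} (h : Anc par u v) (h' : Anc par v w) : Anc par u w := by
  obtain ⟨k, rfl⟩ := h
  obtain ⟨l, rfl⟩ := h'
  exact ⟨k + l, Function.iterate_add_apply _ _ _ _⟩

theorem rfa_total {par : V → V} {u u' a : V} (h : Anc par u a) (h' : Anc par u' a) :
    Anc par u u' ∨ Anc par u' u := by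
  obtain ⟨k, rfl⟩ := h
  obtain ⟨l, rfl⟩ := h'
  rcases le_total k l with h | h
  · exact Or.inr ⟨l - k, by rw [← Function.iterate_add_apply, Nat.sub_add_cancel h]⟩
  · exact Or.inl ⟨k - l, by rw [← Function.iterate_add_apply, Nat.sub_add_cancel h]⟩

theorem rfa_iff {par : V → V} {u a : V} : Anc par u a ↔ u = a ∨ Anc par u (par a) := by
  constructor
  · rintro ⟨_ | k, rfl⟩
    · exact Or.inl rfl
    · exact Or.inr ⟨k, rfl⟩
  · rintro (rfl | h)
    · exact ⟨0, rfl⟩
    · exact rfa_trans h ⟨1, rfl⟩

theorem rfa_root {par : V → V} {u a : V} (ha : par a = a) (h : Anc par u a) : u = a := by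
  obtain ⟨k, rfl⟩ := h
  exact Function.iterate_fixed ha k

theorem rch_equiv (par : V → V) : Equivalence (Rch par) := by
  refine ⟨fun a => ⟨a, ⟨0, rfl⟩, ⟨0, rfl⟩⟩, fun ⟨u, h1, h2⟩ => ⟨u, h2, h1⟩, ?_⟩
  rintro a b c ⟨u, h1, h2⟩ ⟨v, h3, h4⟩
  rcases rfa_total h2 h3 with h | h
  · exact ⟨u, h1, rfa_trans h h4⟩
  · exact ⟨v, rfa_trans h h1, h4⟩

theorem rch_par (par : V → V) (v : V) : Rch par v (par v) := by
  exact ⟨par v, ⟨1, rfl⟩, ⟨0, rfl⟩⟩

theorem exists_root {par : V → V} {rk : V → ℕ} (h : IsRF par rk) (a : V) :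
    ∃ u, Anc par u a ∧ par u = u := by
  induction hn : rk a using Nat.strong_induction_on generalizing a with
  | _ n ih =>
    rcases h a with h1 | h1
    · exact ⟨a, ⟨0, rfl⟩, h1⟩
    · obtain ⟨u, hu, hu'⟩ := ih _ (hn ▸ h1) (par a) rfl
      exact ⟨u, rfa_iff.2 (Or.inr hu), hu'⟩

theorem anc_rk {par : V → V} {rk : V → ℕ} (h : IsRF par rk) {u a : V} (hu : Anc par u a) :
    u = a ∨ rk u < rk a := by
  obtain ⟨k, rfl⟩ := hu
  induction k with
  | zero => exact Or.inl rfl
  | succ k ih =>
    rw [Function.iterate_succ_apply']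
    rcases h (par^[k] a) with h1 | h1
    · rw [h1]
      exact ih
    · rcases ih with h2 | h2
      · exact Or.inr (h1.trans_eq (congrArg rk h2))
      · exact Or.inr (h1.trans h2)

theorem anc_total {par : V → V} {u u' a : V} (h : Anc par u a) (h' : Anc par u' a) :
    Anc par u u' ∨ Anc par u' u := by
  exact rfa_total h h'

open Classical in
theorem rfa_step {par : V → V} {rk : V → ℕ} (h : IsRF par rk) (g : V → ℝ) {a b : V} (hab : Rch par a b)
    (hn : ¬ Anc par a b) : rk (par a) < rk a ∧ Rch par (par a) b ∧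
      ∑ u ∈ univ.filter (fun u => ¬ (Anc par u a ↔ Anc par u b)), g u =
        g a + ∑ u ∈ univ.filter (fun u => ¬ (Anc par u (par a) ↔ Anc par u b)), g u := by
  have h1 : rk (par a) < rk a := by
    refine (h a).resolve_left fun h1 => hn ?_
    obtain ⟨u, hu, hu'⟩ := hab
    rwa [rfa_root h1 hu] at hu'
  have h2 : ¬ Anc par a (par a) := fun h2 => by
    rcases anc_rk h h2 with h3 | h3
    · rw [← h3] at h1
      exact lt_irrefl _ h1
    · exact lt_asymm h1 h3
  refine ⟨h1, (rch_equiv par).trans ((rch_equiv par).symm (rch_par par a)) hab, ?_⟩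
  rw [← sum_insert (by simp [h2, hn])]
  refine sum_congr ?_ fun _ _ => rfl
  ext u
  simp only [mem_filter, mem_univ, true_and, mem_insert]
  rcases eq_or_ne u a with rfl | hu
  · have : Anc par u u := ⟨0, rfl⟩
    simp [this, hn]
  · rw [rfa_iff (a := a)]
    simp [hu]

open Classical in
theorem path_le {Y : Type} [PseudoMetricSpace Y] {par : V → V} {rk : V → ℕ} (h : IsRF par rk)
    (f : V → Y) {a b : V} (hab : Rch par a b) :
    dist (f a) (f b) ≤
      ∑ u ∈ univ.filter (fun u => ¬ (Anc par u a ↔ Anc par u b)), dist (f u) (f (par u)) := by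
  induction hn : rk a + rk b using Nat.strong_induction_on generalizing a b with
  | _ n ih =>
    by_cases h1 : Anc par a b
    · by_cases h2 : Anc par b a
      · have : a = b := by
          rcases anc_rk h h1 with h3 | h3
          · exact h3
          · rcases anc_rk h h2 with h4 | h4
            · exact h4.symm
            · exact (lt_asymm h3 h4).elim
        subst this
        rw [dist_self]
        exact sum_nonneg fun _ _ => dist_nonneg
      · obtain ⟨s1, s2, s3⟩ := rfa_step h (fun u => dist (f u) (f (par u))) ((rch_equiv par).symm hab) h2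
        have := ih _ (by omega) ((rch_equiv par).symm s2) rfl
        simp only [iff_comm (b := Anc par _ a)] at s3
        rw [s3]
        linarith [dist_triangle_right (f a) (f b) (f (par b))]
    · obtain ⟨s1, s2, s3⟩ := rfa_step h (fun u => dist (f u) (f (par u))) hab h1
      have := ih _ (by omega) s2 rfl
      rw [s3]
      linarith [dist_triangle (f a) (f (par a)) (f b)]

theorem rch_of_par {par par' : V → V} {rk rk' : V → ℕ} (h : IsRF par rk) (h' : IsRF par' rk')
    (h1 : ∀ v, Rch par v (par' v)) (h2 : ∀ v, par' v = v → par v = v) (a b : V) :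
    Rch par' a b ↔ Rch par a b := by
  have e := rch_equiv par
  have key : ∀ {u a : V}, Anc par' u a → Rch par a u := by
    rintro _ a ⟨k, rfl⟩
    induction k with
    | zero => exact e.refl _
    | succ k ih =>
      rw [Function.iterate_succ_apply']
      exact e.trans ih (h1 _)
  refine ⟨fun ⟨u, hu, hu'⟩ => e.trans (key hu) (e.symm (key hu')), fun hab => ?_⟩
  obtain ⟨u, hu, hu'⟩ := exists_root h' a
  obtain ⟨v, hv, hv'⟩ := exists_root h' b
  obtain ⟨w, hw, hw'⟩ := e.trans (e.symm (key hu)) (e.trans hab (key hv))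
  refine ⟨u, hu, ?_⟩
  rwa [← rfa_root (h2 u hu') hw, rfa_root (h2 v hv') hw']

theorem rfb_forest (G : SimpleGraph V) : ∃ (par : V → V) (rk : V → ℕ),
    (∀ v, par v = v ∨ G.Adj v (par v) ∧ rk (par v) < rk v) ∧ ∀ a b, Rch par a b ↔ G.Reachable a b := by
  obtain ⟨ρ, h1, h2⟩ : ∃ ρ : V → V, (∀ v, G.Reachable v (ρ v)) ∧ ∀ u v, G.Reachable u v → ρ u = ρ v :=
    ⟨fun v => Quot.out (G.connectedComponentMk v),
      fun v => (SimpleGraph.ConnectedComponent.exact (Quot.out_eq (G.connectedComponentMk v))).symm,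
      fun u v h => by simp only [SimpleGraph.ConnectedComponent.sound h]⟩
  have h3 : ∀ v, ∃ w, w = v ∧ ρ v = v ∨ G.Adj v w ∧ G.dist w (ρ w) < G.dist v (ρ v) := fun v => by
    by_cases hv : ρ v = v
    · exact ⟨v, Or.inl ⟨rfl, hv⟩⟩
    obtain ⟨p, hp⟩ := (h1 v).exists_walk_length_eq_dist
    obtain ⟨w, hw, q, rfl⟩ := p.exists_eq_cons_of_ne (Ne.symm hv)
    refine ⟨w, Or.inr ⟨hw, ?_⟩⟩
    rw [← h2 _ _ hw.reachable, ← hp]
    exact Nat.lt_succ_of_le (SimpleGraph.dist_le q)
  choose par h3 using h3
  have h4 : ∀ {u a}, Anc par u a → G.Reachable a u := by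
    rintro _ a ⟨k, rfl⟩
    induction k with
    | zero => rfl
    | succ k ih =>
      rw [Function.iterate_succ_apply']
      rcases h3 (par^[k] a) with h | h
      · rwa [h.1]
      · exact ih.trans h.1.reachable
  have h5 : IsRF par fun v => G.dist v (ρ v) := fun v => (h3 v).imp And.left And.right
  have h6 : ∀ a, Anc par (ρ a) a := fun a => by
    obtain ⟨u, hu, hu'⟩ := exists_root h5 a
    rwa [h2 _ _ (h4 hu), ((h3 u).resolve_right fun h => h.1.ne hu'.symm).2]
  exact ⟨par, fun v => G.dist v (ρ v), fun v => (h3 v).imp_left And.left, fun a b =>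
    ⟨fun ⟨u, hu, hu'⟩ => (h4 hu).trans (h4 hu').symm, fun h => ⟨ρ a, h6 a, h2 _ _ h ▸ h6 b⟩⟩⟩

theorem add_links {X : Type} [PseudoMetricSpace X] {par : V → V} {rk : V → ℕ} (h : IsRF par rk)
    (pos : V → X) (Lk : Finset (V × V)) :
    ∃ (par' : V → V) (rk' : V → ℕ), IsRF par' rk' ∧
      (∀ a b, Rch par' a b ↔ Relation.EqvGen (fun a b => Rch par a b ∨ (a, b) ∈ Lk) a b) ∧
      flen par' pos ≤ flen par pos + ∑ p ∈ Lk, dist (pos p.1) (pos p.2) ∧
      ∀ v, Rch par v (par' v) ∨ (v, par' v) ∈ Lk ∨ (par' v, v) ∈ Lk := by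
  set G := SimpleGraph.fromRel fun a b => par a = b ∨ (a, b) ∈ Lk with hG
  obtain ⟨par', rk', h1, h2⟩ := rfb_forest G
  have e := rch_equiv par
  have h3 : ∀ {a b}, G.Adj a b → Rch par a b ∨ (a, b) ∈ Lk ∨ (b, a) ∈ Lk := by
    rintro a b ⟨-, (rfl | h3) | rfl | h3⟩
    exacts [Or.inl (rch_par _ _), Or.inr (Or.inl h3), Or.inl (e.symm (rch_par _ _)), Or.inr (Or.inr h3)]
  have h4 : ∀ {a b}, par a = b ∨ (a, b) ∈ Lk → G.Reachable a b := fun {a b} h4 => by
    rcases eq_or_ne a b with rfl | hab
    · rfl
    · exact SimpleGraph.Adj.reachable ⟨hab, Or.inl h4⟩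
  have h5 : ∀ {u a}, Anc par u a → G.Reachable a u := by
    rintro _ a ⟨k, rfl⟩
    induction k with
    | zero => rfl
    | succ k ih =>
      rw [Function.iterate_succ_apply']
      exact ih.trans (h4 (Or.inl rfl))
  refine ⟨par', rk', fun v => (h1 v).imp_right And.right, fun a b => (h2 a b).trans ⟨fun hab => ?_, fun hab => ?_⟩,
    ?_, fun v => ?_⟩
  · rw [SimpleGraph.reachable_iff_reflTransGen] at hab
    induction hab with
    | refl => exact .refl _
    | tail _ h6 ih =>
      refine .trans _ _ _ ih ?_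
      rcases h3 h6 with h7 | h7 | h7
      exacts [.rel _ _ (Or.inl h7), .rel _ _ (Or.inr h7), .symm _ _ (.rel _ _ (Or.inr h7))]
  · induction hab with
    | rel a b h6 =>
      rcases h6 with ⟨u, hu, hu'⟩ | h6
      exacts [(h5 hu).trans (h5 hu').symm, h4 (Or.inr h6)]
    | refl => rfl
    | symm _ _ _ ih => exact ih.symm
    | trans _ _ _ _ _ ih ih' => exact ih.trans ih'
  · set en : V ⊕ V × V → V × V := Sum.elim (fun u => (u, par u)) id with hen
    have h6 : ∀ v, ∃ l ∈ univ.disjSum Lk, par' v ≠ v → en l = (v, par' v) ∨ en l = (par' v, v) := fun v => by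
      rcases h1 v with h6 | ⟨⟨-, (h6 | h6) | h6 | h6⟩, -⟩
      · exact ⟨.inl v, by simp, fun h7 => absurd h6 h7⟩
      · exact ⟨.inl v, by simp, fun _ => Or.inl (by simp [hen, h6])⟩
      · exact ⟨.inr _, inr_mem_disjSum.2 h6, fun _ => Or.inl rfl⟩
      · exact ⟨.inl (par' v), by simp, fun _ => Or.inr (by simp [hen, h6])⟩
      · exact ⟨.inr _, inr_mem_disjSum.2 h6, fun _ => Or.inr rfl⟩
    choose φ h6 h7 using h6
    calc flen par' pos = ∑ v ∈ univ.filter fun v => par' v ≠ v, dist (pos (en (φ v)).1) (pos (en (φ v)).2) := by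
          rw [flen, sum_filter]
          refine sum_congr rfl fun v _ => ?_
          split_ifs with hv
          · rcases h7 v hv with h8 | h8 <;> simp [h8, dist_comm]
          · simp [not_not.1 hv]
      _ ≤ ∑ l ∈ univ.disjSum Lk, dist (pos (en l).1) (pos (en l).2) := by
          refine (sum_image (f := fun l => dist (pos (en l).1) (pos (en l).2)) (g := φ)
            fun v hv w hw hvw => ?_).symm.trans_le (sum_le_sum_of_subset_of_nonneg (fun l hl => ?_)
            fun _ _ _ => dist_nonneg)
          · have hv' := (mem_filter.1 hv).2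
            have hw' := (mem_filter.1 hw).2
            have r1 := ((h1 v).resolve_left hv').2
            have r2 := ((h1 w).resolve_left hw').2
            rcases h7 v hv' with h8 | h8 <;> rcases h7 w hw' with h9 | h9 <;>
              obtain ⟨e1, e2⟩ := Prod.ext_iff.1 (h8.symm.trans (hvw ▸ h9)) <;> simp only at e1 e2
            · exact e1
            · rw [← e1, ← e2] at r2
              exact (lt_asymm r1 r2).elim
            · rw [← e2, ← e1] at r2
              exact (lt_asymm r1 r2).elim
            · exact e2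
          · obtain ⟨v, -, rfl⟩ := mem_image.1 hl
            exact h6 v
      _ = _ := sum_disjSum _ _ _
  · rcases h1 v with h6 | h6
    · exact Or.inl (h6.symm ▸ e.refl v)
    · exact h3 h6.1

end Crest.Agent.R37
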