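import Crest.Agent.R37.Erode

/-!
# R37/RFC: compact regions (hub surgery + erosion).
`ρ = s'/4`, `R'' = R' + ρ`, `δ = R'' + ρ`.  `In = {v : ∃ x ∈ Xs, dist (pos v) (pos x) < ρ}` (the `x` is unique; `reg v = cy x`).
`hub y` = a vertex of `In` with `reg = y` and minimal rank.  `par1 v = hub (reg v)` for `v ∈ In` not a hub, else `par v`;
`rk1 v = 2 rk v + 1` for these `v`, else `2 rk v`; `pos1 v = c (reg v)` on `In`, else `pos v`.  Same trees by `rch_of_par`
(a root has strictly least rank in its tree, so it is the hub).  Erode `(par1, pos1)` by `δ`.  With `ℓ, ℓ1` the old/new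
edge lengths: `∑_{v ∈ In} brk v ≥ ∑_{u ∉ In, par u ∈ In} min (H u + ℓ1 u) δ - |Y| δ` (non-hub vertices of `In` are
zero-length children of their hub and cancel); such `u` gains `ℓ u - ℓ1 u + min (H u + ℓ1 u) δ ≥ min (ℓ u) ρ`; non-hub
`v ∈ In` gain `ℓ v`; hubs lose `≤ 2 R''`.  Finally `∑_{u : u ∈ In ∨ par u ∈ In} min (ℓ u) ρ ≥ |Xs| ρ / 2`: apply `path_le` to
`f v = min (dist (pos v) (pos x)) ρ` for each `x`; an edge touches at most two of the disjoint balls.
-/

set_option autoImplicit false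

open Finset

noncomputable section

namespace Crest.Agent.R37

variable {V : Type} [Fintype V] [DecidableEq V]

variable {X : Type} [NormedAddCommGroup X] [NormedSpace ℝ X]

open Classical in
theorem rfc_brk {par : V → V} {pos : V → X} {H : V → ℝ} (hH : IsHt par pos H) {δ : ℝ} (hδ : 0 ≤ δ) (P : V → Prop) :
    ∑ u, (if P (par u) ∧ par u ≠ u then min (H u + dist (pos u) (pos (par u))) δ else 0) -
      ∑ v, (if P v then min (H v) δ else 0) ≤ ∑ v, brk par pos H δ v := by
  have h1 : ∑ u, (if P (par u) ∧ par u ≠ u then min (H u + dist (pos u) (pos (par u))) δ else 0) =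
      ∑ v, if P v then ∑ u ∈ univ.filter (fun u => par u = v ∧ u ≠ v), min (H u + dist (pos u) (pos v)) δ else 0 := by
    have h2 : ∀ v, (if P v then ∑ u ∈ univ.filter (fun u => par u = v ∧ u ≠ v), min (H u + dist (pos u) (pos v)) δ
        else 0) = ∑ u, if par u = v then
          (if P (par u) ∧ par u ≠ u then min (H u + dist (pos u) (pos (par u))) δ else 0) else 0 := by
      intro v
      by_cases hv : P v
      · rw [if_pos hv, Finset.sum_filter]
        refine Finset.sum_congr rfl fun u _ => ?_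
        by_cases h3 : par u = v
        · subst h3
          simp [hv, eq_comm]
        · simp [h3]
      · rw [if_neg hv]
        refine (Finset.sum_eq_zero fun u _ => ?_).symm
        by_cases h3 : par u = v
        · subst h3
          simp [hv]
        · simp [h3]
    simp only [h2]
    rw [Finset.sum_comm]
    simp
  rw [h1, ← Finset.sum_sub_distrib]
  refine Finset.sum_le_sum fun v _ => ?_
  by_cases hv : P v
  · simp only [if_pos hv]
    exact le_rfl
  · simp only [if_neg hv, sub_zero]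
    exact brk_nonneg hH hδ v

omit [NormedSpace ℝ X] in
open Classical in
theorem rfc_count {par : V → V} {rk : V → ℕ} (h : IsRF par rk) (pos : V → X) (Xs : Finset V) {ρ : ℝ} (hρ : 0 < ρ)
    (hsep : ∀ x ∈ Xs, ∀ x' ∈ Xs, x ≠ x' → 2 * ρ ≤ dist (pos x) (pos x'))
    (hfar : ∀ x ∈ Xs, ∃ y, Rch par x y ∧ ρ ≤ dist (pos x) (pos y)) (P : V → Prop)
    (hP : ∀ x ∈ Xs, ∀ v, dist (pos v) (pos x) < ρ → P v) :
    Xs.card * ρ ≤ 2 * ∑ u, if P u ∨ P (par u) then min (dist (pos u) (pos (par u))) ρ else 0 := by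
  set m : V → ℝ := fun u => min (dist (pos u) (pos (par u))) ρ with hm
  have hm0 : ∀ u, 0 ≤ m u := fun u => le_min dist_nonneg hρ.le
  have h1 : ∀ x ∈ Xs, ρ ≤ ∑ u, ((if dist (pos u) (pos x) < ρ then m u else 0) +
      (if dist (pos (par u)) (pos x) < ρ then m u else 0)) := by
    intro x hx
    obtain ⟨y, hy, hy'⟩ := hfar x hx
    have h2 := path_le h (fun v => min (dist (pos v) (pos x)) ρ) hy
    simp only [dist_self] at h2
    rw [min_eq_left hρ.le, min_eq_right (by rwa [dist_comm]), Real.dist_eq, zero_sub, abs_neg, abs_of_pos hρ] at h2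
    refine h2.trans ((Finset.sum_le_sum_of_subset_of_nonneg (Finset.filter_subset _ _)
      fun _ _ _ => dist_nonneg).trans (Finset.sum_le_sum fun u _ => ?_))
    have h3 : dist (min (dist (pos u) (pos x)) ρ) (min (dist (pos (par u)) (pos x)) ρ) ≤ m u := by
      rw [Real.dist_eq]
      refine le_min ((abs_min_sub_min_le_max _ _ _ _).trans ?_) ?_
      · rw [sub_self, abs_zero]
        exact max_le (abs_dist_sub_le _ _ _) dist_nonneg
      · have a1 := min_le_right (dist (pos u) (pos x)) ρ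
        have a2 := min_le_right (dist (pos (par u)) (pos x)) ρ
        have a3 : 0 ≤ min (dist (pos u) (pos x)) ρ := le_min dist_nonneg hρ.le
        have a4 : 0 ≤ min (dist (pos (par u)) (pos x)) ρ := le_min dist_nonneg hρ.le
        exact abs_le.2 ⟨by linarith, by linarith⟩
    have := hm0 u
    split_ifs with a b b
    · linarith
    · linarith
    · linarith
    · rw [min_eq_right (not_lt.1 a), min_eq_right (not_lt.1 b), dist_self, add_zero]
  have h4 : ∀ (v : V) (a : ℝ), 0 ≤ a → ∑ x ∈ Xs, (if dist (pos v) (pos x) < ρ then a else 0) ≤ if P v then a else 0 := by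
    intro v a ha
    by_cases hv : ∃ x ∈ Xs, dist (pos v) (pos x) < ρ
    · obtain ⟨x, hx, hx'⟩ := hv
      rw [if_pos (hP x hx v hx'), Finset.sum_eq_single_of_mem x hx, if_pos hx']
      intro x' hx1 hne
      refine if_neg fun hlt => ?_
      linarith [hsep x' hx1 x hx hne, dist_triangle_left (pos x') (pos x) (pos v)]
    · rw [Finset.sum_eq_zero fun x hx => if_neg fun hlt => hv ⟨x, hx, hlt⟩]
      split_ifs
      exacts [ha, le_rfl]
  calc (Xs.card : ℝ) * ρ = ∑ _x ∈ Xs, ρ := by simp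
    _ ≤ _ := Finset.sum_le_sum h1
    _ ≤ _ := by
      rw [Finset.sum_comm, Finset.mul_sum]
      refine Finset.sum_le_sum fun u _ => ?_
      rw [Finset.sum_add_distrib]
      have a1 := h4 u _ (hm0 u)
      have a2 := h4 (par u) _ (hm0 u)
      have a3 := hm0 u
      by_cases b1 : P u <;> by_cases b2 : P (par u) <;>
        simp only [b1, b2, if_true, if_false, or_true, true_or, or_self] at a1 a2 ⊢ <;> linarith

theorem lemC {par : V → V} {rk : V → ℕ} (h : IsRF par rk) (pos : V → X) {ι : Type} [DecidableEq ι]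
    (Y : Finset ι) (c : ι → X) (Xs : Finset V) (cy : V → ι) {s' R' : ℝ} (hs : 0 < s') (hR : 0 ≤ R')
    (hsep : ∀ x ∈ Xs, ∀ x' ∈ Xs, x ≠ x' → s' ≤ dist (pos x) (pos x'))
    (hfar : ∀ x ∈ Xs, ∃ y, Rch par x y ∧ s' / 4 ≤ dist (pos x) (pos y))
    (hcy : ∀ x ∈ Xs, cy x ∈ Y ∧ dist (pos x) (c (cy x)) ≤ R')
    (hsame : ∀ x ∈ Xs, ∀ x' ∈ Xs, cy x = cy x' → Rch par x x')
    (hnear : ∀ x ∈ Xs, ∀ v, dist (pos v) (pos x) < s' / 4 → Rch par x v) :
    ∃ (par' : V → V) (rk' : V → ℕ) (pos' : V → X), IsRF par' rk' ∧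
      (∀ a b, Rch par' a b ↔ Rch par a b) ∧ (∀ v, dist (pos' v) (pos v) ≤ 2 * (R' + s')) ∧
      flen par' pos' ≤ flen par pos - Xs.card * s' / 8 + Y.card * (4 * R' + 6 * s') := by
  classical
  obtain ⟨ρ, hρ⟩ : ∃ ρ : ℝ, ρ = s' / 4 := ⟨_, rfl⟩
  rw [← hρ] at hfar hnear
  have hρ0 : 0 < ρ := by linarith
  obtain ⟨In, hIn⟩ : ∃ In : V → Prop, ∀ v, In v ↔ ∃ x ∈ Xs, dist (pos v) (pos x) < ρ := ⟨_, fun _ => Iff.rfl⟩
  obtain ⟨xv, hxv⟩ : ∃ xv : V → V, ∀ v, In v → xv v ∈ Xs ∧ dist (pos v) (pos (xv v)) < ρ := by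
    have : ∀ v, ∃ x, In v → x ∈ Xs ∧ dist (pos v) (pos x) < ρ := fun v => by
      by_cases hv : In v
      · obtain ⟨x, hx⟩ := (hIn v).1 hv
        exact ⟨x, fun _ => hx⟩
      · exact ⟨v, fun h => absurd h hv⟩
    exact ⟨_, fun v => (this v).choose_spec⟩
  obtain ⟨reg, hreg⟩ : ∃ reg : V → ι, ∀ v, reg v = cy (xv v) := ⟨_, fun _ => rfl⟩
  have hregY : ∀ v, In v → reg v ∈ Y := fun v hv => hreg v ▸ (hcy _ (hxv v hv).1).1
  have hregd : ∀ v, In v → dist (c (reg v)) (pos v) ≤ R' + ρ := fun v hv => by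
    have a1 := (hcy _ (hxv v hv).1).2
    have a2 := (hxv v hv).2
    rw [hreg v]
    linarith [dist_triangle_left (c (cy (xv v))) (pos v) (pos (xv v)), dist_comm (pos v) (pos (xv v))]
  have hE := rch_equiv par
  have hregr : ∀ v v', In v → In v' → reg v = reg v' → Rch par v v' := fun v v' hv hv' e => by
    rw [hreg, hreg] at e
    exact hE.trans (hE.symm (hnear _ (hxv v hv).1 v (hxv v hv).2))
      (hE.trans (hsame _ (hxv v hv).1 _ (hxv v' hv').1 e) (hnear _ (hxv v' hv').1 v' (hxv v' hv').2))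
  obtain ⟨hb, hhb, hhb'⟩ : ∃ hb : V → V, (∀ v, In v → In (hb v) ∧ reg (hb v) = reg v ∧ rk (hb v) ≤ rk v) ∧
      ∀ v v', In v → In v' → reg v = reg v' → hb v = hb v' := by
    have : ∀ y : ι, ∃ g : V → V, (∀ v, In v → reg v = y → In (g v) ∧ reg (g v) = y ∧ rk (g v) ≤ rk v) ∧
        ∀ v v', In v → reg v = y → g v = g v' := fun y => by
      by_cases hy : (univ.filter fun v => In v ∧ reg v = y).Nonempty
      · obtain ⟨w, hw, hw'⟩ := Finset.exists_min_image _ rk hy
        rw [Finset.mem_filter] at hw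
        exact ⟨fun _ => w, fun v hv e => ⟨hw.2.1, hw.2.2, hw' v (by simp [hv, e])⟩, fun _ _ _ _ => rfl⟩
      · exact ⟨id, fun v hv e => absurd ⟨v, by simp [hv, e]⟩ hy, fun v _ hv e => absurd ⟨v, by simp [hv, e]⟩ hy⟩
    choose g hg hg' using this
    exact ⟨fun v => g (reg v) v, fun v hv => hg _ v hv rfl, fun v v' hv hv' e => by
      show g (reg v) v = g (reg v') v'
      rw [← e]
      exact hg' _ v v' hv rfl⟩
  have hbb : ∀ v, In v → hb (hb v) = hb v := fun v hv => hhb' _ _ (hhb v hv).1 hv (hhb v hv).2.1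
  obtain ⟨par1, hp1, hp2⟩ : ∃ par1 : V → V, (∀ v, In v ∧ hb v ≠ v → par1 v = hb v) ∧
      ∀ v, ¬(In v ∧ hb v ≠ v) → par1 v = par v :=
    ⟨fun v => if In v ∧ hb v ≠ v then hb v else par v, fun v hv => if_pos hv, fun v hv => if_neg hv⟩
  obtain ⟨rk1, hr1, hr2⟩ : ∃ rk1 : V → ℕ, (∀ v, In v ∧ hb v ≠ v → rk1 v = 2 * rk v + 1) ∧
      ∀ v, ¬(In v ∧ hb v ≠ v) → rk1 v = 2 * rk v :=
    ⟨fun v => if In v ∧ hb v ≠ v then 2 * rk v + 1 else 2 * rk v, fun v hv => if_pos hv, fun v hv => if_neg hv⟩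
  obtain ⟨pos1, hq1, hq2⟩ : ∃ pos1 : V → X, (∀ v, In v → pos1 v = c (reg v)) ∧ ∀ v, ¬In v → pos1 v = pos v :=
    ⟨fun v => if In v then c (reg v) else pos v, fun v hv => if_pos hv, fun v hv => if_neg hv⟩
  have hq : ∀ v, dist (pos1 v) (pos v) ≤ R' + ρ := fun v => by
    by_cases hv : In v
    · rw [hq1 v hv]
      exact hregd v hv
    · rw [hq2 v hv, dist_self]
      linarith
  have hRF : IsRF par1 rk1 := by
    intro v
    by_cases hv : In v ∧ hb v ≠ v
    · right
      rw [hp1 v hv, hr1 v hv, hr2 (hb v) fun a => a.2 (hbb v hv.1)]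
      have := (hhb v hv.1).2.2
      omega
    · rw [hp2 v hv, hr2 v hv]
      refine (h v).imp_right fun a => ?_
      by_cases hw : In (par v) ∧ hb (par v) ≠ par v
      · rw [hr1 _ hw]
        omega
      · rw [hr2 _ hw]
        omega
  have hRch := rch_of_par h hRF (fun v => by
    by_cases hv : In v ∧ hb v ≠ v
    · rw [hp1 v hv]
      exact hregr _ _ hv.1 (hhb v hv.1).1 (hhb v hv.1).2.1.symm
    · rw [hp2 v hv]
      exact rch_par par v) (fun v e => by
    by_cases hv : In v ∧ hb v ≠ v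
    · rw [hp1 v hv] at e
      exact absurd e hv.2
    · rwa [hp2 v hv] at e)
  obtain ⟨H, hH⟩ := exists_ht hRF pos1
  have hδ : 0 ≤ R' + 2 * ρ := by linarith
  obtain ⟨pos', hd, hl⟩ := erode hRF hH hδ
  refine ⟨par1, rk1, pos', hRF, hRch, fun v => ?_, hl.trans ?_⟩
  · linarith [dist_triangle (pos' v) (pos1 v) (pos v), hd v, hq v]
  have k1 := rfc_brk hH hδ In
  have k2 := rfc_count h pos Xs hρ0 (fun x hx x' hx' hne => (by linarith : 2 * ρ ≤ s').trans (hsep x hx x' hx' hne))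
    hfar In fun x hx v hv => (hIn v).2 ⟨x, hx, hv⟩
  have k3 : ∀ u, dist (pos1 u) (pos1 (par1 u)) -
      (if In (par1 u) ∧ par1 u ≠ u then min (H u + dist (pos1 u) (pos1 (par1 u))) (R' + 2 * ρ) else 0) +
      (if In u then min (H u) (R' + 2 * ρ) else 0) ≤ dist (pos u) (pos (par u)) -
      (if In u ∨ In (par u) then min (dist (pos u) (pos (par u))) ρ else 0) +
      (if In u ∧ hb u = u then 3 * R' + 5 * ρ else 0) := by
    intro u
    have m1 := min_le_left (dist (pos u) (pos (par u))) ρ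
    have m2 := min_le_right (dist (pos u) (pos (par u))) ρ
    have t1 := dist_triangle4 (pos1 u) (pos u) (pos (par u)) (pos1 (par u))
    have t2 := hq u
    have t3 := hq (par u)
    rw [dist_comm] at t3
    by_cases hu : In u
    · by_cases hu' : hb u = u
      · rw [hp2 u fun a => a.2 hu', if_pos hu, if_pos (Or.inl hu), if_pos (show In u ∧ hb u = u from ⟨hu, hu'⟩)]
        have m3 := min_le_right (H u) (R' + 2 * ρ)
        have m4 : 0 ≤ min (H u + dist (pos1 u) (pos1 (par u))) (R' + 2 * ρ) :=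
          le_min (add_nonneg (hH.1 u) dist_nonneg) hδ
        split_ifs <;> linarith
      · rw [hp1 u ⟨hu, hu'⟩, if_pos ⟨(hhb u hu).1, hu'⟩, if_pos hu, if_pos (Or.inl hu), if_neg fun a => hu' a.2,
          hq1 u hu, hq1 _ (hhb u hu).1, (hhb u hu).2.1, dist_self, add_zero]
        linarith
    · rw [hp2 u fun a => hu a.1, if_neg hu, if_neg (fun a : In u ∧ hb u = u => hu a.1)]
      by_cases hu' : In (par u)
      · rw [if_pos ⟨hu', fun e => hu (e ▸ hu')⟩, if_pos (Or.inr hu')]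
        have t4 := dist_triangle (pos1 u) (pos (par u)) (pos1 (par u))
        rw [hq2 u hu] at t4 ⊢
        have := hH.1 u
        rcases min_cases (H u + dist (pos u) (pos1 (par u))) (R' + 2 * ρ) with ⟨e, -⟩ | ⟨e, -⟩ <;> rw [e] <;> linarith
      · rw [if_neg fun a => hu' a.1, if_neg fun a => a.elim hu hu', hq2 u hu, hq2 _ hu']
  have k4 := Finset.sum_le_sum fun u (_ : u ∈ univ) => k3 u
  simp only [Finset.sum_add_distrib, Finset.sum_sub_distrib] at k4
  have k5 : ∑ u, (if In u ∧ hb u = u then 3 * R' + 5 * ρ else 0) ≤ Y.card * (3 * R' + 5 * ρ) := by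
    rw [← Finset.sum_filter, Finset.sum_const, nsmul_eq_mul]
    refine mul_le_mul_of_nonneg_right (Nat.cast_le.2 (Finset.card_le_card_of_injOn reg ?_ ?_)) (by linarith)
    · intro v hv
      exact hregY v (Finset.mem_filter.1 hv).2.1
    · intro v hv v' hv' e
      have a := (Finset.mem_filter.1 hv).2
      have a' := (Finset.mem_filter.1 hv').2
      rw [← a.2, ← a'.2]
      exact hhb' _ _ a.1 a'.1 e
  have k6 : (Y.card : ℝ) * (3 * R' + 5 * ρ) ≤ Y.card * (4 * R' + 6 * s') :=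
    mul_le_mul_of_nonneg_left (by linarith) (Nat.cast_nonneg _)
  have k7 : (Xs.card : ℝ) * s' / 8 = Xs.card * ρ / 2 := by rw [hρ]; ring
  unfold flen
  linarith

end Crest.Agent.R37
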