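import Crest.Agent.R37.Erode

/-!
# R37/RFL1: one loose region.
Inside = within `r` of `c`.  `top p` = last vertex of the chain `p, par p, ...` while inside.  `top p1 ≠ top p2` (else connected inside).
Choose `{p, p'} = {p1, p2}` with `p` not a descendant of `τ = top p'` (if both choices fail the two tops are strict ancestors
of each other).  Then `τ` is not a root, `o = par τ` is outside.  `K = {v : chain from v stays inside up to τ}`.  A child
`z ∉ K` of a vertex of `K` is tall if `r ≤ H z + ℓ z`.  Two distinct tall children: at the first common ancestor `j ∈ K` of their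
parents-chains the two children `u1 ≠ u2` of `j` above them have `H + ℓ ≥ r` (`ht_anc`): first alternative.  Otherwise let
`v0` = parent of the tall child `z` (or `p'` if there is none), `Coll` = descendants of `τ` that are not descendants of `z`
(within `2r` of `c` by `ht_anc`); move `Coll` to `pos v0`.  `T = ∑_{u ∈ Coll} ℓ u` satisfies
`2T ≥ d(v0,p') + d(v0,o) + d(p',o)` (`path_le` three times, each `u` is in at most two of the three sets, all in `K`).
Option A: `par' τ = p` (shift the ranks of the descendants of `τ` by `rk p + 1`), cost `d(v0,p') + 2η`; option B: keep `par`, cost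
`d(v0,o)`.  The cheaper option saves `≥ (r - η)/2 - η ≥ r/4`.
-/

set_option autoImplicit false
set_option linter.unusedSectionVars false

open Finset

noncomputable section

namespace Crest.Agent.R37

variable {V : Type} [Fintype V] [DecidableEq V]

variable {X : Type} [NormedAddCommGroup X] [NormedSpace ℝ X]

/-- forest edges inside the ball -/
def InR (par : V → V) (pos : V → X) (c : X) (r : ℝ) (a b : V) : Prop :=
  par a = b ∧ dist (pos a) c < r ∧ dist (pos b) c < r

theorem rfl1_refl (par : V → V) (a : V) : Anc par a a := ⟨0, rfl⟩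

theorem rfl1_trans {par : V → V} {a b c : V} (h1 : Anc par a b) (h2 : Anc par b c) : Anc par a c := by
  obtain ⟨k, rfl⟩ := h1
  obtain ⟨m, rfl⟩ := h2
  exact ⟨k + m, Function.iterate_add_apply _ _ _ _⟩

theorem rfl1_par (par : V → V) (a : V) : Anc par (par a) a := ⟨1, rfl⟩

theorem rfl1_cases {par : V → V} {u a : V} (h : Anc par u a) : u = a ∨ Anc par u (par a) := by
  obtain ⟨k, rfl⟩ := h
  cases k with
  | zero => exact Or.inl rfl
  | succ k => exact Or.inr ⟨k, rfl⟩

theorem rfl1_map {par : V → V} {u a : V} (h : Anc par u a) : Anc par (par u) (par a) := by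
  obtain ⟨k, rfl⟩ := h
  exact ⟨k, by rw [← Function.iterate_succ_apply, Function.iterate_succ_apply']⟩

theorem rfl1_anti {par : V → V} {rk : V → ℕ} (h : IsRF par rk) {a b : V} (h1 : Anc par a b)
    (h2 : Anc par b a) : a = b := by
  rcases anc_rk h h1 with h3 | h3
  · exact h3
  · rcases anc_rk h h2 with h4 | h4
    · exact h4.symm
    · omega

theorem rfl1_root {par : V → V} {u a : V} (ha : par a = a) (h : Anc par u a) : u = a := by
  obtain ⟨k, rfl⟩ := h
  exact Function.iterate_fixed ha k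

theorem rfl1_fca {par : V → V} {a b w : V} (ha : Anc par w a) (hb : Anc par w b) (h1 : ¬ Anc par a b)
    (h2 : ¬ Anc par b a) : ∃ j u1 u2, u1 ≠ u2 ∧ par u1 = j ∧ par u2 = j ∧ u1 ≠ j ∧ u2 ≠ j ∧
      Anc par u1 a ∧ Anc par u2 b ∧ Anc par w j := by
  classical
  obtain ⟨n, hn⟩ := ha
  have hex : ∃ k, Anc par (par^[k] a) b := ⟨n, hn ▸ hb⟩
  have hk := Nat.find_spec hex
  have hkn : Nat.find hex ≤ n := Nat.find_min' hex (hn ▸ hb)
  obtain ⟨k, hk'⟩ : ∃ k, Nat.find hex = k + 1 := by
    refine Nat.exists_eq_succ_of_ne_zero fun h0 => h1 ?_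
    rwa [h0] at hk
  have hk1 : ¬ Anc par (par^[k] a) b := Nat.find_min hex (by omega)
  rw [hk'] at hk hkn
  have hm := Nat.find_spec hk
  obtain ⟨m, hm'⟩ : ∃ m, Nat.find hk = m + 1 := by
    refine Nat.exists_eq_succ_of_ne_zero fun h0 => h2 ?_
    rw [h0] at hm
    exact ⟨k + 1, hm.symm⟩
  have hm1 : par^[m] b ≠ par^[k + 1] a := Nat.find_min hk (by omega)
  rw [hm'] at hm
  refine ⟨par^[k + 1] a, par^[k] a, par^[m] b, fun h => hk1 ⟨m, h.symm⟩,
    (Function.iterate_succ_apply' _ _ _).symm, ?_, fun h => hk1 (h ▸ hk), hm1, ⟨k, rfl⟩, ⟨m, rfl⟩,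
    ⟨n - (k + 1), ?_⟩⟩
  · rw [← hm, Function.iterate_succ_apply']
  · rw [← Function.iterate_add_apply, Nat.sub_add_cancel hkn, hn]

/-- the chain from `a` stays inside up to `τ` -/
abbrev Rfl1Up (par : V → V) (pos : V → X) (c : X) (r : ℝ) : V → V → Prop :=
  Relation.ReflTransGen (InR par pos c r)

theorem rfl1_up_anc {par : V → V} {pos : V → X} {c : X} {r : ℝ} {a τ : V} (h : Rfl1Up par pos c r a τ) :
    Anc par τ a := by
  induction h with
  | refl => exact rfl1_refl _ _
  | tail _ h ih => exact rfl1_trans (h.1 ▸ rfl1_par _ _) ih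

theorem rfl1_up_in {par : V → V} {pos : V → X} {c : X} {r : ℝ} {a τ : V} (h : Rfl1Up par pos c r a τ)
    (hτ : dist (pos τ) c < r) : dist (pos a) c < r := by
  rcases h.cases_head with rfl | ⟨b, hb, -⟩
  · exact hτ
  · exact hb.2.1

theorem rfl1_up_or {par : V → V} {pos : V → X} {c : X} {r : ℝ} {a τ u : V} (h : Rfl1Up par pos c r a τ)
    (hu : Anc par u a) : Rfl1Up par pos c r u τ ∨ Anc par u τ := by
  induction h using Relation.ReflTransGen.head_induction_on with
  | refl => exact Or.inr hu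
  | head hab hb ih =>
    rcases rfl1_cases hu with rfl | hu'
    · exact Or.inl (hb.head hab)
    · exact ih (hab.1 ▸ hu')

theorem rfl1_up_eqv {par : V → V} {pos : V → X} {c : X} {r : ℝ} {a τ : V} (h : Rfl1Up par pos c r a τ) :
    Relation.EqvGen (InR par pos c r) a τ := by
  induction h with
  | refl => exact .refl _
  | tail _ h ih => exact .trans _ _ _ ih (.rel _ _ h)

theorem rfl1_top {par : V → V} {rk : V → ℕ} (h : IsRF par rk) (pos : V → X) (c : X) (r : ℝ) (n : ℕ) :
    ∀ a, rk a < n → dist (pos a) c < r → ∃ τ, Rfl1Up par pos c r a τ ∧ dist (pos τ) c < r ∧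
      (par τ = τ ∨ r ≤ dist (pos (par τ)) c) := by
  induction n with
  | zero => intro a ha; omega
  | succ n ih =>
    intro a ha hin
    by_cases h1 : par a = a ∨ r ≤ dist (pos (par a)) c
    · exact ⟨a, .refl, hin, h1⟩
    · push Not at h1
      obtain ⟨τ, h2, h3⟩ := ih (par a) (by have := (h a).resolve_left h1.1; omega) h1.2
      exact ⟨τ, h2.head ⟨rfl, hin, h1.2⟩, h3⟩

theorem rfl1_top_anc {par : V → V} {pos : V → X} {c : X} {r : ℝ} {a τ σ : V} (h : Rfl1Up par pos c r a τ)
    (hσ : par σ = σ ∨ r ≤ dist (pos (par σ)) c) (ha : Anc par σ a) : Anc par σ τ := by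
  rcases rfl1_up_or h ha with h1 | h1
  · rcases h1.cases_head with rfl | ⟨b, hb, hb'⟩
    · exact rfl1_refl _ _
    · rcases hσ with h2 | h2
      · rw [rfl1_root h2 (rfl1_up_anc h1)]; exact rfl1_refl _ _
      · rw [hb.1] at h2; exact absurd hb.2.2 (not_lt.2 h2)
  · exact h1

theorem rfl1_exit {par : V → V} {K : V → Prop} {τ : V} (hτ : K τ) (k : ℕ) :
    ∀ v, par^[k] v = τ → ¬ K v → ∃ z, Anc par z v ∧ ¬ K z ∧ K (par z) := by
  induction k with
  | zero => rintro v rfl hv; exact absurd hτ hv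
  | succ k ih =>
    intro v hv hK
    by_cases h1 : K (par v)
    · exact ⟨v, rfl1_refl _ _, hK, h1⟩
    · obtain ⟨z, h2, h3⟩ := ih (par v) hv h1
      exact ⟨z, rfl1_trans h2 (rfl1_par _ _), h3⟩

theorem rfl1_core {par : V → V} {rk : V → ℕ} (h : IsRF par rk) {pos : V → X} {H : V → ℝ}
    (hH : IsHt par pos H) {c : X} {p p' τ : V} {r η : ℝ} (hηr : 6 * η ≤ r)
    (h1 : dist (pos p) c ≤ η) (h2 : dist (pos p') c ≤ η) (hR : Rch par p p')
    (hup : Rfl1Up par pos c r p' τ) (hτ : dist (pos τ) c < r) (htop : par τ = τ ∨ r ≤ dist (pos (par τ)) c)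
    (hn : ¬ Anc par τ p) :
    (∃ j u1 u2, dist (pos j) c < r ∧ u1 ≠ u2 ∧ par u1 = j ∧ par u2 = j ∧ u1 ≠ j ∧ u2 ≠ j ∧
      r ≤ H u1 + dist (pos u1) (pos j) ∧ r ≤ H u2 + dist (pos u2) (pos j)) ∨
    ∃ (par' : V → V) (rk' : V → ℕ) (pos' : V → X), IsRF par' rk' ∧
      (∀ a b, Rch par' a b ↔ Rch par a b) ∧ flen par' pos' ≤ flen par pos - r / 4 ∧
      (∀ v, pos' v = pos v ∨ (dist (pos v) c < 2 * r ∧ dist (pos' v) c < r)) ∧
      ∀ v, par' v = par v ∨ dist (pos' v) c < r := by
  classical
  have hroot : par τ ≠ τ := by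
    intro h0
    obtain ⟨u, hu1, hu2⟩ := hR
    rcases anc_total (rfl1_up_anc hup) hu2 with h3 | h3
    · exact hn (rfl1_trans h3 hu1)
    · exact hn (rfl1_root h0 h3 ▸ hu1)
  have hout : r ≤ dist (pos (par τ)) c := htop.resolve_left hroot
  let K : V → Prop := fun v => Rfl1Up par pos c r v τ
  let Tall : V → Prop := fun z => ¬ K z ∧ K (par z) ∧ r ≤ H z + dist (pos z) (pos (par z))
  have hKa : ∀ v, K v → ∀ z, Anc par z v → Anc par τ z → K z := by
    intro v hv z hz hτz
    rcases rfl1_up_or hv hz with h3 | h3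
    · exact h3
    · rw [rfl1_anti h h3 hτz]
  have hTa : ∀ z, Tall z → Anc par τ z := fun z hz => rfl1_trans (rfl1_up_anc hz.2.1) (rfl1_par _ _)
  by_cases h2t : ∃ z1 z2, Tall z1 ∧ Tall z2 ∧ z1 ≠ z2
  · left
    obtain ⟨z1, z2, t1, t2, hne⟩ := h2t
    have na : ∀ z1 z2, Tall z1 → Tall z2 → z1 ≠ z2 → ¬ Anc par z1 z2 := fun z1 z2 t1 t2 hne ha =>
      t1.1 (hKa _ t2.2.1 _ ((rfl1_cases ha).resolve_left hne) (hTa _ t1))
    obtain ⟨j, u1, u2, e1, e2, e3, e4, e5, a1, a2, a3⟩ :=
      rfl1_fca (hTa _ t1) (hTa _ t2) (na _ _ t1 t2 hne) (na _ _ t2 t1 hne.symm)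
    have ht : ∀ z u, Tall z → Anc par u z → r ≤ H u + dist (pos u) (pos (par u)) := by
      intro z u tz ha
      rcases rfl1_cases ha with rfl | ha'
      · exact tz.2.2
      · have := ht_anc hH ha'
        linarith [tz.2.2, hH.2.1 z, dist_nonneg (x := pos (par z)) (y := pos u),
          dist_nonneg (x := pos u) (y := pos (par u))]
    exact ⟨j, u1, u2, rfl1_up_in (hKa _ t1.2.1 j (e2 ▸ rfl1_map a1) a3) hτ, e1, e2, e3, e4, e5,
      e2 ▸ ht _ _ t1 a1, e3 ▸ ht _ _ t2 a2⟩
  right
  obtain ⟨v0, hv0, hv0'⟩ : ∃ v0, K v0 ∧ ∀ z, Tall z → par z = v0 := by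
    by_cases h3 : ∃ z, Tall z
    · obtain ⟨z, tz⟩ := h3
      refine ⟨par z, tz.2.1, fun z' tz' => ?_⟩
      by_contra hne
      exact h2t ⟨z', z, tz', tz, fun e => hne (e ▸ rfl)⟩
    · exact ⟨p', hup, fun z tz => absurd ⟨z, tz⟩ h3⟩
  let Coll : V → Prop := fun v => Anc par τ v ∧ ¬ ∃ z, Tall z ∧ Anc par z v
  have KC : ∀ v, K v → Coll v := fun v hv =>
    ⟨rfl1_up_anc hv, fun ⟨z, tz, ha⟩ => tz.1 (hKa v hv z ha (hTa z tz))⟩
  have C2 : ∀ v, Coll v → dist (pos v) c < 2 * r := by
    intro v hv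
    by_cases hK : K v
    · linarith [rfl1_up_in hK hτ, dist_nonneg (x := pos v) (y := c)]
    · obtain ⟨k, hk⟩ := hv.1
      obtain ⟨z, a1, a2, a3⟩ := rfl1_exit (K := K) (τ := τ) .refl k v hk hK
      have a4 : H z + dist (pos z) (pos (par z)) < r := by
        by_contra a4
        exact hv.2 ⟨z, ⟨a2, a3, not_lt.1 a4⟩, a1⟩
      linarith [ht_anc hH a1, hH.1 v, rfl1_up_in a3 hτ, dist_triangle4 (pos v) (pos z) (pos (par z)) c]
  let pos' : V → X := fun v => if Coll v then pos v0 else pos v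
  have hin0 : dist (pos v0) c < r := rfl1_up_in hv0 hτ
  have hpos : ∀ v, pos' v = pos v ∨ (dist (pos v) c < 2 * r ∧ dist (pos' v) c < r) := by
    intro v
    by_cases hv : Coll v
    · exact Or.inr ⟨C2 v hv, by simp only [pos', if_pos hv]; exact hin0⟩
    · exact Or.inl (if_neg hv)
  have Cτ : Coll τ := KC τ .refl
  have hedge : ∀ v, v ≠ τ → dist (pos' v) (pos' (par v)) =
      dist (pos v) (pos (par v)) - if Coll v then dist (pos v) (pos (par v)) else 0 := by
    intro v hvτ
    by_cases hv : Coll v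
    · have : Coll (par v) := ⟨(rfl1_cases hv.1).resolve_left hvτ.symm,
        fun ⟨z, tz, ha⟩ => hv.2 ⟨z, tz, rfl1_trans ha (rfl1_par _ _)⟩⟩
      simp only [pos', if_pos hv, if_pos this, dist_self, sub_self]
    · by_cases hp : Coll (par v)
      · have : ∃ z, Tall z ∧ Anc par z v := by
          by_contra h4
          exact hv ⟨rfl1_trans hp.1 (rfl1_par _ _), h4⟩
        obtain ⟨z, tz, ha⟩ := this
        rcases rfl1_cases ha with rfl | ha'
        · simp only [pos', if_neg hv, if_pos hp, sub_zero, hv0' z tz, ite_self]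
        · exact absurd ⟨z, tz, ha'⟩ hp.2
      · simp only [pos', if_neg hv, if_neg hp, sub_zero]
  set T := ∑ v, if Coll v then dist (pos v) (pos (par v)) else 0 with hT
  have hlen : ∀ q, ¬ Anc par τ q →
      flen (Function.update par τ q) pos' = flen par pos - T + dist (pos v0) (pos q) := by
    intro q hq
    have hq' : ¬ Coll q := fun hc => hq hc.1
    rw [flen, flen, hT, ← sum_sub_distrib, ← add_sum_erase _ _ (mem_univ τ), ← add_sum_erase _ _ (mem_univ τ),
      sum_congr rfl fun v hv => by rw [Function.update_of_ne (ne_of_mem_erase hv), hedge v (ne_of_mem_erase hv)]]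
    simp only [Function.update_self, pos', if_pos Cτ, if_neg hq']
    ring
  have ho : ∀ v, K v → Anc par (par τ) v := fun v hv => rfl1_trans (rfl1_par _ _) (rfl1_up_anc hv)
  have hKo : ∀ v, K v → ∀ u, Anc par u v → ¬ Anc par u (par τ) → Coll u := by
    intro v hv u hu hno
    rcases rfl1_up_or hv hu with h3 | h3
    · exact KC u h3
    · rw [(rfl1_cases h3).resolve_right hno]; exact Cτ
  have hT2 : dist (pos v0) (pos p') + dist (pos v0) (pos (par τ)) + dist (pos p') (pos (par τ)) ≤ 2 * T := by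
    have a1 := path_le h pos (a := v0) (b := p') ⟨_, ho _ hv0, ho _ hup⟩
    have a2 := path_le h pos (a := v0) (b := par τ) ⟨_, ho _ hv0, rfl1_refl _ _⟩
    have a3 := path_le h pos (a := p') (b := par τ) ⟨_, ho _ hup, rfl1_refl _ _⟩
    refine (add_le_add (add_le_add a1 a2) a3).trans ?_
    rw [sum_filter, sum_filter, sum_filter, ← sum_add_distrib, ← sum_add_distrib, hT, mul_sum]
    refine sum_le_sum fun u _ => ?_
    have hd := dist_nonneg (x := pos u) (y := pos (par u))
    by_cases b3 : Anc par u (par τ)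
    · have b1 := rfl1_trans b3 (ho _ hv0)
      have b2 := rfl1_trans b3 (ho _ hup)
      simp only [b1, b2, b3, iff_self, not_true_eq_false, if_false]
      split_ifs <;> linarith
    · by_cases b1 : Anc par u v0
      · have := hKo _ hv0 u b1 b3
        by_cases b2 : Anc par u p' <;> simp [b1, b2, b3, this] <;> linarith
      · by_cases b2 : Anc par u p'
        · have := hKo _ hup u b2 b3
          simp [b1, b2, b3, this]; linarith
        · simp only [b1, b2, b3, iff_self, not_true_eq_false, if_false]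
          split_ifs <;> linarith
  have d1 : r - η ≤ dist (pos p') (pos (par τ)) := by
    linarith [dist_triangle_left (pos (par τ)) c (pos p')]
  have d2 : dist (pos v0) (pos p) ≤ dist (pos v0) (pos p') + 2 * η := by
    linarith [dist_triangle (pos v0) (pos p') (pos p), dist_triangle_right (pos p') (pos p) c]
  by_cases hc : dist (pos v0) (pos (par τ)) ≤ dist (pos v0) (pos p)
  · refine ⟨par, rk, pos', h, fun _ _ => Iff.rfl, ?_, hpos, fun _ => Or.inl rfl⟩
    have := hlen (par τ) fun ha => hroot (rfl1_anti h (rfl1_par _ _) ha)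
    rw [Function.update_eq_self] at this
    linarith
  · have hrf : IsRF (Function.update par τ p) fun v => if Anc par τ v then rk v + rk p + 1 else rk v := by
      intro v
      by_cases hv : v = τ
      · right
        simp only [hv, Function.update_self, if_neg hn, if_pos (rfl1_refl par τ)]
        omega
      · rw [Function.update_of_ne hv]
        refine (h v).imp id fun h3 => ?_
        by_cases h4 : Anc par τ (par v)
        · simp only [if_pos h4, if_pos (rfl1_trans h4 (rfl1_par _ _))]; omega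
        · simp only [if_neg h4]; split_ifs <;> omega
    refine ⟨_, _, pos', hrf, rch_of_par h hrf (fun v => ?_) (fun v hv => ?_), ?_, hpos, fun v => ?_⟩
    · by_cases hv : v = τ
      · rw [hv, Function.update_self]
        exact (rch_equiv par).trans ⟨τ, rfl1_refl _ _, rfl1_up_anc hup⟩ ((rch_equiv par).symm hR)
      · rw [Function.update_of_ne hv]; exact rch_par par v
    · by_cases hv' : v = τ
      · rw [hv', Function.update_self] at hv
        exact absurd (hv ▸ rfl1_refl par p) hn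
      · rwa [Function.update_of_ne hv'] at hv
    · rw [hlen p hn]; linarith [not_le.1 hc]
    · by_cases hv : v = τ
      · right; simp only [hv, pos', if_pos Cτ]; exact hin0
      · left; exact Function.update_of_ne hv _ _

theorem lemL1 {par : V → V} {rk : V → ℕ} (h : IsRF par rk) {pos : V → X} {H : V → ℝ}
    (hH : IsHt par pos H) {c : X} {p1 p2 : V} {r η : ℝ} (hr : 0 < r) (hη : 0 ≤ η) (hηr : 6 * η ≤ r)
    (h1 : dist (pos p1) c ≤ η) (h2 : dist (pos p2) c ≤ η) (hR : Rch par p1 p2)
    (hn : ¬ Relation.EqvGen (InR par pos c r) p1 p2) :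
    (∃ j u1 u2, dist (pos j) c < r ∧ u1 ≠ u2 ∧ par u1 = j ∧ par u2 = j ∧ u1 ≠ j ∧ u2 ≠ j ∧
      r ≤ H u1 + dist (pos u1) (pos j) ∧ r ≤ H u2 + dist (pos u2) (pos j)) ∨
    ∃ (par' : V → V) (rk' : V → ℕ) (pos' : V → X), IsRF par' rk' ∧
      (∀ a b, Rch par' a b ↔ Rch par a b) ∧ flen par' pos' ≤ flen par pos - r / 4 ∧
      (∀ v, pos' v = pos v ∨ (dist (pos v) c < 2 * r ∧ dist (pos' v) c < r)) ∧
      ∀ v, par' v = par v ∨ dist (pos' v) c < r := by
  have hηr' : η < r := by linarith
  obtain ⟨τ1, a1, a2, a3⟩ := rfl1_top h pos c r _ p1 (Nat.lt_succ_self _) (h1.trans_lt hηr')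
  obtain ⟨τ2, b1, b2, b3⟩ := rfl1_top h pos c r _ p2 (Nat.lt_succ_self _) (h2.trans_lt hηr')
  by_cases hc : Anc par τ2 p1
  · refine rfl1_core h hH hηr h2 h1 ((rch_equiv par).symm hR) a1 a2 a3 fun hc' => hn ?_
    have := rfl1_anti h (rfl1_top_anc a1 b3 hc) (rfl1_top_anc b1 a3 hc')
    exact .trans _ _ _ (rfl1_up_eqv a1) (.symm _ _ (this ▸ rfl1_up_eqv b1))
  · exact rfl1_core h hH hηr h1 h2 hR b1 b2 b3 hc

end Crest.Agent.R37
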