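import Crest.Agent.R37.RPT1

/-!
# R37/RPT2: matrices (closure properties and the graph matrices).
-/

set_option autoImplicit false

open Matrix Finset Crest.Agent.Lib.PolyTime

noncomputable section

namespace Crest.Agent.R37

variable {α α' : Type} [Enc α] [Enc α']

variable {ι : α → Type} [∀ a, Enc (ι a)] [∀ a, Fintype (ι a)] [∀ a, DecidableEq (ι a)]
  {A B : ∀ a, Matrix (ι a) (ι a) ℝ} {n m : α → ℕ} {s t : ∀ a, Fin (m a) → Fin (n a)}

theorem MPT.of_eq (h : MPT A) (e : ∀ a, A a = B a) : MPT B := by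
  exact RPT.of_eq h fun p => by rw [e]

theorem MPT.comp (h : MPT A) {φ : α' → α} (hφ : PT φ) : MPT fun a' => A (φ a') := by
  exact RPT.comp h (pt_sigma_mk (hφ.comp pt_sigma_fst) dpt_sigma_snd)

theorem MPT.apply (h : MPT A) {i j : ∀ a, ι a} (hi : DPT i) (hj : DPT j) :
    RPT fun a => A a (i a) (j a) := by
  exact RPT.comp h (pt_sigma_mk PT.id' (hi.pair hj))

theorem MPT.one : MPT fun a => (1 : Matrix (ι a) (ι a) ℝ) := by
  exact (RPT.ite (dpt_sigma_snd.fst.eq dpt_sigma_snd.snd) RPT.one RPT.zero).of_eq fun p =>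
    Matrix.one_apply.symm

theorem MPT.add (hA : MPT A) (hB : MPT B) : MPT fun a => A a + B a := by
  exact RPT.add hA hB

theorem MPT.sub (hA : MPT A) (hB : MPT B) : MPT fun a => A a - B a := by
  exact RPT.sub hA hB

theorem MPT.smul {c : α → ℝ} (hc : RPT c) (hA : MPT A) : MPT fun a => c a • A a := by
  exact RPT.mul (hc.comp pt_sigma_fst) hA

theorem MPT.mul (h : En ι) (hA : MPT A) (hB : MPT B) : MPT fun a => A a * B a := by
  exact VPT.sum (h.comp pt_sigma_fst) (v := fun (p : Σ a, ι a × ι a) k => A p.1 p.2.1 k * B p.1 k p.2.2)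
    (((hA.comp (pt_sigma_fst.comp pt_sigma_fst)).apply (dpt_sigma_snd.comp pt_sigma_fst).fst
      dpt_sigma_snd).mul ((hB.comp (pt_sigma_fst.comp pt_sigma_fst)).apply dpt_sigma_snd
      (dpt_sigma_snd.comp pt_sigma_fst).snd))

theorem MPT.trace (h : En ι) (hA : MPT A) : RPT fun a => (A a).trace := by
  exact VPT.sum h (v := fun a i => A a i i) ((hA.comp pt_sigma_fst).apply dpt_sigma_snd dpt_sigma_snd)

theorem MPT.mulVec (h : En ι) (hA : MPT A) {v : ∀ a, ι a → ℝ} (hv : VPT v) :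
    VPT fun a => A a *ᵥ v a := by
  exact VPT.sum (h.comp pt_sigma_fst) (v := fun (p : Σ a, ι a) k => A p.1 p.2 k * v p.1 k)
    (((hA.comp (pt_sigma_fst.comp pt_sigma_fst)).apply (dpt_sigma_snd.comp pt_sigma_fst)
      dpt_sigma_snd).mul ((hv.comp (pt_sigma_fst.comp pt_sigma_fst)).apply dpt_sigma_snd))

theorem VPT.single {i : ∀ a, ι a} (hi : DPT i) {c : α → ℝ} (hc : RPT c) :
    VPT fun a => (Pi.single (i a) (c a) : ι a → ℝ) := by
  exact (RPT.ite (dpt_sigma_snd.eq (hi.comp pt_sigma_fst)) (hc.comp pt_sigma_fst) RPT.zero).of_eq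
    fun p => (Pi.single_apply _ _ _).symm

theorem vpt_bv {i j : ∀ a, Fin (n a)} (hi : DPT i) (hj : DPT j) : VPT fun a => bv (i a) (j a) :=
  RPT.sub (VPT.single hi RPT.one) (VPT.single hj RPT.one)

theorem mpt_Lp {i j : ∀ a, Fin (n a)} (hi : DPT i) (hj : DPT j) : MPT fun a => Lp (i a) (j a) :=
  RPT.mul (((vpt_bv hi hj).comp pt_sigma_fst).apply dpt_sigma_snd.fst)
    (((vpt_bv hi hj).comp pt_sigma_fst).apply dpt_sigma_snd.snd)

theorem MPT.sum {κ : α → Type} [∀ a, Enc (κ a)] [∀ a, Fintype (κ a)] (h : En κ)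
    {C : ∀ a, κ a → Matrix (ι a) (ι a) ℝ} (hC : MPT fun p : Σ a, κ a => C p.1 p.2) :
    MPT fun a => ∑ k, C a k :=
  (VPT.sum (h.comp pt_sigma_fst) (v := fun (p : Σ a, ι a × ι a) k => C p.1 k p.2.1 p.2.2)
    ((hC.comp (pt_sigma_mk (pt_sigma_fst.comp pt_sigma_fst) dpt_sigma_snd)).apply
      (dpt_sigma_snd.comp pt_sigma_fst).fst (dpt_sigma_snd.comp pt_sigma_fst).snd)).of_eq
    fun p => by simp only [Matrix.sum_apply]

theorem mpt_LE (hG : PG n m s t) {x : ∀ a, Fin (m a) → ℝ} (hx : VPT x) :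
    MPT fun a => LE (s a) (t a) (x a) := by
  exact MPT.sum (En.fin hG.hm) (MPT.smul hx (mpt_Lp ((hG.hs.comp pt_sigma_fst).apply dpt_sigma_snd)
    ((hG.ht.comp pt_sigma_fst).apply dpt_sigma_snd)))

theorem mpt_Gam (hG : PG n m s t) : MPT fun a => Gam (s a) (t a) := by
  exact (mpt_LE hG RPT.one).add (MPT.smul (RPT.one.div (RPT.nat hG.hn.1)) MPT.one)

theorem mpt_Lw (hn : UN n) {w : ∀ a, Fin (n a) → Fin (n a) → ℝ}
    (hw : RPT fun p : Σ a, Fin (n a) × Fin (n a) => w p.1 p.2.1 p.2.2) : MPT fun a => Lw (w a) := by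
  refine (MPT.sum ((En.fin hn).prod (En.fin hn)) (C := fun a p => w a p.1 p.2 • Lp p.1 p.2)
    (MPT.smul hw (mpt_Lp dpt_sigma_snd.fst dpt_sigma_snd.snd))).of_eq fun a => ?_
  rw [Fintype.sum_prod_type]; rfl

theorem mpt_Ltri (hn : UN n) {τ : ∀ a, Fin (n a) → Fin (n a) → Fin (n a) → ℝ}
    (hτ : RPT fun p : Σ a, Fin (n a) × Fin (n a) × Fin (n a) => τ p.1 p.2.1 p.2.2.1 p.2.2.2) :
    MPT fun a => Ltri (τ a) := by
  refine (MPT.sum ((En.fin hn).prod ((En.fin hn).prod (En.fin hn)))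
    (C := fun a p => τ a p.1 p.2.1 p.2.2 • Tri p.1 p.2.1 p.2.2)
    (MPT.smul hτ (((mpt_Lp dpt_sigma_snd.fst dpt_sigma_snd.snd.fst).add
      (mpt_Lp dpt_sigma_snd.snd.fst dpt_sigma_snd.snd.snd)).sub
      (mpt_Lp dpt_sigma_snd.fst dpt_sigma_snd.snd.snd)))).of_eq fun a => ?_
  simp only [Fintype.sum_prod_type]; rfl

theorem rpt_qf (hn : UN n) {Z : ∀ a, Mat (n a)} (hZ : MPT Z) {i j : ∀ a, Fin (n a)} (hi : DPT i)
    (hj : DPT j) : RPT fun a => qf (Z a) (i a) (j a) := by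
  exact VPT.sum (En.fin hn) (v := fun a k => bv (i a) (j a) k * (Z a *ᵥ bv (i a) (j a)) k)
    (RPT.mul (vpt_bv hi hj) (hZ.mulVec (En.fin hn) (vpt_bv hi hj)))

end Crest.Agent.R37
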