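import Crest.Agent.R37.S1Defs
import Crest.Agent.R37.Lin3

/-!
# R37/S1An: certificate or dual solution.
`s1_dual`: `Z = μ M⁻²`, `d_e = qf Z e`, `f w' = ∑ w' qf Z + ∑_H d_e ρ_e(w')`.  By `res_tangent`, `f w' ≥ f w + ∑ (w' - w)(dW - κ) ≥ f w - (tol+κ) ∑ w' - tol ∑ w`.
`f w = l tr(ZΓ) - tr(Z M) - ∑ τ (dT - κ) ≥ cap (1 - tol) - μ tr M⁻¹ - tol ∑ τ`, and `(μ tr M⁻¹)² ≤ μ n tr Z ≤ μ n² · 3/2` (`trace_inv_sq_le`, `trace_mul_Gam`),
so `μ tr M⁻¹ ≤ cap/16`.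
-/

set_option autoImplicit false

open Matrix Finset

noncomputable section

namespace Crest.Agent.R37

variable {n : ℕ} {E : Type} [Fintype E] [DecidableEq E]

theorem s1_init (s t : E → Fin n) (hn : 1 ≤ n) (H : Finset E) {μ : ℝ} (κ : ℝ) (hμ : 0 ≤ μ) :
    (M1 s t H 2 (fun _ _ => 0) (fun _ _ _ => 0)).PosDef ∧
      Phi1 s t H μ κ 2 (fun _ _ => 0) (fun _ _ _ => 0) ≤ 2 + μ * n ^ 2 := by
  have hn' : (0 : ℝ) < n := Nat.cast_pos.2 hn
  set ρ : E → ℝ := fun e => if e ∈ H then res (Gam s t + Lw fun _ _ => 0) (s e) (t e) else 0 with hρ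
  have h1 : ∀ e, 0 ≤ 2 - ρ e := fun e => by
    have := res_GamLw_le_one s t (w := fun _ _ => 0) (fun _ _ => le_rfl) e
    simp only [hρ]
    split_ifs <;> linarith
  have e : M1 s t H 2 (fun _ _ => 0) (fun _ _ _ => 0) - (1 / (n : ℝ)) • (1 : Mat n) =
      LE s t (fun e => 2 - ρ e) + (1 / (n : ℝ)) • (1 : Mat n) := by
    rw [M1, ← hρ]
    simp only [Gam, LE, Lw, Ltri, zero_smul, sum_const_zero, sub_zero, sub_smul, sum_sub_distrib, ← smul_sum, one_smul]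
    module
  obtain ⟨h2, h3⟩ := trace_inv_le (one_div_pos.2 hn')
    (e ▸ (LE_psd s t h1).add (PosSemidef.one.smul (one_div_pos.2 hn').le))
  refine ⟨h2, ?_⟩
  rw [div_div_eq_mul_div, div_one, ← sq] at h3
  simp only [Phi1, sum_const_zero, add_zero, mul_zero]
  linarith [mul_le_mul_of_nonneg_left h3 hμ]

theorem s1_cert {s t : E → Fin n} {H : Finset E} {l cap : ℝ} {w : Fin n → Fin n → ℝ}
    {τ : Fin n → Fin n → Fin n → ℝ} (hM : (M1 s t H l w τ).PosDef) (hτ : ∀ a b c, 0 ≤ τ a b c)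
    (hc : 0 ≤ cap) (hl : l ≤ cap) : Cert s t H w cap := by
  intro S
  have h1 := cv_nonneg hM.posSemidef S
  rw [M1, cv_sub, cv_sub, cv_sub, cv_smul, cv_LE, sum_ite_mem, inter_comm] at h1
  linarith [cv_Ltri_nonneg hτ S, mul_le_mul_of_nonneg_right hl (cv_nonneg (Gam_posDef s t).posSemidef S),
    mul_le_mul_of_nonneg_left (cv_Gam_le s t S) hc]

theorem s1_dual {s t : E → Fin n} (hn : 1 ≤ n) {H : Finset E} {μ κ tol l cap B : ℝ}
    {w : Fin n → Fin n → ℝ} {τ : Fin n → Fin n → Fin n → ℝ} (hM : (M1 s t H l w τ).PosDef)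
    (hw : ∀ a b, 0 ≤ w a b) (hτ : ∀ a b c, 0 ≤ τ a b c) (hc : 0 < cap) (hl : cap ≤ l) (hμ : 0 ≤ μ)
    (hμc : 400 * n ^ 2 * μ ≤ cap ^ 2) (htol : 0 ≤ tol) (htk : tol ≤ κ) (htol1 : tol ≤ 1 / 10)
    (hB : 2 * κ * B ^ 2 ≤ cap / 10)
    (hs : tol * (∑ a, ∑ b, w a b + ∑ a, ∑ b, ∑ c, τ a b c) ≤ cap / 10)
    (h : KKT s t H μ κ tol l w τ) : Dual s t H (Z1 s t H μ l w τ) cap (2 * κ) B := by
  obtain ⟨k1, k2, k3⟩ := h
  have hn' : (0 : ℝ) < n := Nat.cast_pos.2 hn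
  have hsq := trace_inv_sq_le hM
  have hZM : (Z1 s t H μ l w τ * M1 s t H l w τ).trace = μ * (M1 s t H l w τ)⁻¹.trace := by
    rw [Z1, smul_mul_assoc, trace_smul, Matrix.mul_assoc, nonsing_inv_mul _ hM.det_pos.ne'.isUnit, Matrix.mul_one,
      smul_eq_mul]
  have hZt : (Z1 s t H μ l w τ).trace = μ * ((M1 s t H l w τ)⁻¹ * (M1 s t H l w τ)⁻¹).trace := by
    rw [Z1, trace_smul, smul_eq_mul]
  have hZ : (Z1 s t H μ l w τ).PosSemidef := (inv_sq_psd hM).smul hμ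
  have hT0 := trace_inv_nonneg hM
  generalize (M1 s t H l w τ)⁻¹.trace = T at hsq hZM hT0
  generalize ((M1 s t H l w τ)⁻¹ * (M1 s t H l w τ)⁻¹).trace = T2 at hsq hZt
  generalize Z1 s t H μ l w τ = Z at *
  have hq := qf_nonneg hZ
  rw [dL, abs_le] at k1
  have hκ := htol.trans htk
  refine ⟨hZ, by linarith, fun a b c => by have := (k3 a b c).1; rw [dT] at this; linarith, fun w' hw' hB' => ?_⟩
  have a1 : Z.trace ≤ 3 / 2 * n := by
    have := trace_mul_Gam Z s t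
    rw [← div_le_iff₀ hn']
    linarith [sum_nonneg fun e (_ : e ∈ univ) => hq (s e) (t e)]
  have a2 : μ * T ≤ cap / 16 := by
    refine abs_le_of_sq_le_sq' ?_ (by positivity) |>.2
    have b1 := mul_le_mul_of_nonneg_left hsq (mul_nonneg hμ hμ)
    have b2 := mul_le_mul_of_nonneg_left a1 (mul_nonneg hμ hn'.le)
    rw [hZt] at b2
    nlinarith [sq_nonneg cap]
  rw [M1, Matrix.mul_sub, Matrix.mul_sub, Matrix.mul_sub, trace_sub, trace_sub, trace_sub, mul_smul_comm, trace_smul,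
    smul_eq_mul, trace_mul_Lw, trace_mul_LE, trace_mul_Ltri] at hZM
  simp only [ite_mul, zero_mul, sum_ite_mem, univ_inter] at hZM
  have a3 : ∑ a, ∑ b, ∑ c, τ a b c * (qf Z a b + qf Z b c - qf Z a c) ≤ tol * ∑ a, ∑ b, ∑ c, τ a b c := by
    simp only [mul_sum]
    refine sum_le_sum fun a _ => sum_le_sum fun b _ => sum_le_sum fun c _ => ?_
    rcases (hτ a b c).eq_or_lt with h0 | h0
    · rw [← h0]; simp
    · have := (k3 a b c).2 h0
      rw [dT] at this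
      nlinarith
  have a4 : ∑ e ∈ H, res (Gam s t + Lw w) (s e) (t e) * qf Z (s e) (t e) - ∑ c, ∑ d, (w' c d - w c d) *
      ∑ e ∈ H, qf Z (s e) (t e) * bf (Gam s t + Lw w)⁻¹ (s e) (t e) c d ^ 2 ≤
      ∑ e ∈ H, qf Z (s e) (t e) * res (Gam s t + Lw w') (s e) (t e) := by
    refine le_of_eq_of_le ?_ (sum_le_sum fun e _ => mul_le_mul_of_nonneg_left
      (res_tangent (Gam s t) (GamLw_posDef s t hw) (GamLw_posDef s t hw') (s e) (t e)) (hq _ _))
    simp only [mul_sub (qf _ _ _), sum_sub_distrib, mul_sum, sum_comm (s := H), mul_comm (qf _ _ _) (res _ _ _),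
      mul_left_comm (qf _ _ _)]
  have a5 : ∑ c, ∑ d, (w' c d - w c d) * ∑ e ∈ H, qf Z (s e) (t e) * bf (Gam s t + Lw w)⁻¹ (s e) (t e) c d ^ 2 ≤
      ∑ c, ∑ d, (w' c d * qf Z c d - w c d * qf Z c d + 2 * κ * w' c d + tol * w c d) := by
    refine sum_le_sum fun c _ => sum_le_sum fun d _ => ?_
    obtain ⟨b1, b2⟩ := k2 c d
    rw [dW] at b1 b2
    have b3 := mul_le_mul_of_nonneg_left b1 (hw' c d)
    have b4 := mul_le_mul_of_nonneg_left htk (hw' c d)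
    rcases (hw c d).eq_or_lt with h0 | h0
    · rw [← h0]; linarith
    · linarith [mul_le_mul_of_nonneg_left (b2 h0) h0.le, mul_nonneg h0.le hκ]
  simp only [sum_add_distrib, sum_sub_distrib, ← mul_sum] at a5
  have a6 := mul_le_mul_of_nonneg_left hB' (mul_nonneg zero_le_two hκ)
  have a7 : cap * (9 / 10) ≤ l * (Z * Gam s t).trace := mul_le_mul hl (by linarith) (by norm_num) (hc.le.trans hl)
  linarith

end Crest.Agent.R37
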