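import Crest.Agent.R37.Defs

/-!
# R37/S1Defs: the Stage-1 potential.
-/

set_option autoImplicit false

open Matrix Finset

noncomputable section

namespace Crest.Agent.R37

variable {n : ℕ} {E : Type} [Fintype E] [DecidableEq E]

/-- slack matrix `l Γ - L_w - ∑_H ρ_e L_e - L_τ` -/
def M1 (s t : E → Fin n) (H : Finset E) (l : ℝ) (w : Fin n → Fin n → ℝ)
    (τ : Fin n → Fin n → Fin n → ℝ) : Mat n :=
  l • Gam s t - Lw w - LE s t (fun e => if e ∈ H then res (Gam s t + Lw w) (s e) (t e) else 0) - Ltri τ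

def Phi1 (s t : E → Fin n) (H : Finset E) (μ κ l : ℝ) (w : Fin n → Fin n → ℝ)
    (τ : Fin n → Fin n → Fin n → ℝ) : ℝ :=
  l + μ * (M1 s t H l w τ)⁻¹.trace + κ * (∑ a, ∑ b, w a b + ∑ a, ∑ b, ∑ c, τ a b c)

/-- the dual matrix `μ M⁻²` -/
def Z1 (s t : E → Fin n) (H : Finset E) (μ l : ℝ) (w : Fin n → Fin n → ℝ)
    (τ : Fin n → Fin n → Fin n → ℝ) : Mat n :=
  μ • ((M1 s t H l w τ)⁻¹ * (M1 s t H l w τ)⁻¹)

/-- partial derivatives of `Phi1` in terms of `Z = Z1` -/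
def dL (s t : E → Fin n) (Z : Mat n) : ℝ := 1 - (Z * Gam s t).trace

def dW (s t : E → Fin n) (H : Finset E) (κ : ℝ) (w : Fin n → Fin n → ℝ) (Z : Mat n) (a b : Fin n) : ℝ :=
  qf Z a b - ∑ e ∈ H, qf Z (s e) (t e) * bf (Gam s t + Lw w)⁻¹ (s e) (t e) a b ^ 2 + κ

def dT (κ : ℝ) (Z : Mat n) (a b c : Fin n) : ℝ := qf Z a b + qf Z b c - qf Z a c + κ

/-- approximate KKT conditions -/
def KKT (s t : E → Fin n) (H : Finset E) (μ κ tol l : ℝ) (w : Fin n → Fin n → ℝ)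
    (τ : Fin n → Fin n → Fin n → ℝ) : Prop :=
  |dL s t (Z1 s t H μ l w τ)| ≤ tol ∧
  (∀ a b, -tol ≤ dW s t H κ w (Z1 s t H μ l w τ) a b ∧
    (0 < w a b → dW s t H κ w (Z1 s t H μ l w τ) a b ≤ tol)) ∧
  ∀ a b c, -tol ≤ dT κ (Z1 s t H μ l w τ) a b c ∧ (0 < τ a b c → dT κ (Z1 s t H μ l w τ) a b c ≤ tol)

/-- integer grid points -/
abbrev X1 (n : ℕ) : Type := ℤ × (Fin n → Fin n → ℤ) × (Fin n → Fin n → Fin n → ℤ)

/-- coordinates -/
abbrev C1 (n : ℕ) : Type := Unit ⊕ (Fin n × Fin n) ⊕ (Fin n × Fin n × Fin n)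

/-- move by `σ` in coordinate `i` -/
def mv1 (x : X1 n) (i : C1 n) (σ : ℤ) : X1 n :=
  (x.1 + (if i = Sum.inl () then σ else 0),
    fun a b => x.2.1 a b + (if i = Sum.inr (Sum.inl (a, b)) then σ else 0),
    fun a b c => x.2.2 a b c + (if i = Sum.inr (Sum.inr (a, b, c)) then σ else 0))

def nn1 (x : X1 n) : Prop := 0 ≤ x.1 ∧ (∀ a b, 0 ≤ x.2.1 a b) ∧ ∀ a b c, 0 ≤ x.2.2 a b c

def M1z (s t : E → Fin n) (H : Finset E) (N : ℝ) (x : X1 n) : Mat n :=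
  M1 s t H (x.1 / N) (fun a b => x.2.1 a b / N) (fun a b c => x.2.2 a b c / N)

def Phi1z (s t : E → Fin n) (H : Finset E) (μ κ N : ℝ) (x : X1 n) : ℝ :=
  Phi1 s t H μ κ (x.1 / N) (fun a b => x.2.1 a b / N) (fun a b c => x.2.2 a b c / N)

def Z1z (s t : E → Fin n) (H : Finset E) (μ N : ℝ) (x : X1 n) : Mat n :=
  Z1 s t H μ (x.1 / N) (fun a b => x.2.1 a b / N) (fun a b c => x.2.2 a b c / N)

end Crest.Agent.R37
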