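import Crest.Agent.R37.S1Defs
import Crest.Agent.R37.JetM

/-!
# R37/S1Jet: first-order expansion of `Phi1` along a bounded direction.
Use `Jet` with `V = ℝ`: `W ε = Γ + L_{w + ε vw}` is affine, `tr W(0)⁻¹ ≤ n²` (`trace_inv_le`); `Jet.matInv`, `Jet.map` (`qf`, `· • Lp`, trace), `Jet.sum`,
`Jet.matInv`; finish with `Jet.sub_le`.  `-tr(M⁻¹ M₁ M⁻¹) = -tr(M⁻² M₁)` and `trace_mul_*`.
-/

set_option autoImplicit false
set_option linter.unusedSectionVars false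

open Matrix Finset

noncomputable section

namespace Crest.Agent.R37

variable {n : ℕ} {E : Type} [Fintype E] [DecidableEq E]

open scoped Matrix.Norms.Operator

theorem s1j_Lp_herm (a b : Fin n) : (Lp a b).IsHermitian := (Lp_psd a b).isHermitian

theorem s1j_herm_smul {A : Mat n} (hA : A.IsHermitian) (c : ℝ) : (c • A).IsHermitian := by
  unfold Matrix.IsHermitian at *
  rw [conjTranspose_smul, hA]; simp

theorem s1j_herm_sum {ι : Type} (I : Finset ι) {A : ι → Mat n} (hA : ∀ i ∈ I, (A i).IsHermitian) :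
    (∑ i ∈ I, A i).IsHermitian := by
  unfold Matrix.IsHermitian at *
  rw [conjTranspose_sum]
  exact Finset.sum_congr rfl hA

theorem s1j_Lw_herm (w : Fin n → Fin n → ℝ) : (Lw w).IsHermitian :=
  s1j_herm_sum _ fun a _ => s1j_herm_sum _ fun b _ => s1j_herm_smul (s1j_Lp_herm a b) _

theorem s1j_LE_herm (s t : E → Fin n) (x : E → ℝ) : (LE s t x).IsHermitian :=
  s1j_herm_sum _ fun e _ => s1j_herm_smul (s1j_Lp_herm _ _) _

theorem s1j_Ltri_herm (τ : Fin n → Fin n → Fin n → ℝ) : (Ltri τ).IsHermitian :=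
  s1j_herm_sum _ fun a _ => s1j_herm_sum _ fun b _ => s1j_herm_sum _ fun c _ =>
    s1j_herm_smul (((s1j_Lp_herm a b).add (s1j_Lp_herm b c)).sub (s1j_Lp_herm a c)) _

theorem s1j_M1_herm (s t : E → Fin n) (H : Finset E) (l : ℝ) (w : Fin n → Fin n → ℝ)
    (τ : Fin n → Fin n → Fin n → ℝ) : (M1 s t H l w τ).IsHermitian :=
  (((s1j_herm_smul (Gam_posDef s t).isHermitian l).sub (s1j_Lw_herm w)).sub (s1j_LE_herm s t _)).sub
    (s1j_Ltri_herm τ)

theorem s1j_norm_one : ‖(1 : Mat n)‖ ≤ 1 := by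
  rcases Nat.eq_zero_or_pos n with h | h
  · subst h
    have : (1 : Mat 0) = 0 := Subsingleton.elim _ _
    rw [this, norm_zero]; exact zero_le_one
  · have : Nonempty (Fin n) := ⟨⟨0, h⟩⟩
    rw [norm_one]

theorem s1j_norm_Gam (s t : E → Fin n) : ‖Gam s t‖ ≤ 2 * Fintype.card E + 1 := by
  refine (norm_add_le _ _).trans (add_le_add ?_ ?_)
  · refine (norm_sum_le _ _).trans ?_
    calc ∑ e, ‖(1 : ℝ) • Lp (s e) (t e)‖ ≤ ∑ _e : E, (2 : ℝ) :=
          Finset.sum_le_sum fun e _ => by rw [one_smul]; exact norm_Lp_le _ _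
      _ = 2 * Fintype.card E := by simp [mul_comm]
  · rw [norm_smul]
    have h1 : ‖(1 / (n : ℝ))‖ ≤ 1 := by
      rw [Real.norm_of_nonneg (by positivity)]
      rcases Nat.eq_zero_or_pos n with h | h
      · simp [h]
      · rw [div_le_one (by exact_mod_cast h)]; exact_mod_cast h
    exact mul_le_one₀ h1 (norm_nonneg _) s1j_norm_one

theorem s1j_norm_Lw {w : Fin n → Fin n → ℝ} {c : ℝ} (hw : ∀ a b, |w a b| ≤ c) :
    ‖Lw w‖ ≤ 2 * (n : ℝ) ^ 2 * c := by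
  refine (norm_sum_le _ _).trans ?_
  calc ∑ a, ‖∑ b, w a b • Lp a b‖ ≤ ∑ _a : Fin n, ∑ _b : Fin n, c * 2 := by
        refine Finset.sum_le_sum fun a _ => (norm_sum_le _ _).trans ?_
        refine Finset.sum_le_sum fun b _ => ?_
        rw [norm_smul]
        exact mul_le_mul (hw a b) (norm_Lp_le a b) (norm_nonneg _) ((abs_nonneg _).trans (hw a b))
    _ = 2 * (n : ℝ) ^ 2 * c := by simp; ring

theorem s1j_norm_Ltri {τ : Fin n → Fin n → Fin n → ℝ} {c : ℝ} (hw : ∀ a b d, |τ a b d| ≤ c) :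
    ‖Ltri τ‖ ≤ 6 * (n : ℝ) ^ 3 * c := by
  refine (norm_sum_le _ _).trans ?_
  calc ∑ a, ‖∑ b, ∑ d, τ a b d • Tri a b d‖ ≤ ∑ _a : Fin n, ∑ _b : Fin n, ∑ _d : Fin n, c * 6 := by
        refine Finset.sum_le_sum fun a _ => (norm_sum_le _ _).trans ?_
        refine Finset.sum_le_sum fun b _ => (norm_sum_le _ _).trans ?_
        refine Finset.sum_le_sum fun d _ => ?_
        rw [norm_smul]
        refine mul_le_mul (hw a b d) ?_ (norm_nonneg _) ((abs_nonneg _).trans (hw a b d))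
        have h1 := norm_Lp_le a b
        have h2 := norm_Lp_le b d
        have h3 := norm_Lp_le a d
        have h4 := norm_sub_le (Lp a b + Lp b d) (Lp a d)
        have h5 := norm_add_le (Lp a b) (Lp b d)
        unfold Tri
        linarith
    _ = 6 * (n : ℝ) ^ 3 * c := by simp; ring

theorem s1j_Lw_add (w vw : Fin n → Fin n → ℝ) (ε : ℝ) :
    Lw (fun a b => w a b + ε * vw a b) = Lw w + ε • Lw vw := by
  simp only [Lw, add_smul, Finset.sum_add_distrib, Finset.smul_sum, mul_smul]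

theorem s1j_Ltri_add (τ vτ : Fin n → Fin n → Fin n → ℝ) (ε : ℝ) :
    Ltri (fun a b c => τ a b c + ε * vτ a b c) = Ltri τ + ε • Ltri vτ := by
  simp only [Ltri, add_smul, Finset.sum_add_distrib, Finset.smul_sum, mul_smul]

theorem s1j_LE_ite (s t : E → Fin n) (H : Finset E) (x : E → ℝ) :
    LE s t (fun e => if e ∈ H then x e else 0) = ∑ e ∈ H, x e • Lp (s e) (t e) := by
  simp only [LE, ite_smul, zero_smul]
  rw [Finset.sum_ite_mem, Finset.univ_inter]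

theorem s1j_trace_inv (s t : E → Fin n) {w : Fin n → Fin n → ℝ} (hw : ∀ a b, 0 ≤ w a b) :
    (Gam s t + Lw w)⁻¹.trace ≤ (n : ℝ) ^ 2 := by
  rcases Nat.eq_zero_or_pos n with h | h
  · subst h; simp [Matrix.trace]
  · have hn : (0 : ℝ) < n := by exact_mod_cast h
    have h1 : (Gam s t + Lw w - (1 / (n : ℝ)) • (1 : Mat n)).PosSemidef := by
      have : Gam s t + Lw w - (1 / (n : ℝ)) • (1 : Mat n) = LE s t (fun _ => 1) + Lw w := by
        unfold Gam; abel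
      rw [this]
      exact (LE_psd s t fun _ => zero_le_one).add (Lw_psd hw)
    refine (trace_inv_le (by positivity) h1).2.trans (le_of_eq ?_)
    field_simp

theorem s1j_qf_conj {G : Mat n} (hG : G.IsHermitian) (v : Fin n → Fin n → ℝ) (a b : Fin n) :
    qf (G * Lw v * G) a b = ∑ c, ∑ d, v c d * bf G a b c d ^ 2 := by
  have hT : Gᵀ = G := by simpa [Matrix.IsHermitian, conjTranspose_eq_transpose_of_trivial] using hG
  rw [← qf_eq_trace, Matrix.mul_assoc, Matrix.mul_assoc, Matrix.trace_mul_comm, Matrix.mul_assoc,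
    Matrix.trace_mul_comm, trace_mul_Lw]
  refine Finset.sum_congr rfl fun c _ => Finset.sum_congr rfl fun d _ => ?_
  congr 1
  have h1 : bv c d ⬝ᵥ G *ᵥ bv a b = bf G a b c d := by
    rw [bf, dotProduct_mulVec, ← mulVec_transpose, hT, dotProduct_comm]
  rw [qf, ← mulVec_mulVec, ← mulVec_mulVec, Lp, vecMulVec_mulVec, mulVec_smul, dotProduct_smul, h1]
  simp [bf, sq]

theorem s1j_smul_lin {R : Type} [NormedRing R] [NormedAlgebra ℝ R] (A : R) :
    IsLinearMap ℝ fun ε : ℝ => ε • A :=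
  ⟨fun a b => add_smul a b A, fun c a => by rw [smul_eq_mul, mul_smul]⟩

theorem s1_taylor : ∃ j : ℕ, ∀ (n : ℕ) (E : Type) [Fintype E] [DecidableEq E] (s t : E → Fin n)
    (H : Finset E) (μ κ Ω l vl : ℝ) (w vw : Fin n → Fin n → ℝ) (τ vτ : Fin n → Fin n → Fin n → ℝ),
    10 ≤ Ω → (n : ℝ) ≤ Ω → (Fintype.card E : ℝ) ≤ Ω → 0 ≤ μ → μ ≤ 1 → 0 ≤ κ → κ ≤ 1 → |l| ≤ Ω →
    (∀ a b, 0 ≤ w a b ∧ w a b ≤ Ω) → (∀ a b c, |τ a b c| ≤ Ω) → (M1 s t H l w τ).PosDef →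
    (M1 s t H l w τ)⁻¹.trace ≤ Ω → |vl| ≤ 1 → (∀ a b, |vw a b| ≤ 1) → (∀ a b c, |vτ a b c| ≤ 1) →
    ∀ ε : ℝ, |ε| ≤ 1 / Ω ^ j →
      (M1 s t H (l + ε * vl) (fun a b => w a b + ε * vw a b)
        (fun a b c => τ a b c + ε * vτ a b c)).PosDef ∧
      Phi1 s t H μ κ (l + ε * vl) (fun a b => w a b + ε * vw a b)
          (fun a b c => τ a b c + ε * vτ a b c) ≤
        Phi1 s t H μ κ l w τ + ε * (vl * dL s t (Z1 s t H μ l w τ) +
          ∑ a, ∑ b, vw a b * dW s t H κ w (Z1 s t H μ l w τ) a b +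
          ∑ a, ∑ b, ∑ c, vτ a b c * dT κ (Z1 s t H μ l w τ) a b c) + Ω ^ j * ε ^ 2 := by
  refine ⟨243, ?_⟩
  intro n E _ _ s t H μ κ Ω l vl w vw τ vτ hΩ hn hE hμ0 hμ1 hκ0 hκ1 hl hw hτ hM hT hvl hvw hvτ ε hε
  have hΩ0 : 0 < Ω := by linarith
  have hΩ1 : 1 ≤ Ω := by linarith
  have hn0 : (0 : ℝ) ≤ n := Nat.cast_nonneg n
  have hn2 : (n : ℝ) ^ 2 ≤ Ω ^ 2 := pow_le_pow_left₀ hn0 hn 2
  have hn3 : (n : ℝ) ^ 3 ≤ Ω ^ 3 := pow_le_pow_left₀ hn0 hn 3
  have hG : ‖Gam s t‖ ≤ 2 * Ω + 1 := (s1j_norm_Gam s t).trans (by linarith)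
  have hw' : ∀ a b, |w a b| ≤ Ω := fun a b => by rw [abs_of_nonneg (hw a b).1]; exact (hw a b).2
  have hLw : ‖Lw w‖ ≤ 2 * Ω ^ 3 := (s1j_norm_Lw hw').trans (by nlinarith)
  have hLv : ‖Lw vw‖ ≤ 2 * Ω ^ 2 := (s1j_norm_Lw hvw).trans (by nlinarith)
  have hLt : ‖Ltri τ‖ ≤ 6 * Ω ^ 4 := (s1j_norm_Ltri hτ).trans (by nlinarith)
  have hLvt : ‖Ltri vτ‖ ≤ 6 * Ω ^ 3 := (s1j_norm_Ltri hvτ).trans (by nlinarith)
  have p1 : 10 * Ω ≤ Ω ^ 2 := by nlinarith
  have p2 : 10 * Ω ^ 2 ≤ Ω ^ 3 := by nlinarith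
  have p3 : 10 * Ω ^ 3 ≤ Ω ^ 4 := by nlinarith
  have p4 : 10 * Ω ^ 4 ≤ Ω ^ 5 := by nlinarith
  -- the jet of `W`
  have jW : Jet (fun ε : ℝ => (Gam s t + Lw w) + ε • Lw vw) (fun ε : ℝ => ε • Lw vw)
      (fun _ _ => 0) Ω (3 + 1) := by
    refine Jet.affine hΩ _ ?_ (s1j_smul_lin _) fun v => ?_
    · have := norm_add_le (Gam s t) (Lw w)
      norm_num
      linarith
    · rw [norm_smul, mul_comm]
      refine mul_le_mul_of_nonneg_right ?_ (norm_nonneg _)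
      norm_num
      linarith
  have hWp := GamLw_posDef s t fun a b => (hw a b).1
  have jWi := (Jet.matInv hΩ hn jW (by simpa using hWp)
    (by
      have := s1j_trace_inv s t fun a b => (hw a b).1
      simp only [zero_smul, add_zero]
      nlinarith)
    fun v => hWp.isHermitian.add (s1j_herm_smul (s1j_Lw_herm vw) v)).1
  simp only [zero_smul, add_zero] at jWi
  have jE := Jet.sum (j := 1) H hΩ
    (by
      have : (H.card : ℝ) ≤ Fintype.card E := by exact_mod_cast Finset.card_le_univ H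
      rw [pow_one]; linarith)
    fun e _ => Jet.map (j := 1) (φ := fun A : Mat n => qf A (s e) (t e) • Lp (s e) (t e)) hΩ jWi
      ⟨fun A B => by rw [qf_add, add_smul], fun c A => by rw [qf_smul, mul_smul]⟩
      fun A => by
        rw [norm_smul, pow_one]
        have h1 : ‖qf A (s e) (t e)‖ ≤ 4 * ‖A‖ := abs_bf_le A _ _ _ _
        have h2 := norm_Lp_le (s e) (t e)
        have h3 := norm_nonneg A
        calc ‖qf A (s e) (t e)‖ * ‖Lp (s e) (t e)‖ ≤ 4 * ‖A‖ * 2 :=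
              mul_le_mul h1 h2 (norm_nonneg _) (by positivity)
          _ ≤ Ω * ‖A‖ := by nlinarith
  have jA : Jet (fun ε : ℝ => (l • Gam s t - Lw w - Ltri τ) + ε • (vl • Gam s t - Lw vw - Ltri vτ))
      (fun ε : ℝ => ε • (vl • Gam s t - Lw vw - Ltri vτ)) (fun _ _ => 0) Ω 5 := by
    refine Jet.affine hΩ _ ?_ (s1j_smul_lin _) fun v => ?_
    · have h1 := norm_sub_le (l • Gam s t - Lw w) (Ltri τ)
      have h2 := norm_sub_le (l • Gam s t) (Lw w)
      have h3 : ‖l • Gam s t‖ ≤ Ω * (2 * Ω + 1) := by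
        rw [norm_smul]; exact mul_le_mul hl hG (norm_nonneg _) hΩ0.le
      nlinarith
    · rw [norm_smul, mul_comm]
      refine mul_le_mul_of_nonneg_right ?_ (norm_nonneg _)
      have h1 := norm_sub_le (vl • Gam s t - Lw vw) (Ltri vτ)
      have h2 := norm_sub_le (vl • Gam s t) (Lw vw)
      have h3 : ‖vl • Gam s t‖ ≤ 1 * (2 * Ω + 1) := by
        rw [norm_smul]; exact mul_le_mul hvl hG (norm_nonneg _) zero_le_one
      nlinarith
  have jM0 := Jet.sub hΩ (jA.mono hΩ (by norm_num : 5 ≤ 7 * 3 + 10 + 1 + 1)) jE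
  have hMeq : ∀ ε : ℝ, M1 s t H (l + ε * vl) (fun a b => w a b + ε * vw a b)
      (fun a b c => τ a b c + ε * vτ a b c) =
      (l • Gam s t - Lw w - Ltri τ) + ε • (vl • Gam s t - Lw vw - Ltri vτ) -
        ∑ e ∈ H, qf ((Gam s t + Lw w) + ε • Lw vw)⁻¹ (s e) (t e) • Lp (s e) (t e) := by
    intro ε
    rw [M1, s1j_LE_ite, s1j_Lw_add, s1j_Ltri_add, ← add_assoc]
    simp only [res, add_smul, smul_sub, mul_smul]
    abel
  have jM := jM0.congr (G := fun ε : ℝ => M1 s t H (l + ε * vl) (fun a b => w a b + ε * vw a b)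
      (fun a b c => τ a b c + ε * vτ a b c)) hMeq (fun _ => rfl) (fun _ _ => rfl)
  have hM0 : M1 s t H (l + 0 * vl) (fun a b => w a b + 0 * vw a b)
      (fun a b c => τ a b c + 0 * vτ a b c) = M1 s t H l w τ := by simp
  obtain ⟨jMi, hpos⟩ := Jet.matInv hΩ hn jM (by simp only [hM0]; exact hM)
    (by simp only [hM0]; exact hT.trans (le_self_pow₀ hΩ1 (by norm_num)))
    fun v => s1j_M1_herm s t H _ _ _
  have hε' : ∀ k ≤ 243, ‖ε‖ ≤ 1 / Ω ^ k := fun k hk =>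
    hε.trans (one_div_le_one_div_of_le (by positivity) (pow_le_pow_right₀ hΩ1 hk))
  refine ⟨hpos ε (hε' _ (by norm_num)), ?_⟩
  have jT := Jet.map (j := 1) (φ := fun A : Mat n => μ * A.trace) hΩ jMi
    ⟨fun A B => by rw [trace_add, mul_add], fun c A => by
      rw [trace_smul, smul_eq_mul, smul_eq_mul]; ring⟩
    fun A => by
      rw [pow_one, norm_mul, Real.norm_of_nonneg hμ0]
      have h1 : ‖A.trace‖ ≤ n * ‖A‖ := abs_trace_le A
      have h3 := norm_nonneg A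
      calc μ * ‖A.trace‖ ≤ 1 * (n * ‖A‖) := mul_le_mul hμ1 h1 (norm_nonneg _) zero_le_one
        _ ≤ Ω * ‖A‖ := by nlinarith
  have hfin := (jT.sub_le hΩ (hε' _ (by norm_num))).2
  simp only [hM0] at hfin
  have hWh : (Gam s t + Lw w)⁻¹.IsHermitian := hWp.isHermitian.inv
  have hD : μ * (-((M1 s t H l w τ)⁻¹ * (ε • (vl • Gam s t - Lw vw - Ltri vτ) -
      ∑ e ∈ H, qf (-((Gam s t + Lw w)⁻¹ * ε • Lw vw * (Gam s t + Lw w)⁻¹)) (s e) (t e) •
        Lp (s e) (t e)) * (M1 s t H l w τ)⁻¹)).trace =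
      ε * (-(vl * (Z1 s t H μ l w τ * Gam s t).trace) +
        ∑ a, ∑ b, vw a b * (qf (Z1 s t H μ l w τ) a b - ∑ e ∈ H, qf (Z1 s t H μ l w τ) (s e) (t e) *
          bf (Gam s t + Lw w)⁻¹ (s e) (t e) a b ^ 2) +
        ∑ a, ∑ b, ∑ c, vτ a b c * (qf (Z1 s t H μ l w τ) a b + qf (Z1 s t H μ l w τ) b c -
          qf (Z1 s t H μ l w τ) a c)) := by
    have h1 : ∀ X : Mat n, μ * (-((M1 s t H l w τ)⁻¹ * X * (M1 s t H l w τ)⁻¹)).trace =
        -(Z1 s t H μ l w τ * X).trace := by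
      intro X
      rw [trace_neg, Matrix.trace_mul_comm, ← Matrix.mul_assoc, Z1, Matrix.smul_mul, trace_smul,
        smul_eq_mul, mul_neg]
    have h2 : ∀ e, qf (-((Gam s t + Lw w)⁻¹ * ε • Lw vw * (Gam s t + Lw w)⁻¹)) (s e) (t e) =
        -(ε * ∑ c, ∑ d, vw c d * bf (Gam s t + Lw w)⁻¹ (s e) (t e) c d ^ 2) := by
      intro e
      rw [← s1j_qf_conj hWh, Matrix.mul_smul, Matrix.smul_mul, ← neg_smul, qf_smul, neg_mul]
    rw [h1]
    simp only [h2]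
    simp only [Matrix.mul_sub, Matrix.mul_smul, Matrix.mul_sum, trace_sub, trace_smul, trace_sum,
      qf_eq_trace, trace_mul_Lw, trace_mul_Ltri, smul_eq_mul]
    have h3 : ∑ a, ∑ b, vw a b * (qf (Z1 s t H μ l w τ) a b -
        ∑ e ∈ H, qf (Z1 s t H μ l w τ) (s e) (t e) * bf (Gam s t + Lw w)⁻¹ (s e) (t e) a b ^ 2) =
        ∑ a, ∑ b, vw a b * qf (Z1 s t H μ l w τ) a b -
          ∑ e ∈ H, (∑ c, ∑ d, vw c d * bf (Gam s t + Lw w)⁻¹ (s e) (t e) c d ^ 2) *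
            qf (Z1 s t H μ l w τ) (s e) (t e) := by
      simp only [mul_sub, Finset.sum_sub_distrib, Finset.mul_sum, Finset.sum_mul]
      congr 1
      rw [Finset.sum_comm (s := H)]
      refine Finset.sum_congr rfl fun a _ => ?_
      rw [Finset.sum_comm (s := H)]
      refine Finset.sum_congr rfl fun b _ => Finset.sum_congr rfl fun e _ => by ring
    have h4 : ∑ e ∈ H, -(ε * ∑ c, ∑ d, vw c d * bf (Gam s t + Lw w)⁻¹ (s e) (t e) c d ^ 2) *
        qf (Z1 s t H μ l w τ) (s e) (t e) =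
        -(ε * ∑ e ∈ H, (∑ c, ∑ d, vw c d * bf (Gam s t + Lw w)⁻¹ (s e) (t e) c d ^ 2) *
            qf (Z1 s t H μ l w τ) (s e) (t e)) := by
      rw [Finset.mul_sum, ← Finset.sum_neg_distrib]
      exact Finset.sum_congr rfl fun e _ => by ring
    rw [h3, h4]
    ring
  rw [hD] at hfin
  have hle := (le_abs_self _).trans hfin
  clear hfin hD jT jMi hpos jM jM0 hMeq jA jE jWi jW hM0
  have hb : 2 * Ω ^ (7 * (7 * 3 + 10 + 1 + 1) + 10 + 1) * ‖ε‖ ^ 2 ≤ Ω ^ 243 * ε ^ 2 := by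
    rw [Real.norm_eq_abs, sq_abs]
    refine mul_le_mul_of_nonneg_right ?_ (sq_nonneg _)
    have : Ω ^ 243 = Ω * Ω ^ (7 * (7 * 3 + 10 + 1 + 1) + 10 + 1) := by ring
    rw [this]
    exact mul_le_mul_of_nonneg_right (by linarith) (by positivity)
  have e1 : ∑ a, ∑ b, vw a b * dW s t H κ w (Z1 s t H μ l w τ) a b =
      ∑ a, ∑ b, vw a b * (qf (Z1 s t H μ l w τ) a b - ∑ e ∈ H, qf (Z1 s t H μ l w τ) (s e) (t e) *
          bf (Gam s t + Lw w)⁻¹ (s e) (t e) a b ^ 2) + κ * ∑ a, ∑ b, vw a b := by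
    simp only [dW, Finset.mul_sum (a := κ), ← Finset.sum_add_distrib]
    exact Finset.sum_congr rfl fun a _ => Finset.sum_congr rfl fun b _ => by ring
  have e2 : ∑ a, ∑ b, ∑ c, vτ a b c * dT κ (Z1 s t H μ l w τ) a b c =
      ∑ a, ∑ b, ∑ c, vτ a b c * (qf (Z1 s t H μ l w τ) a b + qf (Z1 s t H μ l w τ) b c -
          qf (Z1 s t H μ l w τ) a c) + κ * ∑ a, ∑ b, ∑ c, vτ a b c := by
    simp only [dT, Finset.mul_sum, ← Finset.sum_add_distrib]
    exact Finset.sum_congr rfl fun a _ => Finset.sum_congr rfl fun b _ =>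
      Finset.sum_congr rfl fun c _ => by ring
  have e3 : ∑ a, ∑ b, (w a b + ε * vw a b) = ∑ a, ∑ b, w a b + ε * ∑ a, ∑ b, vw a b := by
    simp only [Finset.sum_add_distrib, Finset.mul_sum]
  have e4 : ∑ a, ∑ b, ∑ c, (τ a b c + ε * vτ a b c) =
      ∑ a, ∑ b, ∑ c, τ a b c + ε * ∑ a, ∑ b, ∑ c, vτ a b c := by
    simp only [Finset.sum_add_distrib, Finset.mul_sum]
  have hle2 := hle.trans hb
  rw [Phi1, Phi1, e1, e2, e3, e4, dL]
  generalize Ω ^ 243 * ε ^ 2 = K at hle2 ⊢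
  linarith

end Crest.Agent.R37
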