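import Crest.Agent.R37.S1Jet
import Crest.Agent.R37.S1An

/-!
# R37/S1Prog: the Stage-1 descent on the grid `ℤ/N`.
Parameters: `μ = cap²/(400 n²)`, `κ = B⁻⁴`, `tol = B⁻⁷`, `N = B^j`, decrease `θ = 1/(N B^8)`.  On the sublevel set `Phi1 ≤ 3`:
`l ≤ 3`, `∑ w + ∑ τ ≤ 3 B⁴`, `tr M⁻¹ ≤ 3/μ ≤ 1200 B⁴`; use `s1_taylor` with `Ω = B^8`, `ε = 1/N` and the signed coordinate direction.
-/

set_option autoImplicit false

open Matrix Finset

noncomputable section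

namespace Crest.Agent.R37

variable {n : ℕ} {E : Type} [Fintype E] [DecidableEq E]

theorem s1p_le_sum2 {w : Fin n → Fin n → ℝ} (hw : ∀ a b, 0 ≤ w a b) (a b : Fin n) : w a b ≤ ∑ a, ∑ b, w a b :=
  (single_le_sum (f := fun b => w a b) (fun b _ => hw a b) (mem_univ b)).trans
    (single_le_sum (f := fun a => ∑ b, w a b) (fun a _ => sum_nonneg fun b _ => hw a b) (mem_univ a))

theorem s1p_le_sum3 {w : Fin n → Fin n → Fin n → ℝ} (hw : ∀ a b c, 0 ≤ w a b c) (a b c : Fin n) :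
    w a b c ≤ ∑ a, ∑ b, ∑ c, w a b c :=
  (s1p_le_sum2 (hw a) b c).trans (single_le_sum (f := fun a => ∑ b, ∑ c, w a b c)
    (fun a _ => sum_nonneg fun b _ => sum_nonneg fun c _ => hw a b c) (mem_univ a))

theorem s1p_int {z : ℤ} {B j : ℕ} (hB : 100 ≤ B) (h : (z : ℝ) / (B : ℝ) ^ j ≤ 3 * B ^ 4) : z ≤ (B : ℤ) ^ (j + 5) := by
  have hB' : (100 : ℝ) ≤ B := by exact_mod_cast hB
  rw [div_le_iff₀ (by positivity)] at h
  have : (z : ℝ) ≤ (B : ℝ) ^ (j + 5) := by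
    refine h.trans ?_
    rw [show (B : ℝ) ^ (j + 5) = B * B ^ 4 * B ^ j by ring]
    gcongr
    linarith
  exact_mod_cast this

theorem s1p_nn {x : X1 n} (hx : nn1 x) (i : C1 n) : nn1 (mv1 x i 1) := by
  refine ⟨?_, fun a b => ?_, fun a b c => ?_⟩ <;> simp only [mv1] <;> split_ifs
  exacts [by linarith [hx.1], by linarith [hx.1], by linarith [hx.2.1 a b], by linarith [hx.2.1 a b],
    by linarith [hx.2.2 a b c], by linarith [hx.2.2 a b c]]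

theorem s1p_nnL {x : X1 n} (hx : nn1 x) (h : 0 < x.1) : nn1 (mv1 x (Sum.inl ()) (-1)) := by
  refine ⟨?_, fun a b => ?_, fun a b c => ?_⟩ <;> simp [mv1, hx.2.1, hx.2.2]
  omega

theorem s1p_nnW {x : X1 n} (hx : nn1 x) {a b : Fin n} (h : 0 < x.2.1 a b) :
    nn1 (mv1 x (Sum.inr (Sum.inl (a, b))) (-1)) := by
  refine ⟨by simp [mv1, hx.1], fun a' b' => ?_, fun a b c => by simp [mv1, hx.2.2]⟩
  simp only [mv1, Sum.inr.injEq, Sum.inl.injEq, Prod.mk.injEq]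
  split_ifs with h'
  · rw [← h'.1, ← h'.2]; omega
  · simpa using hx.2.1 a' b'

theorem s1p_nnT {x : X1 n} (hx : nn1 x) {a b c : Fin n} (h : 0 < x.2.2 a b c) :
    nn1 (mv1 x (Sum.inr (Sum.inr (a, b, c))) (-1)) := by
  refine ⟨by simp [mv1, hx.1], fun a b => by simp [mv1, hx.2.1], fun a' b' c' => ?_⟩
  simp only [mv1, Sum.inr.injEq, Prod.mk.injEq]
  split_ifs with h'
  · rw [← h'.1, ← h'.2.1, ← h'.2.2]; omega
  · simpa using hx.2.2 a' b' c'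

theorem s1_prog : ∃ j : ℕ, ∀ (n : ℕ) (E : Type) [Fintype E] [DecidableEq E] (s t : E → Fin n)
    (H : Finset E) (B : ℕ) (cap : ℝ), 1 ≤ n → 100 ≤ B → n ≤ B → Fintype.card E ≤ B → cap ≤ 1 →
    1 ≤ cap * B → ∀ x : X1 n, nn1 x → (M1z s t H (B ^ j) x).PosDef →
      Phi1z s t H (cap ^ 2 / (400 * n ^ 2)) (1 / B ^ 4) (B ^ j) x ≤ 3 →
      0 ≤ Phi1z s t H (cap ^ 2 / (400 * n ^ 2)) (1 / B ^ 4) (B ^ j) x ∧
      (x.1 ≤ B ^ (j + 5) ∧ (∀ a b, x.2.1 a b ≤ B ^ (j + 5)) ∧ ∀ a b c, x.2.2 a b c ≤ B ^ (j + 5)) ∧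
      (∀ (i : C1 n) (σ : ℤ), |σ| ≤ 1 → (M1z s t H (B ^ j) (mv1 x i σ)).PosDef) ∧
      ((∀ (i : C1 n) (σ : ℤ), σ = 1 ∨ σ = -1 → nn1 (mv1 x i σ) →
          Phi1z s t H (cap ^ 2 / (400 * n ^ 2)) (1 / B ^ 4) (B ^ j) x - 1 / B ^ (j + 8) <
            Phi1z s t H (cap ^ 2 / (400 * n ^ 2)) (1 / B ^ 4) (B ^ j) (mv1 x i σ)) →
        ((x.1 : ℝ) / B ^ j ≤ cap ∧ Cert s t H (fun a b => x.2.1 a b / B ^ j) cap) ∨
        (cap < (x.1 : ℝ) / B ^ j ∧
          Dual s t H (Z1z s t H (cap ^ 2 / (400 * n ^ 2)) (B ^ j) x) cap (2 / B ^ 4) B)) := by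
  obtain ⟨j₀, hT⟩ := s1_taylor
  refine ⟨8 * j₀ + 8, fun n E _ _ s t H B cap hn hB hnB hEB hc1 hcB x hx hM hΦ => ?_⟩
  set j := 8 * j₀ + 8 with hj
  have hB' : (100 : ℝ) ≤ B := by exact_mod_cast hB
  have hB0 : (0 : ℝ) < B := by linarith
  have hB1 : (1 : ℝ) ≤ B := by linarith
  have hn' : (1 : ℝ) ≤ n := by exact_mod_cast hn
  have hnB' : (n : ℝ) ≤ B := by exact_mod_cast hnB
  have hEB' : (Fintype.card E : ℝ) ≤ B := by exact_mod_cast hEB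
  have hc0 : 0 < cap := (mul_pos_iff_of_pos_right hB0).1 (by linarith)
  set μ := cap ^ 2 / (400 * n ^ 2) with hμ
  set κ : ℝ := 1 / B ^ 4 with hκ
  set N : ℝ := B ^ j with hN
  have hN0 : 0 < N := by positivity
  have hμ0 : 0 < μ := by positivity
  have hκ0 : 0 < κ := by positivity
  set l : ℝ := x.1 / N with hl
  set w : Fin n → Fin n → ℝ := fun a b => x.2.1 a b / N with hw
  set τ : Fin n → Fin n → Fin n → ℝ := fun a b c => x.2.2 a b c / N with hτ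
  have hl0 : 0 ≤ l := div_nonneg (by exact_mod_cast hx.1) hN0.le
  have hw0 : ∀ a b, 0 ≤ w a b := fun a b => div_nonneg (by exact_mod_cast hx.2.1 a b) hN0.le
  have hτ0 : ∀ a b c, 0 ≤ τ a b c := fun a b c => div_nonneg (by exact_mod_cast hx.2.2 a b c) hN0.le
  change (M1 s t H l w τ).PosDef at hM
  have hΦx : Phi1z s t H μ κ N x = Phi1 s t H μ κ l w τ := rfl
  have hΦ' : l + μ * (M1 s t H l w τ)⁻¹.trace + κ * (∑ a, ∑ b, w a b + ∑ a, ∑ b, ∑ c, τ a b c) ≤ 3 := hΦ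
  have hw1 : 0 ≤ ∑ a, ∑ b, w a b := sum_nonneg fun a _ => sum_nonneg fun b _ => hw0 a b
  have hτ1 : 0 ≤ ∑ a, ∑ b, ∑ c, τ a b c :=
    sum_nonneg fun a _ => sum_nonneg fun b _ => sum_nonneg fun c _ => hτ0 a b c
  have htr := mul_nonneg hμ0.le (trace_inv_nonneg hM)
  have hsk := mul_nonneg hκ0.le (add_nonneg hw1 hτ1)
  have hB4 : (1 : ℝ) ≤ B ^ 4 := one_le_pow₀ hB1
  have hB4' : (1200 : ℝ) ≤ B ^ 4 := le_trans (by norm_num) (pow_le_pow_left₀ (by norm_num) hB' 4)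
  have hB8 : 1200 * (B : ℝ) ^ 4 ≤ B ^ 8 := by
    rw [show (B : ℝ) ^ 8 = B ^ 4 * B ^ 4 by ring]; gcongr
  have hB8' : (B : ℝ) ≤ B ^ 8 := le_self_pow₀ hB1 (by norm_num)
  have hsum : ∑ a, ∑ b, w a b + ∑ a, ∑ b, ∑ c, τ a b c ≤ 3 * B ^ 4 := by
    have : κ * (∑ a, ∑ b, w a b + ∑ a, ∑ b, ∑ c, τ a b c) ≤ 3 := by linarith
    rwa [hκ, one_div_mul_eq_div, div_le_iff₀ (by positivity)] at this
  have hl3 : l ≤ 3 * B ^ 4 := by linarith
  have hw3 : ∀ a b, w a b ≤ 3 * B ^ 4 := fun a b => by linarith [s1p_le_sum2 hw0 a b]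
  have hτ3 : ∀ a b c, τ a b c ≤ 3 * B ^ 4 := fun a b c => by linarith [s1p_le_sum3 hτ0 a b c]
  have htr8 : (M1 s t H l w τ)⁻¹.trace ≤ B ^ 8 := by
    have h1 : μ * (M1 s t H l w τ)⁻¹.trace ≤ 3 := by linarith
    have h2 : 1 ≤ 400 * B ^ 4 * μ := by
      rw [hμ, ← mul_div_assoc, le_div_iff₀ (by positivity)]
      have h3 : (n : ℝ) ^ 2 ≤ B ^ 2 := by gcongr
      have h4 : 1 ≤ (cap * B) ^ 2 := one_le_pow₀ hcB
      nlinarith [mul_le_mul h3 h4 zero_le_one (by positivity)]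
    have h5 := mul_le_mul_of_nonneg_right h2 (trace_inv_nonneg hM)
    have h6 := mul_le_mul_of_nonneg_left h1 (show (0 : ℝ) ≤ 400 * B ^ 4 by positivity)
    linarith
  have hμ1 : μ ≤ 1 := by
    rw [hμ, div_le_one (by positivity)]
    nlinarith
  have hκ1 : κ ≤ 1 := by rw [hκ, div_le_one (by positivity)]; exact hB4
  have hε : |1 / N| ≤ 1 / ((B : ℝ) ^ 8) ^ j₀ := by
    rw [abs_of_pos (by positivity), ← pow_mul]
    exact one_div_le_one_div_of_le (by positivity) (pow_le_pow_right₀ hB1 (by omega))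
  have key : ∀ (i : C1 n) (σ : ℤ), |σ| ≤ 1 → (M1z s t H N (mv1 x i σ)).PosDef ∧
      Phi1z s t H μ κ N (mv1 x i σ) ≤ Phi1 s t H μ κ l w τ + 1 / N *
        ((if i = Sum.inl () then (σ : ℝ) else 0) * dL s t (Z1 s t H μ l w τ) +
          ∑ a, ∑ b, (if i = Sum.inr (Sum.inl (a, b)) then (σ : ℝ) else 0) * dW s t H κ w (Z1 s t H μ l w τ) a b +
          ∑ a, ∑ b, ∑ c, (if i = Sum.inr (Sum.inr (a, b, c)) then (σ : ℝ) else 0) *
            dT κ (Z1 s t H μ l w τ) a b c) + ((B : ℝ) ^ 8) ^ j₀ * (1 / N) ^ 2 := by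
    intro i σ hσ
    have hσ' : ∀ (p : Prop) [Decidable p], |if p then (σ : ℝ) else 0| ≤ 1 := fun p _ => by
      split_ifs
      · exact_mod_cast hσ
      · simp
    have e : ∀ (z : ℤ) (p : Prop) [Decidable p], ((z + (if p then σ else 0) : ℤ) : ℝ) / N =
        z / N + 1 / N * (if p then (σ : ℝ) else 0) := fun z p _ => by
      split_ifs <;> push_cast <;> ring
    have := hT n E s t H μ κ (B ^ 8) l (if i = Sum.inl () then (σ : ℝ) else 0) w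
      (fun a b => if i = Sum.inr (Sum.inl (a, b)) then (σ : ℝ) else 0) τ
      (fun a b c => if i = Sum.inr (Sum.inr (a, b, c)) then (σ : ℝ) else 0) (by linarith) (by linarith) (by linarith)
      hμ0.le hμ1 hκ0.le hκ1 (by rw [abs_of_nonneg hl0]; linarith) (fun a b => ⟨hw0 a b, by linarith [hw3 a b]⟩)
      (fun a b c => by rw [abs_of_nonneg (hτ0 a b c)]; linarith [hτ3 a b c]) hM htr8 (hσ' _) (fun _ _ => hσ' _)
      (fun _ _ _ => hσ' _) (1 / N) hε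
    simpa only [M1z, Phi1z, mv1, e] using this
  refine ⟨by rw [hΦx, Phi1]; linarith, ⟨s1p_int hB hl3, fun a b => s1p_int hB (hw3 a b),
    fun a b c => s1p_int hB (hτ3 a b c)⟩, fun i σ hσ => (key i σ hσ).1, fun hno => ?_⟩
  rcases le_or_gt l cap with hlc | hlc
  · exact Or.inl ⟨hlc, s1_cert hM hτ0 hc0.le hlc⟩
  refine Or.inr ⟨hlc, ?_⟩
  have key2 : ∀ (i : C1 n) (σ : ℤ), σ = 1 ∨ σ = -1 → nn1 (mv1 x i σ) → -(1 / (B : ℝ) ^ 7) ≤
      (if i = Sum.inl () then (σ : ℝ) else 0) * dL s t (Z1 s t H μ l w τ) +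
          ∑ a, ∑ b, (if i = Sum.inr (Sum.inl (a, b)) then (σ : ℝ) else 0) * dW s t H κ w (Z1 s t H μ l w τ) a b +
          ∑ a, ∑ b, ∑ c, (if i = Sum.inr (Sum.inr (a, b, c)) then (σ : ℝ) else 0) *
            dT κ (Z1 s t H μ l w τ) a b c := by
    intro i σ hσ hnn
    have h1 := (hno i σ hσ hnn).trans_le (key i σ (by rcases hσ with rfl | rfl <;> simp)).2
    rw [hΦx] at h1
    have e1 : 1 / (B : ℝ) ^ (j + 8) = 1 / N * (1 / B ^ 8) := by rw [hN]; field_simp; ring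
    have e2 : ((B : ℝ) ^ 8) ^ j₀ * (1 / N) ^ 2 = 1 / N * (1 / B ^ 8) := by rw [hN, hj]; field_simp; ring
    have e3 : 2 * (1 / (B : ℝ) ^ 8) ≤ 1 / B ^ 7 := by
      rw [mul_one_div, div_le_div_iff₀ (by positivity) (by positivity), show (B : ℝ) ^ 8 = B * B ^ 7 by ring, one_mul]
      gcongr
      linarith
    rw [e1, e2] at h1
    refine le_trans (neg_le_neg e3) (le_of_mul_le_mul_left ?_ (show 0 < 1 / N by positivity))
    linarith
  have hpos : ∀ z : ℤ, 0 < (z : ℝ) / N → 0 < z := fun z hz => by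
    exact_mod_cast (div_pos_iff_of_pos_right hN0).1 hz
  have hcB' : 1 / (B : ℝ) ≤ cap := by rwa [div_le_iff₀ hB0]
  rw [show (2 : ℝ) / B ^ 4 = 2 * κ by rw [hκ]; ring]
  refine s1_dual hn hM hw0 hτ0 hc0 hlc.le hμ0.le (by rw [hμ]; field_simp; rfl) (tol := 1 / B ^ 7) (by positivity)
    (one_div_le_one_div_of_le (by positivity) (pow_le_pow_right₀ hB1 (by norm_num)))
    (one_div_le_one_div_of_le (by norm_num) (le_trans (by linarith) (le_self_pow₀ hB1 (by norm_num)))) ?_ ?_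
    ⟨abs_le.2 ⟨?_, ?_⟩, fun a b => ⟨?_, fun h => ?_⟩, fun a b c => ⟨?_, fun h => ?_⟩⟩
  · refine le_trans ?_ (div_le_div_of_nonneg_right hcB' (by norm_num))
    rw [hκ]
    field_simp
    linarith
  · refine le_trans (mul_le_mul_of_nonneg_left hsum (by positivity))
      (le_trans ?_ (div_le_div_of_nonneg_right hcB' (by norm_num)))
    field_simp
    nlinarith
  · simpa using key2 (Sum.inl ()) 1 (Or.inl rfl) (s1p_nn hx _)
  · simpa using key2 (Sum.inl ()) (-1) (Or.inr rfl) (s1p_nnL hx (hpos _ (hc0.trans hlc)))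
  · simpa [ite_and] using key2 (Sum.inr (Sum.inl (a, b))) 1 (Or.inl rfl) (s1p_nn hx _)
  · simpa [ite_and] using key2 (Sum.inr (Sum.inl (a, b))) (-1) (Or.inr rfl) (s1p_nnW hx (hpos _ h))
  · simpa [ite_and] using key2 (Sum.inr (Sum.inr (a, b, c))) 1 (Or.inl rfl) (s1p_nn hx _)
  · simpa [ite_and] using key2 (Sum.inr (Sum.inr (a, b, c))) (-1) (Or.inr rfl) (s1p_nnT hx (hpos _ h))

end Crest.Agent.R37
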