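import Crest.Agent.R37.Defs

/-!
# R37/S2Core: the trace argument (pure linear algebra).
`small_rayleigh`: rescale by `√D`, take an orthonormal basis of the subspace, extend it to the whole space (or use the orthogonal projection `p`: `tr(pAp) ≤ tr A`).
`dir_core`: `𝒢 = {g : (g - Tg)/φ ∈ S}` (comap; `finrank ≥ finrank S`), `T g e = 64 (5 - x²) (K g) e`, `φ = 1 - 128 x ρ ∈ [0.4, 1]`, `D = ρ z`.
`128 x h (Kg) z ≤ 32 ρ z h² + 128 z (Kg)²/ρ`, `h² ≥ (g - Tg)² ≥ g²/2 - (Tg)²`, so the form is `≤ Q g - 16 ∑ D g²` with the psd form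
`Q g = gNg + 128 ∑ z (Kg)²/ρ + 32 ∑ D (Tg)²`, whose diagonal satisfies `Q_ff ≤ (2 + 1 + 0.46) D_f` (use `K² ≤ K ρ_e ρ_f`, `hcol`, `64 (5-x²) ρ² ≤ 0.0071`).
-/

set_option autoImplicit false

open Matrix Finset

noncomputable section

namespace Crest.Agent.R37

variable {n : ℕ} {E : Type} [Fintype E] [DecidableEq E]

theorem small_rayleigh {ι : Type} [Fintype ι] [DecidableEq ι] {A : Matrix ι ι ℝ} (hA : A.PosSemidef)
    {D : ι → ℝ} (hD : ∀ e, 0 < D e) (G : Submodule ℝ (ι → ℝ)) (hG : 0 < Module.finrank ℝ G) :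
    ∃ g ∈ G, g ≠ 0 ∧ Module.finrank ℝ G * (g ⬝ᵥ A *ᵥ g) ≤ (∑ e, A e e / D e) * ∑ e, D e * g e ^ 2 := by
  obtain ⟨C, hC⟩ : ∃ C : Matrix ι ι ℝ, A = Cᵀ * C := by
    open scoped MatrixOrder in
    obtain ⟨C, hC⟩ := CStarAlgebra.nonneg_iff_eq_star_mul_self.1 hA.nonneg
    exact ⟨C, by simpa [star_eq_conjTranspose] using hC⟩
  have hs : ∀ e, 0 < √(D e) := fun e => Real.sqrt_pos.2 (hD e)
  let T : (ι → ℝ) →ₗ[ℝ] EuclideanSpace ℝ ι :=
    { toFun := fun g => WithLp.toLp 2 fun e => √(D e) * g e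
      map_add' := fun g h => by ext e; simp [mul_add]
      map_smul' := fun c g => by ext e; simp; ring }
  have hT : Function.Injective T := fun g h e => by
    funext i
    have := congrArg (fun v : EuclideanSpace ℝ ι => v i) e
    exact mul_left_cancel₀ (hs i).ne' this
  have hr : Module.finrank ℝ (G.map T) = Module.finrank ℝ G :=
    (LinearEquiv.finrank_eq (Submodule.equivMapOfInjective T hT G)).symm
  let b := stdOrthonormalBasis ℝ (G.map T)
  have hb : Orthonormal ℝ fun k => ((b k : G.map T) : EuclideanSpace ℝ ι) :=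
    b.orthonormal.comp_linearIsometry (G.map T).subtypeₗᵢ
  choose g hg hg' using fun k => Submodule.mem_map.1 (b k).2
  have h1 : ∀ k, ∑ e, D e * g k e ^ 2 = 1 := fun k => by
    have : ‖((b k : G.map T) : EuclideanSpace ℝ ι)‖ = 1 := hb.1 k
    rw [← hg', EuclideanSpace.norm_eq, Real.sqrt_eq_one] at this
    rw [← this]
    refine Finset.sum_congr rfl fun e _ => ?_
    simp [T, mul_pow, Real.sq_sqrt (hD e).le]
  let r : ι → EuclideanSpace ℝ ι := fun j => WithLp.toLp 2 fun e => C j e / √(D e)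
  have h2 : ∀ k, g k ⬝ᵥ A *ᵥ g k = ∑ j, ‖inner ℝ ((b k : G.map T) : EuclideanSpace ℝ ι) (r j)‖ ^ 2 :=
    fun k => by
    rw [hC, ← Matrix.mulVec_mulVec, Matrix.dotProduct_mulVec, Matrix.vecMul_transpose, dotProduct]
    refine Finset.sum_congr rfl fun j _ => ?_
    rw [Real.norm_eq_abs, sq_abs, ← sq, ← hg', EuclideanSpace.inner_eq_star_dotProduct]
    congr 1
    simp only [Matrix.mulVec, dotProduct, T, r]
    refine Finset.sum_congr rfl fun e _ => ?_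
    have := (hs e).ne'
    simp
    field_simp
  have h3 : ∑ k, g k ⬝ᵥ A *ᵥ g k ≤ ∑ e, A e e / D e := by
    simp only [h2]
    rw [Finset.sum_comm]
    refine (Finset.sum_le_sum fun j _ => hb.sum_inner_products_le (r j)).trans (le_of_eq ?_)
    simp only [EuclideanSpace.norm_sq_eq, r, hC, Matrix.mul_apply, Matrix.transpose_apply,
      Finset.sum_div]
    rw [Finset.sum_comm]
    refine Finset.sum_congr rfl fun e _ => Finset.sum_congr rfl fun j _ => ?_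
    rw [Real.norm_eq_abs, sq_abs, div_pow, Real.sq_sqrt (hD e).le, sq]
  have hne : Nonempty (Fin (Module.finrank ℝ (G.map T))) := ⟨⟨0, by omega⟩⟩
  obtain ⟨k, -, hk⟩ := Finset.exists_min_image univ (fun k => g k ⬝ᵥ A *ᵥ g k) univ_nonempty
  refine ⟨g k, hg k, fun h0 => by simpa [h0] using h1 k, ?_⟩
  rw [h1, mul_one]
  refine le_trans ?_ h3
  have := Finset.card_nsmul_le_sum univ _ _ hk
  simpa [hr] using this

theorem s2core_comap {V : Type} [AddCommGroup V] [Module ℝ V] [FiniteDimensional ℝ V] (L : V →ₗ[ℝ] V)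
    (S : Submodule ℝ V) : Module.finrank ℝ S ≤ Module.finrank ℝ (S.comap L) := by
  have h1 := LinearMap.finrank_range_add_finrank_ker (S.mkQ ∘ₗ L)
  have h2 := Submodule.finrank_quotient_add_finrank S
  have h3 := Submodule.finrank_le (LinearMap.range (S.mkQ ∘ₗ L))
  rw [LinearMap.ker_comp, Submodule.ker_mkQ] at h1
  omega

theorem s2core_pt {ρ z x g h k : ℝ} (hρ : 0 < ρ) (hρ' : 64 * ρ ≤ 3 / 10) (hz : 0 < z) (hx : 0 ≤ x)
    (hx' : x ≤ 1) (he : (1 - 128 * x * ρ) * h = g - 64 * (5 - x ^ 2) * k) :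
    -(64 * (ρ * z * h ^ 2)) - 128 * (x * h * k * z) ≤
      (128 * z / ρ + 32 * (ρ * z) * (64 * (5 - x ^ 2)) ^ 2) * k ^ 2 - 16 * (ρ * z * g ^ 2) := by
  have h1 : -(128 * (x * h * k * z)) ≤ 32 * (ρ * z * h ^ 2) + 128 * z / ρ * k ^ 2 := by
    have e : 32 * (ρ * z * h ^ 2) + 128 * z / ρ * k ^ 2 + 128 * (x * h * k * z) =
        z / ρ * (32 * (ρ * h + 2 * x * k) ^ 2 + 128 * (1 - x ^ 2) * k ^ 2) := by
      field_simp; ring
    have : 0 ≤ z / ρ * (32 * (ρ * h + 2 * x * k) ^ 2 + 128 * (1 - x ^ 2) * k ^ 2) := by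
      have : 0 ≤ 1 - x ^ 2 := by nlinarith
      positivity
    linarith
  have hφ : 0 ≤ 1 - 128 * x * ρ := by nlinarith
  have hφ' : 1 - 128 * x * ρ ≤ 1 := by nlinarith [mul_nonneg hx hρ.le]
  have h2 : (g - 64 * (5 - x ^ 2) * k) ^ 2 ≤ h ^ 2 := by
    rw [← he, mul_pow]
    have : (1 - 128 * x * ρ) ^ 2 ≤ 1 := by nlinarith
    nlinarith [sq_nonneg h]
  have h3 : g ^ 2 / 2 - (64 * (5 - x ^ 2) * k) ^ 2 ≤ h ^ 2 := by
    nlinarith [sq_nonneg (g - 2 * (64 * (5 - x ^ 2) * k))]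
  have h4 := mul_le_mul_of_nonneg_left h3 (mul_pos hρ hz).le
  nlinarith

theorem s2core_diag {ρ z x K r : ℝ} (hρ : 0 < ρ) (hρ' : 64 * ρ ≤ 3 / 10) (hz : 0 < z) (hx : 0 ≤ x)
    (hx' : x ≤ 1) (hK : 0 ≤ K) (hK' : K ≤ ρ * r) :
    (128 * z / ρ + 32 * (ρ * z) * (64 * (5 - x ^ 2)) ^ 2) * (K * K) ≤
      3 / 4 * r * (64 * (5 - x ^ 2) * z * K) := by
  have hψ : 4 ≤ 5 - x ^ 2 := by nlinarith
  have hψ' : 5 - x ^ 2 ≤ 5 := by nlinarith
  set ψ := 5 - x ^ 2
  have hr : 0 ≤ r := by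
    by_contra h
    have := mul_neg_of_pos_of_neg hρ (not_le.1 h)
    linarith
  have hw : 0 ≤ 128 * z / ρ + 32 * (ρ * z) * (64 * ψ) ^ 2 := by positivity
  refine (mul_le_mul_of_nonneg_left (mul_le_mul_of_nonneg_left hK' hK) hw).trans ?_
  have e : (128 * z / ρ + 32 * (ρ * z) * (64 * ψ) ^ 2) * (K * (ρ * r)) =
      (128 + 32 * (64 * ρ) ^ 2 * ψ ^ 2) * (z * K * r) := by field_simp
  rw [e]
  have h1 : (64 * ρ) ^ 2 ≤ 9 / 100 := by nlinarith
  have h2 : 32 * (64 * ρ) ^ 2 * ψ ^ 2 ≤ 32 * (9 / 100) * (5 * ψ) := by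
    have : ψ ^ 2 ≤ 5 * ψ := by nlinarith
    gcongr
  have h3 : 128 + 32 * (64 * ρ) ^ 2 * ψ ^ 2 ≤ 48 * ψ := by linarith
  have : 0 ≤ z * K * r := by positivity
  nlinarith

theorem dir_core {ι : Type} [Fintype ι] [DecidableEq ι] [Nonempty ι] (ρ z x : ι → ℝ)
    (Kk Nn : ι → ι → ℝ) (hρ : ∀ e, 0 < ρ e ∧ 64 * ρ e ≤ 3 / 10) (hz : ∀ e, 0 < z e)
    (hx : ∀ e, 0 ≤ x e ∧ x e ≤ 1) (hK : ∀ e f, 0 ≤ Kk e f ∧ Kk e f ≤ ρ e * ρ f)
    (hNs : ∀ e f, Nn e f = Nn f e) (hN : ∀ g : ι → ℝ, 0 ≤ ∑ e, ∑ f, g e * g f * Nn e f)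
    (hNd : ∀ e, Nn e e ≤ 2 * (ρ e * z e))
    (hcol : ∀ f, ∑ e, 64 * (5 - x e ^ 2) * z e * Kk e f ≤ 2 * z f) (S : Submodule ℝ (ι → ℝ))
    (hS : Fintype.card ι ≤ 2 * Module.finrank ℝ S) :
    ∃ g h : ι → ℝ, g ≠ 0 ∧ h ∈ S ∧
      (∀ e, (1 - 128 * x e * ρ e) * h e = g e - 64 * (5 - x e ^ 2) * ∑ f, Kk e f * g f) ∧
      ∑ e, ∑ f, g e * g f * Nn e f - 64 * ∑ e, ρ e * z e * h e ^ 2 -
        128 * ∑ e, x e * h e * (∑ f, Kk e f * g f) * z e ≤ -4 * ∑ e, ρ e * z e * g e ^ 2 := by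
  let w : ι → ℝ := fun k => 128 * z k / ρ k + 32 * (ρ k * z k) * (64 * (5 - x k ^ 2)) ^ 2
  have hw : ∀ k, 0 ≤ w k := fun k => by
    have := (hρ k).1; have := hz k
    simp only [w]; positivity
  let A : Matrix ι ι ℝ := Matrix.of fun e f => Nn e f + ∑ k, w k * (Kk k e * Kk k f)
  have hq : ∀ g : ι → ℝ, g ⬝ᵥ A *ᵥ g =
      ∑ e, ∑ f, g e * g f * Nn e f + ∑ k, w k * (∑ f, Kk k f * g f) ^ 2 := fun g => by
    have e1 : ∑ k, w k * (∑ f, Kk k f * g f) ^ 2 =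
        ∑ e, ∑ f, g e * g f * ∑ k, w k * (Kk k e * Kk k f) := by
      simp only [sq, Finset.sum_mul_sum]
      simp only [Finset.mul_sum]
      rw [Finset.sum_comm]
      refine Finset.sum_congr rfl fun e _ => ?_
      rw [Finset.sum_comm]
      exact Finset.sum_congr rfl fun f _ => Finset.sum_congr rfl fun k _ => by ring
    rw [e1, ← Finset.sum_add_distrib]
    simp only [dotProduct, Matrix.mulVec, A, Matrix.of_apply, Finset.mul_sum _ _ (g _)]
    refine Finset.sum_congr rfl fun e _ => ?_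
    rw [← Finset.sum_add_distrib]
    exact Finset.sum_congr rfl fun f _ => by ring
  have hA : A.PosSemidef := by
    refine Matrix.posSemidef_iff_dotProduct_mulVec.2 ⟨?_, fun g => ?_⟩
    · ext e f
      simp only [A, Matrix.conjTranspose_apply, Matrix.of_apply, star_trivial, hNs f e]
      congr 1
      exact Finset.sum_congr rfl fun k _ => by ring
    · rw [star_trivial, hq]
      exact add_nonneg (hN g) (Finset.sum_nonneg fun k _ => mul_nonneg (hw k) (sq_nonneg _))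
  have hφ : ∀ e, 0 < 1 - 128 * x e * ρ e := fun e => by
    have := hρ e; have := hx e; nlinarith
  let L : (ι → ℝ) →ₗ[ℝ] (ι → ℝ) :=
    { toFun := fun g e => (g e - 64 * (5 - x e ^ 2) * ∑ f, Kk e f * g f) / (1 - 128 * x e * ρ e)
      map_add' := fun g h => by
        ext e; simp only [Pi.add_apply, mul_add, Finset.sum_add_distrib]; ring
      map_smul' := fun c g => by
        ext e
        simp only [Pi.smul_apply, smul_eq_mul, RingHom.id_apply, mul_left_comm _ c,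
          ← Finset.mul_sum]
        ring }
  have hd := s2core_comap L S
  have hm : 0 < Fintype.card ι := Fintype.card_pos
  have hD : ∀ e, 0 < ρ e * z e := fun e => mul_pos (hρ e).1 (hz e)
  obtain ⟨g, hg, hg0, hR⟩ := small_rayleigh hA hD (S.comap L) (by omega)
  have he : ∀ e, (1 - 128 * x e * ρ e) * L g e = g e - 64 * (5 - x e ^ 2) * ∑ f, Kk e f * g f :=
    fun e => mul_div_cancel₀ _ (hφ e).ne'
  refine ⟨g, L g, hg0, hg, he, ?_⟩
  have htr : ∑ e, A e e / (ρ e * z e) ≤ 7 / 2 * Fintype.card ι := by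
    have : ∀ e, A e e / (ρ e * z e) ≤ 7 / 2 := fun e => by
      rw [div_le_iff₀ (hD e)]
      have h1 : ∑ k, w k * (Kk k e * Kk k e) ≤ 3 / 4 * ρ e * ∑ k, 64 * (5 - x k ^ 2) * z k * Kk k e := by
        rw [Finset.mul_sum]
        exact Finset.sum_le_sum fun k _ => s2core_diag (hρ k).1 (hρ k).2 (hz k) (hx k).1 (hx k).2
          (hK k e).1 (hK k e).2
      have h2 := mul_le_mul_of_nonneg_left (hcol e) (hρ e).1.le
      have h3 := hNd e
      simp only [A, Matrix.of_apply]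
      nlinarith
    refine (Finset.sum_le_sum fun e _ => this e).trans (le_of_eq ?_)
    simp [mul_comm]
  set d := Module.finrank ℝ (S.comap L)
  have hS0 : 0 ≤ ∑ e, ρ e * z e * g e ^ 2 :=
    Finset.sum_nonneg fun e _ => mul_nonneg (hD e).le (sq_nonneg _)
  have hdm : (Fintype.card ι : ℝ) ≤ 2 * d := by exact_mod_cast (by omega : Fintype.card ι ≤ 2 * d)
  have hd0 : (0 : ℝ) < d := by exact_mod_cast (by omega : 0 < d)
  have hQ : g ⬝ᵥ A *ᵥ g ≤ 7 * ∑ e, ρ e * z e * g e ^ 2 := by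
    refine le_of_mul_le_mul_left (hR.trans ?_) hd0
    have := mul_le_mul_of_nonneg_right (htr.trans (by linarith : _ ≤ 7 * (d : ℝ))) hS0
    linarith
  rw [hq] at hQ
  have hp := Finset.sum_le_sum fun e (_ : e ∈ univ) =>
    s2core_pt (hρ e).1 (hρ e).2 (hz e) (hx e).1 (hx e).2 (he e)
  simp only [Finset.sum_sub_distrib, Finset.sum_neg_distrib, ← Finset.mul_sum] at hp
  simp only [w] at hQ
  linarith

end Crest.Agent.R37
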