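import Crest.Agent.R37.S2Defs
import Crest.Agent.R37.JetM

/-!
# R37/S2Jet: the jet of `Phi2` in the raw coordinates `(δx, δα)`.
`W + M + (psd) = M0` (coefficients are `≥ 0`), so `tr W, tr M ≤ tr M0 ≤ Ω`.  Build the jet with `Jet.affine/matInv/map/mul/sum/sub/add`; with `Λ = ∑ δα_f L_f`:
`ρ1_e = -∑_f δα_f B_ef²`, `ρ2_e = 2 b_eᵀ W⁻¹ΛW⁻¹ΛW⁻¹ b_e`, `φ1_e = δx_e (1 - 128 x_e ρ_e) + 64 (5 - x_e²) ρ1_e`,
`φ2_e = -128 ρ_e δx_e² - 256 x_e δx_e ρ1_e + 64 (5 - x_e²) ρ2_e`, `M1 = -∑ δα_e L_e - ∑_L φ1_e L_e`, `M2 = -∑_L φ2_e L_e`.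
In the direction `(h, -g)` of the last clause `M1 = 0`, so `F2 = ∑_L φ2_e z_e + 2 tr(W⁻¹ΛW⁻¹ΛW⁻¹) = 2 q2`.
-/

set_option autoImplicit false

open Matrix Finset

noncomputable section

namespace Crest.Agent.R37

variable {n : ℕ} {E : Type} [Fintype E] [DecidableEq E]

open scoped Matrix.Norms.Operator

set_option linter.unusedSectionVars false

theorem sj_LE_herm (s t : E → Fin n) (x : E → ℝ) : (LE s t x).IsHermitian := by
  unfold LE IsHermitian
  rw [conjTranspose_sum]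
  refine sum_congr rfl fun e _ => ?_
  rw [conjTranspose_smul, star_trivial, (Lp_psd (s e) (t e)).1]

theorem sj_LE_add (s t : E → Fin n) (x y : E → ℝ) : LE s t (x + y) = LE s t x + LE s t y := by
  simp only [LE, Pi.add_apply, add_smul, sum_add_distrib]

theorem sj_LE_smul (s t : E → Fin n) (c : ℝ) (x : E → ℝ) : LE s t (c • x) = c • LE s t x := by
  simp only [LE, Pi.smul_apply, smul_eq_mul, mul_smul, smul_sum]

theorem sj_LE_neg (s t : E → Fin n) (x : E → ℝ) : LE s t (-x) = -LE s t x := by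
  simp only [LE, Pi.neg_apply, neg_smul, sum_neg_distrib]

theorem sj_LE_single (s t : E → Fin n) (f : E) : LE s t (Pi.single f 1) = Lp (s f) (t f) := by
  simp [LE, Pi.single_apply]

theorem sj_bf_symm {A : Mat n} (hA : A.IsHermitian) (a b c d : Fin n) : bf A a b c d = bf A c d a b := by
  have h : Aᵀ = A := by simpa [IsHermitian, conjTranspose_eq_transpose_of_trivial] using hA
  unfold bf
  rw [dotProduct_mulVec, ← mulVec_transpose, h, dotProduct_comm]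

theorem sj_bf_Lp (A B : Mat n) (a b c d p q : Fin n) :
    bf (A * Lp p q * B) a b c d = bf A a b p q * bf B p q c d := by
  unfold bf Lp
  rw [← mulVec_mulVec, ← mulVec_mulVec, vecMulVec_mulVec, mulVec_smul, dotProduct_smul]
  simp [mul_comm]

theorem sj_qf_LE (s t : E → Fin n) (A B : Mat n) (g : E → ℝ) (a b : Fin n) :
    qf (A * LE s t g * B) a b = ∑ f, g f * (bf A a b (s f) (t f) * bf B (s f) (t f) a b) := by
  simp only [← sj_bf_Lp]
  unfold LE qf bf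
  simp only [mul_sum, sum_mul, sum_mulVec, dotProduct_sum, Matrix.mul_smul, Matrix.smul_mul, smul_mulVec,
    dotProduct_smul, smul_eq_mul]

theorem sj_qf_neg (Z : Mat n) (a b : Fin n) : qf (-Z) a b = -qf Z a b := by
  rw [← neg_one_smul ℝ Z, qf_smul, neg_one_mul]

theorem sj_tr_conj (s t : E → Fin n) (N : Mat n) (c : E → ℝ) :
    (N * LE s t c * N).trace = ∑ e, c e * qf (N * N) (s e) (t e) := by
  rw [trace_mul_comm, ← Matrix.mul_assoc, trace_mul_LE]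

/-- `Λ` -/
def sjL (s t : E → Fin n) (v : E ⊕ E → ℝ) : Mat n := LE s t fun e => v (Sum.inr e)

def sjR1 (s t : E → Fin n) (A : Mat n) (e : E) (v : E ⊕ E → ℝ) : ℝ := -qf (A * sjL s t v * A) (s e) (t e)

def sjR2 (s t : E → Fin n) (A : Mat n) (e : E) (v w : E ⊕ E → ℝ) : ℝ :=
  qf (A * sjL s t v * A * sjL s t w * A + A * sjL s t w * A * sjL s t v * A) (s e) (t e)

def sjP1 (s t : E → Fin n) (L : Finset E) (W : Mat n) (x : E → ℝ) (v : E ⊕ E → ℝ) (e : E) : ℝ :=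
  if e ∈ L then v (Sum.inl e) * (1 - 128 * x e * res W (s e) (t e)) + 64 * (5 - x e ^ 2) * sjR1 s t W⁻¹ e v
  else 0

def sjP2 (s t : E → Fin n) (L : Finset E) (W : Mat n) (x : E → ℝ) (v w : E ⊕ E → ℝ) (e : E) : ℝ :=
  if e ∈ L then -128 * res W (s e) (t e) * v (Sum.inl e) * w (Sum.inl e) -
    128 * x e * (v (Sum.inl e) * sjR1 s t W⁻¹ e w + w (Sum.inl e) * sjR1 s t W⁻¹ e v) +
    64 * (5 - x e ^ 2) * sjR2 s t W⁻¹ e v w
  else 0

theorem sjL_lin (s t : E → Fin n) : IsLinearMap ℝ (sjL s t) :=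
  ⟨fun v w => sj_LE_add s t _ _, fun c v => sj_LE_smul s t c _⟩

theorem sjL_norm (s t : E → Fin n) {Ω : ℝ} (hΩ : 10 ≤ Ω) (hE : (Fintype.card E : ℝ) ≤ Ω) (v : E ⊕ E → ℝ) :
    ‖sjL s t v‖ ≤ Ω ^ 2 * ‖v‖ := by
  have h0 := norm_nonneg v
  calc ‖sjL s t v‖ ≤ ∑ e, ‖v (Sum.inr e) • Lp (s e) (t e)‖ := norm_sum_le _ _
    _ ≤ ∑ _e : E, ‖v‖ * 2 := sum_le_sum fun e _ => by
        rw [norm_smul]
        exact mul_le_mul (norm_le_pi_norm v _) (norm_Lp_le _ _) (norm_nonneg _) h0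
    _ = Fintype.card E * (‖v‖ * 2) := by rw [sum_const, card_univ, nsmul_eq_mul]
    _ ≤ Ω * (‖v‖ * Ω) := by gcongr; linarith
    _ = _ := by ring

theorem sj_W (s t : E → Fin n) (W0 : Mat n) (α : E → ℝ) (v : E ⊕ E → ℝ) :
    W2 s t W0 (α + fun e => v (Sum.inr e)) = W2 s t W0 α + sjL s t v := by
  unfold W2 sjL
  rw [sj_LE_add, add_assoc]

theorem sj_const {V R : Type} [NormedAddCommGroup V] [NormedSpace ℝ V] [NormedRing R] [NormedAlgebra ℝ R]
    {Ω : ℝ} {i : ℕ} (hΩ : 10 ≤ Ω) (c : R) (hc : ‖c‖ ≤ Ω ^ i) :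
    Jet (fun _ : V => c) (fun _ => 0) (fun _ _ => 0) Ω i :=
  (Jet.affine (F1 := fun _ : V => (0 : R)) hΩ c hc ⟨fun _ _ => by simp, fun _ _ => by simp⟩ fun v => by
    rw [norm_zero]
    have : 0 ≤ Ω := by linarith
    positivity).congr (fun _ => (add_zero c).symm) (fun _ => rfl) fun _ _ => rfl

theorem sj_Winv (s t : E → Fin n) {W : Mat n} {Ω : ℝ} (hΩ : 10 ≤ Ω) (hn : (n : ℝ) ≤ Ω)
    (hE : (Fintype.card E : ℝ) ≤ Ω) (hW : W.PosDef) (h1 : W.trace ≤ Ω) (h2 : W⁻¹.trace ≤ Ω) :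
    Jet (fun v : E ⊕ E → ℝ => (W + sjL s t v)⁻¹) (fun v => -(W⁻¹ * sjL s t v * W⁻¹))
      (fun v w => W⁻¹ * sjL s t v * W⁻¹ * sjL s t w * W⁻¹ + W⁻¹ * sjL s t w * W⁻¹ * sjL s t v * W⁻¹) Ω 17 ∧
      ∀ v : E ⊕ E → ℝ, ‖v‖ ≤ 1 / Ω ^ 17 → (W + sjL s t v).PosDef := by
  have h0 : W + sjL s t 0 = W := by rw [(sjL_lin s t).map_zero, add_zero]
  have hJ := Jet.affine (i := 1 + 1) hΩ W ((norm_psd_le hW.posSemidef).trans (by
    rw [pow_succ, pow_one]
    exact mul_le_mul hn h1 hW.posSemidef.trace_nonneg (by linarith))) (sjL_lin s t) (sjL_norm s t hΩ hE)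
  have h := hJ.matInv hΩ hn (by rwa [h0]) (by rwa [h0, pow_one]) fun v => hW.1.add (sj_LE_herm _ _ _)
  refine ⟨h.1.congr (fun _ => rfl) (fun _ => by rw [h0]) fun _ _ => ?_, h.2⟩
  rw [h0, Matrix.mul_zero, Matrix.zero_mul, sub_zero]

theorem sj_coef (s t : E → Fin n) (L P : Finset E) {W : Mat n} {x : E → ℝ} {Ω : ℝ} (hΩ : 10 ≤ Ω)
    (hx : ∀ e ∈ L, 0 ≤ x e ∧ x e ≤ 1)
    (hJ : Jet (fun v : E ⊕ E → ℝ => (W + sjL s t v)⁻¹) (fun v => -(W⁻¹ * sjL s t v * W⁻¹))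
      (fun v w => W⁻¹ * sjL s t v * W⁻¹ * sjL s t w * W⁻¹ + W⁻¹ * sjL s t w * W⁻¹ * sjL s t v * W⁻¹) Ω 17)
    (e : E) :
    Jet (fun v : E ⊕ E → ℝ => coef s t L P (W + sjL s t v) (x + fun e => v (Sum.inl e)) e)
      (fun v => sjP1 s t L W x v e) (fun v w => sjP2 s t L W x v w e) Ω 24 := by
  have hΩ1 : 1 ≤ Ω := by linarith
  by_cases he : e ∈ L
  · have h0 : W + sjL s t 0 = W := by rw [(sjL_lin s t).map_zero, add_zero]
    have hρ := hJ.map (j := 1) hΩ (φ := fun Z : Mat n => qf Z (s e) (t e))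
      ⟨fun _ _ => qf_add _ _ _ _, fun _ _ => qf_smul _ _ _ _⟩ fun Z =>
        (abs_bf_le Z _ _ _ _).trans (mul_le_mul_of_nonneg_right (by linarith) (norm_nonneg _))
    have hX := Jet.affine (i := 0) (F1 := fun v : E ⊕ E → ℝ => v (Sum.inl e)) hΩ (x e)
      (by rw [pow_zero, Real.norm_eq_abs, abs_of_nonneg (hx e he).1]; exact (hx e he).2)
      ⟨fun _ _ => rfl, fun _ _ => rfl⟩ fun v => by rw [pow_zero, one_mul]; exact norm_le_pi_norm v _
    have hX2 := (hX.mul hΩ hX).map (j := 2) hΩ (φ := fun r : ℝ => 64 * r)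
      ⟨fun _ _ => mul_add _ _ _, fun _ _ => by simp only [smul_eq_mul]; ring⟩ fun r => by
        rw [norm_mul, Real.norm_ofNat]
        exact mul_le_mul_of_nonneg_right (by nlinarith) (norm_nonneg _)
    have hC := sj_const (V := E ⊕ E → ℝ) (i := 3) hΩ (320 : ℝ) (by
      rw [Real.norm_ofNat]
      exact le_trans (by norm_num) (pow_le_pow_left₀ (by norm_num) hΩ 3))
    have h := (hX.mono (j := 23) hΩ (by norm_num)).add hΩ ((hC.sub hΩ hX2).mul hΩ hρ)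
    refine h.congr (fun v => ?_) (fun v => ?_) fun v w => ?_
    · simp only [coef, if_pos he, Pi.add_apply, res]
      ring
    · simp only [sjP1, sjR1, if_pos he, h0, res, sj_qf_neg, Pi.zero_apply]
      ring
    · simp only [sjP2, sjR1, sjR2, if_pos he, h0, res, sj_qf_neg, Pi.zero_apply]
      ring
  · have hC := sj_const (V := E ⊕ E → ℝ) (i := 24) hΩ (if e ∈ P then (1 : ℝ) else 0) (by
      refine le_trans ?_ (one_le_pow₀ hΩ1)
      split_ifs <;> simp)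
    exact hC.congr (fun v => if_neg he) (fun v => if_neg he) fun v w => if_neg he

theorem sj_M (s t : E → Fin n) (L P : Finset E) {W M0 : Mat n} {x : E → ℝ} {Ω : ℝ} (hΩ : 10 ≤ Ω)
    (hE : (Fintype.card E : ℝ) ≤ Ω) (hx : ∀ e ∈ L, 0 ≤ x e ∧ x e ≤ 1) (hM : ‖M0 - W‖ ≤ Ω ^ 2)
    (hJ : Jet (fun v : E ⊕ E → ℝ => (W + sjL s t v)⁻¹) (fun v => -(W⁻¹ * sjL s t v * W⁻¹))
      (fun v w => W⁻¹ * sjL s t v * W⁻¹ * sjL s t w * W⁻¹ + W⁻¹ * sjL s t w * W⁻¹ * sjL s t v * W⁻¹) Ω 17) :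
    Jet (fun v : E ⊕ E → ℝ => M0 - (W + sjL s t v) -
        LE s t (coef s t L P (W + sjL s t v) (x + fun e => v (Sum.inl e))))
      (fun v => -sjL s t v - LE s t (sjP1 s t L W x v)) (fun v w => -LE s t (sjP2 s t L W x v w)) Ω (26 + 1) := by
  have h1 := Jet.sum (j := 1) univ hΩ (by rwa [pow_one]) fun e _ =>
    (sj_coef s t L P hΩ hx hJ e).map (j := 1) hΩ (φ := fun r : ℝ => r • Lp (s e) (t e))
      ⟨fun _ _ => add_smul _ _ _, fun _ _ => mul_smul _ _ _⟩ fun r => by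
        rw [norm_smul, mul_comm]
        exact mul_le_mul_of_nonneg_right ((norm_Lp_le _ _).trans (by linarith)) (norm_nonneg _)
  have h2 := Jet.affine (i := 2) (F1 := fun v : E ⊕ E → ℝ => -sjL s t v) hΩ (M0 - W) hM
    ⟨fun v w => by rw [(sjL_lin s t).map_add, neg_add], fun c v => by rw [(sjL_lin s t).map_smul, smul_neg]⟩
    fun v => by rw [norm_neg]; exact sjL_norm s t hΩ hE v
  refine ((h2.mono (j := 26) hΩ (by norm_num)).sub hΩ h1).congr (fun v => ?_) (fun v => rfl) fun v w => ?_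
  · rw [← sub_sub, ← sub_eq_add_neg]
    rfl
  · rw [zero_sub]
    rfl

theorem sj_first (s t : E → Fin n) (L : Finset E) {W : Mat n} (hW : W.PosDef) (M : Mat n) (x : E → ℝ) (f : E) :
    (-(M⁻¹ * (-sjL s t (Pi.single (Sum.inr f) 1) - LE s t (sjP1 s t L W x (Pi.single (Sum.inr f) 1))) * M⁻¹)).trace +
      (-(W⁻¹ * sjL s t (Pi.single (Sum.inr f) 1) * W⁻¹)).trace = zz s t M f - qf (XiM s t L W M x) (s f) (t f) := by
  have hL : sjL s t (Pi.single (Sum.inr f) 1) = LE s t (Pi.single f 1) := by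
    unfold sjL
    congr 1
    funext e
    simp [Pi.single_apply]
  have h1 : ∀ N : Mat n, (N * LE s t (Pi.single f 1) * N).trace = qf (N * N) (s f) (t f) := fun N => by
    rw [sj_tr_conj]
    simp [Pi.single_apply]
  rw [← neg_add', Matrix.mul_neg, Matrix.neg_mul, neg_neg, Matrix.mul_add, Matrix.add_mul, trace_add, trace_neg, hL,
    h1, h1, sj_tr_conj, XiM, qf_add, sj_qf_LE, zz, ← sub_sub, ← sub_eq_add_neg, sub_left_inj, sub_eq_add_neg,
    add_right_inj, ← sum_neg_distrib]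
  refine sum_congr rfl fun e _ => ?_
  unfold sjP1 sjR1
  rw [hL, sj_LE_single, show ∀ Z : Mat n, qf Z (s e) (t e) = bf Z (s e) (t e) (s e) (t e) from fun _ => rfl,
    sj_bf_Lp]
  split_ifs
  · simp only [zz, qf, bf, Pi.single_eq_of_ne (Sum.inl_ne_inr : Sum.inl e ≠ Sum.inr f)]
    ring
  · simp

theorem sj_cyc (A G C : Mat n) : ((A * C * A + A * A) * G * A * G).trace =
    (A * G * A * G * A * C).trace + (A * G * A * G * A).trace := by
  rw [Matrix.mul_assoc (A * G * A * G), trace_mul_comm (A * G * A * G), trace_mul_comm (A * G * A * G), ← trace_add]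
  simp only [Matrix.add_mul, Matrix.mul_assoc]

theorem sj_second (s t : E → Fin n) (L : Finset E) {W : Mat n} (hW : W.PosDef) (M : Mat n) (x h g : E → ℝ)
    (hg : ∀ e, e ∉ L → g e = 0)
    (hh : ∀ e ∈ L, (1 - 128 * x e * res W (s e) (t e)) * h e =
      g e - 64 * (5 - x e ^ 2) * ∑ f, BB s t W e f ^ 2 * g f) :
    -sjL s t (Sum.elim h (-g)) - LE s t (sjP1 s t L W x (Sum.elim h (-g))) = 0 ∧
    (M⁻¹ * LE s t (sjP2 s t L W x (Sum.elim h (-g)) (Sum.elim h (-g))) * M⁻¹).trace +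
      2 * (W⁻¹ * sjL s t (Sum.elim h (-g)) * W⁻¹ * sjL s t (Sum.elim h (-g)) * W⁻¹).trace =
      2 * q2 s t L W M x h g := by
  have hA : W⁻¹.IsHermitian := hW.1.inv
  have hL : sjL s t (Sum.elim h (-g)) = -LE s t g := sj_LE_neg s t g
  have hR : ∀ e, sjR1 s t W⁻¹ e (Sum.elim h (-g)) = ∑ f, BB s t W e f ^ 2 * g f := fun e => by
    rw [sjR1, hL, Matrix.mul_neg, Matrix.neg_mul, sj_qf_neg, neg_neg, sj_qf_LE]
    refine sum_congr rfl fun f _ => ?_
    rw [sj_bf_symm hA (s f), BB]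
    ring
  constructor
  · rw [hL, neg_neg, sub_eq_zero]
    congr 1
    funext e
    unfold sjP1
    split_ifs with he
    · rw [hR, Sum.elim_inl]
      linarith [hh e he]
    · exact hg e he
  · have h1 : ∑ e, ∑ f, g e * g f * (BB s t W e f * bf (XiM s t L W M x) (s e) (t e) (s f) (t f)) =
        (XiM s t L W M x * LE s t g * W⁻¹ * LE s t g).trace := by
      rw [trace_mul_LE]
      refine sum_congr rfl fun e _ => ?_
      rw [sj_qf_LE, mul_sum]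
      refine sum_congr rfl fun f _ => ?_
      rw [sj_bf_symm hA (s f), BB]
      ring
    have h2 : (XiM s t L W M x * LE s t g * W⁻¹ * LE s t g).trace =
        ∑ e ∈ L, 64 * (5 - x e ^ 2) * zz s t M e * qf (W⁻¹ * LE s t g * W⁻¹ * LE s t g * W⁻¹) (s e) (t e) +
          (W⁻¹ * LE s t g * W⁻¹ * LE s t g * W⁻¹).trace := by
      rw [XiM, sj_cyc, trace_mul_LE]
      simp only [ite_mul, zero_mul, sum_ite_mem, univ_inter]
    have h3 : ∑ e, sjP2 s t L W x (Sum.elim h (-g)) (Sum.elim h (-g)) e * qf (M⁻¹ * M⁻¹) (s e) (t e) =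
        2 * (∑ e ∈ L, 64 * (5 - x e ^ 2) * zz s t M e * qf (W⁻¹ * LE s t g * W⁻¹ * LE s t g * W⁻¹) (s e) (t e) -
          64 * ∑ e ∈ L, res W (s e) (t e) * zz s t M e * h e ^ 2 -
          128 * ∑ e ∈ L, x e * h e * (∑ f, BB s t W e f ^ 2 * g f) * zz s t M e) := by
      simp only [sjP2, ite_mul, zero_mul, sum_ite_mem, univ_inter]
      rw [mul_sum, mul_sum, ← sum_sub_distrib, ← sum_sub_distrib, mul_sum]
      refine sum_congr rfl fun e _ => ?_
      rw [hR, sjR2, hL, qf_add, Sum.elim_inl, zz]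
      simp only [Matrix.mul_neg, Matrix.neg_mul, neg_neg]
      ring
    rw [q2, h1, h2, sj_tr_conj, h3, hL]
    simp only [Matrix.mul_neg, Matrix.neg_mul, neg_neg]
    ring

theorem s2_jet : ∃ j : ℕ, ∀ (n : ℕ) (E : Type) [Fintype E] [DecidableEq E] (s t : E → Fin n)
    (W0 M0 : Mat n) (L P : Finset E) (x α : E → ℝ) (Ω : ℝ), 10 ≤ Ω → (n : ℝ) ≤ Ω →
    (Fintype.card E : ℝ) ≤ Ω → W0.IsHermitian → M0.IsHermitian → M0.trace ≤ Ω →
    (∀ e ∈ L, 0 ≤ x e ∧ x e ≤ 1) → (W2 s t W0 α).PosDef → (M2 s t W0 M0 L P x α).PosDef →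
    Phi2 s t W0 M0 L P x α ≤ Ω →
    (W2 s t W0 α).trace ≤ Ω ∧ (M2 s t W0 M0 L P x α).trace ≤ Ω ∧
    ∃ (F1 : (E ⊕ E → ℝ) → ℝ) (F2 : (E ⊕ E → ℝ) → (E ⊕ E → ℝ) → ℝ),
      Jet (fun v : E ⊕ E → ℝ => Phi2 s t W0 M0 L P (x + fun e => v (Sum.inl e))
        (α + fun e => v (Sum.inr e))) F1 F2 Ω j ∧
      (∀ v : E ⊕ E → ℝ, ‖v‖ ≤ 1 / Ω ^ j → (W2 s t W0 (α + fun e => v (Sum.inr e))).PosDef ∧
        (M2 s t W0 M0 L P (x + fun e => v (Sum.inl e)) (α + fun e => v (Sum.inr e))).PosDef) ∧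
      (∀ f, F1 (Pi.single (Sum.inr f) 1) = zz s t (M2 s t W0 M0 L P x α) f -
        qf (XiM s t L (W2 s t W0 α) (M2 s t W0 M0 L P x α) x) (s f) (t f)) ∧
      ∀ h g : E → ℝ, (∀ e, e ∉ L → g e = 0) →
        (∀ e ∈ L, (1 - 128 * x e * res (W2 s t W0 α) (s e) (t e)) * h e =
          g e - 64 * (5 - x e ^ 2) * ∑ f, BB s t (W2 s t W0 α) e f ^ 2 * g f) →
        F2 (Sum.elim h (-g)) (Sum.elim h (-g)) =
          2 * q2 s t L (W2 s t W0 α) (M2 s t W0 M0 L P x α) x h g := by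
  refine ⟨194, fun n E _ _ s t W0 M0 L P x α Ω hΩ hn hE hW0 hM0 hT hx hW hM hΦ => ?_⟩
  have hΩ1 : 1 ≤ Ω := by linarith
  have hc : (LE s t (coef s t L P (W2 s t W0 α) x)).PosSemidef := LE_psd s t fun e => by
    unfold coef
    split_ifs with h1 h2
    · have := res_nonneg hW (s e) (t e)
      have h3 : 0 ≤ 5 - x e ^ 2 := by nlinarith [hx e h1]
      have := (hx e h1).1
      positivity
    · exact zero_le_one
    · exact le_rfl
  have t1 := hc.trace_nonneg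
  have t2 := hW.posSemidef.trace_nonneg
  have t3 := hM.posSemidef.trace_nonneg
  have t4 : (M2 s t W0 M0 L P x α).trace =
      M0.trace - (W2 s t W0 α).trace - (LE s t (coef s t L P (W2 s t W0 α) x)).trace := by
    rw [M2, trace_sub, trace_sub]
  have i1 := trace_inv_nonneg hW
  have i2 := trace_inv_nonneg hM
  unfold Phi2 at hΦ
  refine ⟨by linarith, by linarith, ?_⟩
  obtain ⟨hJ, hP⟩ := sj_Winv s t hΩ hn hE hW (by linarith) (by linarith)
  have hN : ‖M0 - W2 s t W0 α‖ ≤ Ω ^ 2 := by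
    have h1 : (M0 - W2 s t W0 α).PosSemidef := by
      have := hM.posSemidef.add hc
      rwa [M2, sub_add_cancel] at this
    refine (norm_psd_le h1).trans ?_
    rw [sq]
    exact mul_le_mul hn (by rw [trace_sub]; linarith) h1.trace_nonneg (by linarith)
  have hJM := (sj_M s t L P hΩ hE hx hN hJ).congr (G := fun v : E ⊕ E → ℝ =>
    M2 s t W0 M0 L P (x + fun e => v (Sum.inl e)) (α + fun e => v (Sum.inr e)))
    (fun v => by rw [M2, sj_W]) (fun _ => rfl) fun _ _ => rfl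
  have h0 : M2 s t W0 M0 L P (x + fun e => (0 : E ⊕ E → ℝ) (Sum.inl e)) (α + fun e => (0 : E ⊕ E → ℝ) (Sum.inr e)) =
      M2 s t W0 M0 L P x α := by
    congr 1 <;> exact add_zero _
  obtain ⟨hI, hP2⟩ := hJM.matInv hΩ hn (by rwa [h0])
    (by rw [h0]; exact le_trans (by linarith) (le_self_pow₀ hΩ1 (by norm_num)))
    fun v => (hM0.sub (hW0.add (sj_LE_herm _ _ _))).sub (sj_LE_herm _ _ _)
  rw [h0] at hI
  have htr : IsLinearMap ℝ (trace : Mat n → ℝ) := ⟨trace_add, trace_smul⟩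
  have hb : ∀ Z : Mat n, ‖Z.trace‖ ≤ Ω ^ 1 * ‖Z‖ := fun Z =>
    (abs_trace_le Z).trans (mul_le_mul_of_nonneg_right (by rwa [pow_one]) (norm_nonneg _))
  have hF := (hI.map hΩ htr hb).add hΩ ((hJ.map hΩ htr hb).mono hΩ (by norm_num))
  have hr : ∀ k ≤ 194, 1 / Ω ^ 194 ≤ 1 / Ω ^ k := fun k hk =>
    one_div_le_one_div_of_le (by positivity) (pow_le_pow_right₀ hΩ1 hk)
  refine ⟨_, _, hF.congr (fun v => by rw [Phi2, sj_W]) (fun _ => rfl) fun _ _ => rfl, fun v hv => ⟨?_, ?_⟩,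
    fun f => sj_first s t L hW _ x f, fun h g hg hh => ?_⟩
  · rw [sj_W]
    exact hP v (hv.trans (hr _ (by norm_num)))
  · exact hP2 v (hv.trans (hr _ (by norm_num)))
  · obtain ⟨e1, e2⟩ := sj_second s t L hW (M2 s t W0 M0 L P x α) x h g hg hh
    simp only [e1, Matrix.mul_zero, Matrix.zero_mul, add_zero, zero_sub, Matrix.mul_neg, Matrix.neg_mul, neg_neg,
      trace_add]
    linarith

end Crest.Agent.R37
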